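import Crest.Agent.R98.Ent

/-!
# R98/Iid: i.i.d. lists
-/

set_option autoImplicit false

namespace Crest.Agent.R98

variable {α β : Type*}

protected theorem IsP.iid {π : α →₀ ℝ} (h : IsP π) (n : ℕ) : IsP (iid π n) := by
  induction n with
  | zero => exact isP_pur _
  | succ n ih => exact h.bnd fun a _ => ih.push _

theorem ex_iid_zero (π : α →₀ ℝ) (F : List α → ℝ) : ex (iid π 0) F = F [] := by
  simp [iid]

theorem ex_iid_succ (π : α →₀ ℝ) (n : ℕ) (F : List α → ℝ) :
    ex (iid π (n + 1)) F = ex π fun a => ex (iid π n) fun w => F (a :: w) := by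
  simp only [iid, ex_bnd, ex_push]

theorem ex_iid_append (π : α →₀ ℝ) (n n' : ℕ) (F : List α → ℝ) :
    ex (iid π (n + n')) F = ex (iid π n) fun w => ex (iid π n') fun w' => F (w ++ w') := by
  induction n generalizing F with
  | zero => simp [ex_iid_zero]
  | succ n ih =>
    rw [show n + 1 + n' = (n + n') + 1 by omega, ex_iid_succ, ex_iid_succ]
    refine ex_congr fun a _ => ?_
    rw [ih]
    rfl

theorem IsP.mem_support_iid {π : α →₀ ℝ} (h : IsP π) {n : ℕ} {w : List α} :
    w ∈ (iid π n).support ↔ w.length = n ∧ ∀ a ∈ w, a ∈ π.support := by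
  induction n generalizing w with
  | zero =>
    rw [iid, mem_support_pur]
    constructor
    · rintro rfl; simp
    · rintro ⟨h1, -⟩; exact List.length_eq_zero_iff.mp h1
  | succ n ih =>
    rw [iid, h.mem_support_bnd fun a _ => (h.iid n).push _]
    constructor
    · rintro ⟨a, ha, hw⟩
      obtain ⟨w', hw', rfl⟩ := (h.iid n).mem_support_push.mp hw
      obtain ⟨h1, h2⟩ := ih.mp hw'
      refine ⟨by simp [h1], fun b hb => ?_⟩
      rcases List.mem_cons.mp hb with rfl | hb
      · exact ha
      · exact h2 b hb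
    · rintro ⟨h1, h2⟩
      cases w with
      | nil => simp at h1
      | cons a w =>
        refine ⟨a, h2 a (by simp), (h.iid n).mem_support_push.mpr ⟨w, ih.mpr ⟨by simpa using h1, ?_⟩, rfl⟩⟩
        exact fun b hb => h2 b (List.mem_cons_of_mem _ hb)

/-- mean of an additive functional -/
theorem IsP.ex_iid_sum {π : α →₀ ℝ} (h : IsP π) (n : ℕ) (f : α → ℝ) :
    (ex (iid π n) fun w => (w.map f).sum) = n * ex π f := by
  induction n with
  | zero => simp [ex_iid_zero]
  | succ n ih =>
    rw [ex_iid_succ]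
    simp only [List.map_cons, List.sum_cons, ex_add, (h.iid n).ex_const, ih, h.ex_const]
    push_cast
    ring

/-- mean of a multiplicative functional -/
theorem ex_iid_prod (π : α →₀ ℝ) (n : ℕ) (f : α → ℝ) :
    (ex (iid π n) fun w => (w.map f).prod) = ex π f ^ n := by
  induction n with
  | zero => simp [ex_iid_zero]
  | succ n ih =>
    rw [ex_iid_succ]
    simp only [List.map_cons, List.prod_cons, ex_mul_left, ih, ex_mul_right]
    ring

/-- variance of an additive functional -/
theorem IsP.ex_iid_sq {π : α →₀ ℝ} (h : IsP π) (n : ℕ) (f : α → ℝ) :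
    (ex (iid π n) fun w => ((w.map f).sum - n * ex π f) ^ 2) =
      n * ex π fun a => (f a - ex π f) ^ 2 := by
  induction n with
  | zero => simp [ex_iid_zero]
  | succ n ih =>
    rw [ex_iid_succ]
    have h1 : ∀ a, (ex (iid π n) fun w => (((a :: w).map f).sum - ((n + 1 : ℕ) : ℝ) * ex π f) ^ 2) =
        (f a - ex π f) ^ 2 + n * ex π fun a => (f a - ex π f) ^ 2 := by
      intro a
      have h2 : ∀ w : List α, (((a :: w).map f).sum - ((n + 1 : ℕ) : ℝ) * ex π f) ^ 2 =
          (f a - ex π f) ^ 2 + (2 * (f a - ex π f) * ((w.map f).sum - n * ex π f) +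
            ((w.map f).sum - n * ex π f) ^ 2) := by
        intro w
        simp only [List.map_cons, List.sum_cons]
        push_cast
        ring
      simp only [h2]
      rw [ex_add, ex_add, ex_mul_left, ex_sub, h.ex_iid_sum, (h.iid n).ex_const, (h.iid n).ex_const, ih]
      ring
    simp only [h1]
    rw [ex_add, h.ex_const]
    push_cast
    ring

/-- Chebyshev -/
theorem IsP.iid_cheb {π : α →₀ ℝ} (h : IsP π) (n : ℕ) (f : α → ℝ) {θ : ℝ} (hθ : 0 < θ) :
    pr (iid π n) {w | θ ≤ |(w.map f).sum - n * ex π f|} ≤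
      n * (ex π fun a => (f a - ex π f) ^ 2) / θ ^ 2 := by
  rw [← h.ex_iid_sq]
  refine le_trans ((h.iid n).pr_mono fun w _ hw => ?_)
    ((h.iid n).markov (F := fun w => ((w.map f).sum - n * ex π f) ^ 2) (fun _ _ => sq_nonneg _)
      (pow_pos hθ 2))
  have hw' : θ ≤ |(w.map f).sum - n * ex π f| := hw
  show θ ^ 2 ≤ ((w.map f).sum - n * ex π f) ^ 2
  rw [← sq_abs ((w.map f).sum - n * ex π f)]
  exact pow_le_pow_left₀ hθ.le hw' 2

open Classical in
theorem cnt_cons (a : α) (w : List α) : cnt (a :: w) = cnt w + Pi.single a 1 := by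
  funext b
  simp only [cnt, Pi.add_apply, List.count_cons, Pi.single_apply]
  by_cases hab : b = a
  · subst hab; simp
  · simp [hab, Ne.symm hab]

theorem Iid_cnt_nil : cnt ([] : List α) = 0 := by
  funext b
  simp [cnt]

open Classical in
theorem Iid_cnt_eq_sum (a : α) (w : List α) :
    ((cnt w a : ℤ) : ℝ) = (w.map fun b => if b = a then (1 : ℝ) else 0).sum := by
  induction w with
  | nil => simp [Iid_cnt_nil]
  | cons b w ih =>
    rw [cnt_cons, List.map_cons, List.sum_cons, ← ih, Pi.add_apply, Pi.single_apply]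
    by_cases hab : a = b
    · subst hab; simp [add_comm]
    · simp [hab, Ne.symm hab]

open Classical in
theorem Iid_ex_ite (π : α →₀ ℝ) (a : α) (c : ℝ) : (ex π fun b => if b = a then c else 0) = π a * c := by
  rw [apply_eq_pr, pr, ← ex_mul_right]
  refine ex_congr fun b _ => ?_
  by_cases hab : b = a <;> simp [hab]

open Classical in
theorem Iid_transport (π : α →₀ ℝ) (a : α) (n : ℕ) (F : (α → ℤ) → ℝ) :
    (ex (iid π (n + 1)) fun w => F (cnt w) * cnt w a) =
      (n + 1) * π a * ex (iid π n) fun w => F (cnt w + Pi.single a 1) := by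
  have key : ∀ (n : ℕ) (F : (α → ℤ) → ℝ), (ex (iid π (n + 1)) fun w => F (cnt w) * cnt w a) =
      (ex π fun b => ex (iid π n) fun w => F (cnt w + Pi.single b 1) * cnt w a) +
        π a * ex (iid π n) fun w => F (cnt w + Pi.single a 1) := by
    intro n F
    rw [ex_iid_succ, ← Iid_ex_ite, ← ex_add]
    refine ex_congr fun b _ => ?_
    by_cases hab : b = a
    · subst hab
      rw [if_pos rfl, ← ex_add]
      refine ex_congr fun w _ => ?_
      rw [cnt_cons]
      simp [mul_add]
    · rw [if_neg hab, add_zero]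
      refine ex_congr fun w _ => ?_
      rw [cnt_cons]
      simp [Ne.symm hab]
  induction n generalizing F with
  | zero =>
    rw [key]
    simp [ex_iid_zero, Iid_cnt_nil]
  | succ n ih =>
    rw [key]
    have h1 : ∀ b, (ex (iid π (n + 1)) fun w => F (cnt w + Pi.single b 1) * cnt w a) =
        (n + 1) * π a * ex (iid π n) fun w => F (cnt (b :: w) + Pi.single a 1) := by
      intro b
      refine (ih (fun z => F (z + Pi.single b 1))).trans ?_
      congr 1
      refine ex_congr fun w _ => ?_
      rw [cnt_cons, add_right_comm]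
    simp only [h1]
    have h2 := ex_iid_succ π n fun w => F (cnt w + Pi.single a 1)
    rw [ex_mul_left]
    erw [← h2]
    push_cast
    ring

open Classical in
/-- adding one letter `a` costs `1/√((n+1) π a)` in total variation -/
theorem IsP.iid_shift_one {π : α →₀ ℝ} (h : IsP π) {a : α} (ha : 0 < π a) (n : ℕ)
    (F : (α → ℤ) → ℝ) (hF : ∀ z, 0 ≤ F z ∧ F z ≤ 1) :
    |(ex (iid π (n + 1)) fun w => F (cnt w)) -
        ex (iid π n) fun w => F (cnt w + Pi.single a 1)| ≤ 1 / Real.sqrt ((n + 1) * π a) := by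
  have hc : (0 : ℝ) < (n + 1) * π a := by positivity
  set c : ℝ := (n + 1) * π a with hcdef
  set f : α → ℝ := fun b => if b = a then (1 : ℝ) else 0 with hf
  have hef : ex π f = π a := by rw [hf, Iid_ex_ite, mul_one]
  have h1 : (ex (iid π (n + 1)) fun w => F (cnt w)) -
        (ex (iid π n) fun w => F (cnt w + Pi.single a 1)) =
      ex (iid π (n + 1)) fun w => F (cnt w) * ((c - cnt w a) / c) := by
    have h2 : ∀ w : List α, F (cnt w) * ((c - cnt w a) / c) = F (cnt w) - F (cnt w) * cnt w a / c := by
      intro w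
      field_simp
    simp only [h2]
    rw [ex_sub, ex_div, Iid_transport, ← hcdef]
    field_simp
  have hP := h.iid (n + 1)
  have hvar : (ex π fun b => (f b - ex π f) ^ 2) ≤ π a := by
    have h3 : ∀ b, (f b - ex π f) ^ 2 = (1 - 2 * π a) * f b + π a ^ 2 := by
      intro b
      rw [hef]
      by_cases hab : b = a <;> simp [hf, hab]
      ring
    simp only [h3]
    rw [ex_add, ex_mul_left, h.ex_const, hef]
    nlinarith [sq_nonneg (π a)]
  rw [h1]
  calc _ ≤ ex (iid π (n + 1)) fun w => |F (cnt w) * ((c - cnt w a) / c)| := hP.abs_ex_le _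
    _ ≤ ex (iid π (n + 1)) fun w => |(c - cnt w a) / c| := by
        refine hP.ex_mono fun w _ => ?_
        rw [abs_mul, abs_of_nonneg (hF _).1]
        exact mul_le_of_le_one_left (abs_nonneg _) (hF _).2
    _ ≤ Real.sqrt (ex (iid π (n + 1)) fun w => ((c - cnt w a) / c) ^ 2) := hP.ex_abs_le_sqrt _
    _ ≤ 1 / Real.sqrt c := by
        rw [one_div, ← Real.sqrt_inv]
        refine Real.sqrt_le_sqrt ?_
        have h4 : ∀ w : List α, ((c - cnt w a) / c) ^ 2 =
            ((w.map f).sum - ((n + 1 : ℕ) : ℝ) * ex π f) ^ 2 / c ^ 2 := by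
          intro w
          rw [hef, Iid_cnt_eq_sum, div_pow]
          congr 1
          push_cast
          ring
        simp only [h4]
        rw [ex_div, h.ex_iid_sq, div_le_iff₀ (by positivity)]
        have h5 : c⁻¹ * c ^ 2 = c := by field_simp
        rw [h5, hcdef]
        push_cast
        exact mul_le_mul_of_nonneg_left hvar (by positivity)

open Classical in
/-- adding `j` letters `a` -/
theorem IsP.iid_shift {π : α →₀ ℝ} (h : IsP π) {a : α} (ha : 0 < π a) (n j : ℕ)
    (F : (α → ℤ) → ℝ) (hF : ∀ z, 0 ≤ F z ∧ F z ≤ 1) :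
    |(ex (iid π (n + j)) fun w => F (cnt w)) -
        ex (iid π n) fun w => F (cnt w + Pi.single a (j : ℤ))| ≤ j / Real.sqrt ((n + 1) * π a) := by
  induction j generalizing F with
  | zero => simp
  | succ j ih =>
    have h1 := h.iid_shift_one ha (n + j) F hF
    have h2 := ih (fun z => F (z + Pi.single a 1)) fun z => hF _
    have h3 : (ex (iid π n) fun w => F (cnt w + Pi.single a (j : ℤ) + Pi.single a 1)) =
        ex (iid π n) fun w => F (cnt w + Pi.single a ((j + 1 : ℕ) : ℤ)) := by
      refine ex_congr fun w _ => ?_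
      rw [add_assoc, ← Pi.single_add]
      push_cast
      rfl
    have h4 : 1 / Real.sqrt ((((n + j : ℕ) : ℝ) + 1) * π a) ≤ 1 / Real.sqrt ((n + 1) * π a) := by
      refine one_div_le_one_div_of_le (Real.sqrt_pos.mpr (by positivity)) (Real.sqrt_le_sqrt ?_)
      push_cast
      have : (0 : ℝ) ≤ j := Nat.cast_nonneg _
      nlinarith
    rw [h3] at h2
    have h5 := abs_sub_le (ex (iid π (n + j + 1)) fun w => F (cnt w))
      (ex (iid π (n + j)) fun w => F (cnt w + Pi.single a 1))
      (ex (iid π n) fun w => F (cnt w + Pi.single a ((j + 1 : ℕ) : ℤ)))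
    have h6 : ((j + 1 : ℕ) : ℝ) / Real.sqrt ((n + 1) * π a) =
        1 / Real.sqrt ((n + 1) * π a) + j / Real.sqrt ((n + 1) * π a) := by
      push_cast
      ring
    rw [h6, ← add_assoc]
    linarith

/-- a product over the list is a function of the counts -/
theorem prod_map_eq_cnt [Fintype α] (f : α → ℝ) (w : List α) :
    (w.map f).prod = ∏ a, f a ^ cnt w a := by
  classical
  have h1 : ∀ a, f a ^ cnt w a = f a ^ w.count a := by
    intro a
    simp only [cnt, zpow_natCast]
  simp only [h1]
  rw [Finset.prod_list_map_count]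
  refine Finset.prod_subset (Finset.subset_univ _) fun a _ ha => ?_
  rw [List.count_eq_zero.mpr (by simpa using ha), pow_zero]

theorem sum_map_eq_cnt [Fintype α] (f : α → ℝ) (w : List α) :
    (w.map f).sum = ∑ a, f a * cnt w a := by
  classical
  induction w with
  | nil => simp [Iid_cnt_nil]
  | cons b w ih =>
    rw [List.map_cons, List.sum_cons, ih]
    have h1 : ∀ a, f a * (cnt (b :: w) a : ℝ) = f a * cnt w a + if a = b then f a else 0 := by
      intro a
      rw [cnt_cons, Pi.add_apply, Pi.single_apply]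
      by_cases hab : a = b <;> simp [hab, mul_add]
    simp only [h1, Finset.sum_add_distrib, Finset.sum_ite_eq', Finset.mem_univ, if_true]
    ring

/-- push-forward of an i.i.d. list -/
theorem push_map_iid (π : α →₀ ℝ) (f : α → β) (n : ℕ) :
    push (List.map f) (iid π n) = iid (push f π) n := by
  induction n with
  | zero => simp [iid, push_pur]
  | succ n ih =>
    refine ext_ex fun F => ?_
    rw [ex_push, ex_iid_succ, ex_iid_succ, ex_push]
    refine ex_congr fun a _ => ?_
    rw [← ih, ex_push]
    rfl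

/-- `iid` in terms of functions `Fin n → α` -/
theorem ex_iid_fin [Fintype α] (π : α →₀ ℝ) (n : ℕ) (F : List α → ℝ) :
    ex (iid π n) F = ∑ w : Fin n → α, (∏ j, π (w j)) * F (List.ofFn w) := by
  induction n generalizing F with
  | zero => simp [ex_iid_zero]
  | succ n ih =>
    rw [ex_iid_succ, ex_fintype, ← (Fin.consEquiv fun _ : Fin (n + 1) => α).sum_comp,
      Fintype.sum_prod_type]
    refine Finset.sum_congr rfl fun a _ => ?_
    rw [ih, Finset.mul_sum]
    refine Finset.sum_congr rfl fun w _ => ?_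
    simp [Fin.prod_univ_succ, List.ofFn_succ, Fin.consEquiv, mul_assoc]

theorem IsP.ent_iid {π : α →₀ ℝ} (h : IsP π) (n : ℕ) : ent (iid π n) = n * ent π := by
  induction n with
  | zero => simp [iid, ent_eq_ex, pur]; simp [ex]
  | succ n ih =>
    have h1 : iid π (n + 1) = push (fun p : α × List α => p.1 :: p.2) (joint π fun _ => iid π n) := by
      refine ext_ex fun F => ?_
      rw [ex_iid_succ, ex_push, ex_joint]
    rw [h1, ent_push_of_injOn, h.ent_joint fun _ _ => h.iid n, h.ex_const, ih]
    · push_cast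
      ring
    · rintro ⟨a, w⟩ _ ⟨a', w'⟩ _ e
      simpa using e

end Crest.Agent.R98
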