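import Crest.Agent.R98.HsB
import Crest.Agent.R98.Iid

/-!
# R98/Gain: a fair two-point convolution gains entropy unless the law is already saturated
Recipes.
* `ent_div_ge`: with `Q = push (·/M) q`, `log M - (ent q - ent Q) = E_q log (M q_i / Q_{i/M}) ≤ ∑_i (q_i/Q)(M q_i - Q)
  ≤ ∑_i |M q_i - Q_{i/M}| ≤ ∑_{|j|<M} ∑_i |q_{i+j} - q_i| ≤ M² V`.
* `Dsc_ge_of_shift`: apply `ent_div_ge` to `q = push (cell s u) B` (`Dsc_eq`); `∑_i |q_{i+1} - q_i|` is
  `2 sup_F` over `F ∈ [0,1]` of the shift by `s` (`cell s u (x + s) = cell s u x + 1`), and replacing the shift `s` by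
  `y` costs `P(cell (x+y) ≠ cell (x+s))`, whose `u`-average is `≤ |y - s|/s` (`integral_cell_ne`; periodicity in `u`).
* `binom k o` is the `k`-fold convolution of `two o`; `binom_shift` from `IsP.iid_shift` used twice
  (letters `true` and `false` of the fair coin, `binom k o = push (fun w => o * cnt w true) (iid coin k)`).
* `gain_two`: `I s := Hs s (two o * m) - Hs s m`. Kaimanovich-Vershik (`Hs_submod`, induction):
  `Hs s (binom k o * m) - Hs s m ≤ k * I s`. `Hs s (B*m) = Hs (M s) (B*m) + Dsc s M (B*m) ≥ Hs (M s) m + Dsc s M B`.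
  `I (M' s) ≤ Hs (M' s) (two o) ≤ log 2 / (M' ℓ)` (`Hs_conv_le`, `Hs_two`). Choose `ℓ` with `2M²/ℓ ≤ 1/4`; `j` an integer
  with `|j o - s| ≤ |o|`, `|j| ≤ 10 ℓ + 1`; `k` with `2 M² · 2 (10ℓ+1) √2 / √(k - 10ℓ - 1) ≤ 1/4`; `M' = k + 2`.
-/

set_option autoImplicit false

namespace Crest.Agent.R98

theorem gain_div {M : ℕ} (hM : 1 ≤ M) (b : ℤ) {r : ℕ} (hr : r < M) : (M * b + r) / (M : ℤ) = b := by
  have hMz : (M : ℤ) ≠ 0 := by exact_mod_cast (by omega : M ≠ 0)
  rw [add_comm, Int.add_mul_ediv_left _ _ hMz, Int.ediv_eq_zero_of_lt (by positivity)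
    (by exact_mod_cast hr), zero_add]

theorem gain_pr_block (q : ℤ →₀ ℝ) {M : ℕ} (hM : 1 ≤ M) (b : ℤ) :
    pr q {i | i / (M : ℤ) = b} = ∑ r ∈ Finset.range M, q (M * b + r) := by
  classical
  have hMz : (0 : ℤ) < M := by exact_mod_cast hM
  rw [← Finset.sum_image (g := fun r : ℕ => (M : ℤ) * b + r) (f := fun i => q i)
    (fun r _ r' _ he => by simpa using he), pr_eq_ex_ite, ex_def]
  simp only [mul_ite, mul_one, mul_zero, ← Finset.sum_filter]
  refine Finset.sum_subset (fun i hi => ?_) fun i hi hi' => ?_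
  · have h5 : i / (M : ℤ) = b := (Finset.mem_filter.1 hi).2
    have h6 := Int.mul_ediv_add_emod i M
    have h7 := Int.emod_nonneg i hMz.ne'
    have h8 := Int.emod_lt_of_pos i hMz
    rw [h5] at h6
    exact Finset.mem_image.2 ⟨(i % M).toNat, Finset.mem_range.2 (by omega), by omega⟩
  · obtain ⟨r, hr, rfl⟩ := Finset.mem_image.1 hi
    by_contra h0
    exact hi' (Finset.mem_filter.2 ⟨Finsupp.mem_support_iff.2 h0,
      gain_div hM b (Finset.mem_range.1 hr)⟩)

theorem ent_div_ge {q : ℤ →₀ ℝ} (h : IsP q) {M : ℕ} (hM : 1 ≤ M) {V : ℝ}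
    (hV : ∀ S : Finset ℤ, ∑ i ∈ S, |q (i + 1) - q i| ≤ V) :
    Real.log M - M ^ 2 * V ≤ ent q - ent (push (fun j : ℤ => j / (M : ℤ)) q) := by
  have hM0 : (0 : ℝ) < M := by exact_mod_cast hM
  have hMz : (0 : ℤ) < M := by exact_mod_cast hM
  let W : ℤ → ℝ := fun b => ∑ t ∈ Finset.range M, |q (M * b + t + 1) - q (M * b + t)|
  have hW0 : ∀ b, 0 ≤ W b := fun b => Finset.sum_nonneg fun _ _ => abs_nonneg _
  have hosc : ∀ (b : ℤ) (r r' : ℕ), r < M → r' < M → |q (M * b + r) - q (M * b + r')| ≤ W b := by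
    intro b r r' hr hr'
    wlog hle : r ≤ r' generalizing r r'
    · rw [abs_sub_comm]; exact this r' r hr' hr (by omega)
    have h1 := dist_le_Ico_sum_dist (fun t : ℕ => q (M * b + t)) hle
    simp only [Real.dist_eq] at h1
    refine h1.trans ?_
    refine le_trans (le_of_eq (Finset.sum_congr rfl fun t _ => ?_))
      (Finset.sum_le_sum_of_subset_of_nonneg (s := Finset.Ico r r') (fun t ht => ?_)
        fun _ _ _ => abs_nonneg _)
    · rw [abs_sub_comm]; push_cast; rw [add_assoc]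
    · exact Finset.mem_range.2 ((Finset.mem_Ico.1 ht).2.trans hr')
  have h1 : ∀ i ∈ q.support, q i * (Real.log M - (-Real.log (q i) -
      -Real.log (pr q {i' | i' / (M : ℤ) = i / (M : ℤ)}))) ≤ M * W (i / M) := by
    intro i hi
    have hq := h.pos hi
    have hle : q i ≤ pr q {i' | i' / (M : ℤ) = i / (M : ℤ)} := h.le_pr rfl
    have hd : |M * q i - pr q {i' | i' / (M : ℤ) = i / (M : ℤ)}| ≤ M * W (i / M) := by
      rw [gain_pr_block q hM]
      have e : (M : ℝ) * q i = ∑ _r ∈ Finset.range M, q i := by simp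
      have e' : (M : ℝ) * W (i / M) = ∑ _r ∈ Finset.range M, W (i / M) := by simp
      rw [e, e', ← Finset.sum_sub_distrib]
      refine (Finset.abs_sum_le_sum_abs _ _).trans (Finset.sum_le_sum fun r hr => ?_)
      have h2 := hosc (i / M) (i % M).toNat r
        (by have := Int.emod_lt_of_pos i hMz; omega) (Finset.mem_range.1 hr)
      rwa [Int.toNat_of_nonneg (Int.emod_nonneg _ hMz.ne'), Int.mul_ediv_add_emod] at h2
    generalize pr q {i' | i' / (M : ℤ) = i / (M : ℤ)} = Q at *
    have hQ : 0 < Q := hq.trans_le hle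
    have h2 := Real.log_le_sub_one_of_pos (show 0 < M * q i / Q by positivity)
    rw [Real.log_div (by positivity) hQ.ne', Real.log_mul hM0.ne' hq.ne'] at h2
    refine le_trans ?_ hd
    calc q i * (Real.log M - (-Real.log (q i) - -Real.log Q))
        ≤ q i * (M * q i / Q - 1) := mul_le_mul_of_nonneg_left (by linarith) hq.le
      _ = q i / Q * (M * q i - Q) := by field_simp
      _ ≤ q i / Q * |M * q i - Q| := mul_le_mul_of_nonneg_left (le_abs_self _) (by positivity)
      _ ≤ _ := mul_le_of_le_one_left (abs_nonneg _) ((div_le_one hQ).2 hle)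
  have h2 : ∑ i ∈ q.support, W (i / M) ≤ M * V := by
    rw [Finset.sum_comp W (fun i : ℤ => i / M)]
    have h3 : ∑ b ∈ q.support.image (fun i : ℤ => i / M), W b ≤ V := by
      refine le_trans (le_of_eq ?_) (hV (((q.support.image fun i : ℤ => i / M) ×ˢ
        Finset.range M).image fun z : ℤ × ℕ => M * z.1 + z.2))
      symm
      rw [Finset.sum_image, Finset.sum_product]
      rintro ⟨b, r⟩ hz ⟨b', r'⟩ hz' he
      have hr := Finset.mem_range.1 (Finset.mem_product.1 hz).2
      have hr' := Finset.mem_range.1 (Finset.mem_product.1 hz').2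
      have e1 := gain_div hM b hr
      have e2 := gain_div hM b' hr'
      simp only at he
      rw [he, e2] at e1
      subst e1
      simpa using he
    refine le_trans ?_ (mul_le_mul_of_nonneg_left h3 hM0.le)
    rw [Finset.mul_sum]
    refine Finset.sum_le_sum fun b _ => ?_
    rw [nsmul_eq_mul]
    refine mul_le_mul_of_nonneg_right ?_ (hW0 b)
    have h4 : (q.support.filter fun i : ℤ => i / M = b) ⊆ Finset.Ico (M * b) (M * b + M) := by
      intro i hi
      have h5 := (Finset.mem_filter.1 hi).2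
      have h6 := Int.mul_ediv_add_emod i M
      have h7 := Int.emod_nonneg i hMz.ne'
      have h8 := Int.emod_lt_of_pos i hMz
      rw [h5] at h6
      exact Finset.mem_Ico.2 ⟨by omega, by omega⟩
    have h5 := Finset.card_le_card h4
    rw [Int.card_Ico, add_sub_cancel_left, Int.toNat_natCast] at h5
    exact_mod_cast h5
  have h3 : Real.log M - (ent q - ent (push (fun j : ℤ => j / (M : ℤ)) q)) ≤ M * (M * V) := by
    rw [ent_eq_ex q, ent_push_eq, ← ex_sub, ← h.ex_const (Real.log M), ← ex_sub, ex_def]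
    refine (Finset.sum_le_sum h1).trans ?_
    rw [← Finset.mul_sum]
    exact mul_le_mul_of_nonneg_left h2 hM0.le
  nlinarith

theorem gain_ex_ite (q : ℤ →₀ ℝ) (c : ℤ) : (ex q fun j => if j = c then 1 else 0) = q c := by
  rw [apply_eq_pr, pr_eq_ex_ite]
  exact ex_congr fun a _ => by simp

theorem gain_ii (s x x' a b : ℝ) : IntervalIntegrable
    (fun u => if cell s u x = cell s u x' then (0 : ℝ) else 1) MeasureTheory.volume a b := by
  have hc : ∀ z, Measurable fun u => cell s u z := fun z =>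
    Int.measurable_floor.comp (measurable_id.const_add _)
  refine (intervalIntegrable_const (c := (1 : ℝ))).mono_fun'
    (Measurable.ite (measurableSet_eq_fun (hc x) (hc x')) measurable_const
      measurable_const).aestronglyMeasurable (MeasureTheory.ae_of_all _ fun u => ?_)
  simp only
  split_ifs <;> simp

/-- total variation of the cell law under the unit shift -/
theorem gain_var {B : ℝ →₀ ℝ} (h : IsP B) {s y θ : ℝ} (hs : 0 < s)
    (hθ : ∀ F : ℝ → ℝ, (∀ x, 0 ≤ F x ∧ F x ≤ 1) → |(ex B fun x => F (x + y)) - ex B F| ≤ θ)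
    (u : ℝ) (S : Finset ℤ) :
    ∑ i ∈ S, |push (cell s u) B (i + 1) - push (cell s u) B i| ≤
      2 * θ + 2 * ex B fun x => if cell s u (x + y) = cell s u (x + s) then 0 else 1 := by
  set q := push (cell s u) B with hq
  let σ : ℤ → ℝ := fun i => if 0 ≤ q (i + 1) - q i then 1 else -1
  let G : ℤ → ℝ := fun j => ∑ i ∈ S, σ i * (if j = i then 1 else 0)
  have hG : ∀ j, -1 ≤ G j ∧ G j ≤ 1 := fun j => by
    simp only [G, mul_ite, mul_one, mul_zero, Finset.sum_ite_eq, σ]
    split_ifs <;> norm_num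
  have e1 : ex q G = ∑ i ∈ S, σ i * q i := by
    simp only [G, ex_sum, ex_mul_left, gain_ex_ite]
  have e2 : (ex q fun j => G (j - 1)) = ∑ i ∈ S, σ i * q (i + 1) := by
    simp only [G, sub_eq_iff_eq_add, ex_sum, ex_mul_left, gain_ex_ite]
  have e3 : ∑ i ∈ S, |q (i + 1) - q i| = (ex q fun j => G (j - 1)) - ex q G := by
    rw [e1, e2, ← Finset.sum_sub_distrib]
    refine Finset.sum_congr rfl fun i _ => ?_
    simp only [σ]
    split_ifs with h0
    · rw [abs_of_nonneg h0]; ring
    · rw [abs_of_neg (not_le.1 h0)]; ring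
  let F : ℝ → ℝ := fun x => (G (cell s u x - 1) + 1) / 2
  have hF : ∀ x, 0 ≤ F x ∧ F x ≤ 1 := fun x => by
    have := hG (cell s u x - 1)
    simp only [F]
    constructor <;> linarith [this.1, this.2]
  have e4 : (ex q fun j => G (j - 1)) = 2 * ex B F - 1 := by
    rw [hq, ex_push, ← ex_mul_left, ← h.ex_const 1, ← ex_sub]
    exact ex_congr fun x _ => by simp only [F]; ring
  have e5 : ex q G = 2 * (ex B fun x => F (x + s)) - 1 := by
    rw [hq, ex_push, ← ex_mul_left, ← h.ex_const 1, ← ex_sub]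
    refine ex_congr fun x _ => ?_
    have : cell s u (x + s) - 1 = cell s u x := by
      simp only [cell]
      rw [add_div, div_self hs.ne', add_right_comm, Int.floor_add_one, add_sub_cancel_right]
    simp only [F, this]; ring
  have h1 := (abs_le.1 (hθ F hF)).1
  have h2 : (ex B fun x => F (x + y)) - (ex B fun x => F (x + s)) ≤
      ex B fun x => if cell s u (x + y) = cell s u (x + s) then 0 else 1 := by
    rw [← ex_sub]
    refine h.ex_mono fun x _ => ?_
    split_ifs with h0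
    · simp only [F, h0, sub_self, le_refl]
    · linarith [(hF (x + y)).2, (hF (x + s)).1]
  rw [e3, e4, e5]
  linarith

theorem Dsc_ge_of_shift {B : ℝ →₀ ℝ} (h : IsP B) {s y θ : ℝ} (hs : 0 < s) {M : ℕ} (hM : 1 ≤ M)
    (hθ : ∀ F : ℝ → ℝ, (∀ x, 0 ≤ F x ∧ F x ≤ 1) → |(ex B fun x => F (x + y)) - ex B F| ≤ θ) :
    Real.log M - M ^ 2 * (2 * θ + 2 * (|y - s| / s)) ≤ Dsc s M B := by
  have hM0 : (0 : ℝ) < M := by exact_mod_cast hM
  let φ : ℝ → ℝ → ℝ := fun x u => if cell s u (x + y) = cell s u (x + s) then 0 else 1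
  have hI : ∀ x, IntervalIntegrable (fun u => φ x (M * u)) MeasureTheory.volume 0 1 := fun x => by
    have := (gain_ii s (x + y) (x + s) 0 M).comp_mul_left (c := M)
    rwa [zero_div, div_self hM0.ne'] at this
  have hφ : ∀ x, ∫ u in (0 : ℝ)..1, φ x (M * u) ≤ |y - s| / s := fun x => by
    have hp : Function.Periodic (φ x) 1 := fun u => by
      have e : ∀ z, cell s (u + 1) z = cell s u z + 1 := fun z => by
        simp only [cell, ← add_assoc, Int.floor_add_one]
      simp only [φ, e, add_left_inj]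
    have h1 := hp.intervalIntegral_add_zsmul_eq M 0 (gain_ii s (x + y) (x + s))
    simp only [zero_add, zsmul_eq_mul, mul_one, Int.cast_natCast] at h1
    rw [intervalIntegral.integral_comp_mul_left _ hM0.ne', mul_zero, mul_one, h1, smul_eq_mul,
      inv_mul_cancel_left₀ hM0.ne']
    have h2 := integral_cell_ne hs (x + y) (x + s)
    rwa [add_sub_add_left_eq_sub] at h2
  have hI2 := intervalIntegrable_ex B (fun x u => φ x (M * u)) 0 1 fun x _ => hI x
  have h1 : ∫ u in (0 : ℝ)..1, (Real.log M - M ^ 2 * (2 * θ + 2 * ex B fun x => φ x (M * u))) ≤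
      Dsc s M B := by
    rw [Dsc_eq h hs hM]
    refine intervalIntegral.integral_mono_on zero_le_one (intervalIntegrable_const.sub
      ((intervalIntegrable_const.add (hI2.const_mul 2)).const_mul _)) ?_ fun u _ =>
        ent_div_ge (h.push _) hM (gain_var h hs hθ _)
    refine IntervalIntegrable.sub ?_ ?_
    · have := (intervalIntegrable_ent_cell h s 0 M).comp_mul_left (c := M)
      rwa [zero_div, div_self hM0.ne'] at this
    · simp only [push_push, ← cell_mul hs hM]
      exact intervalIntegrable_ent_cell h _ 0 1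
  refine le_trans ?_ h1
  rw [intervalIntegral.integral_sub intervalIntegrable_const
      ((intervalIntegrable_const.add (hI2.const_mul 2)).const_mul _),
    intervalIntegral.integral_const_mul,
    intervalIntegral.integral_add intervalIntegrable_const (hI2.const_mul 2),
    intervalIntegral.integral_const_mul, intervalIntegral.integral_const_mul,
    ← ex_intervalIntegral B (fun x u => φ x (M * u)) 0 1 fun x _ => hI x]
  have h2 := h.ex_le (F := fun x => ∫ u in (0 : ℝ)..1, φ x (M * u)) fun x _ => hφ x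
  simp only [intervalIntegral.integral_const, sub_zero, smul_eq_mul, one_mul]
  gcongr

/-- `k`-fold convolution of `two o` -/
noncomputable def binom (o : ℝ) : ℕ → ℝ →₀ ℝ
  | 0 => pur 0
  | k + 1 => conv (two o) (binom o k)

theorem isP_binom (o : ℝ) (k : ℕ) : IsP (binom o k) := by
  induction k with
  | zero => exact isP_pur 0
  | succ k ih => exact (isP_two o).conv ih

theorem gain_single (inst : DecidableEq Bool) (c : ℤ) :
    @Pi.single Bool (fun _ => ℤ) _ inst false c true = 0 :=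
  @Pi.single_eq_of_ne Bool (fun _ => ℤ) _ inst false true (by simp) c

theorem gain_ex_binom (o : ℝ) (k : ℕ) (F : ℝ → ℝ) : ex (binom o k) F =
    ex (iid (mix (1 / 2) (pur true) (pur false)) k) fun w => F (o * cnt w true) := by
  induction k generalizing F with
  | zero => rw [ex_iid_zero]; simp [binom, cnt]
  | succ k ih =>
    rw [binom, ex_conv, two, ex_mix, ex_iid_succ, ex_mix]
    simp only [ex_pur, ih, cnt_cons, Pi.add_apply, Pi.single_eq_same, zero_add, gain_single]
    simp only [add_zero, Int.cast_add, Int.cast_one, mul_add, mul_one, add_comm o]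
    ring

theorem gain_shift (o : ℝ) (n J : ℕ) (F : ℝ → ℝ) (hF : ∀ x, 0 ≤ F x ∧ F x ≤ 1) :
    |(ex (binom o (n + J)) fun x => F (x + J * o)) - ex (binom o (n + J)) F| ≤
      2 * J / Real.sqrt ((n + 1) / 2) := by
  have hP : IsP (mix (1 / 2) (pur true) (pur false)) :=
    (isP_pur _).mix (isP_pur _) (by norm_num) (by norm_num)
  have ht : mix (1 / 2) (pur true) (pur false) true = 1 / 2 := by simp [mix, pur]
  have hf : mix (1 / 2) (pur true) (pur false) false = 1 / 2 := by norm_num [mix, pur]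
  have h1 := hP.iid_shift (a := false) (by rw [hf]; norm_num) n J
    (fun z => F (o * z true + J * o)) fun z => hF _
  have h2 := hP.iid_shift (a := true) (by rw [ht]; norm_num) n J
    (fun z => F (o * z true)) fun z => hF _
  rw [hf] at h1
  rw [ht] at h2
  simp only [Pi.add_apply, Pi.single_eq_same, gain_single] at h1 h2
  simp only [add_zero, Int.cast_add, Int.cast_natCast, mul_add, mul_comm o J, mul_one_div] at h1 h2
  rw [gain_ex_binom, gain_ex_binom, mul_div_assoc]
  rw [abs_le] at h1 h2 ⊢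
  constructor <;> linarith [h1.1, h1.2, h2.1, h2.2]

theorem binom_shift (o : ℝ) (n : ℕ) (j : ℤ) (F : ℝ → ℝ) (hF : ∀ x, 0 ≤ F x ∧ F x ≤ 1) :
    |(ex (binom o (n + j.natAbs)) fun x => F (x + j * o)) - ex (binom o (n + j.natAbs)) F| ≤
      4 * j.natAbs / Real.sqrt ((n + 1) / 2) := by
  have h0 : 2 * (j.natAbs : ℝ) / Real.sqrt ((n + 1) / 2) ≤ 4 * j.natAbs / Real.sqrt ((n + 1) / 2) := by
    gcongr; norm_num
  refine le_trans ?_ h0
  obtain ⟨J, rfl | rfl⟩ := j.eq_nat_or_neg
  · simpa using gain_shift o n J F hF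
  · have := gain_shift o n J (fun x => F (x - J * o)) fun x => hF _
    rw [abs_sub_comm] at this
    simpa [sub_eq_add_neg] using this

theorem gain_two {M : ℕ} (hM : 1 ≤ M) : ∃ (k ℓ : ℝ) (M' : ℕ), 0 < k ∧ 0 < ℓ ∧ 2 ≤ M' ∧
    ∀ (m : ℝ →₀ ℝ) (D o : ℝ), IsP m → 0 < D → D / 10 ≤ |o| → |o| ≤ D →
      Real.log M - Dsc (ℓ * D) M m - 1 ≤
        k * (Dsc (ℓ * D) M' (conv (two o) m) - Dsc (ℓ * D) M' m) := by
  have hM0 : (1 : ℝ) ≤ M := by exact_mod_cast hM
  let J₀ : ℕ := 80 * M ^ 2 + 1
  let n₀ : ℕ := 2 * (32 * M ^ 2 * J₀) ^ 2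
  have hJ₀ : (0 : ℝ) < J₀ := by positivity
  refine ⟨(n₀ + J₀ : ℕ), 8 * M ^ 2, n₀ + J₀ + 2, by positivity, by positivity, by omega, ?_⟩
  intro m D o hm hD ho1 ho2
  set k := n₀ + J₀ with hk
  set s := 8 * (M : ℝ) ^ 2 * D with hs
  have hs0 : 0 < s := by positivity
  have ho : 0 < |o| := lt_of_lt_of_le (by positivity) ho1
  have ho' : o ≠ 0 := abs_pos.1 ho
  set j := ⌊s / o⌋ with hj
  have hj1 : |s / o - j| ≤ 1 :=
    abs_le.2 ⟨by linarith [Int.floor_le (s / o)], by linarith [Int.lt_floor_add_one (s / o)]⟩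
  have hj2 : |j * o - s| ≤ D := by
    have e : j * o - s = -((s / o - j) * o) := by field_simp; ring
    rw [e, abs_neg, abs_mul]
    exact (mul_le_of_le_one_left ho.le hj1).trans ho2
  have hj3 : j.natAbs ≤ J₀ := by
    have h1 : |s / o| ≤ 80 * M ^ 2 := by
      rw [abs_div, abs_of_pos hs0, div_le_iff₀ ho, hs]
      nlinarith [sq_nonneg (M : ℝ)]
    have h2 : |(j : ℝ)| ≤ 80 * M ^ 2 + 1 := by
      have := abs_sub_abs_le_abs_sub (j : ℝ) (s / o)
      rw [abs_sub_comm] at this
      linarith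
    have h3 : ((j.natAbs : ℕ) : ℝ) ≤ J₀ := by
      rw [Nat.cast_natAbs, Int.cast_abs]; simpa [J₀] using h2
    exact_mod_cast h3
  have h1 := Dsc_ge_of_shift (isP_binom o k) (y := j * o) (θ := 1 / (8 * M ^ 2)) hs0 hM
    (fun F hF => by
      have h1 := binom_shift o (k - j.natAbs) j F hF
      rw [Nat.sub_add_cancel (by omega)] at h1
      refine h1.trans ?_
      have h2 : 32 * (M : ℝ) ^ 2 * J₀ ≤ Real.sqrt ((((k - j.natAbs : ℕ) : ℝ) + 1) / 2) := by
        refine Real.le_sqrt_of_sq_le ?_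
        have h3 : (n₀ : ℝ) ≤ ((k - j.natAbs : ℕ) : ℝ) := by exact_mod_cast (by omega)
        have h4 : (n₀ : ℝ) = 2 * (32 * (M : ℝ) ^ 2 * J₀) ^ 2 := by simp [n₀]
        linarith
      have h3 : ((j.natAbs : ℕ) : ℝ) ≤ J₀ := by exact_mod_cast hj3
      calc 4 * ((j.natAbs : ℕ) : ℝ) / Real.sqrt ((((k - j.natAbs : ℕ) : ℝ) + 1) / 2)
          ≤ 4 * J₀ / (32 * (M : ℝ) ^ 2 * J₀) := by gcongr
        _ = 1 / (8 * M ^ 2) := by field_simp; norm_num)
  have h2 : |j * o - s| / s ≤ 1 / (8 * M ^ 2) := by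
    rw [div_le_div_iff₀ hs0 (by positivity), hs]
    nlinarith [sq_nonneg (M : ℝ)]
  have h3 : (M : ℝ) ^ 2 * (2 * (1 / (8 * M ^ 2)) + 2 * (|j * o - s| / s)) ≤ 1 / 2 :=
    calc (M : ℝ) ^ 2 * (2 * (1 / (8 * M ^ 2)) + 2 * (|j * o - s| / s))
        ≤ (M : ℝ) ^ 2 * (2 * (1 / (8 * M ^ 2)) + 2 * (1 / (8 * M ^ 2))) := by gcongr
      _ = 1 / 2 := by field_simp; norm_num
  have h4 : ∀ i : ℕ, Hs s (conv (binom o i) m) - Hs s m ≤
      i * (Hs s (conv (two o) m) - Hs s m) := by
    intro i
    induction i with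
    | zero => simp [binom, pur_zero_conv]
    | succ i ih =>
      have := Hs_submod hm (isP_binom o i) (isP_two o) hs0
      rw [binom, conv_assoc]
      push_cast
      linarith
  have h5 := Hs_le_conv (isP_binom o k) hm (M * s)
  have h6 := Dsc_le_conv hm (isP_binom o k) hs0 hM
  rw [conv_comm m] at h6
  have hs' : 0 < ((k + 2 : ℕ) : ℝ) * s := by positivity
  have h7 := Hs_conv_le (isP_two o) hm hs'
  have h8 : k * Hs (((k + 2 : ℕ) : ℝ) * s) (two o) ≤ 1 / 2 := by
    have h9 : |o| / (((k + 2 : ℕ) : ℝ) * s) * Real.log 2 ≤ D / (((k + 2 : ℕ) : ℝ) * s) * 1 := by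
      gcongr
      linarith [Real.log_two_lt_d9]
    refine (mul_le_mul_of_nonneg_left ((Hs_two hs' o).trans h9) (by positivity)).trans ?_
    rw [mul_one, mul_div_assoc', div_le_iff₀ hs', hs]
    push_cast
    have h10 : (1 : ℝ) ≤ M ^ 2 := one_le_pow₀ hM0
    have h11 : (0 : ℝ) ≤ k := by positivity
    nlinarith [mul_nonneg (mul_nonneg h11 hD.le) (sub_nonneg.2 h10), mul_nonneg h11 hD.le,
      mul_nonneg hD.le (zero_le_one.trans h10)]
  have h9 := mul_le_mul_of_nonneg_left h7 (show (0 : ℝ) ≤ k by positivity)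
  have h10 := h4 k
  simp only [Dsc] at h1 h6 ⊢
  nlinarith

end Crest.Agent.R98
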