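import Crest.Agent.R98.TreeA
import Crest.Agent.R98.Gain

/-!
# R98/BG: basic gain inequality along an adapted tree
Induction on the tree. Put `Δ = log M - Dsc (ℓ D₀) M m - 1`; if `Δ ≤ 0` use `Dsc_le_conv`. Unselected node: concavity
(`mix_conv`, `Dsc_mix_ge`) and induction; leaf: `Dsc_shift`. Selected node (`7 D₀/8 < D ≤ D₀`): all labels below are
`≤ 7D/8 ≤ 7D₀/8`, so the sum is `v`; write
`mix v L H = bnd H (y₀ ↦ bnd L (y₁ ↦ mix (2v) (push (y₀ + ·) (two (y₁ - y₀))) (pur y₀)))` (`ext_ex`), use `Dsc_concave` twice,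
`gain_two` when `|y₁ - y₀| ≥ D/8 ≥ D₀/10` (probability `≥ 1/2`) and `Dsc_le_conv` otherwise.
-/

set_option autoImplicit false

namespace Crest.Agent.R98

theorem bg_mix_eq {L H : ℝ →₀ ℝ} (hL : IsP L) (hH : IsP H) (v : ℝ) :
    mix v L H = bnd H fun y₀ => bnd L fun y₁ =>
      mix (2 * v) (push (fun x => y₀ + x) (two (y₁ - y₀))) (pur y₀) := by
  refine ext_ex fun F => ?_
  have h : ∀ y₀ y₁ : ℝ, ex (mix (2 * v) (push (fun x => y₀ + x) (two (y₁ - y₀))) (pur y₀)) F =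
      v * F y₁ + (1 - v) * F y₀ := fun y₀ y₁ => by
    rw [ex_mix, ex_push, two, ex_mix, ex_pur, ex_pur, ex_pur, add_zero, add_sub_cancel]
    ring
  simp only [ex_bnd, h, ex_mix, ex_add, ex_mul_left, hL.ex_const, hH.ex_const]

/-- a selected node -/
theorem bg_node {L H m : ℝ →₀ ℝ} (hL : IsP L) (hH : IsP H) (hm : IsP m) {v s k Δ : ℝ} {M : ℕ}
    (h0 : 0 < v) (h1 : v ≤ 1 / 2) (hs : 0 < s) (hM : 1 ≤ M) (hk : 0 < k) (A : Set ℝ)
    (hA : 1 / 2 ≤ pr H A)
    (hg : ∀ y₀ ∈ H.support, y₀ ∈ A → ∀ y₁ ∈ L.support,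
      Δ ≤ k * (Dsc s M (conv (two (y₁ - y₀)) m) - Dsc s M m)) :
    v * Δ ≤ k * (Dsc s M (conv (mix v L H) m) - Dsc s M m) := by
  classical
  rcases le_total Δ 0 with hΔ | hΔ
  · have h2 := Dsc_le_conv (hL.mix hH h0.le (by linarith)) hm hs hM
    exact (mul_nonpos_of_nonneg_of_nonpos h0.le hΔ).trans (mul_nonneg hk.le (sub_nonneg.2 h2))
  have hp : ∀ y₀ y₁ : ℝ, IsP (mix (2 * v) (push (fun x => y₀ + x) (two (y₁ - y₀))) (pur y₀)) :=
    fun y₀ y₁ => ((isP_two _).push _).mix (isP_pur _) (by linarith) (by linarith)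
  have h2 : ∀ y₀ y₁ : ℝ, 2 * v * (Dsc s M (conv (two (y₁ - y₀)) m) - Dsc s M m) + Dsc s M m ≤
      Dsc s M (conv (mix (2 * v) (push (fun x => y₀ + x) (two (y₁ - y₀))) (pur y₀)) m) := by
    intro y₀ y₁
    have h3 := Dsc_mix_ge (((isP_two (y₁ - y₀)).push fun x => y₀ + x).conv hm)
      ((isP_pur y₀).conv hm) (v := 2 * v) (by linarith) (by linarith) hs hM
    rw [← mix_conv] at h3
    refine le_trans (le_of_eq ?_) h3
    rw [← pur_conv, conv_assoc, pur_conv, pur_conv, Dsc_shift ((isP_two _).conv hm), Dsc_shift hm]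
    ring
  have h3 : ∀ y₀ ∈ H.support, 2 * v * (Δ / k) * (if y₀ ∈ A then 1 else 0) + Dsc s M m ≤
      Dsc s M (bnd L fun y₁ =>
        conv (mix (2 * v) (push (fun x => y₀ + x) (two (y₁ - y₀))) (pur y₀)) m) := by
    intro y₀ hy₀
    refine le_trans (hL.le_ex fun y₁ hy₁ => le_trans ?_ (h2 y₀ y₁))
      (Dsc_concave hL (fun y₁ _ => (hp y₀ y₁).conv hm) hs hM)
    rw [mul_assoc]
    refine add_le_add (mul_le_mul_of_nonneg_left ?_ (by linarith)) le_rfl
    split_ifs with h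
    · rw [mul_one, div_le_iff₀' hk]
      exact hg y₀ hy₀ h y₁ hy₁
    · rw [mul_zero]
      exact sub_nonneg.2 (Dsc_le_conv (isP_two _) hm hs hM)
  have h4 := (hH.ex_mono h3).trans
    (Dsc_concave hH (fun y₀ _ => hL.bnd fun y₁ _ => (hp y₀ y₁).conv hm) hs hM)
  rw [ex_add, ex_mul_left, hH.ex_const, ← pr_eq_ex_ite] at h4
  have h5 : conv (mix v L H) m = bnd H fun y₀ => bnd L fun y₁ =>
      conv (mix (2 * v) (push (fun x => y₀ + x) (two (y₁ - y₀))) (pur y₀)) m := by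
    rw [bg_mix_eq hL hH, bnd_conv]
    simp only [bnd_conv]
  rw [h5, ← div_le_iff₀' hk, mul_div_assoc]
  have h6 := mul_le_mul_of_nonneg_left hA
    (mul_nonneg (by linarith : 0 ≤ 2 * v) (div_nonneg hΔ hk.le))
  linarith

theorem bg_gsum_zero {T : Tr} (h : T.WV) (G : Set ℝ) {a b : ℝ} (ha : T.lab ≤ a) :
    T.gsum (vOn (G ∩ Set.Ioc a b)) = 0 := by
  rw [← Tr.gsum_zero T]
  refine Tr.gsum_congr (h.all_lab.mono fun S hS => ?_)
  exact if_neg fun hh => absurd hh.2.1 (not_lt.2 (hS.2.1.trans ha))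

theorem basic_gain {M : ℕ} (hM : 1 ≤ M) : ∃ (k ℓ : ℝ) (M' : ℕ), 0 < k ∧ 0 < ℓ ∧ 2 ≤ M' ∧
    ∀ (T : Tr) (m : ℝ →₀ ℝ) (G : Set ℝ) (D₀ : ℝ), T.SV → IsP m → 0 < D₀ →
      T.gsum (vOn (G ∩ Set.Ioc (7 / 8 * D₀) D₀)) * (Real.log M - Dsc (ℓ * D₀) M m - 1) ≤
        k * (Dsc (ℓ * D₀) M' (conv T.law m) - Dsc (ℓ * D₀) M' m) := by
  obtain ⟨k, ℓ, M', hk, hℓ, hM', hg⟩ := gain_two hM
  refine ⟨k, ℓ, M', hk, hℓ, hM', fun T m G D₀ hT hm hD₀ => ?_⟩
  have hs : 0 < ℓ * D₀ := mul_pos hℓ hD₀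
  have hM1 : 1 ≤ M' := by omega
  induction T with
  | leaf y =>
    rw [Tr.gsum, Tr.law, pur_conv, Dsc_shift hm, sub_self, mul_zero, zero_mul]
  | node D v b Nr L H ihL ihH =>
    obtain ⟨⟨hw, hwL, hwH⟩, hsv, hsL, hsH⟩ := hT
    obtain ⟨hD, hv0, hv1, hlL, hlH, -, hLH, -, -⟩ := hw
    have hL : IsP L.law := Tr.WV.isP hwL
    have hH : IsP H.law := Tr.WV.isP hwH
    rw [Tr.gsum, Tr.law]
    by_cases hsel : D ∈ G ∩ Set.Ioc (7 / 8 * D₀) D₀
    · have e : vOn (G ∩ Set.Ioc (7 / 8 * D₀) D₀) (Tr.node D v b Nr L H) = v := if_pos hsel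
      obtain ⟨-, h1, h2⟩ := hsel
      rw [e, bg_gsum_zero hwL G (by linarith), bg_gsum_zero hwH G (by linarith), mul_zero, mul_zero,
        add_zero, add_zero]
      refine bg_node hL hH hm hv0 hv1 hs hM1 hk _ hsv.2.1 fun y₀ hy₀ hA y₁ hy₁ => ?_
      have h3 := hA y₁ hy₁
      exact hg m D₀ _ hm hD₀ (by linarith) ((hLH y₁ hy₁ y₀ hy₀).trans h2)
    · have e : vOn (G ∩ Set.Ioc (7 / 8 * D₀) D₀) (Tr.node D v b Nr L H) = 0 := if_neg hsel
      have h1 := mul_le_mul_of_nonneg_left (ihL ⟨hwL, hsL⟩) hv0.le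
      have h2 := mul_le_mul_of_nonneg_left (ihH ⟨hwH, hsH⟩) (by linarith : 0 ≤ 1 - v)
      have h3 := mul_le_mul_of_nonneg_left
        (Dsc_mix_ge (hL.conv hm) (hH.conv hm) hv0.le (by linarith) hs hM1) hk.le
      rw [e, mix_conv]
      linarith

theorem bg_integrable (G : Set ℝ) (c a b : ℝ) (S : Tr) : IntervalIntegrable
    (fun τ => vOn (G ∩ Set.Ioc (7 / 8 * (Real.exp (-τ) / c)) (Real.exp (-τ) / c)) S)
    MeasureTheory.volume a b := by
  by_cases hG : S.lab ∈ G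
  · have e : (fun τ => vOn (G ∩ Set.Ioc (7 / 8 * (Real.exp (-τ) / c)) (Real.exp (-τ) / c)) S) =
        Set.indicator ({τ | 7 / 8 * (Real.exp (-τ) / c) < S.lab} ∩ {τ | S.lab ≤ Real.exp (-τ) / c})
          fun _ => S.vv := by
      funext τ
      simp only [vOn, Set.indicator_apply, Set.mem_inter_iff, Set.mem_Ioc, hG, true_and,
        Set.mem_ofPred_eq]
    have hm : MeasurableSet ({τ | 7 / 8 * (Real.exp (-τ) / c) < S.lab} ∩
        {τ | S.lab ≤ Real.exp (-τ) / c}) :=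
      (measurableSet_lt (by fun_prop) measurable_const).inter
        (measurableSet_le measurable_const (by fun_prop))
    rw [e]
    have h := intervalIntegrable_const (μ := MeasureTheory.volume) (a := a) (b := b) (c := S.vv)
    exact ⟨h.1.indicator hm, h.2.indicator hm⟩
  · have e : (fun τ => vOn (G ∩ Set.Ioc (7 / 8 * (Real.exp (-τ) / c)) (Real.exp (-τ) / c)) S) =
        fun _ => 0 := funext fun τ => if_neg fun h => hG h.1
    rw [e]
    exact intervalIntegrable_const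

theorem bg_window {c D τ : ℝ} (hc : 0 < c) (hD : 0 < D) :
    D ∈ Set.Ioc (7 / 8 * (Real.exp (-τ) / c)) (Real.exp (-τ) / c) ↔
      τ ∈ Set.Ioc (-Real.log (c * D) - Real.log (8 / 7)) (-Real.log (c * D)) := by
  have hcD := mul_pos hc hD
  have e1 : 7 / 8 * (Real.exp (-τ) / c) = Real.exp (-τ - Real.log (8 / 7)) / c := by
    rw [Real.exp_sub, Real.exp_log (by norm_num)]
    ring
  rw [Set.mem_Ioc, Set.mem_Ioc, e1, div_lt_iff₀' hc, le_div_iff₀' hc,
    ← Real.lt_log_iff_exp_lt hcD, ← Real.log_le_iff_le_exp hcD]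
  constructor <;> rintro ⟨h1, h2⟩ <;> constructor <;> linarith

/-- integrating the window over `τ` (`D₀ = e^{-τ} / c`): each label is counted for a set of `τ` of measure
`log (8/7) ≥ 1/8`. -/
theorem vOn_le_integral {T : Tr} (h : T.WV) (G : Set ℝ) {c a b : ℝ} (hc : 0 < c) (hab : a ≤ b)
    (hG : T.All fun S => S.lab ∈ G → Real.exp (-b) ≤ c * S.lab ∧ c * S.lab ≤ 7 / 8 * Real.exp (-a)) :
    T.gsum (vOn G) / 8 ≤
        ∫ τ in a..b, T.gsum (vOn (G ∩ Set.Ioc (7 / 8 * (Real.exp (-τ) / c)) (Real.exp (-τ) / c))) ∧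
      IntervalIntegrable
        (fun τ => T.gsum (vOn (G ∩ Set.Ioc (7 / 8 * (Real.exp (-τ) / c)) (Real.exp (-τ) / c))))
        MeasureTheory.volume a b := by
  refine ⟨?_, Tr.intervalIntegrable_gsum T _ a b (bg_integrable G c a b)⟩
  rw [← Tr.gsum_integral T _ a b (bg_integrable G c a b), div_eq_inv_mul, ← Tr.gsum_mul_left]
  refine h.gsum_mono ((h.all_lab.and hG).mono fun S ⟨⟨hD, _, hv, _⟩, hS⟩ => ?_)
  by_cases hSG : S.lab ∈ G
  · obtain ⟨h1, h2⟩ := hS hSG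
    have hcD := mul_pos hc hD
    have h87 : 1 / 8 ≤ Real.log (8 / 7) := by
      have := Real.one_sub_inv_le_log_of_pos (show (0 : ℝ) < 8 / 7 by norm_num)
      linarith
    have h3 : -Real.log (c * S.lab) ≤ b := by
      have := (Real.le_log_iff_exp_le hcD).2 h1
      linarith
    have h4 : a ≤ -Real.log (c * S.lab) - Real.log (8 / 7) := by
      have e1 : 7 / 8 * Real.exp (-a) = Real.exp (-a - Real.log (8 / 7)) := by
        rw [Real.exp_sub, Real.exp_log (by norm_num)]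
        ring
      rw [e1] at h2
      have := (Real.log_le_iff_le_exp hcD).2 h2
      linarith
    have e : (fun τ => vOn (G ∩ Set.Ioc (7 / 8 * (Real.exp (-τ) / c)) (Real.exp (-τ) / c)) S) =
        Set.indicator (Set.Ioc (-Real.log (c * S.lab) - Real.log (8 / 7)) (-Real.log (c * S.lab)))
          fun _ => S.vv := by
      funext τ
      by_cases hτ : τ ∈ Set.Ioc (-Real.log (c * S.lab) - Real.log (8 / 7)) (-Real.log (c * S.lab))
      · rw [Set.indicator_of_mem hτ]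
        exact if_pos ⟨hSG, (bg_window hc hD).2 hτ⟩
      · rw [Set.indicator_of_notMem hτ]
        exact if_neg fun hh => hτ ((bg_window hc hD).1 hh.2)
    have e2 : vOn G S = S.vv := if_pos hSG
    rw [e, e2, intervalIntegral.integral_of_le hab,
      MeasureTheory.integral_indicator measurableSet_Ioc,
      MeasureTheory.Measure.restrict_restrict measurableSet_Ioc,
      Set.inter_eq_left.2 (Set.Ioc_subset_Ioc h4 h3), MeasureTheory.setIntegral_const,
      Real.volume_real_Ioc_of_le (by linarith), smul_eq_mul]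
    refine mul_le_mul_of_nonneg_right (by linarith) hv.le
  · have e : (fun τ => vOn (G ∩ Set.Ioc (7 / 8 * (Real.exp (-τ) / c)) (Real.exp (-τ) / c)) S) =
        fun _ => 0 := funext fun τ => if_neg fun h => hSG h.1
    have e2 : vOn G S = 0 := if_neg hSG
    rw [e, e2]
    simp

end Crest.Agent.R98
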