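import Crest.Agent.R98.Reduce

/-!
# R98/Block: the IFS of words of length `b`, and the main theorem
`composedMapEntropy_block`: by `composedMapEntropy_eq` both sides are entropies of the same law: show by `ext_ex`, induction on `n`, `ex_iid_append`, `ex_iid_fin` that
`push (fun W => (W.map List.ofFn).flatten) (iid (pv pb) n) = iid (pv p) (n * b)`, and `affineWordMap rb tb W = affineWordMap r t (flatten)`.
`card_image_rb`: `rb w = ∏ i, r i ^ (count of i in w)`. `selfSimilar_block`: induction on `b` (`Fin.consEquiv`/`Fin.cons`), `Measure.map_map`, `Measure.map_finset_sum`-type lemmas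
(or `Measure.ext` + `selfSimilar_real`). `main`: `lower_ifs` for the blocks, `b → ∞`; `upper_ifs` for the blocks, `dim_le_one`, `exists_lt_of_ciInf_lt`.
-/

set_option autoImplicit false

namespace Crest.Agent.R98

open MeasureTheory Crest.AnalysisR

variable {ι : Type*} [Fintype ι]

/-- ratios of the block system -/
noncomputable def rb (r : ι → ℝ) (b : ℕ) (w : Fin b → ι) : ℝ := ∏ j, r (w j)

/-- translations of the block system -/
noncomputable def tb (r t : ι → ℝ) (b : ℕ) (w : Fin b → ι) : ℝ := affineWordMap r t (List.ofFn w) 0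

omit [Fintype ι] in
theorem blk_awm_cons (r t : ι → ℝ) (i : ι) (w : List ι) (x : ℝ) :
    affineWordMap r t (i :: w) x = r i * affineWordMap r t w x + t i := rfl

omit [Fintype ι] in
theorem blk_awm_affine (r t : ι → ℝ) (w : List ι) (x : ℝ) :
    affineWordMap r t w x = (w.map r).prod * x + affineWordMap r t w 0 := by
  induction w with
  | nil => simp [affineWordMap]
  | cons i w ih =>
    rw [blk_awm_cons, blk_awm_cons, ih, List.map_cons, List.prod_cons]
    ring

omit [Fintype ι] in
theorem blk_awm_append (r t : ι → ℝ) (w w' : List ι) (x : ℝ) :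
    affineWordMap r t (w ++ w') x = affineWordMap r t w (affineWordMap r t w' x) := by
  induction w with
  | nil => simp [affineWordMap]
  | cons i w ih => rw [List.cons_append, blk_awm_cons, blk_awm_cons, ih]

theorem blk_sum_succ {M : Type*} [AddCommMonoid M] (b : ℕ) (F : (Fin (b + 1) → ι) → M) :
    ∑ w, F w = ∑ i, ∑ w : Fin b → ι, F (Fin.cons i w) := by
  rw [← Fintype.sum_prod_type' (fun (i : ι) (w : Fin b → ι) => F (Fin.cons i w))]
  exact (Fintype.sum_equiv (Fin.consEquiv fun _ => ι) _ _ fun _ => rfl).symm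

omit [Fintype ι] in
theorem rb_cons (r : ι → ℝ) (b : ℕ) (i : ι) (w : Fin b → ι) :
    rb r (b + 1) (Fin.cons i w) = r i * rb r b w := by
  simp [rb, Fin.prod_univ_succ]

theorem affineWordMap_ofFn (r t : ι → ℝ) (b : ℕ) (w : Fin b → ι) (x : ℝ) :
    affineWordMap r t (List.ofFn w) x = rb r b w * x + tb r t b w := by
  rw [blk_awm_affine, rb, tb, List.map_ofFn, List.prod_ofFn]
  rfl

theorem rb_contract {r : ι → ℝ} (hr : ∀ i, r i ≠ 0 ∧ |r i| < 1) {b : ℕ} (hb : 1 ≤ b) (w : Fin b → ι) :
    rb r b w ≠ 0 ∧ |rb r b w| < 1 := by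
  refine ⟨Finset.prod_ne_zero_iff.mpr fun j _ => (hr _).1, ?_⟩
  rw [rb, Finset.abs_prod]
  calc ∏ j, |r (w j)| < ∏ _j : Fin b, (1 : ℝ) :=
        Finset.prod_lt_prod (fun j _ => abs_pos.mpr (hr _).1) (fun j _ => (hr _).2.le)
          ⟨⟨0, hb⟩, Finset.mem_univ _, (hr _).2⟩
    _ = 1 := by simp

theorem sum_rb {p : ι → ℝ} (hp₁ : ∑ i, p i = 1) (b : ℕ) : ∑ w, rb p b w = 1 := by
  induction b with
  | zero => simp [rb]
  | succ b ih =>
    rw [blk_sum_succ]
    simp only [rb_cons, ← Finset.mul_sum, ih, mul_one, hp₁]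

theorem blk_push_flatten (p : ι → ℝ) (b n : ℕ) :
    push (fun W : List (Fin b → ι) => (W.map List.ofFn).flatten) (iid (pv (rb p b)) n) =
      iid (pv p) (n * b) := by
  apply ext_ex
  intro F
  rw [ex_push]
  induction n generalizing F with
  | zero => simp [ex_iid_zero]
  | succ n ih =>
    rw [ex_iid_succ, show (n + 1) * b = b + n * b by ring, ex_iid_append, ex_iid_fin, ex_fintype]
    refine Finset.sum_congr rfl fun w _ => ?_
    rw [← ih fun w' => F (List.ofFn w ++ w')]
    simp [pv, rb]

theorem blk_awm_flatten (r t : ι → ℝ) (b : ℕ) (W : List (Fin b → ι)) :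
    affineWordMap (rb r b) (tb r t b) W = affineWordMap r t (W.map List.ofFn).flatten := by
  funext x
  induction W with
  | nil => simp [affineWordMap]
  | cons w W ih =>
    rw [blk_awm_cons, ih, List.map_cons, List.flatten_cons, blk_awm_append, affineWordMap_ofFn]

theorem composedMapEntropy_block (r t p : ι → ℝ) (b n : ℕ) :
    composedMapEntropy (rb r b) (tb r t b) (rb p b) n = composedMapEntropy r t p (n * b) := by
  rw [composedMapEntropy_eq, composedMapEntropy_eq, ← blk_push_flatten, push_push]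
  congr 2
  funext W
  exact blk_awm_flatten r t b W

theorem lyapunovExp_block {r p : ι → ℝ} (hr : ∀ i, r i ≠ 0 ∧ |r i| < 1) (hp₁ : ∑ i, p i = 1) (b : ℕ) :
    lyapunovExp (rb r b) (rb p b) = b * lyapunovExp r p := by
  have key : ∑ w, rb p b w * Real.log |rb r b w| = b * ∑ i, p i * Real.log |r i| := by
    induction b with
    | zero => simp [rb]
    | succ b ih =>
      rw [blk_sum_succ]
      have h1 : ∀ (i : ι) (w : Fin b → ι), rb p (b + 1) (Fin.cons i w) *
          Real.log |rb r (b + 1) (Fin.cons i w)| =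
          p i * Real.log |r i| * rb p b w + p i * (rb p b w * Real.log |rb r b w|) := by
        intro i w
        have h0 : rb r b w ≠ 0 := Finset.prod_ne_zero_iff.mpr fun j _ => (hr _).1
        rw [rb_cons, rb_cons, abs_mul,
          Real.log_mul (abs_ne_zero.mpr (hr i).1) (abs_ne_zero.mpr h0)]
        ring
      simp only [h1, Finset.sum_add_distrib, ← Finset.mul_sum, sum_rb hp₁, ih, mul_one,
        ← Finset.sum_mul, hp₁]
      push_cast
      ring
  rw [lyapunovExp, lyapunovExp, key]
  ring

open Classical in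
theorem card_image_rb (r : ι → ℝ) (b : ℕ) :
    (Finset.univ.image (rb r b)).card ≤ (b + 1) ^ Fintype.card ι := by
  have hsub : Finset.univ.image (rb r b) ⊆
      Finset.univ.image fun c : ι → Fin (b + 1) => ∏ i, r i ^ (c i : ℕ) := by
    intro x hx
    obtain ⟨w, -, rfl⟩ := Finset.mem_image.mp hx
    refine Finset.mem_image.mpr ⟨fun i => ⟨(Finset.univ.filter fun j => w j = i).card, ?_⟩,
      Finset.mem_univ _, ?_⟩
    · refine Nat.lt_succ_of_le ((Finset.card_filter_le _ _).trans ?_)
      simp
    · rw [rb, ← Finset.prod_fiberwise Finset.univ w fun j => r (w j)]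
      refine Finset.prod_congr rfl fun i _ => ?_
      rw [← Finset.prod_const]
      refine Finset.prod_congr rfl fun j hj => ?_
      rw [(Finset.mem_filter.mp hj).2]
  refine (Finset.card_le_card hsub).trans (Finset.card_image_le.trans ?_)
  simp

theorem selfSimilar_block {r t p : ι → ℝ} (hp : ∀ i, 0 < p i) {μ : Measure ℝ}
    (hμ : IsSelfSimilarMeasure r t p μ) (b : ℕ) :
    IsSelfSimilarMeasure (rb r b) (tb r t b) (rb p b) μ := by
  refine ⟨hμ.1, ?_⟩
  induction b with
  | zero =>
    have : ∀ w : Fin 0 → ι, (fun x : ℝ => rb r 0 w * x + tb r t 0 w) = id := by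
      intro w; funext x; simp [rb, tb, affineWordMap]
    simp only [this, Measure.map_id]
    simp [rb]
  | succ b ih =>
    rw [blk_sum_succ]
    conv_lhs => rw [hμ.2]
    refine Finset.sum_congr rfl fun i _ => ?_
    have hm : Measurable fun x : ℝ => r i * x + t i := by fun_prop
    conv_lhs => rw [ih]
    ext A hA
    simp only [Measure.smul_apply, Measure.finsetSum_apply, Measure.map_apply hm hA, smul_eq_mul,
      Finset.mul_sum]
    refine Finset.sum_congr rfl fun w _ => ?_
    have hm1 : Measurable fun x : ℝ => rb r b w * x + tb r t b w := by fun_prop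
    have hm2 : Measurable fun x : ℝ =>
        rb r (b + 1) (Fin.cons i w) * x + tb r t (b + 1) (Fin.cons i w) := by fun_prop
    rw [Measure.map_apply hm1 (hm hA), Measure.map_apply hm2 hA, rb_cons p,
      ENNReal.ofReal_mul (hp i).le, mul_assoc]
    congr 3
    ext x
    simp only [Set.mem_preimage]
    rw [← affineWordMap_ofFn, ← affineWordMap_ofFn, List.ofFn_succ, blk_awm_cons]
    simp

theorem blk_chi_pos [Nonempty ι] {r p : ι → ℝ} (hr : ∀ i, r i ≠ 0 ∧ |r i| < 1) (hp : ∀ i, 0 < p i) :
    0 < lyapunovExp r p := by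
  rw [lyapunovExp, ← Finset.sum_neg_distrib]
  refine Finset.sum_pos (fun i _ => ?_) Finset.univ_nonempty
  have := Real.log_neg (abs_pos.mpr (hr i).1) (hr i).2
  nlinarith [hp i]

theorem blk_rw_block (r t : ι → ℝ) {p : ι → ℝ} (hp : ∀ i, 0 < p i) (hp₁ : ∑ i, p i = 1) (b : ℕ) :
    rwEntropyRate r t p * b ≤ rwEntropyRate (rb r b) (tb r t b) (rb p b) := by
  refine le_ciInf fun m => ?_
  rw [composedMapEntropy_block, le_div_iff₀ (by positivity)]
  have := rw_le r t hp hp₁ ((m + 1) * b)
  push_cast at this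
  linarith

theorem blk_log_tendsto (k : ℕ) :
    Filter.Tendsto (fun b : ℕ => (k : ℝ) * Real.log ((b : ℝ) + 1) / b) Filter.atTop (nhds 0) := by
  have h1 : Filter.Tendsto (fun x : ℝ => Real.log x ^ 1 / (1 * x + -1)) Filter.atTop (nhds 0) :=
    Real.tendsto_pow_log_div_mul_add_atTop 1 (-1) 1 one_ne_zero
  have h2 : Filter.Tendsto (fun b : ℕ => (b : ℝ) + 1) Filter.atTop Filter.atTop :=
    Filter.tendsto_atTop_add_const_right _ _ tendsto_natCast_atTop_atTop
  have h3 := (h1.comp h2).const_mul (k : ℝ)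
  rw [mul_zero] at h3
  refine h3.congr fun b => ?_
  simp [mul_div_assoc]

theorem main [Nonempty ι] (r t p : ι → ℝ) (hr : ∀ i, r i ≠ 0 ∧ |r i| < 1) (hp : ∀ i, 0 < p i)
    (hp₁ : ∑ i, p i = 1) (μ : Measure ℝ) (hμ : IsSelfSimilarMeasure r t p μ) :
    lowerHausdorffDim μ = ENNReal.ofReal (min 1 (rwEntropyRate r t p / lyapunovExp r p)) := by
  classical
  have hχ := blk_chi_pos hr hp
  have hpb : ∀ (b : ℕ) (w : Fin b → ι), 0 < rb p b w := fun b w =>
    Finset.prod_pos fun j _ => hp _
  set h := rwEntropyRate r t p with hh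
  set χ := lyapunovExp r p with hχdef
  apply le_antisymm
  · have := hμ.1
    have hup : ∀ γ : ℝ, h / χ < γ → lowerHausdorffDim μ ≤ ENNReal.ofReal γ := by
      intro γ hγ
      rw [div_lt_iff₀ hχ] at hγ
      obtain ⟨m, hm⟩ := exists_lt_of_ciInf_lt hγ
      refine upper_ifs (rb_contract hr (Nat.le_add_left 1 m)) (hpb _) (sum_rb hp₁ _)
        (selfSimilar_block hp hμ (m + 1)) ?_
      rw [composedMapEntropy_block, lyapunovExp_block hr hp₁, one_mul]
      rw [div_lt_iff₀ (by positivity)] at hm
      push_cast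
      linarith
    rcases le_total 1 (h / χ) with h1 | h1
    · rw [min_eq_left h1, ENNReal.ofReal_one]
      exact dim_le_one
    · rw [min_eq_right h1]
      have hc : Filter.Tendsto (fun γ : ℝ => ENNReal.ofReal γ) (nhdsWithin (h / χ) (Set.Ioi (h / χ)))
          (nhds (ENNReal.ofReal (h / χ))) :=
        (ENNReal.continuous_ofReal.tendsto _).mono_left nhdsWithin_le_nhds
      exact ge_of_tendsto hc (eventually_nhdsWithin_of_forall hup)
  · have hc : Filter.Tendsto (fun b : ℕ => ENNReal.ofReal
        (min 1 ((h - (Fintype.card ι : ℝ) * Real.log ((b : ℝ) + 1) / b) / χ))) Filter.atTop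
        (nhds (ENNReal.ofReal (min 1 ((h - 0) / χ)))) :=
      (ENNReal.continuous_ofReal.tendsto _).comp
        (tendsto_const_nhds.min ((tendsto_const_nhds.sub (blk_log_tendsto _)).div_const χ))
    rw [sub_zero] at hc
    refine le_of_tendsto hc (Filter.eventually_atTop.mpr ⟨1, fun b hb => ?_⟩)
    refine le_trans ?_ (lower_ifs (rb_contract hr hb) (hpb _) (sum_rb hp₁ _)
      (selfSimilar_block hp hμ b))
    refine ENNReal.ofReal_le_ofReal (min_le_min le_rfl ?_)
    have hb0 : (0 : ℝ) < b := by exact_mod_cast hb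
    rw [lyapunovExp_block hr hp₁, ← hχdef, div_le_div_iff₀ hχ (by positivity)]
    have h1 := blk_rw_block r t hp hp₁ b
    have h2 : Real.log (Finset.univ.image (rb r b)).card ≤
        (Fintype.card ι : ℝ) * Real.log ((b : ℝ) + 1) := by
      rw [← Real.log_pow]
      refine Real.log_le_log ?_ ?_
      · exact_mod_cast Finset.card_pos.mpr (Finset.univ_nonempty.image _)
      · exact_mod_cast card_image_rb r b
    have h3 : (h - (Fintype.card ι : ℝ) * Real.log ((b : ℝ) + 1) / b) * (b * χ) =
        (h * b - (Fintype.card ι : ℝ) * Real.log ((b : ℝ) + 1)) * χ := by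
      field_simp
    rw [h3]
    refine mul_le_mul_of_nonneg_right ?_ hχ.le
    convert sub_le_sub h1 h2 using 2

end Crest.Agent.R98
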