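import Crest.Agent.R98.InfUp

/-!
# R98/Buffer: the random buffer
`exists_dirichlet`: `θ = log|ρ₁|/log|ρ₂| > 0` irrational; Dirichlet (`Real.exists_nat_abs_mul_sub_round_le` or
`Real.exists_int_int_abs_mul_sub_le`) gives `1 ≤ q ≤ Q`, `p` with `0 < |qθ - p| ≤ 1/(Q+1)`; `η = |q log|ρ₁| - p log|ρ₂||`, `γ = 2η`,
`X = ⌊1/γ⌋`; `(oa, a), (ob, b)` are `(o₁, 2q), (o₂, 2p)` in the order making `a log|ρ oa| - b log|ρ ob| = γ > 0`.
`buffer_shift`: `cc ω = ∏ o, ρ o ^ cnt ω o` (`prod_map_eq_cnt`) and `IsP.iid_shift` twice.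
`info_bound`: for fixed `ω, ω₂, ω₃`, `nu (ω ++ ω₂ ++ ω₃) = nu ω * (dil c (nu ω₂) * dil (c c₂) (nu ω₃))`, so by `Dsc_le_conv` the quantity
is `≤ Inf (n+ℓ) n' s - Inf (n+ℓ) n' (N s)`; `Inf_up`, `Inf_low`, `tendsto_An`.
-/

set_option autoImplicit false
set_option linter.unusedSectionVars false

namespace Crest.Agent.R98

open Filter

variable {Ω ι : Type*} [Fintype Ω] [Fintype ι] (M : Mod Ω ι) (σ : Sys Ω ι)

theorem buf_pow_even (o : Ω) (k : ℕ) : σ.ρ o ^ (2 * k) = Real.exp (2 * k * Real.log |σ.ρ o|) := by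
  have h0 : 0 < |σ.ρ o| := abs_pos.2 (σ.hρ o).1
  have : (2 * k : ℝ) * Real.log |σ.ρ o| = Real.log (|σ.ρ o| ^ (2 * k)) := by
    rw [Real.log_pow]; push_cast; ring
  rw [this, Real.exp_log (pow_pos h0 _), pow_mul, pow_mul, sq_abs]

theorem buf_log_neg (o : Ω) : Real.log |σ.ρ o| < 0 :=
  Real.log_neg (abs_pos.2 (σ.hρ o).1) (σ.hρ o).2

theorem exists_dirichlet {o₁ o₂ : Ω} (h : Irrational (Real.log |σ.ρ o₁| / Real.log |σ.ρ o₂|)) :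
    ∃ C : ℕ, ∀ X₀ : ℕ, ∃ (X a b : ℕ) (oa ob : Ω) (γ : ℝ), X₀ ≤ X ∧ a ≤ C * X ∧ b ≤ C * X ∧
      1 / 2 ≤ X * γ ∧ X * γ ≤ 1 ∧ σ.ρ oa ^ a = σ.ρ ob ^ b * Real.exp γ := by
  have hL₁ := buf_log_neg σ o₁
  have hL₂ := buf_log_neg σ o₂
  have e₁ := buf_pow_even σ o₁
  have e₂ := buf_pow_even σ o₂
  set L₁ := Real.log |σ.ρ o₁| with hL₁def
  set L₂ := Real.log |σ.ρ o₂| with hL₂def
  set θ := L₁ / L₂ with hθ
  have hθ0 : 0 < θ := div_pos_of_neg_of_neg hL₁ hL₂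
  have hθL : θ * L₂ = L₁ := div_mul_cancel₀ _ hL₂.ne
  set l := -L₂ with hl
  have hl0 : 0 < l := by linarith
  refine ⟨⌈8 * (θ + 1) * l⌉₊, fun X₀ => ?_⟩
  set Q : ℕ := ⌈2 * l * (X₀ + 1)⌉₊ + 1 with hQ
  have hQ1 : 0 < Q := Nat.succ_pos _
  have hQ1' : (1 : ℝ) ≤ Q := by exact_mod_cast hQ1
  have hQ2 : 2 * l * (X₀ + 1) ≤ Q + 1 := by
    have := Nat.le_ceil (2 * l * (X₀ + 1))
    rw [hQ]; push_cast; linarith
  obtain ⟨j, k, hk0, hkQ, hjk⟩ := Real.exists_int_int_abs_mul_sub_le θ hQ1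
  obtain ⟨q, rfl⟩ := Int.eq_ofNat_of_zero_le hk0.le
  have hq0 : 0 < q := by exact_mod_cast hk0
  have hq1 : (1 : ℝ) ≤ q := by exact_mod_cast hq0
  have hqQ : (q : ℝ) ≤ Q := by exact_mod_cast hkQ
  have hQp : (0 : ℝ) < Q + 1 := by linarith
  have hhalf : 1 / ((Q : ℝ) + 1) ≤ 1 / 2 := one_div_le_one_div_of_le (by norm_num) (by linarith)
  simp only [Int.cast_natCast] at hjk
  have hqθ : 0 < (q : ℝ) * θ := by positivity
  have hj0 : 0 ≤ j := by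
    have h1 : (-1 : ℝ) < j := by linarith [(abs_le.1 hjk).2]
    have h2 : (-1 : ℤ) < j := by exact_mod_cast h1
    omega
  obtain ⟨p, rfl⟩ := Int.eq_ofNat_of_zero_le hj0
  simp only [Int.cast_natCast] at hjk
  have hne : (q : ℝ) * θ - p ≠ 0 := by
    have h1 : Irrational ((q : ℝ) * θ - p) := (h.natCast_mul hq0.ne').sub_natCast p
    exact h1.ne_zero
  set γ : ℝ := 2 * l * |(q : ℝ) * θ - p| with hγ
  have hγ0 : 0 < γ := by have := abs_pos.2 hne; positivity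
  have hγ1 : γ * (Q + 1) ≤ 2 * l := by
    have := (le_div_iff₀ hQp).1 hjk
    rw [hγ]; nlinarith
  have hγ2 : (X₀ + 1 : ℝ) ≤ 1 / γ := by
    rw [le_div_iff₀ hγ0]
    have : 2 * l * ((X₀ + 1) * γ) ≤ 2 * l * 1 := by nlinarith
    exact le_of_mul_le_mul_left this (by positivity)
  set X : ℕ := ⌊1 / γ⌋₊ with hX
  have hX1 : X₀ + 1 ≤ X := Nat.le_floor (by exact_mod_cast hγ2)
  have hX1' : (1 : ℝ) ≤ X := by exact_mod_cast (by omega : 1 ≤ X)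
  have hXa : (X : ℝ) * γ ≤ 1 := by
    have := Nat.floor_le (a := 1 / γ) (by positivity)
    rwa [le_div_iff₀ hγ0] at this
  have hXb : 1 / 2 ≤ (X : ℝ) * γ := by
    have h1 := Nat.lt_floor_add_one (1 / γ)
    rw [div_lt_iff₀ hγ0] at h1
    nlinarith
  have hQX : (Q : ℝ) + 1 ≤ 4 * l * X := by nlinarith
  have hC := Nat.le_ceil (8 * (θ + 1) * l)
  have hX0 : (0 : ℝ) ≤ X := by linarith
  have hCX : 2 * (θ + 1) * (Q + 1) ≤ (⌈8 * (θ + 1) * l⌉₊ : ℝ) * X := by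
    have h1 : 8 * (θ + 1) * l * X ≤ (⌈8 * (θ + 1) * l⌉₊ : ℝ) * X := mul_le_mul_of_nonneg_right hC hX0
    have h2 : 2 * (θ + 1) * (Q + 1) ≤ 2 * (θ + 1) * (4 * l * X) :=
      mul_le_mul_of_nonneg_left hQX (by positivity)
    linarith
  have hqC : 2 * q ≤ ⌈8 * (θ + 1) * l⌉₊ * X := by
    have : ((2 * q : ℕ) : ℝ) ≤ ((⌈8 * (θ + 1) * l⌉₊ * X : ℕ) : ℝ) := by
      push_cast; nlinarith
    exact_mod_cast this
  have hpC : 2 * p ≤ ⌈8 * (θ + 1) * l⌉₊ * X := by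
    have h1 : (p : ℝ) ≤ q * θ + 1 := by linarith [(abs_le.1 hjk).1]
    have h2 : (q : ℝ) * θ ≤ Q * θ := mul_le_mul_of_nonneg_right hqQ hθ0.le
    have : ((2 * p : ℕ) : ℝ) ≤ ((⌈8 * (θ + 1) * l⌉₊ * X : ℕ) : ℝ) := by
      push_cast; nlinarith
    exact_mod_cast this
  rcases lt_or_gt_of_ne hne with hlt | hgt
  · refine ⟨X, 2 * q, 2 * p, o₁, o₂, γ, by omega, hqC, hpC, hXb, hXa, ?_⟩
    rw [e₁, e₂, ← Real.exp_add, hγ, abs_of_neg hlt, hl, ← hθL]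
    congr 1; ring
  · refine ⟨X, 2 * p, 2 * q, o₂, o₁, γ, by omega, hpC, hqC, hXb, hXa, ?_⟩
    rw [e₁, e₂, ← Real.exp_add, hγ, abs_of_pos hgt, hl, ← hθL]
    congr 1; ring

open Classical in
theorem buf_prod_shift (w : List Ω) (o : Ω) (j : ℕ) :
    ∏ o', σ.ρ o' ^ (cnt w + Pi.single o (j : ℤ) : Ω → ℤ) o' = σ.cc w * σ.ρ o ^ j := by
  rw [Sys.cc, prod_map_eq_cnt]
  simp only [Pi.add_apply, zpow_add₀ (σ.hρ _).1, Finset.prod_mul_distrib]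
  congr 1
  rw [Finset.prod_eq_single o]
  · rw [Pi.single_eq_same, zpow_natCast]
  · intro b _ hb
    rw [Pi.single_eq_of_ne hb, zpow_zero]
  · intro h; exact absurd (Finset.mem_univ o) h

/-- adding `j` letters `o` at the level of the contraction ratio -/
theorem buf_shift (m j : ℕ) (o : Ω) (F : ℝ → ℝ) (hF : ∀ x, 0 ≤ F x ∧ F x ≤ 1) :
    |(ex (M.Om (m + j)) fun ω => F (σ.cc ω)) - ex (M.Om m) fun ω => F (σ.cc ω * σ.ρ o ^ j)| ≤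
      j / Real.sqrt ((m + 1) * M.P o) := by
  have := M.hP.iid_shift (M.hpos o) m j (fun z => F (∏ o', σ.ρ o' ^ z o')) fun z => hF _
  simp only [buf_prod_shift, ← prod_map_eq_cnt] at this
  exact this

theorem buffer_shift : ∃ C : ℝ, 0 < C ∧ ∀ (ℓ a b B : ℕ) (oa ob : Ω) (g : ℝ) (F : ℝ → ℝ), b ≤ B →
    σ.ρ oa ^ a = σ.ρ ob ^ b * g → (∀ x, 0 ≤ F x ∧ F x ≤ 1) →
    (ex (M.Om (ℓ + B)) fun ω => F (σ.cc ω * g)) - C * (a + b) / Real.sqrt (ℓ + 1) ≤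
      ex (M.Om (ℓ + (B - b) + a)) fun ω => F (σ.cc ω) := by
  have hnn : ∀ o, 0 ≤ 1 / Real.sqrt (M.P o) := fun o => by positivity
  have hs : 0 ≤ ∑ o, 1 / Real.sqrt (M.P o) := Finset.sum_nonneg fun o _ => hnn o
  refine ⟨1 + ∑ o, 1 / Real.sqrt (M.P o), by linarith, fun ℓ a b B oa ob g F hb hg hF => ?_⟩
  set C := 1 + ∑ o, 1 / Real.sqrt (M.P o) with hC
  have key : ∀ (j : ℕ) (o : Ω), (j : ℝ) / Real.sqrt ((((ℓ + (B - b) : ℕ) : ℝ) + 1) * M.P o) ≤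
      C * j / Real.sqrt (ℓ + 1) := by
    intro j o
    have h1 : 1 / Real.sqrt (M.P o) ≤ C := by
      have := Finset.single_le_sum (f := fun o => 1 / Real.sqrt (M.P o)) (fun o _ => hnn o)
        (Finset.mem_univ o)
      linarith
    have hP := Real.sqrt_pos.2 (M.hpos o)
    have hl : 0 < Real.sqrt (ℓ + 1) := Real.sqrt_pos.2 (by positivity)
    have h2 : Real.sqrt (ℓ + 1) * Real.sqrt (M.P o) ≤
        Real.sqrt ((((ℓ + (B - b) : ℕ) : ℝ) + 1) * M.P o) := by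
      rw [← Real.sqrt_mul (by positivity)]
      refine Real.sqrt_le_sqrt (mul_le_mul_of_nonneg_right ?_ (M.hpos o).le)
      have : (ℓ : ℝ) ≤ ((ℓ + (B - b) : ℕ) : ℝ) := by exact_mod_cast Nat.le_add_right _ _
      linarith
    calc (j : ℝ) / Real.sqrt ((((ℓ + (B - b) : ℕ) : ℝ) + 1) * M.P o)
        ≤ j / (Real.sqrt (ℓ + 1) * Real.sqrt (M.P o)) :=
          div_le_div_of_nonneg_left (Nat.cast_nonneg _) (by positivity) h2
      _ = 1 / Real.sqrt (M.P o) * j / Real.sqrt (ℓ + 1) := by field_simp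
      _ ≤ C * j / Real.sqrt (ℓ + 1) := by gcongr
  have h1 := (abs_le.1 ((buf_shift M σ (ℓ + (B - b)) a oa F hF).trans (key a oa))).1
  have h2 := (abs_le.1 ((buf_shift M σ (ℓ + (B - b)) b ob (fun x => F (x * g))
    fun x => hF _).trans (key b ob))).2
  have e : ℓ + (B - b) + b = ℓ + B := by omega
  rw [e] at h2
  simp only [hg, ← mul_assoc] at h1
  have e2 : C * (a + b) / Real.sqrt (ℓ + 1) =
      C * a / Real.sqrt (ℓ + 1) + C * b / Real.sqrt (ℓ + 1) := by ring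
  linarith

theorem buf_le_Inf (n ℓ n' N : ℕ) {s : ℝ} (hs : 0 < s) (hN : 1 ≤ N) :
    (ex (M.Om n) fun ω => ex (M.Om ℓ) fun ω₂ => ex (M.Om n') fun ω₃ =>
        Dsc s N (conv (nu M σ ω) (dil (σ.cc ω * σ.cc ω₂) (nu M σ ω₃))) -
          Dsc s N (dil (σ.cc ω * σ.cc ω₂) (nu M σ ω₃))) ≤
      Inf M σ (n + ℓ) n' s - Inf M σ (n + ℓ) n' (N * s) := by
  unfold Inf
  rw [← ex_sub, ex_Om_append]
  refine (isP_Om M n).ex_mono fun ω _ => (isP_Om M ℓ).ex_mono fun ω₂ _ => ?_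
  rw [← ex_sub]
  refine (isP_Om M n').ex_mono fun ω₃ _ => ?_
  have e : nu M σ (ω ++ ω₂ ++ ω₃) = conv (dil (σ.cc ω) (nu M σ ω₂))
      (conv (nu M σ ω) (dil (σ.cc ω * σ.cc ω₂) (nu M σ ω₃))) := by
    rw [nu_append, nu_append, cc_append, conv_comm (nu M σ ω) (dil (σ.cc ω) (nu M σ ω₂)), conv_assoc]
  have h := Dsc_le_conv ((isP_nu M σ ω₂).dil (σ.cc ω))
    ((isP_nu M σ ω).conv ((isP_nu M σ ω₃).dil (σ.cc ω * σ.cc ω₂))) hs hN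
  rw [← e] at h
  rw [cc_append]
  unfold Dsc at h ⊢
  linarith

theorem info_bound : ∃ C : ℝ, 0 < C ∧ ∀ δ : ℝ, 0 < δ → ∀ᶠ n : ℕ in atTop, ∀ s : ℝ, 0 < s → ∃ N₀ : ℕ,
    ∀ (n' ℓ N : ℕ), N₀ ≤ n' → (ℓ : ℝ) ≤ δ * n → 1 ≤ N → Real.exp (-(chi M σ * n)) ≤ N * s →
      N * s ≤ 2 * Real.exp (-(chi M σ * n)) →
      (ex (M.Om n) fun ω => ex (M.Om ℓ) fun ω₂ => ex (M.Om n') fun ω₃ =>
        Dsc s N (conv (nu M σ ω) (dil (σ.cc ω * σ.cc ω₂) (nu M σ ω₃))) -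
          Dsc s N (dil (σ.cc ω * σ.cc ω₂) (nu M σ ω₃))) ≤ C * δ * n := by
  obtain ⟨C₁, hC₁, hup⟩ := Inf_up M σ
  obtain ⟨C₂, hC₂, hlow⟩ := Inf_low M σ
  have hχ := chi_pos M σ
  refine ⟨2 * chi M σ + 3, by linarith, fun δ hδ => ?_⟩
  have hδ' : 0 < δ / (1 + δ) := by positivity
  have hA : ∀ᶠ m : ℕ in atTop, eR M σ - δ / (1 + δ) ≤ An M σ m / m :=
    (tendsto_An M σ).eventually (eventually_ge_nhds (by linarith))
  obtain ⟨m₀, hm₀⟩ := eventually_atTop.1 hA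
  have hr : ∀ r : ℝ, ∀ᶠ n : ℕ in atTop, r ≤ n := fun r =>
    tendsto_natCast_atTop_atTop.eventually (eventually_ge_atTop r)
  filter_upwards [eventually_ge_atTop m₀, eventually_ge_atTop 1, hr ((C₁ + C₂ + 2) / δ),
    hr (C₂ ^ 2 * (1 + δ) / δ ^ 2)] with n hn₀ hn₁ hn₂ hn₃ s hs
  obtain ⟨N₀, hN₀⟩ := hup s hs
  refine ⟨N₀, fun n' ℓ N hn' hℓ hN h1 h2 => (buf_le_Inf M σ n ℓ n' N hs hN).trans ?_⟩
  have hNs : 0 < (N : ℝ) * s := lt_of_lt_of_le (Real.exp_pos _) h1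
  have hu := hN₀ (n + ℓ) n' s hn' le_rfl
  have hl := hlow (n + ℓ) n' (N * s) hNs
  have hn1 : (1 : ℝ) ≤ n := by exact_mod_cast hn₁
  have hℓ0 : (0 : ℝ) ≤ ℓ := Nat.cast_nonneg _
  have hm : ((n + ℓ : ℕ) : ℝ) ≤ (1 + δ) * n := by push_cast; linarith
  have hm0 : (0 : ℝ) < ((n + ℓ : ℕ) : ℝ) := by push_cast; linarith
  have ha := hm₀ (n + ℓ) (le_trans hn₀ (Nat.le_add_right _ _))
  rw [le_div_iff₀ hm0] at ha
  have ha' : δ / (1 + δ) * ((n + ℓ : ℕ) : ℝ) ≤ δ * n := by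
    calc δ / (1 + δ) * ((n + ℓ : ℕ) : ℝ) ≤ δ / (1 + δ) * ((1 + δ) * n) :=
          mul_le_mul_of_nonneg_left hm hδ'.le
      _ = δ * n := by field_simp
  have hlog1 : -(chi M σ * n) ≤ Real.log (N * s) := (Real.le_log_iff_exp_le hNs).2 h1
  have hlog2 : Real.log (N * s) ≤ 1 - chi M σ * n := by
    have := Real.log_le_log hNs h2
    rw [Real.log_mul (by norm_num) (Real.exp_pos _).ne', Real.log_exp] at this
    linarith [Real.log_two_lt_d9]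
  have hχℓ : chi M σ * ℓ ≤ chi M σ * (δ * n) := mul_le_mul_of_nonneg_left hℓ hχ.le
  have hχℓ0 : 0 ≤ chi M σ * ℓ := by positivity
  have habs : |Real.log (N * s) + chi M σ * ((n + ℓ : ℕ) : ℝ)| ≤ 1 + chi M σ * (δ * n) := by
    push_cast
    rw [abs_le]
    constructor <;> nlinarith
  have hsq : C₂ * Real.sqrt ((n + ℓ : ℕ) : ℝ) ≤ δ * n := by
    rw [div_le_iff₀ (by positivity)] at hn₃
    rw [← Real.sqrt_sq hC₂.le, ← Real.sqrt_mul (sq_nonneg _)]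
    refine Real.sqrt_le_iff.2 ⟨by positivity, ?_⟩
    have h3 : C₂ ^ 2 * ((n + ℓ : ℕ) : ℝ) ≤ C₂ ^ 2 * ((1 + δ) * n) :=
      mul_le_mul_of_nonneg_left hm (sq_nonneg _)
    nlinarith
  rw [div_le_iff₀ hδ] at hn₂
  nlinarith

end Crest.Agent.R98
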