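import Crest.Agent.R98.ModelA

/-!
# R98/PolyB: integer polynomials (`ℓ¹` norms, determinants, Hasse derivatives, the universal translation part)
-/

set_option autoImplicit false

namespace Crest.Agent.R98

open Polynomial

theorem l1_nonneg (p : ℤ[X]) : 0 ≤ l1 p := Finset.sum_nonneg fun _ _ => abs_nonneg _

theorem one_le_l1 {p : ℤ[X]} (h : p ≠ 0) : 1 ≤ l1 p := by
  refine le_trans ?_ (Finset.single_le_sum (f := fun n => |(p.coeff n : ℝ)|)
    (fun _ _ => abs_nonneg _) (natDegree_mem_support_of_nonzero h))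
  have : p.coeff p.natDegree ≠ 0 := leadingCoeff_ne_zero.2 h
  exact_mod_cast Int.one_le_abs this

theorem l1_eq_sum_range {p : ℤ[X]} {N : ℕ} (h : p.natDegree ≤ N) :
    l1 p = ∑ j ∈ Finset.range (N + 1), |(p.coeff j : ℝ)| := sum_over_range' p (f := fun _ a => |(a : ℝ)|) (by simp) (N + 1) (Nat.lt_succ_of_le h)

theorem l1_add_le (p q : ℤ[X]) : l1 (p + q) ≤ l1 p + l1 q := by
  rw [l1_eq_sum_range (natDegree_add_le p q), l1_eq_sum_range (le_max_left _ q.natDegree),
    l1_eq_sum_range (le_max_right p.natDegree _), ← Finset.sum_add_distrib]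
  refine Finset.sum_le_sum fun j _ => ?_
  rw [coeff_add, Int.cast_add]
  exact abs_add_le _ _

theorem PolyB_l1_zero : l1 0 = 0 := by simp [l1]

theorem PolyB_l1_monomial (n : ℕ) (a : ℤ) : l1 (monomial n a) = |(a : ℝ)| := by
  unfold l1
  rw [sum_monomial_index]
  simp

theorem PolyB_l1_one : l1 1 = 1 := by
  rw [← C_1, ← monomial_zero_left, PolyB_l1_monomial]
  simp

theorem PolyB_l1_neg (p : ℤ[X]) : l1 (-p) = l1 p := by
  rw [l1_eq_sum_range (natDegree_neg p).le, l1_eq_sum_range le_rfl]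
  simp

theorem PolyB_l1_sum_le {κ : Type*} (s : Finset κ) (f : κ → ℤ[X]) :
    l1 (∑ i ∈ s, f i) ≤ ∑ i ∈ s, l1 (f i) :=
  Finset.le_sum_of_subadditive l1 PolyB_l1_zero.le l1_add_le s f

theorem l1_mul_le (p q : ℤ[X]) : l1 (p * q) ≤ l1 p * l1 q := by
  rw [mul_eq_sum_sum]
  refine (PolyB_l1_sum_le _ _).trans ?_
  rw [l1, sum_def, Finset.sum_mul]
  refine Finset.sum_le_sum fun i _ => ?_
  rw [sum_def]
  refine (PolyB_l1_sum_le _ _).trans (le_of_eq ?_)
  rw [l1, sum_def, Finset.mul_sum]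
  refine Finset.sum_congr rfl fun j _ => ?_
  rw [PolyB_l1_monomial, Int.cast_mul, abs_mul]

theorem Bd.l1_le {N : ℕ} {p : ℤ[X]} (h : Bd N p) : l1 p ≤ 2 * (N + 1) := by
  rw [l1_eq_sum_range h.1]
  refine (Finset.sum_le_card_nsmul _ _ 2 fun j _ => by exact_mod_cast h.2 j).trans (le_of_eq ?_)
  rw [Finset.card_range, nsmul_eq_mul]
  push_cast
  ring

theorem Bd.mono {N N' : ℕ} {p : ℤ[X]} (h : Bd N p) (hN : N ≤ N') : Bd N' p := ⟨h.1.trans hN, h.2⟩

theorem bd_zero (N : ℕ) : Bd N 0 := ⟨by simp, by simp⟩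

theorem bd_one (N : ℕ) : Bd N 1 := by
  refine ⟨by simp, fun j => ?_⟩
  rw [coeff_one]
  split_ifs <;> simp

theorem PolyB_mahler (p : ℤ[X]) : (p.map (Int.castRingHom ℂ)).mahlerMeasure ≤ l1 p := by
  refine (mahlerMeasure_le_sum_norm_coeff _).trans (le_of_eq ?_)
  rw [l1_eq_sum_range le_rfl, sum_over_range' _ (by simp) (p.natDegree + 1)
    (Nat.lt_succ_of_le natDegree_map_le)]
  refine Finset.sum_congr rfl fun j _ => ?_
  rw [coeff_map, eq_intCast, Complex.norm_intCast]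

theorem finite_Bd (N : ℕ) : {p : ℤ[X] | Bd N p}.Finite := by
  refine (finite_mahlerMeasure_le N ⟨2 * (N + 1), by positivity⟩).subset fun p hp => ?_
  exact ⟨hp.1, (PolyB_mahler p).trans (Bd.l1_le hp)⟩

theorem finite_Bd_pi (I : Type*) [Fintype I] (N : ℕ) : {q : I → ℤ[X] | ∀ i, Bd N (q i)}.Finite := Set.Finite.pi' fun _ => finite_Bd N

theorem PolyB_norm_aeval (p : ℤ[X]) (z : ℂ) :
    ‖aeval z p‖ ≤ ∑ j ∈ Finset.range (p.natDegree + 1), |(p.coeff j : ℝ)| * ‖z‖ ^ j := by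
  rw [aeval_eq_sum_range]
  refine (norm_sum_le _ _).trans (le_of_eq (Finset.sum_congr rfl fun j _ => ?_))
  rw [zsmul_eq_mul, norm_mul, norm_pow, Complex.norm_intCast]

theorem norm_aeval_le (p : ℤ[X]) (z : ℂ) : ‖aeval z p‖ ≤ l1 p * max 1 ‖z‖ ^ p.natDegree := by
  refine (PolyB_norm_aeval p z).trans ?_
  rw [l1_eq_sum_range le_rfl, Finset.sum_mul]
  refine Finset.sum_le_sum fun j hj => mul_le_mul_of_nonneg_left ?_ (abs_nonneg _)
  exact (pow_le_pow_left₀ (norm_nonneg _) (le_max_right _ _) j).trans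
    (pow_le_pow_right₀ (le_max_left _ _) (Nat.lt_succ_iff.1 (Finset.mem_range.1 hj)))

theorem norm_aeval_le_of_coeff {p : ℤ[X]} (h : ∀ j, |p.coeff j| ≤ 2) {z : ℂ} {r : ℝ} (hz : ‖z‖ ≤ r)
    (hr : r < 1) : ‖aeval z p‖ ≤ 2 / (1 - r) := by
  have hr0 : 0 ≤ r := (norm_nonneg _).trans hz
  refine (PolyB_norm_aeval p z).trans ?_
  have h1 := geom_sum_Ico_le_of_lt_one (m := 0) (n := p.natDegree + 1) hr0 hr
  rw [pow_zero, ← Finset.range_eq_Ico] at h1
  rw [← mul_one_div]
  refine le_trans ?_ (mul_le_mul_of_nonneg_left h1 (by norm_num))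
  rw [Finset.mul_sum]
  refine Finset.sum_le_sum fun j _ => ?_
  exact mul_le_mul (by exact_mod_cast h j) (pow_le_pow_left₀ (norm_nonneg _) hz j) (by positivity)
    (by norm_num)

theorem aeval_ofReal (p : ℤ[X]) (x : ℝ) : aeval (x : ℂ) p = ((aeval x p : ℝ) : ℂ) := aeval_algebraMap_apply ℂ x p

theorem mahler_le_l1 (p : ℤ[X]) : (p.map (Int.castRingHom ℂ)).mahlerMeasure ≤ l1 p := PolyB_mahler p

theorem PolyB_l1_prod_le {κ : Type*} (s : Finset κ) (f : κ → ℤ[X]) :
    l1 (∏ i ∈ s, f i) ≤ ∏ i ∈ s, l1 (f i) := by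
  classical
  induction s using Finset.induction_on with
  | empty => simp [PolyB_l1_one]
  | insert a s ha ih =>
    rw [Finset.prod_insert ha, Finset.prod_insert ha]
    exact (l1_mul_le _ _).trans (mul_le_mul_of_nonneg_left ih (l1_nonneg _))

theorem det_bounds {J : Type*} [Fintype J] [DecidableEq J] (A : Matrix J J ℤ[X]) {N : ℕ} {B : ℝ}
    (hd : ∀ i j, (A i j).natDegree ≤ N) (hl : ∀ i j, l1 (A i j) ≤ B) :
    A.det.natDegree ≤ Fintype.card J * N ∧
      l1 A.det ≤ (Fintype.card J).factorial * B ^ Fintype.card J := by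
  rw [Matrix.det_apply]
  constructor
  · refine natDegree_sum_le_of_forall_le _ _ fun s _ => (natDegree_smul_le _ _).trans ?_
    refine (natDegree_prod_le _ _).trans ?_
    exact (Finset.sum_le_card_nsmul _ _ N fun i _ => hd _ _).trans (by simp)
  · refine (PolyB_l1_sum_le _ _).trans ?_
    refine (Finset.sum_le_card_nsmul _ _ (B ^ Fintype.card J) fun s _ => ?_).trans
      (by simp [Fintype.card_perm])
    have e : l1 (Equiv.Perm.sign s • ∏ i, A (s i) i) = l1 (∏ i, A (s i) i) := by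
      rcases Int.units_eq_one_or (Equiv.Perm.sign s) with h | h <;> simp [h, PolyB_l1_neg]
    rw [e]
    refine (PolyB_l1_prod_le _ _).trans ?_
    exact (Finset.prod_le_prod (fun i _ => l1_nonneg _) fun i _ => hl _ _).trans (by simp)

theorem PolyB_hasse {p : ℤ[X]} {N : ℕ} (h : p.natDegree ≤ N) (j : ℕ) {B : ℝ} (hB0 : 0 ≤ B)
    (hB : ∀ m ≤ N, (m.choose j : ℝ) ≤ B) : l1 (hasseDeriv j p) ≤ B * l1 p := by
  have h1 : (hasseDeriv j p).natDegree ≤ N :=
    (natDegree_hasseDeriv_le p j).trans ((Nat.sub_le _ _).trans h)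
  rw [l1_eq_sum_range h1, l1_eq_sum_range (N := j + N) (h.trans (Nat.le_add_left _ _)),
    add_assoc, Finset.sum_range_add _ j, mul_add, Finset.mul_sum (s := Finset.range (N + 1))]
  refine le_add_of_nonneg_of_le (by positivity) (Finset.sum_le_sum fun n _ => ?_)
  rw [hasseDeriv_coeff, add_comm j n]
  push_cast
  rw [abs_mul, Nat.abs_cast]
  rcases le_or_gt (n + j) N with h2 | h2
  · exact mul_le_mul_of_nonneg_right (hB _ h2) (abs_nonneg _)
  · rw [coeff_eq_zero_of_natDegree_lt (h.trans_lt h2)]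
    simp

theorem hasse_bounds {p : ℤ[X]} {N : ℕ} (h : p.natDegree ≤ N) (j : ℕ) :
    (hasseDeriv j p).natDegree ≤ N ∧ l1 (hasseDeriv j p) ≤ (N + 1) ^ j * l1 p ∧
      l1 (hasseDeriv j p) ≤ 2 ^ N * l1 p := by
  refine ⟨(natDegree_hasseDeriv_le p j).trans ((Nat.sub_le _ _).trans h),
    PolyB_hasse h j (by positivity) fun m hm => ?_, PolyB_hasse h j (by positivity) fun m hm => ?_⟩
  · exact_mod_cast (Nat.choose_le_pow m j).trans (Nat.pow_le_pow_left (by omega) j)
  · exact_mod_cast (Nat.choose_le_two_pow m j).trans (Nat.pow_le_pow_right (by norm_num) hm)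

/-- Taylor expansion with remainder (`Polynomial.taylor_coeff`, `aeval_add_of...` or `eval_taylor`) -/
theorem taylor_rem {p : ℤ[X]} {N : ℕ} (h : p.natDegree ≤ N) {η ε : ℂ} (hη : ‖η‖ ≤ 1) (hε : ‖ε‖ ≤ 1 / 2)
    (J : ℕ) :
    ‖aeval (η + ε) p - ∑ j ∈ Finset.range J, aeval η (hasseDeriv j p) * ε ^ j‖ ≤
      2 * ‖ε‖ ^ J * (2 ^ N * l1 p) := by
  have e : aeval (η + ε) p = ∑ j ∈ Finset.range (N + 1 + J), aeval η (hasseDeriv j p) * ε ^ j := by
    rw [← eval_map_algebraMap, add_comm, ← taylor_eval, eval_eq_sum_range' (n := N + 1 + J)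
      (by rw [natDegree_taylor]; exact (natDegree_map_le.trans h).trans_lt (by omega))]
    refine Finset.sum_congr rfl fun j _ => ?_
    rw [taylor_coeff, ← eval_map_algebraMap]
    congr 2
    ext n
    simp [hasseDeriv_coeff]
  rw [e, ← Finset.sum_Ico_eq_sub _ (by omega)]
  have hl := l1_nonneg p
  have h1 := geom_sum_Ico_le_of_lt_one (m := J) (n := N + 1 + J) (norm_nonneg ε) (by linarith)
  have h2 : ‖ε‖ ^ J / (1 - ‖ε‖) ≤ 2 * ‖ε‖ ^ J := by
    rw [div_le_iff₀ (by linarith)]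
    have : 0 ≤ ‖ε‖ ^ J := by positivity
    nlinarith
  refine (norm_sum_le _ _).trans (le_trans ?_
    (mul_le_mul_of_nonneg_right (h1.trans h2) (by positivity)))
  rw [Finset.sum_mul]
  refine Finset.sum_le_sum fun j _ => ?_
  rw [norm_mul, norm_pow, mul_comm]
  refine mul_le_mul_of_nonneg_left ((norm_aeval_le _ _).trans ?_) (by positivity)
  rw [max_eq_left hη, one_pow, mul_one]
  exact (hasse_bounds h j).2.2

variable {Ω ι : Type*}

theorem X_eq_pair [Fintype ι] (c : Cyc Ω) (z : ℝ) (hz : 0 < z ∧ z < 1) (t : ι → ℝ) (ω : List Ω)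
    (u : List ι) : (c.sys z hz t).X ω u = pair t z (c.Q ω u) := by
  classical
  induction ω generalizing u with
  | nil => simp [Sys.X, Cyc.Q, pair]
  | cons o ω ih =>
    cases u with
    | nil => simp [Sys.X, Cyc.Q, pair]
    | cons a w =>
      rw [Sys.X, ih w]
      simp only [Cyc.sys, Cyc.Q, pair, map_add, map_mul, map_pow, aeval_X, mul_add,
        Finset.sum_add_distrib, Finset.mul_sum, eq_intCast, map_intCast]
      congr 1
      · rw [Finset.sum_eq_single a] <;> simp +contextual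
      · exact Finset.sum_congr rfl fun j _ => by ring

theorem pair_sub {I : Type*} [Fintype I] (t : I → ℝ) (z : ℝ) (q q' : I → ℤ[X]) :
    pair t z (q - q') = pair t z q - pair t z q' := by
  simp [pair, mul_sub]

theorem pair_add_left {I : Type*} [Fintype I] (t t' : I → ℝ) (z : ℝ) (q : I → ℤ[X]) :
    pair (t + t') z q = pair t z q + pair t' z q := by
  simp [pair, add_mul, Finset.sum_add_distrib]

theorem PolyB_Q [Fintype Ω] (c : Cyc Ω) (ω : List Ω) (u : List ι) (i : ι) :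
    (c.Q ω u i).natDegree ≤ c.K * ω.length ∧ ∀ n, |(c.Q ω u i).coeff n| ≤ 1 := by
  induction ω generalizing u with
  | nil => simp [Cyc.Q]
  | cons o ω ih =>
    cases u with
    | nil => simp [Cyc.Q]
    | cons a w =>
      obtain ⟨h1, h2⟩ := ih w
      have hk : c.k o ≤ c.K := Finset.le_sup (f := c.k) (Finset.mem_univ o)
      have hk1 := c.hk o
      simp only [Cyc.Q]
      constructor
      · refine natDegree_add_le_of_degree_le ?_ ?_
        · split_ifs <;> simp
        · refine natDegree_mul_le.trans ?_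
          have := natDegree_C_mul_X_pow_le (c.sg o) (c.k o)
          rw [List.length_cons, mul_add]
          omega
      · intro n
        rw [coeff_add, mul_assoc, coeff_C_mul, coeff_X_pow_mul']
        rcases Nat.eq_zero_or_pos n with rfl | hn
        · rw [if_neg (by omega : ¬ c.k o ≤ 0), mul_zero, add_zero]
          split_ifs <;> simp
        · have e : ∀ (P : Prop) [Decidable P], (if P then (1 : ℤ[X]) else 0).coeff n = 0 := by
            intro P _
            split_ifs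
            · rw [coeff_one, if_neg hn.ne']
            · simp
          rw [e, zero_add, abs_mul]
          have hs : |c.sg o| = 1 := by rcases c.hsg o with h | h <;> simp [h]
          rw [hs, one_mul]
          split_ifs
          · exact h2 _
          · simp

theorem PolyB_abs_rho (c : Cyc Ω) (z : ℝ) (hz : 0 < z ∧ z < 1) (t : ι → ℝ) (o : Ω) :
    |(c.sys z hz t).ρ o| = z ^ c.k o := by
  have h1 : 0 < z ^ c.k o := pow_pos hz.1 _
  simp only [Cyc.sys]
  rcases c.hsg o with h | h <;> simp [h, abs_of_pos h1]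

theorem bd_Q_sub [Fintype Ω] (c : Cyc Ω) (ω : List Ω) (u v : List ι) (i : ι) :
    Bd (c.K * ω.length) ((c.Q ω u - c.Q ω v) i) := by
  obtain ⟨h1, h2⟩ := PolyB_Q c ω u i
  obtain ⟨h3, h4⟩ := PolyB_Q c ω v i
  refine ⟨(natDegree_sub_le _ _).trans (max_le h1 h3), fun j => ?_⟩
  rw [Pi.sub_apply, coeff_sub]
  linarith [abs_sub ((c.Q ω u i).coeff j) ((c.Q ω v i).coeff j), h2 j, h4 j]

theorem pow_le_abs_cc [Fintype Ω] (c : Cyc Ω) (z : ℝ) (hz : 0 < z ∧ z < 1) (t : ι → ℝ) (ω : List Ω) :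
    z ^ (c.K * ω.length) ≤ |(c.sys z hz t).cc ω| := by
  induction ω with
  | nil => simp
  | cons o ω ih =>
    have hk : c.k o ≤ c.K := Finset.le_sup (f := c.k) (Finset.mem_univ o)
    rw [cc_cons, abs_mul, PolyB_abs_rho, List.length_cons, mul_add, mul_one, pow_add, mul_comm]
    exact mul_le_mul (pow_le_pow_of_le_one hz.1.le hz.2.le hk) ih (pow_pos hz.1 _).le
      (pow_pos hz.1 _).le

theorem chi_sys [Fintype Ω] (M : Mod Ω ι) (c : Cyc Ω) (z : ℝ) (hz : 0 < z ∧ z < 1) (t : ι → ℝ) :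
    chi M (c.sys z hz t) = (ex M.P fun o => (c.k o : ℝ)) * -Real.log z := by
  rw [← ex_mul_right, chi]
  refine ex_congr fun o _ => ?_
  rw [PolyB_abs_rho, Real.log_pow, mul_neg]

/-- every element of `Dist` is the value of a bounded relation -/
theorem Dist_subset_pair [Fintype Ω] [Fintype ι] (M : Mod Ω ι) (c : Cyc Ω) (z : ℝ) (hz : 0 < z ∧ z < 1)
    (t : ι → ℝ) (n : ℕ) : ∀ d ∈ Dist M (c.sys z hz t) n,
      0 < d ∧ ∃ q : ι → ℤ[X], (∀ i, Bd (c.K * n) (q i)) ∧ d = |pair t z q| := by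
  rintro d ⟨hd, ω, hω, y, hy, y', hy', rfl⟩
  obtain ⟨u, -, rfl⟩ := (mem_support_nu _ _).1 hy
  obtain ⟨v, -, rfl⟩ := (mem_support_nu _ _).1 hy'
  refine ⟨hd, c.Q ω u - c.Q ω v, fun i => ?_, ?_⟩
  · rw [← (mem_support_Om M).1 hω]
    exact bd_Q_sub c ω u v i
  · rw [pair_sub, X_eq_pair, X_eq_pair]

end Crest.Agent.R98
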