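import Crest.Agent.R98.Defs

/-!
# R98/Window: Cramer windows
For `θ ≥ 0` let `rk θ = finrank (span {q ∈ 𝒬 | ‖q ⬝ᵥ y‖ ≤ θ})`. If `0 < d' ≤ d` are values with `rk d' = rk d = r`, the spans agree;
choose a basis `q₁ … q_r` among the vectors with value `≤ d'`, complete it by standard basis vectors to a basis of `J → ℂ`
(`exists_linearIndependent`, `LinearIndependent.extend`, ...), Cramer's rule gives coefficients of norm `≤ b/a`, so `d ≤ card J * b/a * d'`.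
The window number `r - 1` starts at the least value of rank `r`.
-/

set_option autoImplicit false

namespace Crest.Agent.R98

theorem Cov.mono {S S' : Set ℝ} {R : ℕ} {Λ Λ' : ℝ} (h : Cov S R Λ) (hS : S' ⊆ S) (hΛ : Λ ≤ Λ') :
    Cov S' R Λ' := by
  obtain ⟨x, hx, h⟩ := h
  refine ⟨x, hx, fun d hd => ?_⟩
  obtain ⟨r, h1, h2⟩ := h d (hS hd)
  exact ⟨r, h1, h2.trans (mul_le_mul_of_nonneg_left (Real.exp_le_exp.2 hΛ) (hx r).le)⟩

theorem Cov.perturb {S S' : Set ℝ} {R : ℕ} {Λ : ℝ} (h : Cov S R Λ)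
    (hS : ∀ d' ∈ S', ∃ d ∈ S, d / 2 ≤ d' ∧ d' ≤ 2 * d) : Cov S' R (Λ + Real.log 4) := by
  obtain ⟨x, hx, h⟩ := h
  refine ⟨fun r => x r / 2, fun r => half_pos (hx r), fun d' hd' => ?_⟩
  obtain ⟨d, hd, h1, h2⟩ := hS d' hd'
  obtain ⟨r, h3, h4⟩ := h d hd
  refine ⟨r, by linarith, ?_⟩
  rw [Real.exp_add, Real.exp_log (by norm_num)]
  linarith

/-- Cramer's rule: a vector of `𝒬` in the span of `B ⊆ 𝒬` has bounded coefficients. -/
theorem window_cramer {J : Type*} [Fintype J] [DecidableEq J] {𝒬 : Set (J → ℂ)}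
    (y : J → ℂ) {a b : ℝ} (ha : 0 < a) (hab : a ≤ b)
    (h : ∀ A : Matrix J J ℂ, (∀ i, A i ∈ 𝒬 ∨ ∃ j, A i = Pi.single j 1) → A.det ≠ 0 →
      a ≤ ‖A.det‖ ∧ ‖A.det‖ ≤ b) {B : Set (J → ℂ)} (hB : B ⊆ 𝒬) {d : ℝ} (hd : 0 ≤ d)
    (hBd : ∀ p ∈ B, ‖p ⬝ᵥ y‖ ≤ d) {q : J → ℂ} (hq : q ∈ 𝒬) (hqB : q ∈ Submodule.span ℂ B) :
    ‖q ⬝ᵥ y‖ ≤ Fintype.card J * b / a * d := by
  classical
  obtain ⟨B', hB', hspan, hind⟩ := exists_linearIndependent ℂ B
  obtain ⟨C, hC, hB'C, hCs, hCi⟩ := exists_linearIndepOn_id_extension (K := ℂ) (s := B')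
    (t := B' ∪ Set.range fun j : J => (Pi.single j 1 : J → ℂ)) hind Set.subset_union_left
  have htop : ⊤ ≤ Submodule.span ℂ (Set.range (Subtype.val : C → J → ℂ)) := by
    rw [Subtype.range_coe, ← (Pi.basisFun ℂ J).span_eq, Submodule.span_le]
    rintro _ ⟨j, rfl⟩
    exact hCs (Or.inr ⟨j, by simp⟩)
  let bC : Module.Basis C ℂ (J → ℂ) := Module.Basis.mk hCi htop
  let e : J ≃ C := (Pi.basisFun ℂ J).indexEquiv bC
  let A : Matrix J J ℂ := Matrix.of fun i => (e i : J → ℂ)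
  have hA : ∀ i, A i = (e i : J → ℂ) := fun _ => rfl
  have hAdet : A.det ≠ 0 := by
    have : LinearIndependent ℂ A.row := hCi.comp e e.injective
    exact ((Matrix.isUnit_iff_isUnit_det A).1 (Matrix.linearIndependent_rows_iff_isUnit.1 this)).ne_zero
  have hrows : ∀ i, A i ∈ 𝒬 ∨ ∃ j, A i = Pi.single j 1 := fun i => by
    rcases hC (e i).2 with h1 | ⟨j, h1⟩
    · exact Or.inl (hB (hB' h1))
    · exact Or.inr ⟨j, h1.symm⟩
  have key : ∃ c : J → ℂ, (∀ i, A i ∉ B' → c i = 0) ∧ q = ∑ i, c i • A i := by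
    rw [← hspan] at hqB
    clear hq
    induction hqB using Submodule.span_induction with
    | mem p hp =>
      refine ⟨Pi.single (e.symm ⟨p, hB'C hp⟩) 1, fun i hi => Pi.single_eq_of_ne ?_ _, ?_⟩
      · rintro rfl
        exact hi (by rw [hA, Equiv.apply_symm_apply]; exact hp)
      · rw [Finset.sum_eq_single (e.symm ⟨p, hB'C hp⟩)]
        · rw [Pi.single_eq_same, one_smul, hA, Equiv.apply_symm_apply]
        · intro i _ hi
          rw [Pi.single_eq_of_ne hi, zero_smul]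
        · intro hi
          exact absurd (Finset.mem_univ _) hi
    | zero => exact ⟨0, fun _ _ => rfl, by simp⟩
    | add p p' _ _ h1 h2 =>
      obtain ⟨c, c1, rfl⟩ := h1
      obtain ⟨c', c2, rfl⟩ := h2
      refine ⟨c + c', fun i hi => by rw [Pi.add_apply, c1 i hi, c2 i hi, add_zero], ?_⟩
      simp only [Pi.add_apply, add_smul, Finset.sum_add_distrib]
    | smul r p _ h1 =>
      obtain ⟨c, c1, rfl⟩ := h1
      refine ⟨r • c, fun i hi => by rw [Pi.smul_apply, c1 i hi, smul_zero], ?_⟩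
      simp only [Pi.smul_apply, smul_eq_mul, mul_smul, Finset.smul_sum]
  obtain ⟨c, hc0, hc⟩ := key
  have hba : 0 ≤ b / a := div_nonneg (ha.le.trans hab) ha.le
  have hcb : ∀ i, ‖c i‖ ≤ b / a := by
    intro i
    by_cases h0 : c i = 0
    · rw [h0, norm_zero]
      exact hba
    have h1 := Matrix.det_updateRow_sum A i c
    rw [← hc, smul_eq_mul] at h1
    have h2 := (h (A.updateRow i q) (fun k => by
      by_cases hk : k = i
      · subst hk
        rw [Matrix.updateRow_self]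
        exact Or.inl hq
      · rw [Matrix.updateRow_ne hk]
        exact hrows k) (by rw [h1]; exact mul_ne_zero h0 hAdet)).2
    rw [h1, norm_mul] at h2
    rw [le_div_iff₀ ha]
    exact (mul_le_mul_of_nonneg_left (h A hrows hAdet).1 (norm_nonneg _)).trans h2
  calc ‖q ⬝ᵥ y‖ = ‖∑ i, c i * (A i ⬝ᵥ y)‖ := by
        rw [hc, sum_dotProduct]
        simp only [smul_dotProduct, smul_eq_mul]
    _ ≤ ∑ i, ‖c i * (A i ⬝ᵥ y)‖ := norm_sum_le _ _
    _ ≤ ∑ _i : J, b / a * d := by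
        refine Finset.sum_le_sum fun i _ => ?_
        by_cases hi : A i ∈ B'
        · rw [norm_mul]
          exact mul_le_mul (hcb i) (hBd _ (hB' hi)) (norm_nonneg _) hba
        · rw [hc0 i hi, zero_mul, norm_zero]
          exact mul_nonneg hba hd
    _ = _ := by
        rw [Finset.sum_const, Finset.card_univ, nsmul_eq_mul]
        ring

theorem cov_of_det {J : Type*} [Fintype J] [DecidableEq J] {𝒬 : Set (J → ℂ)} (hfin : 𝒬.Finite)
    (y : J → ℂ) {a b : ℝ} (ha : 0 < a) (hab : a ≤ b)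
    (h : ∀ A : Matrix J J ℂ, (∀ i, A i ∈ 𝒬 ∨ ∃ j, A i = Pi.single j 1) → A.det ≠ 0 →
      a ≤ ‖A.det‖ ∧ ‖A.det‖ ≤ b) :
    Cov {d | 0 < d ∧ ∃ q ∈ 𝒬, d = ‖q ⬝ᵥ y‖} (Fintype.card J) (Real.log (Fintype.card J * b / a)) := by
  classical
  set Sp : ℝ → Submodule ℂ (J → ℂ) := fun θ => Submodule.span ℂ {q ∈ 𝒬 | ‖q ⬝ᵥ y‖ ≤ θ} with hSp
  set V : Set ℝ := {d | 0 < d ∧ ∃ q ∈ 𝒬, d = ‖q ⬝ᵥ y‖} with hV
  have hVfin : V.Finite := (hfin.image fun q => ‖q ⬝ᵥ y‖).subset fun d hd => by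
    obtain ⟨-, q, hq, rfl⟩ := hd
    exact ⟨q, hq, rfl⟩
  have key : ∀ r : Fin (Fintype.card J), ∃ x : ℝ, 0 < x ∧ ∀ d ∈ V,
      Module.finrank ℂ (Sp d) = r + 1 → x ≤ d ∧ Module.finrank ℂ (Sp x) = r + 1 := by
    intro r
    by_cases hne : ({d ∈ V | Module.finrank ℂ (Sp d) = r + 1} : Set ℝ).Nonempty
    · obtain ⟨x, hx, hmin⟩ := Set.exists_min_image _ id (hVfin.subset (Set.sep_subset _ _)) hne
      exact ⟨x, hx.1.1, fun d hd hr => ⟨hmin d ⟨hd, hr⟩, hx.2⟩⟩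
    · exact ⟨1, one_pos, fun d hd hr => absurd ⟨d, hd, hr⟩ hne⟩
  choose x hx0 hx using key
  refine ⟨x, hx0, fun d hd => ?_⟩
  obtain ⟨hd0, q, hq, hdq⟩ := id hd
  have hqd : q ∈ Sp d := Submodule.subset_span ⟨hq, hdq.ge⟩
  have h1 : 0 < Module.finrank ℂ (Sp d) := by
    refine Nat.pos_of_ne_zero fun h0 => ?_
    rw [Submodule.finrank_eq_zero.1 h0, Submodule.mem_bot] at hqd
    rw [hqd, zero_dotProduct, norm_zero] at hdq
    exact hd0.ne' hdq
  have h2 : Module.finrank ℂ (Sp d) ≤ Fintype.card J :=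
    (Submodule.finrank_le _).trans_eq (Module.finrank_fintype_fun_eq_card ℂ)
  set r : Fin (Fintype.card J) := ⟨Module.finrank ℂ (Sp d) - 1, by omega⟩ with hr
  have h3 : Module.finrank ℂ (Sp d) = r + 1 := by
    simp only [hr]
    omega
  obtain ⟨h4, h5⟩ := hx r d hd h3
  refine ⟨r, h4, ?_⟩
  have h6 : Sp (x r) = Sp d := Submodule.eq_of_le_of_finrank_eq
    (Submodule.span_mono fun p hp => ⟨hp.1, hp.2.trans h4⟩) (h5.trans h3.symm)
  rw [← h6] at hqd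
  have h7 := window_cramer y ha hab h (Set.sep_subset _ _) (hx0 r).le (fun p hp => hp.2) hq hqd
  have h8 : (0 : ℝ) < Fintype.card J := Nat.cast_pos.2 (by omega)
  rw [Real.exp_log (div_pos (mul_pos h8 (ha.trans_le hab)) ha), mul_comm, hdq]
  exact h7

end Crest.Agent.R98
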