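import Crest.Agent.R98.Engine
import Crest.Agent.R98.Window
import Crest.Agent.R98.PolyB

/-!
# R98/CaseI: the non-Liouville case
Let `d = card ι`, `ε > 0`, `n₁ C₁` from `engine` with `R = d`. For a large good stage `b` put `a = b³ + 1`, `n₀ = 2^(b^9)`; all levels
`n₀ (2^a)^j`, `j ≤ C₁ a`, are `≤ 2^(2 b^9)`. `cov_good`: `cov_of_det` with `𝒬 = {aeval z ∘ q | Bd}` (cast to `ℂ`), rows `Pi.single` come from
the polynomial rows `Pi.single j 1`; `det_bounds`, `norm_aeval_le`. `s` = a positive lower bound of the finite set `Dist (top level)`;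
`hR_le_of_classes`, `Dist_mono`.
-/

set_option autoImplicit false

namespace Crest.Agent.R98

open Polynomial Filter

variable {Ω ι : Type*} [Fintype Ω] [Fintype ι]

theorem cov_good (t : ι → ℝ) {z : ℝ} (hz : 0 < z ∧ z < 1) : ∃ C : ℝ, 0 < C ∧ ∀ (N : ℕ) (a : ℝ), 0 ≤ a →
    GoodAt ι z N a →
    Cov {d | 0 < d ∧ ∃ q : ι → ℤ[X], (∀ i, Bd N (q i)) ∧ d = |pair t z q|} (Fintype.card ι)
      (a + C + C * N) := by
  classical
  set B : ℝ := 2 / (1 - z) with hB
  have hB1 : 1 ≤ B := by rw [hB, le_div_iff₀ (by linarith [hz.2])]; linarith [hz.1]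
  set b : ℝ := (Fintype.card ι).factorial * B ^ Fintype.card ι with hb
  have hb1 : 1 ≤ b := one_le_mul_of_one_le_of_one_le
    (by exact_mod_cast Nat.factorial_pos _) (one_le_pow₀ hB1)
  have hx : 0 ≤ (Fintype.card ι : ℝ) * b := by positivity
  refine ⟨Fintype.card ι * b + 1, by positivity, fun N a ha hG => ?_⟩
  have hent : ∀ p : ℤ[X], Bd N p → |aeval z p| ≤ B := fun p hp => by
    have := norm_aeval_le_of_coeff hp.2 (z := (z : ℂ)) (r := z)
      (by rw [Complex.norm_real, Real.norm_eq_abs, abs_of_pos hz.1]) hz.2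
    rwa [aeval_ofReal, Complex.norm_real, Real.norm_eq_abs] at this
  have key := cov_of_det ((finite_Bd_pi ι N).image fun q i => (aeval (z : ℂ) (q i) : ℂ))
    (fun i => (t i : ℂ)) (Real.exp_pos (-a))
    ((Real.exp_le_one_iff.2 (by linarith)).trans hb1) fun A hA hdet => by
      have : ∀ i, ∃ q : ι → ℤ[X], (∀ j, Bd N (q j)) ∧ ∀ j, A i j = aeval (z : ℂ) (q j) := fun i => by
        rcases hA i with ⟨q, hq, e⟩ | ⟨j, e⟩
        · exact ⟨q, hq, fun j => by rw [← e]⟩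
        · refine ⟨Pi.single j 1, fun j' => ?_, fun j' => ?_⟩
          · rw [Pi.single_apply]
            split_ifs
            exacts [bd_one N, bd_zero N]
          · rw [e, Pi.single_apply, Pi.single_apply]
            split_ifs <;> simp
      choose q hq e using this
      have hA' : A = (aeval (z : ℂ) : ℤ[X] →ₐ[ℤ] ℂ).mapMatrix (Matrix.of q) := by
        ext i j
        exact e i j
      rw [hA', ← AlgHom.map_det, aeval_ofReal] at hdet ⊢
      rw [Complex.norm_real, Real.norm_eq_abs]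
      refine ⟨hG (Matrix.of q) hq (by exact_mod_cast hdet), ?_⟩
      rw [AlgHom.map_det, hb, ← nsmul_eq_mul]
      exact Matrix.det_le (abv := AbsoluteValue.abs) fun i j => hent _ (hq i j)
  refine key.mono ?_ ?_
  · rintro d ⟨hd, q, hq, rfl⟩
    refine ⟨hd, _, ⟨q, hq, rfl⟩, ?_⟩
    rw [← Real.norm_eq_abs, ← Complex.norm_real]
    congr 1
    simp only [pair, dotProduct, aeval_ofReal, Complex.ofReal_sum, Complex.ofReal_mul, mul_comm]
  · have h1 : 0 ≤ (Fintype.card ι * b + 1) * (N : ℝ) := by positivity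
    rcases hx.eq_or_lt with h | h
    · rw [← h, zero_div, Real.log_zero]
      positivity
    · rw [Real.log_div h.ne' (Real.exp_pos _).ne', Real.log_exp]
      linarith [Real.log_le_self hx]

theorem core_of_good (M : Mod Ω ι) (c : Cyc Ω) (z : ℝ) (hz : 0 < z ∧ z < 1) (t : ι → ℝ)
    (h : ∃ᶠ b in atTop, GoodStage ι c.K z b) : Core M (c.sys z hz t) := by
  intro hlt
  refine le_of_forall_pos_le_add fun ε hε => ?_
  obtain ⟨n₁, C₁, hE⟩ := engine M (c.sys z hz t) hlt hε (Fintype.card ι)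
  obtain ⟨C, hC, hcov⟩ := cov_good t hz
  obtain ⟨b, hb, hG⟩ := frequently_atTop.1 h (n₁ + 4 * C₁ + ⌈C * (1 + c.K)⌉₊ + 1)
  have b1 : 1 ≤ b := by omega
  have b3 : b ≤ b ^ 3 := Nat.le_self_pow (by norm_num) b
  have b9 : b ≤ b ^ 9 := Nat.le_self_pow (by norm_num) b
  have hn₀ : n₁ ≤ 2 ^ b ^ 9 := by have := @Nat.lt_two_pow_self (b ^ 9); omega
  have hlev : ∀ j ≤ C₁ * (b ^ 3 + 1), 2 ^ b ^ 9 * (2 ^ (b ^ 3 + 1)) ^ j ≤ 2 ^ (2 * b ^ 9) := by
    intro j hj
    rw [← pow_mul, ← pow_add]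
    refine Nat.pow_le_pow_right (by norm_num) ?_
    have e1 : (b ^ 3 + 1) * j ≤ (2 * b ^ 3) * (C₁ * (2 * b ^ 3)) :=
      Nat.mul_le_mul (by omega) (hj.trans (Nat.mul_le_mul_left _ (by omega)))
    have e2 : (4 * C₁) * b ^ 6 ≤ b ^ 3 * b ^ 6 := Nat.mul_le_mul_right _ (by omega)
    nlinarith
  have hpos : ∀ j, 1 ≤ (2 ^ (b ^ 3 + 1)) ^ j := fun j => Nat.one_le_pow _ _ (by positivity)
  obtain ⟨s, hs, hsd⟩ := (Dist_finite M (c.sys z hz t) (2 ^ (2 * b ^ 9))).isCompact.exists_forall_le'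
    (f := id) continuousOn_id (a := 0) fun d hd => hd.1
  obtain ⟨j, hj, f, hf⟩ := hE (b ^ 3 + 1) (2 ^ b ^ 9) s (by omega) hn₀ hs fun j hj => by
    obtain ⟨n, hn⟩ : ∃ n, n = 2 ^ b ^ 9 * (2 ^ (b ^ 3 + 1)) ^ j := ⟨_, rfl⟩
    have l1 : 2 ^ b ^ 9 ≤ n := hn ▸ Nat.le_mul_of_pos_right _ (hpos j)
    have l2 : n ≤ 2 ^ (2 * b ^ 9) := hn ▸ hlev j hj
    rw [← hn]
    refine (hcov _ _ (by positivity) (hG n l1 l2)).mono
      (fun d hd => Dist_subset_pair M c z hz t n d hd.1) ?_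
    have n1 : (1 : ℝ) ≤ n := by exact_mod_cast (Nat.one_le_pow _ _ (by norm_num)).trans l1
    have e1 : C * (1 + c.K) ≤ (2 : ℝ) ^ b ^ 3 := by
      refine (Nat.le_ceil _).trans ?_
      have := @Nat.lt_two_pow_self (b ^ 3)
      exact_mod_cast (by omega : ⌈C * (1 + c.K)⌉₊ ≤ 2 ^ b ^ 3)
    rw [pow_succ (2 : ℝ)]
    push_cast
    nlinarith [mul_le_mul_of_nonneg_left e1 (zero_le_one.trans n1), mul_le_mul_of_nonneg_left n1 hC.le]
  exact hR_le_of_classes M _ (Nat.mul_pos (by positivity) (hpos j)) hf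
    fun d hd => hsd d (Dist_mono M _ (hlev j hj) hd)

end Crest.Agent.R98
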