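import Crest.Agent.R98.Window
import Crest.Agent.R98.PolyB

/-!
# R98/Jet: windows from jets at the nearby algebraic number
`ε = z - η`, (below `J` stands for `J + 1` of the statement) index `ι × Fin J`, `y (i, j) = t i * ε^j`, `𝒬 = {(i, j) ↦ aeval η (hasseDeriv j (q i)) | q Bd}`. A determinant with rows in `𝒬` or
`Pi.single` is `aeval η G`, `G` the determinant of the polynomial matrix: degree `≤ d J N`, `l1 ≤ (dJ)! (2 (N+1)^(J+1))^(dJ) ≤ (N+2)^E`
(`det_bounds`, `hasse_bounds`). `cov_of_det` with `e^{-a}`, `(N+2)^E`. By `taylor_rem`,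
`|pair t z q - jet q ⬝ᵥ y| ≤ (∑|t i|) 2 ‖ε‖^J 2^N 2(N+1) ≤ ‖ε‖^(J-1)/2`; `Cov.perturb`.
-/

set_option autoImplicit false

namespace Crest.Agent.R98

open Polynomial

namespace JetAux

/-- the jet of a vector of polynomials -/
noncomputable def jet {ι : Type*} (J : ℕ) (η : ℂ) (q : ι → ℤ[X]) : ι × Fin (J + 1) → ℂ :=
  fun p => aeval η (hasseDeriv p.2 (q p.1))

theorem entry_bounds {N J : ℕ} {p : ℤ[X]} (h : Bd N p) {j : ℕ} (hj : j ≤ J) :
    (hasseDeriv j p).natDegree ≤ N ∧ l1 (hasseDeriv j p) ≤ ((N : ℝ) + 2) ^ (J + 2) := by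
  obtain ⟨h1, h2, -⟩ := hasse_bounds h.1 j
  refine ⟨h1, h2.trans ?_⟩
  have h3 : ((N : ℝ) + 1) ^ j ≤ ((N : ℝ) + 2) ^ J :=
    (pow_le_pow_left₀ (by positivity) (by linarith) j).trans
      (pow_le_pow_right₀ (by linarith [(Nat.cast_nonneg N : (0 : ℝ) ≤ N)]) hj)
  have h4 : l1 p ≤ ((N : ℝ) + 2) ^ 2 := h.l1_le.trans (by nlinarith [(Nat.cast_nonneg N : (0 : ℝ) ≤ N)])
  rw [pow_add]
  exact mul_le_mul h3 h4 (l1_nonneg p) (by positivity)

/-- determinants with rows that are jets or unit vectors are values of controlled polynomials -/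
theorem exists_poly {ι : Type*} [Fintype ι] [DecidableEq ι] (J N : ℕ) (η : ℂ)
    (A : Matrix (ι × Fin (J + 1)) (ι × Fin (J + 1)) ℂ)
    (hA : ∀ r, A r ∈ jet J η '' {q : ι → ℤ[X] | ∀ i, Bd N (q i)} ∨ ∃ c, A r = Pi.single c 1) :
    ∃ G : ℤ[X], G.natDegree ≤ Fintype.card (ι × Fin (J + 1)) * N ∧
      l1 G ≤ (Fintype.card (ι × Fin (J + 1))).factorial *
        (((N : ℝ) + 2) ^ (J + 2)) ^ Fintype.card (ι × Fin (J + 1)) ∧ A.det = aeval η G := by
  have hrow : ∀ r, ∃ P : ι × Fin (J + 1) → ℤ[X], ∀ c,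
      ((P c).natDegree ≤ N ∧ l1 (P c) ≤ ((N : ℝ) + 2) ^ (J + 2)) ∧ A r c = aeval η (P c) := by
    intro r
    rcases hA r with ⟨q, hq, h⟩ | ⟨c₀, h⟩
    · exact ⟨fun c => hasseDeriv c.2 (q c.1), fun c =>
        ⟨entry_bounds (hq c.1) (Nat.lt_succ_iff.1 c.2.2), (congrFun h c).symm⟩⟩
    · refine ⟨fun c => if c = c₀ then 1 else 0, fun c => ?_⟩
      rw [h]
      by_cases hc : c = c₀
      · subst hc
        simpa using entry_bounds (J := J) (bd_one N) (Nat.zero_le J)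
      · simpa [hc] using entry_bounds (J := J) (bd_zero N) (Nat.zero_le J)
  choose P hP using hrow
  obtain ⟨h1, h2⟩ := det_bounds (Matrix.of P) (fun r c => (hP r c).1.1) (fun r c => (hP r c).1.2)
  refine ⟨(Matrix.of P).det, h1, h2, ?_⟩
  rw [AlgHom.map_det]
  congr 1
  ext r c
  exact (hP r c).2

theorem jet_close {ι : Type*} [Fintype ι] (t : ι → ℝ) (z : ℝ) (J N : ℕ) {η : ℂ} (hη : ‖η‖ ≤ 1)
    (hε : ‖(z : ℂ) - η‖ ≤ 1 / 2) {q : ι → ℤ[X]} (hq : ∀ i, Bd N (q i)) :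
    ‖((pair t z q : ℝ) : ℂ) - jet J η q ⬝ᵥ fun p => (t p.1 : ℂ) * ((z : ℂ) - η) ^ (p.2 : ℕ)‖ ≤
      (∑ i, |t i|) * (2 * ‖(z : ℂ) - η‖ ^ (J + 1) * (2 ^ N * (2 * (N + 1)))) := by
  have e1 : ((pair t z q : ℝ) : ℂ) = ∑ i, (t i : ℂ) * aeval (η + ((z : ℂ) - η)) (q i) := by
    unfold pair
    rw [add_sub_cancel]
    push_cast
    exact Finset.sum_congr rfl fun i _ => by rw [aeval_ofReal]
  have e2 : (jet J η q ⬝ᵥ fun p => (t p.1 : ℂ) * ((z : ℂ) - η) ^ (p.2 : ℕ)) =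
      ∑ i, (t i : ℂ) * ∑ j ∈ Finset.range (J + 1),
        aeval η (hasseDeriv j (q i)) * ((z : ℂ) - η) ^ j := by
    unfold dotProduct jet
    rw [Fintype.sum_prod_type]
    refine Finset.sum_congr rfl fun i _ => ?_
    rw [← Fin.sum_univ_eq_sum_range
      (fun j => aeval η (hasseDeriv j (q i)) * ((z : ℂ) - η) ^ j) (J + 1), Finset.mul_sum]
    exact Finset.sum_congr rfl fun j _ => by ring
  rw [e1, e2, ← Finset.sum_sub_distrib, Finset.sum_mul]
  refine (norm_sum_le _ _).trans (Finset.sum_le_sum fun i _ => ?_)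
  rw [← mul_sub, norm_mul, Complex.norm_real, Real.norm_eq_abs]
  refine mul_le_mul_of_nonneg_left ((taylor_rem (hq i).1 hη hε (J + 1)).trans ?_) (abs_nonneg _)
  have := (hq i).l1_le
  gcongr

theorem log_le_of_le_exp {x u : ℝ} (hx : 0 ≤ x) (hu : 0 ≤ u) (h : x ≤ Real.exp u) :
    Real.log x ≤ u := by
  rcases hx.eq_or_lt with h0 | h0
  · rw [← h0, Real.log_zero]; exact hu
  · exact (Real.log_le_iff_le_exp h0).2 h

end JetAux

open JetAux in
theorem cov_jet {ι : Type*} [Fintype ι] (t : ι → ℝ) {z : ℝ} (hz : 0 < z ∧ z < 1) (J : ℕ) :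
    ∃ (E : ℕ) (C : ℝ), 0 < C ∧ ∀ (N : ℕ) (η : ℂ) (a : ℝ), η ≠ z → 0 ≤ a →
      Liou η (E * N) ((N + 2) ^ E) a → ‖(z : ℂ) - η‖ ≤ Real.exp (-(C + C * N)) →
      Cov {d | ‖(z : ℂ) - η‖ ^ J ≤ d ∧ ∃ q : ι → ℤ[X], (∀ i, Bd N (q i)) ∧ d = |pair t z q|}
        (Fintype.card ι * (J + 1)) (a + C + C * N) := by
  classical
  obtain ⟨hz0, hz1⟩ := hz
  set D := Fintype.card (ι × Fin (J + 1)) with hD
  set E := D + D.factorial + (J + 2) * D with hE
  set T := ∑ i, |t i| with hT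
  have hT0 : 0 ≤ T := Finset.sum_nonneg fun i _ => abs_nonneg _
  have hz2 : 0 < 1 - z := sub_pos.2 hz1
  have hz3 : 0 < 1 / (1 - z) := by positivity
  have hD0 : (0 : ℝ) ≤ D := Nat.cast_nonneg D
  have hE0 : (0 : ℝ) ≤ E := Nat.cast_nonneg E
  set C : ℝ := D + E + 3 + 8 * T + 1 / (1 - z) with hC
  refine ⟨E, C, by positivity, fun N η a hηz ha hL hε => ?_⟩
  have hN0 : (0 : ℝ) ≤ N := Nat.cast_nonneg N
  set u := ‖(z : ℂ) - η‖ with hu
  have hu0 : 0 < u := norm_pos_iff.2 (sub_ne_zero.2 hηz.symm)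
  have hC3 : 3 ≤ C := by rw [hC]; linarith
  have huC : u * (Real.exp C * Real.exp (C * N)) ≤ 1 := by
    rwa [Real.exp_neg, Real.exp_add, ← one_div, le_div_iff₀ (by positivity)] at hε
  have hCN : 1 ≤ Real.exp (C * N) := Real.one_le_exp (by positivity)
  have hexpC : C ≤ Real.exp C := by linarith [Real.add_one_le_exp C]
  have huC' : u * C ≤ 1 := by
    refine le_trans (mul_le_mul_of_nonneg_left ?_ hu0.le) huC
    exact hexpC.trans (le_mul_of_one_le_right (Real.exp_pos C).le hCN)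
  have hu2 : u ≤ 1 / 2 := by nlinarith
  have huz : u ≤ 1 - z := by
    have h1 : u * (1 / (1 - z)) ≤ 1 :=
      le_trans (mul_le_mul_of_nonneg_left (by rw [hC]; linarith) hu0.le) huC'
    rwa [mul_one_div, div_le_one hz2] at h1
  have hη1 : ‖η‖ ≤ 1 := by
    have h1 : ‖η‖ ≤ ‖(z : ℂ)‖ + ‖(z : ℂ) - η‖ := by
      simpa using norm_sub_le (z : ℂ) ((z : ℂ) - η)
    rw [Complex.norm_real, Real.norm_of_nonneg hz0.le] at h1
    linarith
  have hN2 : (1 : ℝ) ≤ N + 2 := by linarith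
  have hb1 : (1 : ℝ) ≤ ((N : ℝ) + 2) ^ E := one_le_pow₀ hN2
  have hcov := cov_of_det ((finite_Bd_pi ι N).image (jet J η))
    (fun p => (t p.1 : ℂ) * ((z : ℂ) - η) ^ (p.2 : ℕ)) (Real.exp_pos (-a))
    ((Real.exp_le_one_iff.2 (neg_nonpos.2 ha)).trans hb1) fun A hA hdet => by
      obtain ⟨G, h1, h2, h3⟩ := exists_poly J N η A hA
      have h4 : l1 G ≤ ((N : ℝ) + 2) ^ E := by
        refine h2.trans ?_
        have h5 : (D.factorial : ℝ) ≤ ((N : ℝ) + 2) ^ (D + D.factorial) := by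
          calc (D.factorial : ℝ) ≤ 2 ^ D.factorial := by exact_mod_cast Nat.lt_two_pow_self.le
            _ ≤ ((N : ℝ) + 2) ^ D.factorial := pow_le_pow_left₀ (by norm_num) (by linarith) _
            _ ≤ _ := pow_le_pow_right₀ hN2 (Nat.le_add_left _ _)
        rw [hE, pow_add _ (D + D.factorial), pow_mul]
        exact mul_le_mul_of_nonneg_right h5 (by positivity)
      rw [h3] at hdet ⊢
      refine ⟨hL G (h1.trans (Nat.mul_le_mul_right N (by omega))) h4 hdet, ?_⟩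
      have h6 := norm_aeval_le G η
      rw [max_eq_left hη1, one_pow, mul_one] at h6
      exact h6.trans h4
  have hcard : D = Fintype.card ι * (J + 1) := by rw [hD, Fintype.card_prod, Fintype.card_fin]
  rw [← hcard]
  refine (hcov.perturb ?_).mono subset_rfl ?_
  · rintro d' ⟨hd', q, hq, rfl⟩
    have h1 := jet_close t z J N hη1 hu2 hq
    have h2 : T * (2 * u ^ (J + 1) * (2 ^ N * (2 * (N + 1)))) ≤ u ^ J / 2 := by
      have a1 : (N : ℝ) + 1 ≤ Real.exp N := Real.add_one_le_exp N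
      have a2 : (2 : ℝ) ^ N ≤ Real.exp N := by
        rw [← mul_one (N : ℝ), Real.exp_nat_mul]
        exact pow_le_pow_left₀ (by norm_num) (by linarith [Real.add_one_le_exp 1]) N
      have a3 : (2 : ℝ) ^ N * (N + 1) ≤ Real.exp (C * N) := by
        refine (mul_le_mul a2 a1 (by positivity) (Real.exp_pos _).le).trans ?_
        rw [← Real.exp_add]
        exact Real.exp_le_exp.2 (by nlinarith)
      have a4 : 8 * T ≤ Real.exp C := le_trans (by rw [hC]; linarith) hexpC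
      have a5 : u * (8 * T * (2 ^ N * (N + 1))) ≤ 1 :=
        le_trans (mul_le_mul_of_nonneg_left (mul_le_mul a4 a3 (by positivity) (Real.exp_pos _).le)
          hu0.le) huC
      calc T * (2 * u ^ (J + 1) * (2 ^ N * (2 * (N + 1))))
          = u ^ J / 2 * (u * (8 * T * (2 ^ N * (N + 1)))) := by ring
        _ ≤ u ^ J / 2 := mul_le_of_le_one_right (by positivity) a5
    have h3 := abs_norm_sub_norm_le ((pair t z q : ℝ) : ℂ)
      (jet J η q ⬝ᵥ fun p => (t p.1 : ℂ) * ((z : ℂ) - η) ^ (p.2 : ℕ))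
    rw [Complex.norm_real, Real.norm_eq_abs] at h3
    obtain ⟨h4, h5⟩ := abs_le.1 (h3.trans (h1.trans h2))
    have h6 : 0 < u ^ J := pow_pos hu0 J
    exact ⟨_, ⟨by linarith, _, ⟨q, hq, rfl⟩, rfl⟩, by linarith, by linarith⟩
  · have h1 : Real.log 4 ≤ 3 := by linarith [Real.log_le_sub_one_of_pos (show (0 : ℝ) < 4 by norm_num)]
    have h2 : Real.log (D * ((N : ℝ) + 2) ^ E / Real.exp (-a)) ≤ D + E * (N + 1) + a := by
      refine log_le_of_le_exp (by positivity) (by positivity) ?_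
      rw [Real.exp_neg, div_inv_eq_mul, Real.exp_add, Real.exp_add, Real.exp_nat_mul]
      have a1 : (D : ℝ) ≤ Real.exp D := by linarith [Real.add_one_le_exp (D : ℝ)]
      have a2 : (N : ℝ) + 2 ≤ Real.exp (N + 1) := by linarith [Real.add_one_le_exp ((N : ℝ) + 1)]
      gcongr
    have h3 : (E : ℝ) * N ≤ C * N := mul_le_mul_of_nonneg_right (by rw [hC]; linarith) hN0
    have h4 : D + E + 3 ≤ C := by rw [hC]; linarith
    linarith

end Crest.Agent.R98
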