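import Crest.Agent.R98.Mahler

/-!
# R98/Near: a bad stage produces an extremely close algebraic number
At a bad stage `b` there are `n ∈ [2^(b^9), 2^(2b^9)]` and `D₀ = det A` with `0 < |D₀ z| < exp (-n 2^(b³))`, degree `≤ d K n`,
`l1 ≤ d! (2(Kn+1))^d =: B₀` (`det_bounds`). With `δ = exp (-n 2^(C₁ b² + b))`, `eval_ge_of_roots_far` fails for large `b`
(`C d K n + C log B₀ · n 2^(C₁b²+b) ≤ n 2^(b³)` as `log B₀ ≤ C b^9`), so some root `η` has `‖z - η‖ < δ`; `η ≠ z` since `D₀ z ≠ 0`.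
`liouville` gives the last claim (`log (K n' + 2) ≤ C b^9`, `C b^9 ≤ 2^b`).
-/

set_option autoImplicit false

namespace Crest.Agent.R98

open Polynomial Filter

theorem near_poly_le (A : ℝ) : ∀ᶠ b : ℕ in atTop, A * (b : ℝ) ^ 9 ≤ 2 ^ b := by
  have h := (tendsto_pow_const_div_const_pow_of_one_lt 9 (r := (2 : ℝ)) one_lt_two).const_mul A
  rw [mul_zero] at h
  filter_upwards [h.eventually (gt_mem_nhds one_pos)] with b hb
  rw [← mul_div_assoc, div_lt_one (by positivity)] at hb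
  exact hb.le

theorem near_log_le {x : ℝ} {c e : ℕ} (hx : 0 < x) (h : x ≤ (c + 1) * 2 ^ e) :
    Real.log x ≤ c + e := by
  refine (Real.log_le_log hx h).trans ?_
  rw [Real.log_mul (by positivity) (by positivity), Real.log_pow]
  have h1 := Real.log_le_sub_one_of_pos (show (0 : ℝ) < c + 1 by positivity)
  have h2 := Real.log_le_sub_one_of_pos (show (0 : ℝ) < 2 by norm_num)
  have h3 := mul_le_mul_of_nonneg_left h2 (Nat.cast_nonneg (α := ℝ) e)
  linarith

theorem Liou.mono_a {η : ℂ} {N : ℕ} {B a a' : ℝ} (h : Liou η N B a) (ha : a ≤ a') : Liou η N B a' :=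
  fun G h1 h2 h3 => (Real.exp_le_exp.2 (neg_le_neg ha)).trans (h G h1 h2 h3)

theorem exists_near (ι : Type*) [Fintype ι] (K : ℕ) {z : ℝ} (hz : 0 < z ∧ z < 1)
    (h : ¬ ∃ᶠ b in atTop, GoodStage ι K z b) (C₁ E : ℕ) :
    ∀ᶠ b : ℕ in atTop, ∃ (n : ℕ) (η : ℂ), b ≤ n ∧ η ≠ z ∧
      ‖(z : ℂ) - η‖ ≤ Real.exp (-(n * 2 ^ (C₁ * b ^ 2 + b))) ∧
      ∀ n' : ℕ, n ≤ n' → n' ≤ n * 2 ^ (C₁ * b ^ 2) →
        Liou η (E * (K * n')) ((K * n' + 2) ^ E) (n' * 2 ^ b / 4) := by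
  classical
  obtain ⟨C, hC, hfar⟩ := eval_ge_of_roots_far hz
  set d : ℕ := Fintype.card ι with hd
  set c : ℝ := d.factorial + d * (2 * K + 3) with hc
  set c' : ℝ := K + 3 + C₁ with hc'
  have hc0 : 0 ≤ c := by positivity
  have hc'0 : 0 ≤ c' := by positivity
  filter_upwards [not_frequently.1 h, near_poly_le (C * (d * K) + C * c),
    near_poly_le (4 * (d * K * (E * c') + E * K * c)), eventually_ge_atTop (C₁ + 2)]
    with b hb h1 h2 h3
  simp only [GoodStage, GoodAt, not_forall, not_le] at hb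
  obtain ⟨n, hn1, hn2, A, hA, hA0, hAs⟩ := hb
  have hb1 : 1 ≤ b := by omega
  have hb9 : (1 : ℝ) ≤ (b : ℝ) ^ 9 := one_le_pow₀ (by exact_mod_cast hb1)
  have hbn : b ≤ n := (Nat.le_self_pow (by norm_num) b).trans (Nat.lt_two_pow_self.le.trans hn1)
  have hn0 : (1 : ℝ) ≤ n := by exact_mod_cast hb1.trans hbn
  have hn2' : (n : ℝ) ≤ 2 ^ (2 * b ^ 9) := by exact_mod_cast hn2
  have hK : (0 : ℝ) ≤ K := Nat.cast_nonneg K
  obtain ⟨hdeg, hl1⟩ := det_bounds A (fun i j => (hA i j).1) fun i j => (hA i j).l1_le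
  rw [← hd] at hdeg hl1
  have hD0 : A.det ≠ 0 := fun h0 => hA0 (by rw [h0, map_zero])
  have hlogB : Real.log (d.factorial * (2 * (((K * n : ℕ) : ℝ) + 1)) ^ d) ≤ c * (b : ℝ) ^ 9 := by
    have h4 : Real.log (2 * (((K * n : ℕ) : ℝ) + 1)) ≤ ((2 * K + 1 : ℕ) : ℝ) + ((2 * b ^ 9 : ℕ) : ℝ) := by
      refine near_log_le (by positivity) ?_
      have := mul_le_mul_of_nonneg_left hn2' (show (0 : ℝ) ≤ 2 * K + 2 by positivity)
      push_cast
      nlinarith
    push_cast at h4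
    have h5 := Real.log_le_sub_one_of_pos (show (0 : ℝ) < d.factorial by positivity)
    have h6 := mul_le_mul_of_nonneg_left h4 (Nat.cast_nonneg (α := ℝ) d)
    have h7 := mul_le_mul_of_nonneg_left hb9
      (show (0 : ℝ) ≤ d.factorial + d * (2 * K + 1) by positivity)
    rw [Real.log_mul (by positivity) (by positivity), Real.log_pow, hc]
    push_cast
    nlinarith
  generalize ((d.factorial : ℝ) * (2 * (((K * n : ℕ) : ℝ) + 1)) ^ d) = B₀ at hl1 hlogB
  have hex : ∃ η : ℂ, aeval η A.det = 0 ∧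
      ‖(z : ℂ) - η‖ ≤ Real.exp (-(n * 2 ^ (C₁ * b ^ 2 + b))) := by
    by_contra hcon
    push Not at hcon
    have h4 := hfar A.det (d * (K * n)) B₀ _ hD0 hdeg hl1 (Real.exp_pos _)
      (Real.exp_le_one_iff.2 (neg_nonpos.2 (by positivity))) fun η hη _ => (hcon η hη).le
    rw [one_div, Real.log_inv, Real.log_exp, neg_neg] at h4
    refine absurd (Real.exp_lt_exp.1 (h4.trans_lt hAs)) (not_lt.2 (neg_le_neg ?_))
    have h5 : (2 : ℝ) ^ b * 2 ^ (C₁ * b ^ 2 + b) ≤ 2 ^ (b ^ 3) := by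
      rw [← pow_add]
      refine pow_le_pow_right₀ one_le_two ?_
      have := Nat.mul_le_mul_right (b ^ 2) h3
      nlinarith
    have h6 : (1 : ℝ) ≤ 2 ^ (C₁ * b ^ 2 + b) := one_le_pow₀ one_le_two
    generalize (2 : ℝ) ^ (C₁ * b ^ 2 + b) = P at h5 h6 ⊢
    have h7 : C * (d * K) ≤ C * (d * K) * (b : ℝ) ^ 9 * P := by
      rw [mul_assoc]
      exact le_mul_of_one_le_right (by positivity) (one_le_mul_of_one_le_of_one_le hb9 h6)
    have h8 : C * Real.log B₀ * P ≤ C * (c * (b : ℝ) ^ 9) * P :=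
      mul_le_mul_of_nonneg_right (mul_le_mul_of_nonneg_left hlogB hC.le) (by linarith)
    have h9 := mul_le_mul_of_nonneg_right h1 (show 0 ≤ P by linarith)
    have h10 : C * (d * K) + C * Real.log B₀ * P ≤ 2 ^ (b ^ 3) := by linarith
    have h11 := mul_le_mul_of_nonneg_left h10 (show (0 : ℝ) ≤ n by linarith)
    push_cast
    linarith
  obtain ⟨η, hη, hclose⟩ := hex
  refine ⟨n, η, hbn, fun e => hA0 ?_, hclose, fun n' hn' hn'' => ?_⟩
  · rw [e, aeval_ofReal] at hη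
    exact_mod_cast hη
  have hnn : (n : ℝ) ≤ n' := by exact_mod_cast hn'
  have hn'2 : (n' : ℝ) ≤ 2 ^ (2 * b ^ 9 + C₁ * b ^ 2) := by
    rw [pow_add]
    have : (n' : ℝ) ≤ n * 2 ^ (C₁ * b ^ 2) := by exact_mod_cast hn''
    exact this.trans (mul_le_mul_of_nonneg_right hn2' (by positivity))
  have hlog : Real.log (K * n' + 2) ≤ c' * (b : ℝ) ^ 9 := by
    have h4 : Real.log (K * n' + 2) ≤ ((K + 1 : ℕ) : ℝ) + ((2 * b ^ 9 + C₁ * b ^ 2 : ℕ) : ℝ) := by
      refine near_log_le (by positivity) ?_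
      have := mul_le_mul_of_nonneg_left hn'2 (show (0 : ℝ) ≤ K + 2 by positivity)
      push_cast
      nlinarith
    push_cast at h4
    have h5 : (b : ℝ) ^ 2 ≤ (b : ℝ) ^ 9 := pow_le_pow_right₀ (by exact_mod_cast hb1) (by norm_num)
    have h6 := mul_le_mul_of_nonneg_left h5 (Nat.cast_nonneg (α := ℝ) C₁)
    have h7 := mul_le_mul_of_nonneg_left hb9 (show (0 : ℝ) ≤ K + 1 by positivity)
    rw [hc']
    nlinarith
  refine (liouville hD0 hη hdeg hl1 (E * (K * n')) (B := (K * n' + 2) ^ E)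
    (one_le_pow₀ (by nlinarith))).mono_a ?_
  rw [Real.log_pow]
  have h4 : ((d * (K * n) : ℕ) : ℝ) * (E * Real.log (K * n' + 2)) ≤
      (d * (K * n')) * (E * (c' * (b : ℝ) ^ 9)) := by
    push_cast
    refine mul_le_mul (by gcongr) (by gcongr) ?_ (by positivity)
    exact mul_nonneg (Nat.cast_nonneg _) (Real.log_nonneg (by nlinarith))
  have h5 : ((E * (K * n') : ℕ) : ℝ) * Real.log B₀ ≤ (E * (K * n')) * (c * (b : ℝ) ^ 9) := by
    push_cast
    exact mul_le_mul_of_nonneg_left hlogB (by positivity)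
  have h6 := mul_le_mul_of_nonneg_left h2 (Nat.cast_nonneg (α := ℝ) n')
  linarith

end Crest.Agent.R98
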