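import Crest.Agent.R98.PolyB

/-!
# R98/Vanish: determinants of very small relations are small near `z`
Let `D = det A`, `ε = z - η`. (1) Cramer: `t i₀ * D(z)` is the determinant with column `i₀` replaced by the values `pair t z (A i)`
(`Matrix.det_updateCol_sum` / `Matrix.cramer`), entries bounded by `2/(1-z)`, so `|D z| ≤ C_t ‖ε‖^J`. (2) All `aeval η (hasseDeriv j D)`, `j < J`, vanish:
else take the least `j₀`; `taylor_rem` (with `j₀ + 1`) and `Liou` give `|D z| ≥ ‖ε‖^j₀ (e^{-a} - 2‖ε‖ 2^{dN} l1 D) > C_t ‖ε‖^(j₀+1)`.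
(3) So `(X - η)^J ∣ D` over `ℂ` (`Polynomial.taylor`, `X_pow_dvd_iff`); maximum principle for the quotient on the disc `|w - η| ≤ ρ₁ = (1-z)/2`
(`Complex.norm_le_of_forall_mem_frontier_norm_le`), where `|D| ≤ C₀ = d! (8/(1-z))^d` (`norm_aeval_le_of_coeff`, `Matrix.det_le`-type bound);
`ρ₂ = ρ₁/4`.
-/

set_option autoImplicit false

namespace Crest.Agent.R98

open Polynomial

theorem van_norm_det_le {I : Type*} [Fintype I] [DecidableEq I] (M : Matrix I I ℂ) {x : ℝ}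
    (h : ∀ i j, ‖M i j‖ ≤ x) : ‖M.det‖ ≤ (Fintype.card I).factorial * x ^ Fintype.card I := by
  have := Matrix.det_le (A := M) (abv := NormedField.toAbsoluteValue ℂ) (x := x) h
  rw [nsmul_eq_mul] at this
  exact this

theorem van_aeval_det {I : Type*} [Fintype I] [DecidableEq I] (A : Matrix I I ℤ[X]) (w : ℂ) :
    aeval w A.det = (Matrix.of fun i j => aeval w (A i j)).det := by
  rw [AlgHom.map_det]
  rfl

/-- the determinant is bounded inside the unit disc -/
theorem van_det_bound {I : Type*} [Fintype I] [DecidableEq I] {N : ℕ} {A : Matrix I I ℤ[X]}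
    (hA : ∀ i j, Bd N (A i j)) {w : ℂ} {r K : ℝ} (hw : ‖w‖ ≤ r) (hr : r < 1) (hK : 2 / (1 - r) ≤ K) :
    ‖aeval w A.det‖ ≤ (Fintype.card I).factorial * K ^ Fintype.card I := by
  rw [van_aeval_det]
  exact van_norm_det_le _ fun i j => (norm_aeval_le_of_coeff (hA i j).2 hw hr).trans hK

/-- Cramer -/
theorem van_cramer {I : Type*} [Fintype I] [DecidableEq I] (t : I → ℝ) (i₀ : I) {z : ℝ}
    (hz : 0 < z ∧ z < 1) {N : ℕ} {A : Matrix I I ℤ[X]} (hA : ∀ i j, Bd N (A i j)) {δ : ℝ} (hδ : 0 < δ)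
    (hp : ∀ i, |pair t z (A i)| ≤ δ) :
    |t i₀| * ‖aeval (z : ℂ) A.det‖ ≤
      δ * ((Fintype.card I).factorial * (2 / (1 - z)) ^ Fintype.card I) := by
  set M : Matrix I I ℂ := Matrix.of fun i j => aeval (z : ℂ) (A i j) with hM
  have h1 := Matrix.det_updateCol_sum M i₀ (fun i => (t i : ℂ))
  have h2 : (fun k => ∑ i, (t i : ℂ) • M k i) =
      (δ : ℂ) • fun k => ((pair t z (A k) / δ : ℝ) : ℂ) := by
    funext k
    have hδ' : (δ : ℂ) ≠ 0 := by exact_mod_cast hδ.ne'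
    simp only [hM, Matrix.of_apply, smul_eq_mul, Pi.smul_apply, pair, aeval_ofReal]
    push_cast
    field_simp
  rw [h2, Matrix.det_updateCol_smul, smul_eq_mul] at h1
  have hK : 1 ≤ 2 / (1 - z) := by
    rw [le_div_iff₀ (by linarith [hz.2])]; linarith [hz.1]
  have h3 : ‖(M.updateCol i₀ fun k => ((pair t z (A k) / δ : ℝ) : ℂ)).det‖ ≤
      (Fintype.card I).factorial * (2 / (1 - z)) ^ Fintype.card I := by
    refine van_norm_det_le _ fun i j => ?_
    rw [Matrix.updateCol_apply]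
    split_ifs with h
    · rw [Complex.norm_real, Real.norm_eq_abs, abs_div, abs_of_pos hδ]
      exact ((div_le_one hδ).2 (hp i)).trans hK
    · refine norm_aeval_le_of_coeff (hA i j).2 ?_ hz.2
      rw [Complex.norm_real, Real.norm_eq_abs, abs_of_pos hz.1]
  have h4 := congrArg norm h1
  rw [norm_mul, norm_mul, Complex.norm_real, Complex.norm_real, Real.norm_eq_abs, Real.norm_eq_abs,
    abs_of_pos hδ] at h4
  rw [van_aeval_det, ← hM, ← h4]
  exact mul_le_mul_of_nonneg_left h3 hδ.le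

theorem van_hasse_map (p : ℤ[X]) (j : ℕ) (η : ℂ) :
    (hasseDeriv j (p.map (algebraMap ℤ ℂ))).eval η = aeval η (hasseDeriv j p) := by
  rw [← eval_map_algebraMap]
  congr 1
  ext n
  simp [hasseDeriv_coeff, coeff_map]

/-- Schwarz lemma -/
theorem van_schwarz (p : ℤ[X]) (η : ℂ) (J : ℕ) (h0 : ∀ j < J, aeval η (hasseDeriv j p) = 0) {ρ B : ℝ}
    (hρ : 0 < ρ) (hB : ∀ w : ℂ, ‖w - η‖ = ρ → ‖aeval w p‖ ≤ B) {x : ℂ} (hx : ‖x - η‖ ≤ ρ / 2) :
    ‖aeval x p‖ ≤ B / 2 ^ J := by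
  obtain ⟨Q, hQ⟩ : X ^ J ∣ taylor η (p.map (algebraMap ℤ ℂ)) := by
    rw [X_pow_dvd_iff]
    intro j hj
    rw [taylor_coeff, van_hasse_map, h0 j hj]
  have hev : ∀ w : ℂ, aeval w p = (w - η) ^ J * Q.eval (w - η) := by
    intro w
    rw [← eval_map_algebraMap, ← taylor_eval_sub η, hQ]
    simp
  have hρJ : 0 < ρ ^ J := pow_pos hρ J
  have hQb : ‖Q.eval (x - η)‖ ≤ B / ρ ^ J := by
    refine Complex.norm_le_of_forall_mem_frontier_norm_le (f := fun u => Q.eval u)
      (U := Metric.ball 0 ρ) Metric.isBounded_ball Q.differentiable.diffContOnCl ?_ ?_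
    · intro u hu
      rw [frontier_ball _ hρ.ne', mem_sphere_zero_iff_norm] at hu
      have h1 := hB (u + η) (by rw [add_sub_cancel_right]; exact hu)
      rw [hev, add_sub_cancel_right, norm_mul, norm_pow, hu] at h1
      rw [le_div_iff₀ hρJ]
      linarith
    · rw [closure_ball _ hρ.ne', mem_closedBall_zero_iff]
      linarith
  rw [hev, norm_mul, norm_pow]
  calc ‖x - η‖ ^ J * ‖Q.eval (x - η)‖ ≤ (ρ / 2) ^ J * (B / ρ ^ J) :=
        mul_le_mul (pow_le_pow_left₀ (norm_nonneg _) hx J) hQb (norm_nonneg _) (by positivity)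
    _ = B / 2 ^ J := by rw [div_pow]; field_simp

/-- vanishing of the first Hasse derivatives -/
theorem van_vanish (p : ℤ[X]) {n : ℕ} (hn : p.natDegree ≤ n) {η ε : ℂ} (hη : ‖η‖ ≤ 1) (hε : ‖ε‖ ≤ 1 / 2)
    (hε0 : ε ≠ 0) (J : ℕ) {c α : ℝ} (hc : 0 ≤ c) (hp : ‖aeval (η + ε) p‖ ≤ c * ‖ε‖ ^ J)
    (hL : ∀ j < J, aeval η (hasseDeriv j p) ≠ 0 → α ≤ ‖aeval η (hasseDeriv j p)‖)
    (hα : ‖ε‖ * (c + 2 * (2 ^ n * l1 p)) < α) : ∀ j < J, aeval η (hasseDeriv j p) = 0 := by
  intro j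
  induction j using Nat.strong_induction_on with
  | _ j ih =>
    intro hj
    by_contra hne
    have h1 := hL j hj hne
    have h2 := taylor_rem hn hη hε (j + 1)
    rw [Finset.sum_range_succ, Finset.sum_eq_zero (fun i hi => by
      rw [ih i (Finset.mem_range.1 hi) ((Finset.mem_range.1 hi).trans hj), zero_mul]), zero_add] at h2
    have h3 : ‖aeval η (hasseDeriv j p) * ε ^ j‖ ≤
        ‖aeval (η + ε) p‖ + ‖aeval (η + ε) p - aeval η (hasseDeriv j p) * ε ^ j‖ := by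
      have := norm_sub_le (aeval (η + ε) p) (aeval (η + ε) p - aeval η (hasseDeriv j p) * ε ^ j)
      rwa [sub_sub_cancel] at this
    have he : 0 < ‖ε‖ := norm_pos_iff.2 hε0
    have h4 : ‖ε‖ ^ J ≤ ‖ε‖ ^ (j + 1) := pow_le_pow_of_le_one he.le (by linarith) hj
    have h5 := mul_le_mul_of_nonneg_left h4 hc
    rw [norm_mul, norm_pow] at h3
    have h6 : 0 < ‖ε‖ ^ j := pow_pos he j
    have h7 : α * ‖ε‖ ^ j ≤ ‖ε‖ * (c + 2 * (2 ^ n * l1 p)) * ‖ε‖ ^ j := by
      have := mul_le_mul_of_nonneg_right h1 h6.le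
      rw [pow_succ] at h2 h5
      nlinarith
    have h8 := mul_lt_mul_of_pos_right hα h6
    linarith

theorem van_count (d J N j : ℕ) (hj : j < J) :
    (((d * N : ℕ) : ℝ) + 1) ^ j * (d.factorial * (2 * ((N : ℝ) + 1)) ^ d) ≤
      ((N : ℝ) + 2) ^ (d * J + d.factorial + 2 * d) := by
  have hN : (0 : ℝ) ≤ N := Nat.cast_nonneg N
  have h1 : ((d * N : ℕ) : ℝ) + 1 ≤ ((N : ℝ) + 2) ^ d := by
    have := one_add_mul_le_pow (a := (N : ℝ) + 1) (by linarith) d
    have hd : (0 : ℝ) ≤ d := Nat.cast_nonneg d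
    push_cast
    have h2 : (1 : ℝ) + (N + 1) = N + 2 := by ring
    rw [h2] at this
    nlinarith
  have h2 : (((d * N : ℕ) : ℝ) + 1) ^ j ≤ ((N : ℝ) + 2) ^ (d * J) := by
    calc (((d * N : ℕ) : ℝ) + 1) ^ j ≤ (((N : ℝ) + 2) ^ d) ^ j :=
          pow_le_pow_left₀ (by positivity) h1 j
      _ ≤ (((N : ℝ) + 2) ^ d) ^ J := pow_le_pow_right₀ (one_le_pow₀ (by linarith)) hj.le
      _ = _ := by rw [← pow_mul]
  have h3 : (d.factorial : ℝ) ≤ ((N : ℝ) + 2) ^ d.factorial := by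
    have : d.factorial < 2 ^ d.factorial := Nat.lt_two_pow_self
    have h4 : (d.factorial : ℝ) ≤ 2 ^ d.factorial := by exact_mod_cast this.le
    exact h4.trans (pow_le_pow_left₀ (by norm_num) (by linarith) _)
  have h4 : (2 * ((N : ℝ) + 1)) ^ d ≤ ((N : ℝ) + 2) ^ (2 * d) := by
    rw [pow_mul]
    exact pow_le_pow_left₀ (by positivity) (by nlinarith) d
  rw [pow_add, pow_add, mul_assoc]
  exact mul_le_mul h2 (mul_le_mul h3 h4 (by positivity) (by positivity)) (by positivity) (by positivity)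

theorem van_growth (d N : ℕ) : (2 : ℝ) ^ (d * N) * (2 * ((N : ℝ) + 1)) ^ d ≤
    2 ^ d * Real.exp (2 * d * N) := by
  have h1 : (N : ℝ) + 1 ≤ 2 ^ N := by
    have : N < 2 ^ N := Nat.lt_two_pow_self
    exact_mod_cast this
  have h2 : (2 : ℝ) ≤ Real.exp 1 := by have := Real.add_one_le_exp 1; linarith
  have h3 : (2 : ℝ) ^ (d * N) ≤ Real.exp (d * N) := by
    calc (2 : ℝ) ^ (d * N) ≤ Real.exp 1 ^ (d * N) := pow_le_pow_left₀ (by norm_num) h2 _
      _ = Real.exp (d * N) := by rw [← Real.exp_nat_mul]; push_cast; ring_nf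
  have h4 : ((N : ℝ) + 1) ^ d ≤ 2 ^ (d * N) := by
    rw [mul_comm d N, pow_mul]
    exact pow_le_pow_left₀ (by positivity) h1 d
  have h5 : Real.exp (2 * d * N) = Real.exp (d * N) * Real.exp (d * N) := by
    rw [← Real.exp_add]; ring_nf
  rw [mul_pow, h5]
  have h6 : (0 : ℝ) < 2 ^ d := by positivity
  calc (2 : ℝ) ^ (d * N) * (2 ^ d * ((N : ℝ) + 1) ^ d) = 2 ^ d * (2 ^ (d * N) * ((N : ℝ) + 1) ^ d) := by
        ring
    _ ≤ 2 ^ d * (Real.exp (d * N) * Real.exp (d * N)) :=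
        mul_le_mul_of_nonneg_left (mul_le_mul h3 (h4.trans h3) (by positivity) (by positivity)) h6.le

theorem det_small {I : Type*} [Fintype I] [DecidableEq I] (t : I → ℝ) {i₀ : I} (ht : t i₀ ≠ 0) {z : ℝ}
    (hz : 0 < z ∧ z < 1) : ∃ ρ₂ C₀ : ℝ, 0 < ρ₂ ∧ 0 < C₀ ∧ ∀ J : ℕ, ∃ (E : ℕ) (C : ℝ), 0 < C ∧
      ∀ (N : ℕ) (η : ℂ) (a : ℝ), η ≠ z → 0 ≤ a → Liou η (E * N) ((N + 2) ^ E) a →
        ‖(z : ℂ) - η‖ ≤ Real.exp (-(a + C + C * N)) →
        ∀ A : Matrix I I ℤ[X], (∀ i j, Bd N (A i j)) → (∀ i, |pair t z (A i)| ≤ ‖(z : ℂ) - η‖ ^ J) →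
          ∀ x : ℝ, |x - z| ≤ ρ₂ → |aeval x A.det| ≤ C₀ / 2 ^ J := by
  have h1z : 0 < 1 - z := by linarith [hz.2]
  set d := Fintype.card I with hd
  have hfac : (0 : ℝ) < d.factorial := by exact_mod_cast d.factorial_pos
  refine ⟨(1 - z) / 8, d.factorial * (8 / (1 - z)) ^ d, by positivity, by positivity, fun J => ?_⟩
  have ht' : 0 < |t i₀| := abs_pos.2 ht
  set c : ℝ := d.factorial * (2 / (1 - z)) ^ d / |t i₀| with hc
  have hc0 : 0 < c := by positivity
  set c' : ℝ := c + 2 * (d.factorial * 2 ^ d) with hc'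
  have hc'0 : 0 < c' := by positivity
  have h8 : 0 < 8 / (1 - z) := by positivity
  have hd0 : (0 : ℝ) ≤ d := Nat.cast_nonneg d
  refine ⟨d * J + d.factorial + 2 * d, c' + 2 * d + 8 / (1 - z), by positivity, ?_⟩
  intro N η a hη ha hL hε A hA hp x hx
  set C : ℝ := c' + 2 * d + 8 / (1 - z) with hC
  have hN : (0 : ℝ) ≤ N := Nat.cast_nonneg N
  have hC0 : 0 < C := by positivity
  set ε : ℂ := z - η with hεdef
  have hε0 : ε ≠ 0 := sub_ne_zero.2 hη.symm
  have he : 0 < ‖ε‖ := norm_pos_iff.2 hε0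
  have hεs : ‖ε‖ ≤ (1 - z) / 8 := by
    have h1 : Real.exp (-(a + C + C * N)) ≤ Real.exp (-C) :=
      Real.exp_le_exp.2 (by nlinarith)
    have h2 : 8 / (1 - z) ≤ Real.exp C := by
      have := Real.add_one_le_exp C
      linarith
    have h3 : Real.exp (-C) ≤ (1 - z) / 8 := by
      rw [Real.exp_neg, ← inv_div]
      exact inv_anti₀ h8 h2
    linarith
  have hzn : ‖(z : ℂ)‖ = z := by rw [Complex.norm_real, Real.norm_eq_abs, abs_of_pos hz.1]
  have hηn : ‖η‖ ≤ z + (1 - z) / 8 := by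
    have h1 : η = z - ε := by rw [hεdef]; ring
    have h2 := norm_sub_le (z : ℂ) ε
    rw [← h1, hzn] at h2
    linarith
  obtain ⟨hdeg, hl1⟩ := det_bounds A (N := N) (B := 2 * (N + 1)) (fun i j => (hA i j).1)
    (fun i j => (hA i j).l1_le)
  rw [← hd] at hdeg hl1
  have hcr := van_cramer t i₀ hz hA (pow_pos he J) hp
  rw [← hd] at hcr
  have hz' : η + ε = z := by rw [hεdef]; ring
  have hvan : ∀ j < J, aeval η (hasseDeriv j A.det) = 0 := by
    refine van_vanish A.det hdeg (by linarith) (by linarith [hz.1]) hε0 J (c := c) (α := Real.exp (-a))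
      hc0.le ?_ ?_ ?_
    · rw [hz', hc, div_mul_eq_mul_div, le_div_iff₀ ht']
      linarith
    · intro j hj hne
      obtain ⟨g1, g2, -⟩ := hasse_bounds hdeg j
      refine hL _ (g1.trans (Nat.mul_le_mul_right N (by omega))) (g2.trans ?_) hne
      refine le_trans ?_ (van_count d J N j hj)
      exact mul_le_mul_of_nonneg_left hl1 (by positivity)
    · have g1 := van_growth d N
      have g2 : (2 : ℝ) ^ (d * N) * l1 A.det ≤ d.factorial * 2 ^ d * Real.exp (2 * d * N) := by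
        calc (2 : ℝ) ^ (d * N) * l1 A.det ≤ 2 ^ (d * N) * (d.factorial * (2 * ((N : ℝ) + 1)) ^ d) :=
              mul_le_mul_of_nonneg_left hl1 (by positivity)
          _ = d.factorial * (2 ^ (d * N) * (2 * ((N : ℝ) + 1)) ^ d) := by ring
          _ ≤ d.factorial * (2 ^ d * Real.exp (2 * d * N)) := mul_le_mul_of_nonneg_left g1 hfac.le
          _ = _ := by ring
      have g3 : 1 ≤ Real.exp (2 * d * N) := Real.one_le_exp (by positivity)
      have g4 : c + 2 * (2 ^ (d * N) * l1 A.det) ≤ c' * Real.exp (2 * d * N) := by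
        rw [hc']; nlinarith
      have g5 : Real.exp (2 * d * N) ≤ Real.exp (C * N) :=
        Real.exp_le_exp.2 (mul_le_mul_of_nonneg_right (by rw [hC]; linarith) hN)
      have g6 : c' < Real.exp C := by
        have := Real.add_one_le_exp C
        linarith
      have g7 : c + 2 * (2 ^ (d * N) * l1 A.det) < Real.exp C * Real.exp (C * N) :=
        lt_of_le_of_lt (g4.trans (mul_le_mul_of_nonneg_left g5 hc'0.le))
          (mul_lt_mul_of_pos_right g6 (Real.exp_pos _))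
      calc ‖ε‖ * (c + 2 * (2 ^ (d * N) * l1 A.det)) < ‖ε‖ * (Real.exp C * Real.exp (C * N)) :=
            mul_lt_mul_of_pos_left g7 he
        _ ≤ Real.exp (-(a + C + C * N)) * (Real.exp C * Real.exp (C * N)) :=
            mul_le_mul_of_nonneg_right hε (by positivity)
        _ = Real.exp (-a) := by rw [← Real.exp_add, ← Real.exp_add]; ring_nf
  have hfin := van_schwarz A.det η J hvan (ρ := (1 - z) / 2) (B := d.factorial * (8 / (1 - z)) ^ d)
    (by positivity) (fun w hw => by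
      have h1 : ‖w‖ ≤ z + 5 * (1 - z) / 8 := by
        have h2 := norm_add_le (w - η) η
        rw [sub_add_cancel, hw] at h2
        linarith
      refine van_det_bound hA h1 (by linarith) ?_
      rw [div_le_div_iff₀ (by linarith) h1z]
      linarith) (x := (x : ℂ)) (by
      have h1 : (x : ℂ) - η = ((x - z : ℝ) : ℂ) + ε := by rw [hεdef]; push_cast; ring
      have h2 := norm_add_le ((x - z : ℝ) : ℂ) ε
      rw [← h1, Complex.norm_real, Real.norm_eq_abs] at h2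
      linarith)
  rwa [aeval_ofReal, Complex.norm_real, Real.norm_eq_abs] at hfin

end Crest.Agent.R98
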