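import Crest.Agent.R98.Engine
import Crest.Agent.R98.Near
import Crest.Agent.R98.Jet
import Crest.Agent.R98.Vanish

/-!
# R98/CaseII: data in the Liouville case
Fix `J`. `E` = max of the exponents of `cov_jet t (J+1)` and `det_small (t restricted to I) J` (`Liou` is antitone in `N`, `B`), `n₁ C₁` from `engine`
with `R = card ι * (J+2)`, `exists_near` with `C₁, E`, `b` large. Apply `engine` with `a = b`, `n₀ = n`, `s = ‖z - η‖^(J+1)`
(`Dist_subset_pair`, `Cov.mono`; `n' 2^b/4 + C + C K n' ≤ n' 2^b`). At the level `n'` produced, `θ = ‖z - η‖^J`.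
-/

set_option autoImplicit false

namespace Crest.Agent.R98

open Polynomial Filter

variable {Ω ι : Type*} [Fintype Ω] [Fintype ι]

theorem Liou.mono {η : ℂ} {N N' : ℕ} {B B' a : ℝ} (h : Liou η N B a) (hN : N' ≤ N) (hB : B' ≤ B) :
    Liou η N' B' a := by
  intro G h1 h2 h3
  exact h G (h1.trans hN) (h2.trans hB) h3

theorem caseII_data (M : Mod Ω ι) (c : Cyc Ω) (z : ℝ) (hz : 0 < z ∧ z < 1) (t : ι → ℝ)
    (h : eR M (c.sys z hz t) < chi M (c.sys z hz t)) (hbad : ¬ ∃ᶠ b in atTop, GoodStage ι c.K z b)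
    {I : Type*} [Fintype I] [DecidableEq I] (tI : I → ℝ) {i₀ : I} (ht : tI i₀ ≠ 0) {ε : ℝ} (hε : 0 < ε) :
    ∃ ρ₂ C₀ : ℝ, 0 < ρ₂ ∧ ∀ J : ℕ, ∃ (n : ℕ) (s θ : ℝ) (f : List Ω → ℝ → List Bool), J ≤ n ∧
      Classes M (c.sys z hz t) n (eR M (c.sys z hz t) + ε) s f ∧ s ≤ θ * z ^ (c.K * n) ∧
      θ ≤ 1 / 2 ^ J ∧
      ∀ A : Matrix I I ℤ[X], (∀ i j, Bd (c.K * n) (A i j)) → (∀ i, |pair tI z (A i)| ≤ θ) →
        ∀ x : ℝ, |x - z| ≤ ρ₂ → |aeval x A.det| ≤ C₀ / 2 ^ J := by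
  obtain ⟨ρ₂, C₀, hρ, -, hdet⟩ := det_small tI ht hz
  refine ⟨ρ₂, C₀, hρ, fun J => ?_⟩
  obtain ⟨E₂, D₂, hD₂, hdet⟩ := hdet J
  obtain ⟨E₁, D₁, hD₁, hcov⟩ := cov_jet t hz (J + 1)
  obtain ⟨n₁, C₁, heng⟩ := engine M _ h hε (Fintype.card ι * (J + 1 + 1))
  have hpow : Tendsto (fun b : ℕ => (2 : ℝ) ^ b) atTop atTop :=
    tendsto_pow_atTop_atTop_of_one_lt one_lt_two
  obtain ⟨b, ⟨n, η, hbn, hη, hnear, hliou⟩, hb1, hb2, hb3, hb4, hb5, hb6⟩ :=
    ((exists_near ι c.K hz hbad C₁ (max E₁ E₂)).and ((eventually_ge_atTop 1).and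
      ((eventually_ge_atTop n₁).and ((eventually_ge_atTop J).and
      ((hpow.eventually_ge_atTop (2 * (D₁ + D₁ * c.K))).and
      ((hpow.eventually_ge_atTop (2 * (D₂ + D₂ * c.K))).and
      (hpow.eventually_ge_atTop (c.K * -Real.log z)))))))).exists
  have hr0 : 0 < ‖(z : ℂ) - η‖ := norm_pos_iff.mpr (sub_ne_zero.mpr hη.symm)
  have h2b : (1 : ℝ) ≤ 2 ^ b := one_le_pow₀ one_le_two
  -- facts valid at every level
  have key : ∀ j ≤ C₁ * b, ∀ n' : ℕ, n' = n * (2 ^ b) ^ j → n ≤ n' ∧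
      ‖(z : ℂ) - η‖ ≤ Real.exp (-(n' * 2 ^ b)) ∧
      ∀ E ≤ max E₁ E₂, Liou η (E * (c.K * n')) (((c.K * n' : ℕ) + 2) ^ E) (n' * 2 ^ b / 4) := by
    intro j hj n' hn'
    have a1 : n ≤ n' := hn' ▸ Nat.le_mul_of_pos_right _ (by positivity)
    have a2 : n' ≤ n * 2 ^ (C₁ * b ^ 2) := by
      rw [hn', ← pow_mul]
      refine Nat.mul_le_mul_left _ (Nat.pow_le_pow_right (by norm_num) ?_)
      calc b * j ≤ b * (C₁ * b) := Nat.mul_le_mul_left _ hj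
        _ = C₁ * b ^ 2 := by ring
    refine ⟨a1, hnear.trans (Real.exp_le_exp.mpr (neg_le_neg ?_)), fun E hE => ?_⟩
    · rw [pow_add, ← mul_assoc]
      refine mul_le_mul_of_nonneg_right ?_ (by positivity)
      exact_mod_cast a2
    · refine (hliou n' a1 a2).mono (Nat.mul_le_mul_right _ hE) ?_
      push_cast
      refine pow_le_pow_right₀ ?_ hE
      have : (0 : ℝ) ≤ c.K * n' := by positivity
      linarith
  have num : ∀ (D : ℝ) (n' : ℕ), 0 < D → 2 * (D + D * c.K) ≤ 2 ^ b → n ≤ n' →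
      (n' : ℝ) * 2 ^ b / 4 + D + D * (c.K * n' : ℕ) ≤ n' * 2 ^ b := by
    intro D n' hD h1 h2
    have a1 : (1 : ℝ) ≤ n' := by exact_mod_cast hb1.trans (hbn.trans h2)
    have a2 := mul_le_mul_of_nonneg_left h1 (by linarith : (0 : ℝ) ≤ n')
    have a3 := mul_le_mul_of_nonneg_left a1 hD.le
    have a4 : (0 : ℝ) ≤ n' * 2 ^ b := by positivity
    push_cast
    nlinarith
  obtain ⟨j, hj, f, hf⟩ := heng b n (‖(z : ℂ) - η‖ ^ (J + 1)) hb1 (hb2.trans hbn) (by positivity)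
    fun j hj => by
      obtain ⟨a1, a2, a3⟩ := key j hj _ rfl
      have a4 := num D₁ _ hD₁ hb4 a1
      refine (hcov _ η _ hη (by positivity) (a3 E₁ (le_max_left _ _))
        (a2.trans (Real.exp_le_exp.mpr (neg_le_neg ?_)))).mono
        (fun d hd => ⟨hd.2, (Dist_subset_pair M c z hz t _ d hd.1).2⟩) a4
      have : (0 : ℝ) ≤ (n * (2 ^ b) ^ j : ℕ) * 2 ^ b / 4 := by positivity
      linarith
  obtain ⟨a1, a2, a3⟩ := key j hj _ rfl
  set n' := n * (2 ^ b) ^ j with hn'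
  have a4 : (1 : ℝ) ≤ n' := by exact_mod_cast hb1.trans (hbn.trans a1)
  refine ⟨n', _, ‖(z : ℂ) - η‖ ^ J, f, hb3.trans (hbn.trans a1), hf, ?_, ?_,
    hdet _ η _ hη (by positivity) (a3 E₂ (le_max_right _ _))
      (a2.trans (Real.exp_le_exp.mpr (neg_le_neg (num D₂ _ hD₂ hb5 a1))))⟩
  · rw [pow_succ]
    refine mul_le_mul_of_nonneg_left (a2.trans ?_) (by positivity)
    rw [← Real.exp_log (pow_pos hz.1 _), Real.log_pow, Real.exp_le_exp]
    have := mul_le_mul_of_nonneg_left hb6 (by linarith : (0 : ℝ) ≤ n')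
    push_cast
    linarith
  · rw [← one_div_pow]
    refine pow_le_pow_left₀ hr0.le (a2.trans ?_) J
    rw [Real.exp_neg, one_div]
    refine inv_anti₀ two_pos ?_
    have b1 := Real.add_one_le_exp ((n' : ℝ) * 2 ^ b)
    have b2 : (1 : ℝ) ≤ n' * 2 ^ b := one_le_mul_of_one_le_of_one_le a4 h2b
    linarith

end Crest.Agent.R98
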