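import Crest.Agent.R98.Rate

/-!
# R98/Defic: the entropy between any two scales is at most `(e/χ) log N + C`
Let `F n s = E_n Dsc s N ν`, `β = F n' s`. (1) `F (n+1) σ ≥ E_o F n (σ/|ρ o|)` (`nu_append` with `[o] ++ ω`, `Dsc_le_conv`,
`Dsc_dil`); (2) `F (n'+k) σ ≥ F n' σ`; (3) `|Dsc σ N m - Dsc s N m| ≤ C' = 2(ξ + log 3)` for `σ ∈ [s, s e^ξ]`.
Assume `β ≥ C'`. Induction on `k`: for all `0 < σ ≤ s e^ξ`,
`F (n'+k) σ ≥ (β - C') * P_k(|cc| ≤ σ/s)` (if `σ ≥ s` use (2),(3); else (1)). Telescoping over `σ_i = s N^{-i}`, `1 ≤ i ≤ I`: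
`E_{n'+k} Hs σ_I ν ≥ ∑_i F (n'+k) σ_i ≥ (β - C') ∑_i P_k(|cc| ≤ N^{-i})`. Take `I = ⌊χ k / log N⌋`, `k → ∞`
(`exists_dev`, `Hs_nat`, `An_le`). (`N = 1`: `Dsc = 0`.)
-/

set_option autoImplicit false

namespace Crest.Agent.R98

variable {Ω ι : Type*} [Fintype Ω] [Fintype ι] (M : Mod Ω ι) (σ : Sys Ω ι)

theorem defic_lim {a b c : ℝ} (h : ∀ k : ℕ, a * k ≤ b * Real.sqrt k + c) : a ≤ 0 := by
  by_contra ha
  push Not at ha
  obtain ⟨m, hm⟩ := exists_nat_ge ((|b| + |c|) / a + 1)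
  have h1 := h (m ^ 2)
  have hm0 : (0 : ℝ) ≤ m := Nat.cast_nonneg m
  have h0 : 0 ≤ (|b| + |c|) / a := by positivity
  have hm1 : (1 : ℝ) ≤ m := by linarith
  rw [Nat.cast_pow, Real.sqrt_sq hm0] at h1
  have h2 : |b| + |c| + a ≤ a * m := by
    have := mul_le_mul_of_nonneg_left hm ha.le
    rw [mul_add, mul_div_cancel₀ _ ha.ne', mul_one] at this
    exact this
  have h3 : (|b| + |c| + a) * m ≤ a * m * m := mul_le_mul_of_nonneg_right h2 hm0
  have h4 : b * m ≤ |b| * m := mul_le_mul_of_nonneg_right (le_abs_self b) hm0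
  have h5 : c ≤ |c| * m := (le_abs_self c).trans (le_mul_of_one_le_right (abs_nonneg c) hm1)
  have h6 : 0 < a * m := by positivity
  nlinarith

theorem defic_count (I : ℕ) (x : ℝ) :
    min (I : ℝ) (x - 1) ≤ ∑ i ∈ Finset.range I, if (i : ℝ) + 1 ≤ x then (1 : ℝ) else 0 := by
  induction I with
  | zero => simp
  | succ I ih =>
    rw [Finset.sum_range_succ]
    push_cast
    split_ifs with h
    · rcases min_cases (I : ℝ) (x - 1) with ⟨h1, -⟩ | ⟨h1, -⟩
      · have := min_le_left ((I : ℝ) + 1) (x - 1)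
        linarith
      · have := min_le_right ((I : ℝ) + 1) (x - 1)
        linarith
    · rw [min_eq_right (by linarith)] at ih
      have := min_le_right ((I : ℝ) + 1) (x - 1)
      linarith

omit [Fintype Ω] [Fintype ι] in
theorem defic_step {N : ℕ} (hN : 1 ≤ N) (n : ℕ) {r : ℝ} (hr : 0 < r) :
    (ex M.P fun o => ex (M.Om n) fun ω => Dsc (r / |σ.ρ o|) N (nu M σ ω)) ≤
      ex (M.Om (n + 1)) fun ω => Dsc r N (nu M σ ω) := by
  rw [ex_Om_succ]
  refine M.hP.ex_mono fun o _ => (isP_Om M n).ex_mono fun ω _ => ?_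
  have e : nu M σ (o :: ω) = conv (nu M σ [o]) (dil (σ.cc [o]) (nu M σ ω)) := nu_append M σ [o] ω
  have e2 : σ.cc [o] = σ.ρ o := by rw [cc_cons, cc_nil, mul_one]
  rw [e, e2, ← Dsc_dil (isP_nu M σ ω) (σ.hρ o).1 hr hN]
  exact Dsc_le_conv (isP_nu M σ _) ((isP_nu M σ ω).dil _) hr hN

omit [Fintype Ω] [Fintype ι] in
theorem defic_mono {N : ℕ} (hN : 1 ≤ N) (n k : ℕ) {r : ℝ} (hr : 0 < r) :
    (ex (M.Om n) fun ω => Dsc r N (nu M σ ω)) ≤ ex (M.Om (n + k)) fun ω => Dsc r N (nu M σ ω) := by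
  rw [ex_Om_append]
  refine (isP_Om M n).ex_mono fun ω _ => (isP_Om M k).le_ex fun ω' _ => ?_
  rw [nu_append, conv_comm]
  exact Dsc_le_conv ((isP_nu M σ ω').dil _) (isP_nu M σ ω) hr hN

theorem defic_near {m : ℝ →₀ ℝ} (hm : IsP m) {N : ℕ} (hN : 1 ≤ N) {s r ξ : ℝ} (hs : 0 < s)
    (h1 : s ≤ r) (h2 : r ≤ s * Real.exp ξ) : Dsc s N m - 2 * (ξ + Real.log 3) ≤ Dsc r N m := by
  have hr : 0 < r := hs.trans_le h1
  have hN' : (0 : ℝ) < N := by exact_mod_cast hN
  have a1 := abs_Hs_sub_le hm hs hr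
  have a2 := abs_Hs_sub_le hm (mul_pos hN' hs) (mul_pos hN' hr)
  have l1 : Real.log s ≤ Real.log r := Real.log_le_log hs h1
  have l2 : Real.log r ≤ Real.log s + ξ := by
    have := Real.log_le_log hr h2
    rwa [Real.log_mul hs.ne' (Real.exp_pos ξ).ne', Real.log_exp] at this
  rw [Real.log_mul hN'.ne' hs.ne', Real.log_mul hN'.ne' hr.ne'] at a2
  have b1 : |Real.log s - Real.log r| ≤ ξ := abs_le.2 ⟨by linarith, by linarith⟩
  have b2 : |Real.log N + Real.log s - (Real.log N + Real.log r)| ≤ ξ :=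
    abs_le.2 ⟨by linarith, by linarith⟩
  have c1 := abs_le.1 (a1.trans (add_le_add_left b1 _))
  have c2 := abs_le.1 (a2.trans (add_le_add_left b2 _))
  unfold Dsc
  linarith [c1.1, c1.2, c2.1, c2.2]

omit [Fintype Ω] [Fintype ι] in
theorem defic_ind {N : ℕ} (hN : 1 ≤ N) (n' : ℕ) {s ξ γ : ℝ} (hs : 0 < s) (hγ : 0 ≤ γ)
    (hξ : ∀ o, -Real.log |σ.ρ o| ≤ ξ)
    (hβ : γ + 2 * (ξ + Real.log 3) ≤ ex (M.Om n') fun ω => Dsc s N (nu M σ ω)) (k : ℕ) :
    ∀ r : ℝ, 0 < r → r ≤ s * Real.exp ξ →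
      γ * (ex (M.Om k) fun ω => if |σ.cc ω| ≤ r / s then (1 : ℝ) else 0) ≤
        ex (M.Om (n' + k)) fun ω => Dsc r N (nu M σ ω) := by
  have big : ∀ (k : ℕ) (r : ℝ), s ≤ r → r ≤ s * Real.exp ξ →
      γ * (ex (M.Om k) fun ω => if |σ.cc ω| ≤ r / s then (1 : ℝ) else 0) ≤
        ex (M.Om (n' + k)) fun ω => Dsc r N (nu M σ ω) := by
    intro k r h1 h2
    have hr : 0 < r := hs.trans_le h1
    have a1 : (ex (M.Om k) fun ω => if |σ.cc ω| ≤ r / s then (1 : ℝ) else 0) ≤ 1 :=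
      (isP_Om M k).ex_le fun ω _ => by split_ifs <;> norm_num
    have a2 := defic_mono M σ hN n' k hr
    have a3 : (ex (M.Om n') fun ω => Dsc s N (nu M σ ω) - 2 * (ξ + Real.log 3)) ≤
        ex (M.Om n') fun ω => Dsc r N (nu M σ ω) :=
      (isP_Om M n').ex_mono fun ω _ => defic_near (isP_nu M σ ω) hN hs h1 h2
    rw [ex_sub, (isP_Om M n').ex_const] at a3
    have a4 := mul_le_mul_of_nonneg_left a1 hγ
    linarith
  induction k with
  | zero =>
    intro r hr h2
    rcases le_or_gt s r with h1 | h1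
    · exact big 0 r h1 h2
    · rw [ex_Om_zero, cc_nil, abs_one, if_neg (by rw [not_le, div_lt_one hs]; exact h1), mul_zero]
      exact (isP_Om M _).ex_nonneg fun ω _ => Dsc_nonneg (isP_nu M σ ω) hr hN
  | succ k ih =>
    intro r hr h2
    rcases le_or_gt s r with h1 | h1
    · exact big _ r h1 h2
    · rw [← add_assoc]
      refine le_trans ?_ (defic_step M σ hN (n' + k) hr)
      rw [ex_Om_succ, ← ex_mul_left]
      refine M.hP.ex_mono fun o _ => ?_
      have hρ : 0 < |σ.ρ o| := abs_pos.2 (σ.hρ o).1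
      have h3 : r / |σ.ρ o| ≤ s * Real.exp ξ := by
        have e1 : |σ.ρ o|⁻¹ ≤ Real.exp ξ := by
          rw [← Real.exp_log (inv_pos.2 hρ), Real.log_inv]
          exact Real.exp_le_exp.2 (hξ o)
        rw [div_eq_mul_inv]
        exact mul_le_mul h1.le e1 (inv_pos.2 hρ).le hs.le
      refine le_trans (le_of_eq ?_) (ih _ (div_pos hr hρ) h3)
      congr 1
      refine ex_congr fun ω _ => if_congr ?_ rfl rfl
      rw [cc_cons, abs_mul, div_right_comm r, le_div_iff₀ hρ, mul_comm]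

theorem defic_tele {m : ℝ →₀ ℝ} (hm : IsP m) {N : ℕ} (hN : 1 ≤ N) (s : ℝ) (I : ℕ) :
    ∑ i ∈ Finset.range I, Dsc (s / (N : ℝ) ^ (i + 1)) N m ≤ Hs (s / (N : ℝ) ^ I) m := by
  have hN' : (0 : ℝ) < N := by exact_mod_cast hN
  induction I with
  | zero => simpa using Hs_nonneg hm s
  | succ I ih =>
    rw [Finset.sum_range_succ]
    have e : (N : ℝ) * (s / (N : ℝ) ^ (I + 1)) = s / (N : ℝ) ^ I := by
      rw [pow_succ]
      field_simp
    unfold Dsc at ih ⊢
    rw [e]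
    linarith

theorem defic : ∃ C : ℝ, 0 < C ∧ ∀ (N n' : ℕ) (s : ℝ), 1 ≤ N → 0 < s →
    (ex (M.Om n') fun ω => Dsc s N (nu M σ ω)) ≤ eR M σ / chi M σ * Real.log N + C := by
  obtain ⟨ξ, ξ', hξ', hξ, -⟩ := exists_xi σ
  have hχ := chi_pos M σ
  have he := eR_nonneg M σ
  have h3 : 0 < Real.log 3 := Real.log_pos (by norm_num)
  refine ⟨2 * (|ξ| + Real.log 3), by positivity, fun N n' s hN hs => ?_⟩
  have hN' : (1 : ℝ) ≤ N := by exact_mod_cast hN
  have hN0 : (0 : ℝ) < N := by linarith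
  have hL0 : 0 ≤ Real.log N := Real.log_nonneg hN'
  have hq : 0 ≤ eR M σ / chi M σ * Real.log N := by positivity
  set β := ex (M.Om n') fun ω => Dsc s N (nu M σ ω) with hβdef
  rcases le_or_gt β (2 * (|ξ| + Real.log 3)) with hβ | hβ
  · linarith
  have hβL : β ≤ Real.log N :=
    (isP_Om M n').ex_le fun ω _ => Dsc_le_log (isP_nu M σ ω) hs hN
  have hL : 0 < Real.log N := by
    have : 0 < 2 * (|ξ| + Real.log 3) := by positivity
    linarith
  set γ := β - 2 * (|ξ| + Real.log 3) with hγdef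
  have hγ : 0 ≤ γ := by linarith
  obtain ⟨V, hV, hdev⟩ := exists_dev M σ
  obtain ⟨C₁, hC₁, hnat⟩ := Hs_nat M σ
  obtain ⟨C₂, hAn⟩ := An_le M σ
  set L := Real.log N with hLdef
  set χ := chi M σ with hχdef
  set e := eR M σ with hedef
  have key : γ * χ / L - e ≤ 0 := by
    refine defic_lim (b := γ * V / L + C₁)
      (c := 2 * γ + e * n' + C₂ + |Real.log s| + χ * n' + L + C₁ * Real.sqrt n' + C₁) fun k => ?_
    set I := ⌊χ * k / L⌋₊ with hI
    have hI1 : (I : ℝ) ≤ χ * k / L := Nat.floor_le (by positivity)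
    have hI2 : χ * k / L < I + 1 := Nat.lt_floor_add_one _
    -- lower bound
    have low1 : γ * (∑ i ∈ Finset.range I, ex (M.Om k) fun ω =>
        if |σ.cc ω| ≤ s / (N : ℝ) ^ (i + 1) / s then (1 : ℝ) else 0) ≤
        ex (M.Om (n' + k)) fun ω => Hs (s / (N : ℝ) ^ I) (nu M σ ω) := by
      rw [Finset.mul_sum]
      refine le_trans (Finset.sum_le_sum fun i _ => defic_ind M σ hN n' (ξ := |ξ|) hs hγ
        (fun o => (hξ o).2.trans (le_abs_self ξ)) (by linarith) k _ (by positivity) ?_) ?_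
      · have a1 : s / (N : ℝ) ^ (i + 1) ≤ s := div_le_self hs.le (one_le_pow₀ hN')
        have a2 : s ≤ s * Real.exp |ξ| :=
          le_mul_of_one_le_right hs.le (Real.one_le_exp (abs_nonneg ξ))
        linarith
      · rw [← ex_sum]
        exact (isP_Om M _).ex_mono fun ω _ => defic_tele (isP_nu M σ ω) hN s I
    have low2 : (I : ℝ) - V * Real.sqrt k / L - 1 ≤ ∑ i ∈ Finset.range I, ex (M.Om k) fun ω =>
        if |σ.cc ω| ≤ s / (N : ℝ) ^ (i + 1) / s then (1 : ℝ) else 0 := by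
      rw [← ex_sum]
      have a1 : (ex (M.Om k) fun ω => (I : ℝ) - |Real.log |σ.cc ω| + χ * k| / L - 1) ≤
          ex (M.Om k) fun ω => ∑ i ∈ Finset.range I,
            if |σ.cc ω| ≤ s / (N : ℝ) ^ (i + 1) / s then (1 : ℝ) else 0 := by
        refine (isP_Om M k).ex_mono fun ω _ => ?_
        have hc := abs_cc_pos σ ω
        refine le_trans ?_ ((defic_count I (-Real.log |σ.cc ω| / L)).trans (le_of_eq ?_))
        · have b0 : 0 ≤ |Real.log |σ.cc ω| + χ * k| / L := by positivity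
          refine le_min (by linarith) ?_
          have b1 : (Real.log |σ.cc ω| + χ * k) / L ≤ |Real.log |σ.cc ω| + χ * k| / L :=
            div_le_div_of_nonneg_right (le_abs_self _) hL.le
          rw [add_div] at b1
          rw [neg_div]
          linarith
        · refine Finset.sum_congr rfl fun i _ => ?_
          have b1 : s / (N : ℝ) ^ (i + 1) / s = Real.exp (-(((i : ℝ) + 1) * L)) := by
            rw [Real.exp_neg, ← Nat.cast_succ, Real.exp_nat_mul, hLdef, Real.exp_log hN0]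
            field_simp
          rw [b1]
          refine if_congr ?_ rfl rfl
          rw [le_div_iff₀ hL, ← Real.log_le_iff_le_exp hc]
          constructor <;> intro h <;> linarith
      rw [ex_sub, ex_sub, ex_div, (isP_Om M k).ex_const, (isP_Om M k).ex_const] at a1
      have a2 := div_le_div_of_nonneg_right (hdev k).1 hL.le
      linarith
    -- upper bound
    have up1 := (abs_le.1 (hnat (n' + k) (s / (N : ℝ) ^ I) (by positivity))).2
    have up2 := hAn (n' + k)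
    have up3 : |Real.log (s / (N : ℝ) ^ I) + χ * ((n' + k : ℕ) : ℝ)| ≤ |Real.log s| + χ * n' + L := by
      rw [Real.log_div hs.ne' (by positivity), Real.log_pow]
      push_cast
      have b1 : (I : ℝ) * L ≤ χ * k := by rwa [le_div_iff₀ hL] at hI1
      have b2 : χ * k < (I + 1) * L := by rwa [div_lt_iff₀ hL] at hI2
      have b3 : 0 ≤ χ * n' := by positivity
      refine abs_le.2 ⟨?_, ?_⟩
      · linarith [neg_abs_le (Real.log s)]
      · linarith [le_abs_self (Real.log s)]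
    have up4 : Real.sqrt ((n' + k : ℕ) : ℝ) ≤ Real.sqrt n' + Real.sqrt k := by
      push_cast
      rw [Real.sqrt_le_left (by positivity)]
      have b1 := Real.sq_sqrt (Nat.cast_nonneg n' : (0 : ℝ) ≤ n')
      have b2 := Real.sq_sqrt (Nat.cast_nonneg k : (0 : ℝ) ≤ k)
      have b3 : 0 ≤ Real.sqrt n' * Real.sqrt k := by positivity
      nlinarith
    have up5 := mul_le_mul_of_nonneg_left up4 hC₁.le
    have low3 := mul_le_mul_of_nonneg_left
      (le_trans (by linarith : χ * k / L - V * Real.sqrt k / L - 2 ≤ _) low2) hγ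
    push_cast at up2
    have e1 : (γ * χ / L - e) * k = γ * (χ * k / L) - e * k := by ring
    have e2 : (γ * V / L + C₁) * Real.sqrt k = γ * (V * Real.sqrt k / L) + C₁ * Real.sqrt k := by
      ring
    rw [e1, e2]
    linarith
  have key2 : γ ≤ e / χ * L := by
    rw [sub_nonpos, div_le_iff₀ hL] at key
    rw [div_mul_eq_mul_div, le_div_iff₀ hχ]
    exact key
  linarith

end Crest.Agent.R98
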