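import Mathlib
import Crest.Prelude.Def_SelfSimilar

/-!
# Row 98 (S0129): dimension of self-similar measures = min(1, h/χ).  Definitions.

See `Crest/Agent/R98/Blueprint.lean` for the whole proof in words.

* finite measures are `α →₀ ℝ`; `ex` expectation, `IsP` probability, `pr` mass of a set, `push`, `bnd`
  (mixture / monadic bind), `pur`, `mix`, `ent` Shannon entropy, `iid` i.i.d. lists;
* on `ℝ`: `conv`, `dil`, `cell`, `Hs s m` = entropy at scale `s` averaged over the shift of the grid,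
  `Dsc s M m = Hs s m - Hs (M s) m`;
* `Tr`: binary splitting trees of a finite measure on `ℝ`;
* `Mod`, `Sys`: the "model": classes `o : Ω` (probability `P o`, ratio `ρ o`), letters `i : ι` (law `τ o`
  given the class, translation `t i`).
-/

set_option autoImplicit false

open Polynomial

namespace Crest.Agent.R98

noncomputable section

section FP
variable {α β : Type*}

/-- expectation of `F` under the finite (signed) measure `m` -/
def ex (m : α →₀ ℝ) (F : α → ℝ) : ℝ := m.sum fun a w => w * F a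

/-- probability vectors -/
structure IsP (m : α →₀ ℝ) : Prop where
  nonneg : ∀ a, 0 ≤ m a
  mass : ex m (fun _ => 1) = 1

/-- mass of a set -/
def pr (m : α →₀ ℝ) (A : Set α) : ℝ := ex m (A.indicator fun _ => 1)

/-- Dirac mass -/
def pur (a : α) : α →₀ ℝ := Finsupp.single a 1

/-- push-forward -/
def push (f : α → β) (m : α →₀ ℝ) : β →₀ ℝ := Finsupp.mapDomain f m

/-- mixture `∑ a, m a • k a` -/
def bnd (m : α →₀ ℝ) (k : α → β →₀ ℝ) : β →₀ ℝ := m.sum fun a w => w • k a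

/-- `v L + (1 - v) H` -/
def mix (v : ℝ) (L H : α →₀ ℝ) : α →₀ ℝ := v • L + (1 - v) • H

/-- Shannon entropy -/
def ent (m : α →₀ ℝ) : ℝ := m.sum fun _ w => Real.negMulLog w

/-- joint law of `(a, b)`, `a ∼ m`, `b ∼ k a` -/
def joint (m : α →₀ ℝ) (k : α → β →₀ ℝ) : α × β →₀ ℝ := bnd m fun a => push (fun b => (a, b)) (k a)

/-- law of an i.i.d. list of length `n` -/
def iid (π : α →₀ ℝ) : ℕ → List α →₀ ℝ
  | 0 => pur []
  | n + 1 => bnd π fun a => push (List.cons a) (iid π n)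

open Classical in
/-- number of occurrences of each letter -/
def cnt (w : List α) : α → ℤ := fun a => (w.count a : ℤ)

open Classical in
/-- `f` takes at most `K` values on the part of the support of `m` where `g` is constant -/
def KtoOne {γ : Type*} (m : α →₀ ℝ) (f : α → β) (g : α → γ) (K : ℝ) : Prop :=
  ∀ c, (((m.support.filter fun a => g a = c).image f).card : ℝ) ≤ K

end FP

section Line

/-- convolution -/
def conv (m₁ m₂ : ℝ →₀ ℝ) : ℝ →₀ ℝ := bnd m₁ fun y => push (fun x => y + x) m₂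

/-- dilation -/
def dil (c : ℝ) (m : ℝ →₀ ℝ) : ℝ →₀ ℝ := push (fun x => c * x) m

/-- index of the cell of mesh `s`, shift `u`, containing `x` -/
def cell (s u x : ℝ) : ℤ := ⌊x / s + u⌋

/-- entropy at scale `s`, averaged over the shift -/
def Hs (s : ℝ) (m : ℝ →₀ ℝ) : ℝ := ∫ u in (0 : ℝ)..1, ent (push (cell s u) m)

/-- entropy between the scales `M s` and `s` -/
def Dsc (s : ℝ) (M : ℕ) (m : ℝ →₀ ℝ) : ℝ := Hs s m - Hs (M * s) m

/-- fair two-point law on `{0, o}` -/
def two (o : ℝ) : ℝ →₀ ℝ := mix (1 / 2) (pur 0) (pur o)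

/-- `S` is covered by `R` multiplicative windows `[x, x e^Λ]` -/
def Cov (S : Set ℝ) (R : ℕ) (Λ : ℝ) : Prop :=
  ∃ x : Fin R → ℝ, (∀ r, 0 < x r) ∧ ∀ d ∈ S, ∃ r, x r ≤ d ∧ d ≤ x r * Real.exp Λ

/-- `∑ cells (mass)^q` for the unshifted grid of mesh `s` -/
def Sq (q s : ℝ) (m : ℝ →₀ ℝ) : ℝ := (push (cell s 0) m).sum fun _ w => w ^ q

/-- information about the coin `β ∼ Bernoulli v` contained in `Y_β + X` at scale `s`
(`Y_1 ∼ L`, `Y_0 ∼ H`, `X ∼ m`) -/
def Jinf (s v : ℝ) (L H m : ℝ →₀ ℝ) : ℝ :=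
  Hs s (conv (mix v L H) m) - v * Hs s (conv L m) - (1 - v) * Hs s (conv H m)

open Classical in
/-- probability (over the shift `u`, `y ∼ L`, `x ∼ m`) that the cell of `y + x` is `θ`-light for `H * m`
relative to `L * m` -/
def piL (θ s : ℝ) (L H m : ℝ →₀ ℝ) : ℝ :=
  ∫ u in (0 : ℝ)..1, ex (conv L m) fun z =>
    if pr (conv H m) {z' | cell s u z' = cell s u z} ≤ θ * pr (conv L m) {z' | cell s u z' = cell s u z}
    then 1 else 0

end Line

/-- splitting trees: a node has a diameter label `D`, light mass `v`, split point `b`, a "near" set `Nr`,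
a light child `L` and a heavy child `H` -/
inductive Tr : Type
  | leaf (y : ℝ) : Tr
  | node (D v b : ℝ) (Nr : Set ℝ) (L H : Tr) : Tr

namespace Tr

/-- the law of the leaf -/
def law : Tr → ℝ →₀ ℝ
  | leaf y => pur y
  | node _ v _ _ L H => mix v L.law H.law

/-- diameter label (`0` for a leaf) -/
def lab : Tr → ℝ
  | leaf _ => 0
  | node D _ _ _ _ _ => D

/-- light mass -/
def vv : Tr → ℝ
  | leaf _ => 0
  | node _ v _ _ _ _ => v

/-- mass of the near set under the heavy child -/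
def near : Tr → ℝ
  | leaf _ => 0
  | node _ _ _ Nr _ H => pr H.law Nr

/-- `∑ nodes, P(node is reached) * Φ node` -/
def gsum (Φ : Tr → ℝ) : Tr → ℝ
  | leaf _ => 0
  | node D v b Nr L H => Φ (node D v b Nr L H) + v * L.gsum Φ + (1 - v) * H.gsum Φ

/-- `p` holds at every node (= at every subtree that is not a leaf) -/
def All (p : Tr → Prop) : Tr → Prop
  | leaf _ => True
  | node D v b Nr L H => p (node D v b Nr L H) ∧ L.All p ∧ H.All p

/-- weak validity of the root (inherited by pruned trees) -/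
def WV₀ : Tr → Prop
  | leaf _ => True
  | node D v _ Nr L H => 0 < D ∧ 0 < v ∧ v ≤ 1 / 2 ∧ L.lab ≤ 7 / 8 * D ∧ H.lab ≤ 7 / 8 * D ∧
      (∀ y ∈ L.law.support, ∀ y' ∈ L.law.support, |y - y'| ≤ D) ∧
      (∀ y ∈ L.law.support, ∀ y' ∈ H.law.support, |y - y'| ≤ D) ∧
      (∀ y ∈ H.law.support, ∀ y' ∈ H.law.support, |y - y'| ≤ D) ∧
      (∀ y ∈ L.law.support, ∀ y' ∈ H.law.support, y' ∉ Nr → D / (24 * Real.log (1 / v)) ≤ |y - y'|)

/-- weak validity -/
def WV (T : Tr) : Prop := T.All WV₀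

/-- extra properties of the root of an adapted tree -/
def SV₀ : Tr → Prop
  | leaf _ => True
  | node D v b Nr L H => pr H.law Nr ≤ 2 * Real.sqrt v ∧
      1 / 2 ≤ pr H.law {y' | ∀ y ∈ L.law.support, D / 8 ≤ |y - y'|} ∧
      (((∀ y ∈ L.law.support, b < y) ∧ ∀ y ∈ H.law.support, y ≤ b) ∨
        ((∀ y ∈ L.law.support, y < b) ∧ ∀ y ∈ H.law.support, b ≤ y)) ∧
      (∃ y ∈ (mix v L.law H.law).support, y + D / 8 ≤ b) ∧
      (∃ y ∈ (mix v L.law H.law).support, b + D / 8 ≤ y) ∧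
      (∃ y ∈ (mix v L.law H.law).support, ∃ y' ∈ (mix v L.law H.law).support, D = |y - y'|)

/-- strong validity (adapted trees) -/
def SV (T : Tr) : Prop := T.WV ∧ T.All SV₀

open Classical in
/-- random pruned tree: at a node with `¬ act D v` the coin is tossed (revealed) in advance -/
def prune (act : ℝ → ℝ → Prop) : Tr → Tr →₀ ℝ
  | leaf y => pur (leaf y)
  | node D v b Nr L H =>
      if act D v then
        bnd (L.prune act) fun L' => bnd (H.prune act) fun H' => pur (node D v b Nr L' H')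
      else mix v (L.prune act) (H.prune act)

end Tr

open Classical in
/-- binary entropy of the nodes whose label lies in `G` -/
def hOn (G : Set ℝ) (T : Tr) : ℝ := if T.lab ∈ G then Real.binEntropy T.vv else 0

open Classical in
/-- light mass of the nodes whose label lies in `G` -/
def vOn (G : Set ℝ) (T : Tr) : ℝ := if T.lab ∈ G then T.vv else 0

open Classical in
/-- indicator of the nodes whose label lies in `G` -/
def oneOn (G : Set ℝ) (T : Tr) : ℝ := if T.lab ∈ G then 1 else 0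

/-- probabilistic data of a model -/
structure Mod (Ω ι : Type*) where
  P : Ω →₀ ℝ
  τ : Ω → ι →₀ ℝ
  hP : IsP P
  hpos : ∀ o, 0 < P o
  hτ : ∀ o, IsP (τ o)

/-- geometric data: ratios and translations -/
structure Sys (Ω ι : Type*) where
  ρ : Ω → ℝ
  t : ι → ℝ
  hρ : ∀ o, ρ o ≠ 0 ∧ |ρ o| < 1

section Model
variable {Ω ι : Type*}

/-- law of the class sequence -/
def Mod.Om (M : Mod Ω ι) (n : ℕ) : List Ω →₀ ℝ := iid M.P n

/-- law of the word given the class sequence -/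
def Mod.Cw (M : Mod Ω ι) : List Ω → List ι →₀ ℝ
  | [] => pur []
  | o :: ω => bnd (M.τ o) fun i => push (List.cons i) (M.Cw ω)

/-- contraction ratio of a class sequence -/
def Sys.cc (σ : Sys Ω ι) (ω : List Ω) : ℝ := (ω.map σ.ρ).prod

/-- translation part `∑ j, cc (ω<j) * t (w j)` -/
def Sys.X (σ : Sys Ω ι) : List Ω → List ι → ℝ
  | o :: ω, i :: w => σ.t i + σ.ρ o * σ.X ω w
  | _, _ => 0

/-- law of the translation part given the class sequence -/
def nu (M : Mod Ω ι) (σ : Sys Ω ι) (ω : List Ω) : ℝ →₀ ℝ := push (σ.X ω) (M.Cw ω)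

/-- Lyapunov exponent -/
def chi (M : Mod Ω ι) (σ : Sys Ω ι) : ℝ := ex M.P fun o => -Real.log |σ.ρ o|

/-- mean entropy at the natural scale -/
def An (M : Mod Ω ι) (σ : Sys Ω ι) (n : ℕ) : ℝ := ex (M.Om n) fun ω => Hs |σ.cc ω| (nu M σ ω)

/-- mean total entropy -/
def Hn (M : Mod Ω ι) (σ : Sys Ω ι) (n : ℕ) : ℝ := ex (M.Om n) fun ω => ent (nu M σ ω)

/-- entropy rate at the natural scale -/
def eR (M : Mod Ω ι) (σ : Sys Ω ι) : ℝ := Filter.limsup (fun n : ℕ => An M σ n / n) Filter.atTop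

/-- entropy rate (given the classes) -/
def hR (M : Mod Ω ι) (σ : Sys Ω ι) : ℝ := Filter.limsup (fun n : ℕ => Hn M σ n / n) Filter.atTop

/-- information at scale `s` about the first `n` letters in a word of length `n + n'` -/
def Inf (M : Mod Ω ι) (σ : Sys Ω ι) (n n' : ℕ) (s : ℝ) : ℝ :=
  ex (M.Om n) fun ω => ex (M.Om n') fun ω' =>
    Hs s (nu M σ (ω ++ ω')) - Hs s (dil (σ.cc ω) (nu M σ ω'))

/-- positive distances between atoms at level `n` -/
def Dist (M : Mod Ω ι) (σ : Sys Ω ι) (n : ℕ) : Set ℝ :=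
  {d | 0 < d ∧ ∃ ω ∈ (M.Om n).support, ∃ y ∈ (nu M σ ω).support, ∃ y' ∈ (nu M σ ω).support, d = |y - y'|}

/-- `T ω` is an adapted tree for `nu ω`, for every class sequence of length `n` -/
def Trees (M : Mod Ω ι) (σ : Sys Ω ι) (n : ℕ) (T : List Ω → Tr) : Prop :=
  ∀ ω ∈ (M.Om n).support, (T ω).SV ∧ (T ω).law = nu M σ ω

/-- the core statement -/
def Core (M : Mod Ω ι) (σ : Sys Ω ι) : Prop := eR M σ < chi M σ → hR M σ ≤ eR M σ

/-- a family of classes at level `n` with entropy `≤ a n`, of diameter `< s` -/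
def Classes (M : Mod Ω ι) (σ : Sys Ω ι) (n : ℕ) (a s : ℝ) (f : List Ω → ℝ → List Bool) : Prop :=
  (ex (M.Om n) fun ω => ent (push (f ω) (nu M σ ω))) ≤ a * n ∧
    ∀ ω ∈ (M.Om n).support, ∀ y ∈ (nu M σ ω).support, ∀ y' ∈ (nu M σ ω).support,
      f ω y = f ω y' → |y - y'| < s

/-- the class `F ω u` of a word together with a prefix determines the `σ`-value of the suffix up to `θ` -/
def Det (M : Mod Ω ι) (σ : Sys Ω ι) (n : ℕ) (F : List Ω → List ι → List Bool) (θ : ℝ) : Prop :=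
  ∀ ω ∈ (M.Om n).support, ∀ u ∈ (M.Cw ω).support, ∀ v ∈ (M.Cw ω).support, ∀ a : ℕ,
    u.take a = v.take a → F ω u = F ω v →
      |σ.X (ω.drop a) (u.drop a) - σ.X (ω.drop a) (v.drop a)| ≤ θ

/-- `μ` is stationary for the model -/
def Stat (M : Mod Ω ι) (σ : Sys Ω ι) (μ : MeasureTheory.Measure ℝ) : Prop :=
  MeasureTheory.IsProbabilityMeasure μ ∧ ∀ A : Set ℝ, MeasurableSet A →
    μ.real A = ex M.P fun o => ex (M.τ o) fun i => μ.real {y | σ.t i + σ.ρ o * y ∈ A}

/-- ratios `± z ^ k` -/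
structure Cyc (Ω : Type*) where
  sg : Ω → ℤ
  k : Ω → ℕ
  hsg : ∀ o, sg o = 1 ∨ sg o = -1
  hk : ∀ o, 1 ≤ k o

/-- the system with ratios `sg o * z ^ k o` -/
def Cyc.sys (c : Cyc Ω) (z : ℝ) (hz : 0 < z ∧ z < 1) (t : ι → ℝ) : Sys Ω ι where
  ρ o := c.sg o * z ^ c.k o
  t := t
  hρ o := by
    have h1 : 0 < z ^ c.k o := pow_pos hz.1 _
    have h2 : z ^ c.k o < 1 := pow_lt_one₀ hz.1.le hz.2 (by have := c.hk o; omega)
    rcases c.hsg o with h | h <;> rw [h]
    · simp only [Int.cast_one, one_mul]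
      exact ⟨h1.ne', by rw [abs_of_pos h1]; exact h2⟩
    · simp only [Int.cast_neg, Int.cast_one, neg_mul, one_mul]
      exact ⟨neg_ne_zero.2 h1.ne', by rw [abs_neg, abs_of_pos h1]; exact h2⟩

open Classical in
/-- the universal translation part: `X ω w = ∑ i, t i * (Q ω w i)(z)` -/
def Cyc.Q (c : Cyc Ω) : List Ω → List ι → ι → ℤ[X]
  | o :: ω, i :: w => fun j => (if j = i then 1 else 0) + C (c.sg o) * X ^ c.k o * c.Q ω w j
  | _, _ => 0

/-- largest exponent -/
def Cyc.K [Fintype Ω] (c : Cyc Ω) : ℕ := Finset.univ.sup c.k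

end Model

/-- `ℓ¹` norm of an integer polynomial -/
def l1 (p : ℤ[X]) : ℝ := p.sum fun _ a => |(a : ℝ)|

/-- degree `≤ N`, coefficients in `[-2, 2]` -/
def Bd (N : ℕ) (p : ℤ[X]) : Prop := p.natDegree ≤ N ∧ ∀ j, |p.coeff j| ≤ 2

open Classical in
/-- non-zero values at `z` of determinants of `Bd N`-matrices are at least `e^{-a}` -/
def GoodAt (ι : Type*) [Fintype ι] (z : ℝ) (N : ℕ) (a : ℝ) : Prop :=
  ∀ A : Matrix ι ι ℤ[X], (∀ i j, Bd N (A i j)) → aeval z A.det ≠ 0 → Real.exp (-a) ≤ |aeval z A.det|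

/-- the "non-Liouville" case at stage `b` -/
def GoodStage (ι : Type*) [Fintype ι] (K : ℕ) (z : ℝ) (b : ℕ) : Prop :=
  ∀ n : ℕ, 2 ^ (b ^ 9) ≤ n → n ≤ 2 ^ (2 * b ^ 9) → GoodAt ι z (K * n) (n * 2 ^ (b ^ 3))

/-- Liouville inequality at `η` for polynomials of degree `≤ N` and `ℓ¹`-norm `≤ B` -/
def Liou (η : ℂ) (N : ℕ) (B a : ℝ) : Prop :=
  ∀ G : ℤ[X], G.natDegree ≤ N → l1 G ≤ B → aeval η G ≠ 0 → Real.exp (-a) ≤ ‖aeval η G‖

/-- the pairing `∑ i, t i * q i (z)` -/
def pair {I : Type*} [Fintype I] (t : I → ℝ) (z : ℝ) (q : I → ℤ[X]) : ℝ := ∑ i, t i * aeval z (q i)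

end

end Crest.Agent.R98
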