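import Crest.Agent.R98.Iid

/-!
# R98/DimUp: stationary measures of finitely many random similarities; support and upper bound
`Stat2.iter`: induction. `Stat2.support`: with `λ = max |g.1| < 1`, `R₀ = max |g.2|/(1-λ)`: `μ {|y| > R₀ + λ^k R} ≤ μ {|y| > R}` by `iter`;
let `k → ∞`, then `R → ∞` (take `R₀ + 1`).
`dim_up`: it suffices to treat `γ' > γ` (then let `γ' ↓ γ`; or note the hypothesis also holds for a slightly smaller `γ`). A list `w` is typical if
`∑_{g ∈ w} (log (m g) - γ log |g.1|) ≥ 0`; the mean of one term is `γ χ - ent m > 0`, so `P(typical_k) → 1` (`IsP.iid_cheb`).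
`G k = ⋃_{w typical, length k} comp w '' [-R, R]` has `μ (G k) ≥ P(typical_k)`; `E = limsup G k` is measurable with `μ E = 1`
(`MeasureTheory.measure_limsup...` or `μ (⋃_{k ≥ K} G k) = 1` for each `K`); `∑_{w typical} |r_w|^γ' ≤ ∑ m(w) |r_w|^(γ'-γ) ≤ λ^(k(γ'-γ))`, so
`μH[γ'] E = 0` (`Measure.hausdorffMeasure_le_liminf_tsum` with the covers indexed by `k ≥ K`), `dimH_le_of_hausdorffMeasure_ne_top`.
-/

set_option autoImplicit false

namespace Crest.Agent.R98

open MeasureTheory Crest.AnalysisR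

/-- `μ` is stationary for the random map `y ↦ g.2 + g.1 * y`, `g ∼ m` -/
def Stat2 (m : ℝ × ℝ →₀ ℝ) (μ : Measure ℝ) : Prop :=
  IsProbabilityMeasure μ ∧ ∀ A : Set ℝ, MeasurableSet A →
    μ.real A = ex m fun g => μ.real {y | g.2 + g.1 * y ∈ A}

/-- composition of a list of similarities -/
def comp (w : List (ℝ × ℝ)) (y : ℝ) : ℝ := w.foldr (fun g x => g.2 + g.1 * x) y

theorem comp_nil (y : ℝ) : comp [] y = y := rfl

theorem comp_cons (g : ℝ × ℝ) (w : List (ℝ × ℝ)) (y : ℝ) :
    comp (g :: w) y = g.2 + g.1 * comp w y := rfl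

theorem comp_eq (w : List (ℝ × ℝ)) (y : ℝ) :
    comp w y = comp w 0 + (w.map Prod.fst).prod * y := by
  induction w with
  | nil => simp [comp_nil]
  | cons g w ih =>
    rw [comp_cons, comp_cons, ih, List.map_cons, List.prod_cons]
    ring

theorem DimUp.exists_lam {m : ℝ × ℝ →₀ ℝ} (hr : ∀ g ∈ m.support, |g.1| < 1) :
    ∃ lam : ℝ, 0 < lam ∧ lam < 1 ∧ ∀ g ∈ m.support, |g.1| ≤ lam := by
  classical
  have : ∀ S : Finset (ℝ × ℝ), (∀ g ∈ S, |g.1| < 1) →
      ∃ lam : ℝ, 0 < lam ∧ lam < 1 ∧ ∀ g ∈ S, |g.1| ≤ lam := by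
    intro S
    induction S using Finset.induction_on with
    | empty => intro _; exact ⟨1 / 2, by norm_num, by norm_num, by simp⟩
    | insert a S _ ih =>
      intro h
      obtain ⟨l, h0, h1, h2⟩ := ih fun g hg => h g (Finset.mem_insert_of_mem hg)
      refine ⟨max l |a.1|, lt_max_of_lt_left h0, max_lt h1 (h a (Finset.mem_insert_self _ _)), ?_⟩
      intro g hg
      rcases Finset.mem_insert.1 hg with rfl | hg
      · exact le_max_right _ _
      · exact (h2 g hg).trans (le_max_left _ _)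
  exact this _ hr

theorem DimUp.abs_prod_le {S : Finset (ℝ × ℝ)} {lam : ℝ} (h : ∀ g ∈ S, |g.1| ≤ lam)
    (w : List (ℝ × ℝ)) (hw : ∀ g ∈ w, g ∈ S) : |(w.map Prod.fst).prod| ≤ lam ^ w.length := by
  induction w with
  | nil => simp
  | cons g w ih =>
    rw [List.map_cons, List.prod_cons, abs_mul, List.length_cons, pow_succ']
    have h1 := h g (hw g List.mem_cons_self)
    exact mul_le_mul h1 (ih fun a ha => hw a (List.mem_cons_of_mem _ ha)) (abs_nonneg _)
      ((abs_nonneg _).trans h1)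

theorem DimUp.abs_comp_le {S : Finset (ℝ × ℝ)} {lam B : ℝ} (h0 : 0 < lam) (h1 : lam < 1)
    (hB0 : 0 ≤ B) (h : ∀ g ∈ S, |g.1| ≤ lam) (hB : ∀ g ∈ S, |g.2| ≤ B)
    (w : List (ℝ × ℝ)) (hw : ∀ g ∈ w, g ∈ S) : |comp w 0| ≤ B / (1 - lam) := by
  have hl : 0 < 1 - lam := by linarith
  induction w with
  | nil => simpa [comp_nil] using div_nonneg hB0 hl.le
  | cons g w ih =>
    have h2 := ih fun a ha => hw a (List.mem_cons_of_mem _ ha)
    have h3 := h g (hw g List.mem_cons_self)
    have h4 := hB g (hw g List.mem_cons_self)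
    rw [comp_cons]
    calc |g.2 + g.1 * comp w 0| ≤ |g.2| + |g.1| * |comp w 0| := by
          rw [← abs_mul]; exact abs_add_le _ _
      _ ≤ B + lam * (B / (1 - lam)) :=
          add_le_add h4 (mul_le_mul h3 h2 (abs_nonneg _) h0.le)
      _ = B / (1 - lam) := by field_simp; ring

theorem Stat2.iter {m : ℝ × ℝ →₀ ℝ} {μ : Measure ℝ} (h : Stat2 m μ) (k : ℕ) {A : Set ℝ}
    (hA : MeasurableSet A) : μ.real A = ex (iid m k) fun w => μ.real {y | comp w y ∈ A} := by
  induction k generalizing A with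
  | zero => rw [ex_iid_zero]; rfl
  | succ k ih =>
    rw [ex_iid_succ, h.2 A hA]
    refine ex_congr fun g _ => ?_
    have hm : Measurable fun y : ℝ => g.2 + g.1 * y := by fun_prop
    exact ih (hm hA)

theorem Stat2.support {m : ℝ × ℝ →₀ ℝ} {μ : Measure ℝ} (h : Stat2 m μ) (hm : IsP m)
    (hr : ∀ g ∈ m.support, |g.1| < 1) : ∃ R : ℝ, 0 < R ∧ μ {y | R < |y|} = 0 := by
  have := h.1
  obtain ⟨lam, h0, h1, h2⟩ := DimUp.exists_lam hr
  set B : ℝ := ∑ g ∈ m.support, |g.2| with hB
  have hB0 : 0 ≤ B := Finset.sum_nonneg fun _ _ => abs_nonneg _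
  have hB1 : ∀ g ∈ m.support, |g.2| ≤ B := fun g hg =>
    Finset.single_le_sum (f := fun g : ℝ × ℝ => |g.2|) (fun _ _ => abs_nonneg _) hg
  have hl : 0 < 1 - lam := by linarith
  have hR0 : 0 ≤ B / (1 - lam) := div_nonneg hB0 hl.le
  refine ⟨B / (1 - lam) + 1, by linarith, ?_⟩
  have hmeas : ∀ R : ℝ, MeasurableSet {y : ℝ | R < |y|} := fun R =>
    measurableSet_lt measurable_const (by fun_prop)
  have key : ∀ n : ℕ, μ {y | B / (1 - lam) + 1 < |y|} ≤ μ {y | (n : ℝ) < |y|} := by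
    intro n
    obtain ⟨k, hk⟩ := exists_pow_lt_of_lt_one (x := 1 / ((n : ℝ) + 1)) (by positivity) h1
    have h3 : μ.real {y | B / (1 - lam) + 1 < |y|} ≤ μ.real {y | (n : ℝ) < |y|} := by
      rw [h.iter k (hmeas _)]
      refine (hm.iid k).ex_le fun w hw => ?_
      obtain ⟨hw1, hw2⟩ := hm.mem_support_iid.1 hw
      refine measureReal_mono ?_
      intro y hy
      simp only [Set.mem_ofPred_eq] at hy ⊢
      by_contra hc
      push Not at hc
      have h4 := DimUp.abs_prod_le h2 w hw2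
      have h5 := DimUp.abs_comp_le h0 h1 hB0 h2 hB1 w hw2
      rw [hw1] at h4
      have h6 : |comp w y| ≤ |comp w 0| + |(w.map Prod.fst).prod| * |y| := by
        rw [comp_eq w y, ← abs_mul]; exact abs_add_le _ _
      have h7 : |(w.map Prod.fst).prod| * |y| ≤ 1 / ((n : ℝ) + 1) * n :=
        mul_le_mul (h4.trans hk.le) hc (abs_nonneg _) (by positivity)
      have h8 : 1 / ((n : ℝ) + 1) * n ≤ 1 := by
        rw [one_div, inv_mul_le_iff₀ (by positivity)]; linarith
      linarith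
    exact (ENNReal.toReal_le_toReal (measure_ne_top _ _) (measure_ne_top _ _)).1 h3
  have hlim := tendsto_measure_iInter_atTop (μ := μ) (s := fun n : ℕ => {y : ℝ | (n : ℝ) < |y|})
    (fun n => (hmeas _).nullMeasurableSet)
    (fun a b hab y (hy : (b : ℝ) < |y|) => show (a : ℝ) < |y| from
      lt_of_le_of_lt (Nat.cast_le.2 hab) hy) ⟨0, measure_ne_top _ _⟩
  have he : (⋂ n : ℕ, {y : ℝ | (n : ℝ) < |y|}) = ∅ := by
    ext y
    simp only [Set.mem_iInter, Set.mem_ofPred_eq, Set.mem_empty_iff_false, iff_false, not_forall,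
      not_lt]
    exact exists_nat_ge _
  rw [he, measure_empty] at hlim
  exact le_antisymm (ge_of_tendsto' hlim key) bot_le

theorem DimUp.ex_ite {α : Type*} [DecidableEq α] (m : α →₀ ℝ) (a : α) (c : ℝ) :
    (ex m fun a' => if a' = a then c else 0) = m a * c := by
  rw [ex_def, Finset.sum_eq_single a]
  · simp
  · intro b _ hb
    simp [hb]
  · intro ha
    simp [Finsupp.notMem_support_iff.1 ha]

theorem DimUp.iid_apply {α : Type*} (π : α →₀ ℝ) (w : List α) :
    iid π w.length w = (w.map π).prod := by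
  classical
  induction w with
  | nil => simp [iid, pur]
  | cons a w ih =>
    have h1 := DimUp.ex_ite (iid π (a :: w).length) (a :: w) 1
    rw [mul_one] at h1
    rw [← h1, List.length_cons, ex_iid_succ, List.map_cons, List.prod_cons, ← ih,
      ← DimUp.ex_ite π a]
    refine ex_congr fun a' _ => ?_
    by_cases ha : a' = a
    · subst ha
      have h2 := DimUp.ex_ite (iid π w.length) w 1
      rw [mul_one] at h2
      rw [if_pos rfl, ← h2]
      refine ex_congr fun w' _ => ?_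
      simp
    · rw [if_neg ha]
      refine (ex_congr fun w' _ => ?_).trans (ex_zero _)
      simp [ha]

theorem DimUp.sum_log {m : ℝ × ℝ →₀ ℝ} (hm : IsP m) (hr : ∀ g ∈ m.support, g.1 ≠ 0) (γ : ℝ)
    (w : List (ℝ × ℝ)) (hw : ∀ g ∈ w, g ∈ m.support) :
    0 < (w.map m).prod ∧ 0 < |(w.map Prod.fst).prod| ∧
    (w.map fun g => Real.log (m g) - γ * Real.log |g.1|).sum =
      Real.log (w.map m).prod - γ * Real.log |(w.map Prod.fst).prod| := by
  induction w with
  | nil => simp
  | cons g w ih =>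
    obtain ⟨h1, h2, h3⟩ := ih fun a ha => hw a (List.mem_cons_of_mem _ ha)
    have h4 := hm.pos (hw g List.mem_cons_self)
    have h5 := abs_pos.2 (hr g (hw g List.mem_cons_self))
    simp only [List.map_cons, List.prod_cons, List.sum_cons, abs_mul]
    refine ⟨mul_pos h4 h1, mul_pos h5 h2, ?_⟩
    rw [h3, Real.log_mul h4.ne' h1.ne', Real.log_mul h5.ne' h2.ne']
    ring

theorem DimUp.le_dimH {μ : Measure ℝ} {E : Set ℝ} (hE : MeasurableSet E) (h : 0 < μ E) :
    lowerHausdorffDim μ ≤ dimH E := by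
  unfold lowerHausdorffDim
  exact iInf_le_of_le E (iInf_le_of_le hE (iInf_le_of_le h le_rfl))

/-- finite covers of most of the mass with bounded `γ`-content bound the dimension -/
theorem DimUp.of_covers {κ : Type*} {μ : Measure ℝ} [IsProbabilityMeasure μ] {γ C : ℝ} (hγ : 0 < γ)
    (H : ∀ ε : ℝ, 0 < ε → ∃ (S : Finset κ) (x ρ : κ → ℝ), (∀ w ∈ S, 0 ≤ ρ w ∧ 2 * ρ w ≤ ε) ∧
      ∑ w ∈ S, (2 * ρ w) ^ γ ≤ C ∧ 1 - ε ≤ μ.real (⋃ w ∈ S, Set.Icc (x w - ρ w) (x w + ρ w))) :
    lowerHausdorffDim μ ≤ ENNReal.ofReal γ := by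
  have hε : ∀ j : ℕ, (0 : ℝ) < (1 / 2) ^ j / 4 := fun j => by positivity
  choose S x ρ h1 h2 h3 using fun j : ℕ => H _ (hε j)
  set G : ℕ → Set ℝ := fun j => ⋃ w ∈ S j, Set.Icc (x j w - ρ j w) (x j w + ρ j w) with hG
  have hGm : ∀ j, MeasurableSet (G j) := fun j =>
    Finset.measurableSet_biUnion _ fun _ _ => measurableSet_Icc
  have hEm : MeasurableSet (⋂ j, G j) := MeasurableSet.iInter hGm
  have hpos : 0 < μ (⋂ j, G j) := by
    rw [pos_iff_ne_zero]
    intro h0
    have h4 : μ (⋂ j, G j)ᶜ = 1 := (prob_compl_eq_one_iff hEm).2 h0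
    have h5 : ∀ j, μ (G j)ᶜ ≤ ENNReal.ofReal ((1 / 2) ^ j / 4) := by
      intro j
      rw [← ofReal_measureReal (measure_ne_top _ _), probReal_compl_eq_one_sub (hGm j)]
      exact ENNReal.ofReal_le_ofReal (by linarith [h3 j])
    have h6 : μ (⋂ j, G j)ᶜ ≤ ∑' j : ℕ, ENNReal.ofReal ((1 / 2) ^ j / 4) := by
      rw [Set.compl_iInter]
      exact (measure_iUnion_le _).trans (ENNReal.tsum_le_tsum h5)
    have h7 : HasSum (fun j : ℕ => ((1 : ℝ) / 2) ^ j / 4) (2 / 4) := hasSum_geometric_two.div_const 4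
    rw [← ENNReal.ofReal_tsum_of_nonneg (fun j => (hε j).le) h7.summable, h7.tsum_eq, h4,
      ENNReal.one_le_ofReal] at h6
    norm_num at h6
  have hH : μH[γ] (⋂ j, G j) ≤ ENNReal.ofReal C := by
    have ht : Filter.Tendsto (fun j : ℕ => ENNReal.ofReal ((1 / 2) ^ j / 4)) Filter.atTop (nhds 0) := by
      rw [← ENNReal.ofReal_zero]
      refine ENNReal.tendsto_ofReal ?_
      have := (tendsto_pow_atTop_nhds_zero_of_lt_one (r := (1 / 2 : ℝ)) (by norm_num)
        (by norm_num)).div_const 4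
      simpa using this
    refine (Measure.hausdorffMeasure_le_liminf_sum (ι := fun j => S j) γ _ _ ht
      (fun j w => Set.Icc (x j w - ρ j w) (x j w + ρ j w)) ?_ ?_).trans ?_
    · refine Filter.Eventually.of_forall fun j w => ?_
      rw [Real.ediam_Icc]
      exact ENNReal.ofReal_le_ofReal (by linarith [(h1 j w w.2).2])
    · refine Filter.Eventually.of_forall fun j y hy => ?_
      obtain ⟨w, hw, hy'⟩ := Set.mem_iUnion₂.1 (Set.mem_iInter.1 hy j)
      exact Set.mem_iUnion.2 ⟨⟨w, hw⟩, hy'⟩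
    · refine Filter.liminf_le_of_frequently_le' (Filter.Frequently.of_forall fun j => ?_)
      have h8 : ∀ w : S j, Metric.ediam (Set.Icc (x j w - ρ j w) (x j w + ρ j w)) ^ γ =
          ENNReal.ofReal ((2 * ρ j w) ^ γ) := by
        intro w
        rw [Real.ediam_Icc, ← ENNReal.ofReal_rpow_of_nonneg (by linarith [(h1 j w w.2).1]) hγ.le]
        congr 2
        ring
      simp only [h8]
      rw [← ENNReal.ofReal_sum_of_nonneg
        (fun w _ => Real.rpow_nonneg (by linarith [(h1 j w w.2).1]) _)]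
      refine ENNReal.ofReal_le_ofReal ?_
      rw [Finset.sum_coe_sort (S j) (fun w => (2 * ρ j w) ^ γ)]
      exact h2 j
  have hd : dimH (⋂ j, G j) ≤ (γ.toNNReal : ENNReal) := by
    refine dimH_le_of_hausdorffMeasure_ne_top ?_
    rw [Real.coe_toNNReal _ hγ.le]
    exact ne_top_of_le_ne_top ENNReal.ofReal_ne_top hH
  exact (DimUp.le_dimH hEm hpos).trans hd

theorem dim_up {m : ℝ × ℝ →₀ ℝ} {μ : Measure ℝ} (h : Stat2 m μ) (hm : IsP m)
    (hr : ∀ g ∈ m.support, g.1 ≠ 0 ∧ |g.1| < 1) {γ : ℝ}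
    (hγ : ent m < γ * ex m fun g => -Real.log |g.1|) : lowerHausdorffDim μ ≤ ENNReal.ofReal γ := by
  classical
  have := h.1
  obtain ⟨R, hR, hsupp⟩ := h.support hm fun g hg => (hr g hg).2
  obtain ⟨lam, h0, h1, h2⟩ := DimUp.exists_lam fun g hg => (hr g hg).2
  have hχ : 0 ≤ ex m fun g => -Real.log |g.1| :=
    hm.ex_nonneg fun g hg => neg_nonneg.2 (Real.log_nonpos (abs_nonneg _) (hr g hg).2.le)
  have hγ0 : 0 < γ := by
    by_contra hc
    push Not at hc
    have := mul_nonpos_of_nonpos_of_nonneg hc hχ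
    linarith [hm.ent_nonneg]
  set f : ℝ × ℝ → ℝ := fun g => Real.log (m g) - γ * Real.log |g.1| with hf
  have hc : 0 < ex m f := by
    have e1 : ex m f = γ * (ex m fun g => -Real.log |g.1|) - ent m := by
      rw [ent_eq_ex, ← ex_mul_left, ← ex_sub]
      refine ex_congr fun g _ => ?_
      simp only [hf]
      ring
    linarith
  set V : ℝ := ex m fun a => (f a - ex m f) ^ 2 with hV
  refine DimUp.of_covers (κ := List (ℝ × ℝ)) (C := (2 * R) ^ γ) hγ0 fun ε hε => ?_
  obtain ⟨k₁, hk₁⟩ := exists_pow_lt_of_lt_one (x := ε / (2 * R)) (by positivity) h1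
  obtain ⟨k₂, hk₂⟩ := exists_nat_ge (V / (ε * ex m f ^ 2))
  set k := k₁ + k₂ + 1 with hk
  have hkpos : (0 : ℝ) < k := by rw [hk]; positivity
  have hk1 : lam ^ k ≤ ε / (2 * R) :=
    (pow_le_pow_of_le_one h0.le h1.le (by omega)).trans hk₁.le
  have hk2 : V / (ε * ex m f ^ 2) ≤ k := hk₂.trans (Nat.cast_le.2 (by omega))
  set S := (iid m k).support.filter fun w => 0 ≤ (w.map f).sum with hS
  refine ⟨S, fun w => comp w 0, fun w => |(w.map Prod.fst).prod| * R, ?_, ?_, ?_⟩
  · intro w hw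
    obtain ⟨hw1, hw2⟩ := hm.mem_support_iid.1 (Finset.mem_filter.1 hw).1
    have h4 := DimUp.abs_prod_le h2 w hw2
    rw [hw1] at h4
    refine ⟨by positivity, ?_⟩
    have h5 := (le_div_iff₀ (by positivity)).1 (h4.trans hk1)
    linarith
  · have h3 : ∀ w ∈ S, (2 * (|(w.map Prod.fst).prod| * R)) ^ γ ≤ (2 * R) ^ γ * iid m k w := by
      intro w hw
      obtain ⟨hw0, hw3⟩ := Finset.mem_filter.1 hw
      obtain ⟨hw1, hw2⟩ := hm.mem_support_iid.1 hw0
      obtain ⟨a1, a2, a3⟩ := DimUp.sum_log hm (fun g hg => (hr g hg).1) γ w hw2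
      rw [← hw1, DimUp.iid_apply, show 2 * (|(w.map Prod.fst).prod| * R) =
        (2 * R) * |(w.map Prod.fst).prod| by ring, Real.mul_rpow (by positivity) a2.le]
      refine mul_le_mul_of_nonneg_left ?_ (by positivity)
      rw [← Real.log_le_log_iff (Real.rpow_pos_of_pos a2 _) a1, Real.log_rpow a2]
      have : (w.map f).sum = _ := a3
      linarith
    refine (Finset.sum_le_sum h3).trans ?_
    rw [← Finset.mul_sum]
    refine mul_le_of_le_one_right (by positivity) ?_
    have h4 := (hm.iid k).mass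
    rw [ex_def] at h4
    simp only [mul_one] at h4
    rw [← h4]
    exact Finset.sum_le_sum_of_subset_of_nonneg (Finset.filter_subset _ _)
      fun w _ _ => (hm.iid k).nonneg w
  · have hGm : MeasurableSet (⋃ w ∈ S, Set.Icc (comp w 0 - |(w.map Prod.fst).prod| * R)
        (comp w 0 + |(w.map Prod.fst).prod| * R)) :=
      Finset.measurableSet_biUnion _ fun _ _ => measurableSet_Icc
    rw [h.iter k hGm]
    have hch := hm.iid_cheb k f (θ := k * ex m f) (by positivity)
    have h5 : (k : ℝ) * V / (k * ex m f) ^ 2 ≤ ε := by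
      rw [div_le_iff₀ (by positivity)] at hk2 ⊢
      nlinarith
    have h6 := (hm.iid k).pr_compl {w | k * ex m f ≤ |(w.map f).sum - k * ex m f|}
    refine le_trans (b := pr (iid m k) {w | k * ex m f ≤ |(w.map f).sum - k * ex m f|}ᶜ)
      (by linarith) ?_
    refine (hm.iid k).ex_mono fun w hw => ?_
    by_cases hw' : w ∈ {w : List (ℝ × ℝ) | k * ex m f ≤ |(w.map f).sum - k * ex m f|}ᶜ
    · rw [Set.indicator_of_mem hw']
      have hwS : w ∈ S := by
        refine Finset.mem_filter.2 ⟨hw, ?_⟩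
        have h7 : |(w.map f).sum - k * ex m f| < k * ex m f := not_le.1 hw'
        linarith [(abs_lt.1 h7).1]
      have hm' : MeasurableSet {y : ℝ | R < |y|} := measurableSet_lt measurable_const (by fun_prop)
      have h8 : μ.real {y : ℝ | R < |y|}ᶜ = 1 := by
        rw [probReal_compl_eq_one_sub hm', Measure.real, hsupp]
        simp
      rw [← h8]
      refine measureReal_mono ?_
      intro y hy
      have hy' : |y| ≤ R := not_lt.1 hy
      refine Set.mem_iUnion₂.2 ⟨w, hwS, ?_⟩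
      have h9 : |(w.map Prod.fst).prod * y| ≤ |(w.map Prod.fst).prod| * R := by
        rw [abs_mul]; exact mul_le_mul_of_nonneg_left hy' (abs_nonneg _)
      rw [comp_eq w y]
      constructor <;> linarith [(abs_le.1 h9).1, (abs_le.1 h9).2]
    · rw [Set.indicator_of_notMem hw']
      exact measureReal_nonneg

theorem dim_le_one {μ : Measure ℝ} [IsProbabilityMeasure μ] : lowerHausdorffDim μ ≤ 1 := by
  have h : 0 < μ Set.univ := by simp
  exact (DimUp.le_dimH MeasurableSet.univ h).trans Real.dimH_univ.le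

end Crest.Agent.R98
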