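import Crest.Agent.R98.Lq
import Crest.Agent.R98.DimUp

/-!
# R98/DimLow: lower bound for the dimension
`Φ A ω = E_{x ∼ nu ω} μ {y | x + cc ω * y ∈ A}`; `Stat.step`: `E_{ω'} Φ A (ω ++ ω') = Φ A ω`, `Φ A [] = μ A`. `mass_le`: for `0 < δ ≤ 1` stop at the first `k` with
`|cc (take (k m) ω)| ≤ δ` (so `|c| ≥ δ e^{-ξ m}`, `k ≥ log (1/δ)/(ξ m)`, and `k ≤ k₁` deterministic); `μ A = ∑_k E_{k m} 1[stop = k] Φ A`
(prove by induction on `K`: `μ A = ∑_{k ≤ K} E_{km} 1[stop = k] Φ + E_{Km} 1[not yet stopped] Φ`). `Φ A ω ≤ pr (nu ω) (A + [-R|c|, R|c|])` (`Stat2.support`), which is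
at most the mass of the heavy cells (`exists_rho`) plus `#S * (e^{ξ m} + 2R + 2) * δ^γ`.
`dim_low`: if `μ E > 0` and `dimH E < γ < e/χ` then `μH[γ] E = 0`, so for every `η` there is a countable cover by sets `t i` of diameter `≤ η` with
`∑ diam^γ ≤ η` (`Measure.hausdorffMeasure_apply`); put each non-empty `t i` in an interval `[x i, x i + 2^{-j i}]` with
`2^{-j i} ≤ 2 max (diam, η 2^{-i})`; group finitely many indices by `j`, `mass_le`, continuity from below; `∑_{j ≥ j₀} 2^{-jβ} → 0`.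
-/

set_option autoImplicit false

namespace Crest.Agent.R98

open MeasureTheory Crest.AnalysisR

variable {Ω ι : Type*} [Fintype Ω] [Fintype ι] {M : Mod Ω ι} {σ : Sys Ω ι} {μ : Measure ℝ}

theorem Stat.stat2 (h : Stat M σ μ) :
    Stat2 (bnd M.P fun o => push (fun i => (σ.ρ o, σ.t i)) (M.τ o)) μ := by
  refine ⟨h.1, fun A hA => ?_⟩
  rw [h.2 A hA, ex_bnd]
  simp only [ex_push]

namespace DimLow

theorem meas_aff {A : Set ℝ} (hA : MeasurableSet A) (x c : ℝ) :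
    MeasurableSet {y : ℝ | x + c * y ∈ A} :=
  (measurable_const.add (measurable_const.mul measurable_id)) hA

omit [Fintype Ω] [Fintype ι] in
theorem ex_nu_cons (o : Ω) (ω : List Ω) (F : ℝ → ℝ) :
    ex (nu M σ (o :: ω)) F = ex (M.τ o) fun i => ex (nu M σ ω) fun x => F (σ.t i + σ.ρ o * x) := by
  simp only [nu, ex_push, Mod.Cw, ex_bnd, Sys.X]

omit [Fintype Ω] [Fintype ι] in
theorem step_nil (h : Stat M σ μ) (n : ℕ) : ∀ {A : Set ℝ}, MeasurableSet A →
    (ex (M.Om n) fun ω => ex (nu M σ ω) fun x => μ.real {y | x + σ.cc ω * y ∈ A}) = μ.real A := by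
  induction n with
  | zero =>
    intro A _
    rw [ex_Om_zero, nu_nil, ex_pur]
    simp
  | succ n ih =>
    intro A hA
    rw [ex_Om_succ, h.2 A hA]
    refine ex_congr fun o _ => ?_
    simp only [ex_nu_cons]
    rw [ex_comm]
    refine ex_congr fun i _ => ?_
    rw [← ih (meas_aff hA (σ.t i) (σ.ρ o))]
    refine ex_congr fun ω _ => ex_congr fun x _ => ?_
    congr 1
    ext y
    simp only [Set.mem_ofPred_eq, cc_cons]
    rw [show σ.t i + σ.ρ o * x + σ.ρ o * σ.cc ω * y = σ.t i + σ.ρ o * (x + σ.cc ω * y) by ring]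

end DimLow

theorem Stat.step (h : Stat M σ μ) {A : Set ℝ} (hA : MeasurableSet A) (ω : List Ω) (n : ℕ) :
    (ex (M.Om n) fun ω' => ex (nu M σ (ω ++ ω')) fun x => μ.real {y | x + σ.cc (ω ++ ω') * y ∈ A}) =
      ex (nu M σ ω) fun x => μ.real {y | x + σ.cc ω * y ∈ A} := by
  simp only [nu_append, ex_conv, ex_dil]
  rw [ex_comm]
  refine ex_congr fun z _ => ?_
  rw [← DimLow.step_nil h n (DimLow.meas_aff hA z (σ.cc ω))]
  refine ex_congr fun ω' _ => ex_congr fun x _ => ?_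
  congr 1
  ext y
  simp only [Set.mem_ofPred_eq, cc_append]
  rw [show z + σ.cc ω * x + σ.cc ω * σ.cc ω' * y = z + σ.cc ω * (x + σ.cc ω' * y) by ring]

namespace DimLow

theorem pr_biUnion_le {α κ : Type*} {ν : α →₀ ℝ} (hν : IsP ν) (T : Finset κ) (B : κ → Set α) :
    pr ν (⋃ k ∈ T, B k) ≤ ∑ k ∈ T, pr ν (B k) := by
  classical
  induction T using Finset.induction_on with
  | empty =>
    simp only [Finset.notMem_empty, Set.iUnion_of_empty, Set.iUnion_empty, Finset.sum_empty]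
    exact (pr_eq_zero fun a _ h => h).le
  | insert k T hk ih =>
    rw [Finset.set_biUnion_insert, Finset.sum_insert hk]
    exact (hν.pr_union_le _ _).trans (add_le_add le_rfl ih)

/-- the light part of an interval -/
theorem pr_light_Icc {ν : ℝ →₀ ℝ} (hν : IsP ν) {c θ a b : ℝ} (hc : 0 < c) (hθ : 0 ≤ θ) (hab : a ≤ b) :
    pr ν {x | x ∈ Set.Icc a b ∧ ¬ θ < pr ν {x' | cell c 0 x' = cell c 0 x}} ≤
      ((b - a) / c + 2) * θ := by
  have h1 : pr ν {x | x ∈ Set.Icc a b ∧ ¬ θ < pr ν {x' | cell c 0 x' = cell c 0 x}} ≤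
      pr ν (⋃ k ∈ Finset.Icc ⌊a / c⌋ ⌊b / c⌋,
        {x | cell c 0 x = k ∧ ¬ θ < pr ν {x' | cell c 0 x' = cell c 0 x}}) := by
    refine hν.pr_mono fun x _ hx => ?_
    simp only [Set.mem_iUnion, Finset.mem_Icc, Set.mem_ofPred_eq]
    refine ⟨cell c 0 x, ⟨?_, ?_⟩, rfl, hx.2⟩
    · unfold cell
      rw [add_zero]
      exact Int.floor_le_floor (div_le_div_of_nonneg_right hx.1.1 hc.le)
    · unfold cell
      rw [add_zero]
      exact Int.floor_le_floor (div_le_div_of_nonneg_right hx.1.2 hc.le)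
  have h2 : ∀ k : ℤ, pr ν {x | cell c 0 x = k ∧ ¬ θ < pr ν {x' | cell c 0 x' = cell c 0 x}} ≤ θ := by
    intro k
    by_cases hex : ∃ x, cell c 0 x = k ∧ ¬ θ < pr ν {x' | cell c 0 x' = cell c 0 x}
    · obtain ⟨x, hx1, hx2⟩ := hex
      refine le_trans (hν.pr_mono fun z _ hz => ?_) (not_lt.1 hx2)
      exact hz.1.trans hx1.symm
    · exact le_trans (le_of_eq (pr_eq_zero fun z _ hz => hex ⟨z, hz⟩)) hθ
  refine h1.trans ((pr_biUnion_le hν _ _).trans ?_)
  refine (Finset.sum_le_sum fun k _ => h2 k).trans ?_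
  rw [Finset.sum_const, nsmul_eq_mul]
  refine mul_le_mul_of_nonneg_right ?_ hθ
  have h3 : ⌊a / c⌋ ≤ ⌊b / c⌋ := Int.floor_le_floor (div_le_div_of_nonneg_right hab hc.le)
  have h4 : ((Finset.Icc ⌊a / c⌋ ⌊b / c⌋).card : ℤ) = ⌊b / c⌋ + 1 - ⌊a / c⌋ :=
    Int.card_Icc_of_le _ _ (by omega)
  have h5 : ((Finset.Icc ⌊a / c⌋ ⌊b / c⌋).card : ℝ) = (⌊b / c⌋ : ℝ) + 1 - ⌊a / c⌋ := by
    exact_mod_cast h4
  have h6 := Int.floor_le (b / c)
  have h7 := Int.lt_floor_add_one (a / c)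
  rw [h5, sub_div]
  linarith

/-- one stopped word -/
theorem phi_le [IsProbabilityMeasure μ] {R : ℝ} (hR : 0 < R) (hμ : μ {y | R < |y|} = 0)
    {ν : ℝ →₀ ℝ} (hν : IsP ν) {c δ θ : ℝ} (hc : c ≠ 0) (hδ : 0 ≤ δ) (hθ : 0 ≤ θ) (S : Finset ℝ) :
    (ex ν fun x => μ.real {y | x + c * y ∈ ⋃ a ∈ S, Set.Icc a (a + δ)}) ≤
      pr ν {x | θ < pr ν {x' | cell |c| 0 x' = cell |c| 0 x}} +
        S.card * ((δ / |c| + 2 * R + 2) * θ) := by
  classical
  have hc' : 0 < |c| := abs_pos.2 hc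
  have h1 : (ex ν fun x => μ.real {y | x + c * y ∈ ⋃ a ∈ S, Set.Icc a (a + δ)}) ≤
      pr ν (⋃ a ∈ S, Set.Icc (a - R * |c|) (a + δ + R * |c|)) := by
    rw [pr_eq_ex_ite]
    refine hν.ex_mono fun x _ => ?_
    split_ifs with hx
    · exact measureReal_le_one
    · have : μ {y | x + c * y ∈ ⋃ a ∈ S, Set.Icc a (a + δ)} = 0 := by
        refine measure_mono_null (fun y hy => ?_) hμ
        simp only [Set.mem_ofPred_eq, Set.mem_iUnion] at hy hx ⊢
        obtain ⟨a, ha, hy⟩ := hy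
        by_contra hlt
        have h2 : |c * y| ≤ R * |c| := by
          rw [abs_mul, mul_comm]
          exact mul_le_mul_of_nonneg_right (not_lt.1 hlt) hc'.le
        have h3 := abs_le.1 h2
        exact hx ⟨a, ha, by linarith [hy.1, h3.2], by linarith [hy.2, h3.1]⟩
      rw [Measure.real, this]
      simp
  have h2 : pr ν (⋃ a ∈ S, Set.Icc (a - R * |c|) (a + δ + R * |c|)) ≤
      pr ν ({x | θ < pr ν {x' | cell |c| 0 x' = cell |c| 0 x}} ∪
        ⋃ a ∈ S, {x | x ∈ Set.Icc (a - R * |c|) (a + δ + R * |c|) ∧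
          ¬ θ < pr ν {x' | cell |c| 0 x' = cell |c| 0 x}}) := by
    refine hν.pr_mono fun x _ hx => ?_
    by_cases hh : θ < pr ν {x' | cell |c| 0 x' = cell |c| 0 x}
    · exact Or.inl hh
    · simp only [Set.mem_iUnion] at hx
      obtain ⟨a, ha, hx⟩ := hx
      exact Or.inr (Set.mem_iUnion₂.2 ⟨a, ha, hx, hh⟩)
  refine h1.trans (h2.trans ((hν.pr_union_le _ _).trans (add_le_add le_rfl ?_)))
  refine (pr_biUnion_le hν _ _).trans ?_
  have h3 : ∀ a ∈ S, pr ν {x | x ∈ Set.Icc (a - R * |c|) (a + δ + R * |c|) ∧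
      ¬ θ < pr ν {x' | cell |c| 0 x' = cell |c| 0 x}} ≤ (δ / |c| + 2 * R + 2) * θ := by
    intro a _
    have h4 : 0 ≤ R * |c| := by positivity
    refine (pr_light_Icc hν hc' hθ (by linarith)).trans (le_of_eq ?_)
    congr 1
    field_simp
    ring
  refine (Finset.sum_le_sum h3).trans ?_
  rw [Finset.sum_const, nsmul_eq_mul]

open Classical in
omit [Fintype Ω] [Fintype ι] in
/-- optional stopping for a martingale `Φ` at the first multiple of `m` where `|cc ω| ≤ δ` -/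
theorem stop_le (M : Mod Ω ι) (σ : Sys Ω ι) (m : ℕ) (Φ H : List Ω → ℝ) (δ a b : ℝ)
    (hδ1 : δ * a ≤ 1) (hδ : 0 ≤ δ)
    (ha : ∀ ω : List Ω, ω.length = m → a ≤ |σ.cc ω|)
    (hΦ : ∀ ω, (ex (M.Om m) fun ω' => Φ (ω ++ ω')) = Φ ω) (hH : ∀ ω, 0 ≤ H ω)
    (hW : ∀ ω, δ * a ≤ |σ.cc ω| → |σ.cc ω| ≤ δ → Φ ω ≤ H ω + b) (K : ℕ) :
    Φ [] ≤ (∑ k ∈ Finset.range (K + 1),
      ex (M.Om (k * m)) fun ω => if |σ.cc ω| ≤ δ then H ω else 0) +
      ex (M.Om (K * m)) fun ω => if |σ.cc ω| ≤ δ then b else Φ ω := by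
  induction K with
  | zero =>
    simp only [zero_add, Finset.range_one, Finset.sum_singleton, zero_mul, ex_Om_zero]
    split_ifs with h1
    · exact hW [] (by simpa using hδ1) h1
    · rw [zero_add]
  | succ K ih =>
    rw [Finset.sum_range_succ, add_assoc]
    refine ih.trans (add_le_add le_rfl ?_)
    rw [← ex_add, show (K + 1) * m = K * m + m by ring, ex_Om_append]
    refine (isP_Om M _).ex_mono fun ω _ => ?_
    split_ifs with h1
    · refine (isP_Om M m).le_ex fun ω' _ => ?_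
      have h2 : |σ.cc (ω ++ ω')| ≤ δ := by
        rw [cc_append, abs_mul]
        calc |σ.cc ω| * |σ.cc ω'| ≤ δ * 1 :=
              mul_le_mul h1 (abs_cc_le_one σ ω') (abs_nonneg _) hδ
          _ = δ := mul_one δ
      rw [if_pos h2, if_pos h2]
      linarith [hH (ω ++ ω')]
    · rw [← hΦ ω]
      refine (isP_Om M m).ex_mono fun ω' hω' => ?_
      split_ifs with h2
      · refine hW _ ?_ h2
        have h3 := ha ω' ((mem_support_Om M).1 hω')
        rw [cc_append, abs_mul]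
        rcases le_total 0 a with h4 | h4
        · exact mul_le_mul (not_le.1 h1).le h3 h4 (abs_nonneg _)
        · exact le_trans (mul_nonpos_of_nonneg_of_nonpos hδ h4) (by positivity)
      · rw [zero_add]

end DimLow

theorem Stat.mass_le (h : Stat M σ μ) {γ : ℝ} (h0 : 0 ≤ γ) (hγ : γ * chi M σ < eR M σ) :
    ∃ C β : ℝ, 0 < C ∧ 0 < β ∧ ∀ (δ : ℝ) (S : Finset ℝ), 0 < δ → δ ≤ 1 →
      μ.real (⋃ x ∈ S, Set.Icc x (x + δ)) ≤ C * δ ^ β + C * S.card * δ ^ γ := by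
  classical
  have := h.1
  obtain ⟨m, ρ, hm, hρ0, hρ1, hρ⟩ := exists_rho M σ h0 hγ
  obtain ⟨ξ, ξ', hξ', hξo, hξ⟩ := exists_xi σ
  obtain ⟨R, hR, hμ⟩ := h.stat2.support (M.hP.bnd fun o _ => (M.hτ o).push _) (by
    intro g hg
    obtain ⟨o, _, hg⟩ := (M.hP.mem_support_bnd fun o _ => (M.hτ o).push _).1 hg
    obtain ⟨i, _, rfl⟩ := (M.hτ o).mem_support_push.1 hg
    exact (σ.hρ o).2)
  have hξpos : 0 < ξ := by
    obtain ⟨o, _⟩ := M.hP.support_nonempty
    linarith [(hξo o).1, (hξo o).2]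
  have hm' : (0 : ℝ) < m := by exact_mod_cast hm
  obtain ⟨q, hq⟩ : ∃ q : ℝ, q = (1 + ρ) / 2 := ⟨_, rfl⟩
  have hq0 : 0 < q := by rw [hq]; linarith
  have hq1 : q < 1 := by rw [hq]; linarith
  have hqρ : ρ ≤ q * q := by rw [hq]; nlinarith [sq_nonneg (1 - ρ)]
  obtain ⟨N, hN⟩ : ∃ N : ℝ, N = Real.exp (ξ * m) + 2 * R + 2 := ⟨_, rfl⟩
  have hN0 : 0 < N := by rw [hN]; positivity
  have hq2 : 0 < (1 - q)⁻¹ := inv_pos.2 (by linarith)
  have hβ : 0 < -Real.log q / (ξ * m) :=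
    div_pos (neg_pos.2 (Real.log_neg hq0 hq1)) (by positivity)
  refine ⟨(1 - q)⁻¹ + N, -Real.log q / (ξ * m), by positivity, hβ, fun δ S hδ hδ1 => ?_⟩
  have hA : MeasurableSet (⋃ x ∈ S, Set.Icc x (x + δ)) :=
    Finset.measurableSet_biUnion S fun _ _ => measurableSet_Icc
  -- the deterministic horizon
  obtain ⟨K, hK⟩ := exists_nat_ge (-Real.log δ / (ξ' * m))
  have hK' : Real.exp (-(ξ' * (K * m : ℕ))) ≤ δ := by
    rw [← Real.le_log_iff_exp_le hδ]
    rw [div_le_iff₀ (by positivity)] at hK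
    push_cast
    linarith
  have h1 := DimLow.stop_le M σ m
    (fun ω => ex (nu M σ ω) fun x => μ.real {y | x + σ.cc ω * y ∈ ⋃ x ∈ S, Set.Icc x (x + δ)})
    (fun ω => pr (nu M σ ω)
      {x | |σ.cc ω| ^ γ < pr (nu M σ ω) {x' | cell |σ.cc ω| 0 x' = cell |σ.cc ω| 0 x}})
    δ (Real.exp (-(ξ * m))) (S.card * (N * δ ^ γ))
    (mul_le_one₀ hδ1 (Real.exp_pos _).le (Real.exp_le_one_iff.2 (by
      have : 0 ≤ ξ * m := by positivity
      linarith)))
    hδ.le (fun ω hω => by rw [← hω]; exact (hξ ω).1) (fun ω => h.step hA ω m)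
    (fun ω => (isP_nu M σ ω).pr_nonneg _)
    (fun ω hlo hhi => by
      have hc := abs_cc_pos σ ω
      refine (DimLow.phi_le hR hμ (isP_nu M σ ω) (cc_ne_zero σ ω) hδ.le
        (Real.rpow_nonneg (abs_nonneg _) γ) S).trans (add_le_add le_rfl ?_)
      refine mul_le_mul_of_nonneg_left ?_ (Nat.cast_nonneg _)
      refine mul_le_mul ?_ (Real.rpow_le_rpow hc.le hhi h0) (Real.rpow_nonneg hc.le γ) hN0.le
      have h2 : δ / |σ.cc ω| ≤ Real.exp (ξ * m) := by
        rw [div_le_iff₀ hc]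
        calc δ = Real.exp (ξ * m) * (δ * Real.exp (-(ξ * m))) := by
              rw [Real.exp_neg]
              field_simp
          _ ≤ _ := mul_le_mul_of_nonneg_left hlo (Real.exp_pos _).le
      rw [hN]
      linarith) K
  have h2 : (ex (nu M σ []) fun x =>
      μ.real {y | x + σ.cc [] * y ∈ ⋃ x ∈ S, Set.Icc x (x + δ)}) =
      μ.real (⋃ x ∈ S, Set.Icc x (x + δ)) := by
    rw [nu_nil, ex_pur]
    simp only [cc_nil, zero_add, one_mul, Set.ofPred_mem_eq]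
  beta_reduce at h1
  rw [h2] at h1
  have hδβ : 0 ≤ δ ^ (-Real.log q / (ξ * m)) := Real.rpow_nonneg hδ.le _
  have hδγ : 0 ≤ δ ^ γ := Real.rpow_nonneg hδ.le _
  have h3 : ∀ k ∈ Finset.range (K + 1), (ex (M.Om (k * m)) fun ω => if |σ.cc ω| ≤ δ then
      pr (nu M σ ω)
        {x | |σ.cc ω| ^ γ < pr (nu M σ ω) {x' | cell |σ.cc ω| 0 x' = cell |σ.cc ω| 0 x}}
      else 0) ≤ δ ^ (-Real.log q / (ξ * m)) * q ^ k := by
    intro k _
    by_cases hk : Real.exp (-(ξ * (k * m : ℕ))) ≤ δ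
    · have h4 : q ^ k ≤ δ ^ (-Real.log q / (ξ * m)) := by
        refine le_trans (le_of_eq ?_) (Real.rpow_le_rpow (Real.exp_pos _).le hk hβ.le)
        rw [← Real.exp_mul, ← Real.exp_log (pow_pos hq0 k), Real.log_pow]
        congr 1
        push_cast
        field_simp
      calc _ ≤ ρ ^ k := by
            refine le_trans ((isP_Om M _).ex_mono fun ω _ => ?_) (hρ k)
            split_ifs
            · exact le_rfl
            · exact (isP_nu M σ ω).pr_nonneg _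
        _ ≤ (q * q) ^ k := pow_le_pow_left₀ hρ0 hqρ k
        _ = q ^ k * q ^ k := mul_pow _ _ _
        _ ≤ _ := mul_le_mul_of_nonneg_right h4 (pow_nonneg hq0.le k)
    · refine (isP_Om M _).ex_le fun ω hω => ?_
      have h5 := (hξ ω).1
      rw [(mem_support_Om M).1 hω] at h5
      rw [if_neg (fun h6 => hk (h5.trans h6))]
      positivity
  have h4 : (ex (M.Om (K * m)) fun ω => if |σ.cc ω| ≤ δ then S.card * (N * δ ^ γ) else
      ex (nu M σ ω) fun x => μ.real {y | x + σ.cc ω * y ∈ ⋃ x ∈ S, Set.Icc x (x + δ)}) ≤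
      S.card * (N * δ ^ γ) := by
    refine (isP_Om M _).ex_le fun ω hω => ?_
    have h5 := (hξ ω).2
    rw [(mem_support_Om M).1 hω] at h5
    rw [if_pos (h5.trans hK')]
  have h5 : ∑ k ∈ Finset.range (K + 1), q ^ k ≤ (1 - q)⁻¹ := by
    rw [← tsum_geometric_of_lt_one hq0.le hq1]
    exact (summable_geometric_of_lt_one hq0.le hq1).sum_le_tsum _ fun k _ => pow_nonneg hq0.le k
  have h6 := Finset.sum_le_sum h3
  rw [← Finset.mul_sum] at h6
  have h7 := mul_le_mul_of_nonneg_left h5 hδβ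
  have h8 : 0 ≤ N * δ ^ (-Real.log q / (ξ * m)) := mul_nonneg hN0.le hδβ
  have h9 : 0 ≤ (1 - q)⁻¹ * S.card * δ ^ γ := by positivity
  calc _ ≤ δ ^ (-Real.log q / (ξ * m)) * (1 - q)⁻¹ + S.card * (N * δ ^ γ) := by linarith
    _ ≤ _ := by linarith [add_mul (1 - q)⁻¹ N (δ ^ (-Real.log q / (ξ * m))),
        show ((1 - q)⁻¹ + N) * S.card * δ ^ γ =
          (1 - q)⁻¹ * S.card * δ ^ γ + S.card * (N * δ ^ γ) by ring]

namespace DimLow

open scoped ENNReal NNReal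

/-- the cell of index `k` and mesh `δ` -/
def cl (δ : ℝ) (k : ℤ) : Set ℝ := Set.Ico (k * δ) (k * δ + δ)

theorem mem_cl {δ : ℝ} (hδ : 0 < δ) {k : ℤ} {x : ℝ} : x ∈ cl δ k ↔ ⌊x / δ⌋ = k := by
  rw [Int.floor_eq_iff, le_div_iff₀ hδ, div_lt_iff₀ hδ, add_mul, one_mul]
  rfl

/-- union of the heavy cells -/
def hv (μ : Measure ℝ) (θ δ : ℝ) : Set ℝ := ⋃ k ∈ {k : ℤ | θ < μ.real (cl δ k)}, cl δ k

theorem measurableSet_hv (θ δ : ℝ) : MeasurableSet (hv μ θ δ) :=
  MeasurableSet.biUnion (Set.to_countable _) fun _ _ => measurableSet_Ico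

theorem hv_le [IsProbabilityMeasure μ] {δ a b : ℝ} (hδ : 0 < δ) (hb : 0 ≤ b)
    (h : ∀ S : Finset ℝ, μ.real (⋃ x ∈ S, Set.Icc x (x + δ)) ≤ a + S.card * b) :
    μ (hv μ (2 * b) δ) ≤ ENNReal.ofReal (2 * a) := by
  classical
  refine (measure_biUnion_le μ (Set.to_countable _) _).trans ?_
  rw [ENNReal.tsum_eq_iSup_sum]
  refine iSup_le fun T => ?_
  have h1 : μ.real (⋃ k ∈ T, cl δ k.1) = ∑ k ∈ T, μ.real (cl δ k.1) := by
    refine measureReal_biUnion_finset (fun k _ k' _ hne => ?_) fun _ _ => measurableSet_Ico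
    refine Set.disjoint_left.2 fun x hx hx' => hne (Subtype.ext ?_)
    rw [← (mem_cl hδ).1 hx, ← (mem_cl hδ).1 hx']
  have h2 : μ.real (⋃ k ∈ T, cl δ k.1) ≤
      μ.real (⋃ x ∈ T.image (fun k => (k.1 : ℝ) * δ), Set.Icc x (x + δ)) := by
    refine measureReal_mono (fun x hx => ?_) (measure_ne_top _ _)
    simp only [Set.mem_iUnion] at hx ⊢
    obtain ⟨k, hk, hx⟩ := hx
    exact ⟨_, Finset.mem_image_of_mem _ hk, hx.1, hx.2.le⟩
  have h3 := h (T.image fun k => (k.1 : ℝ) * δ)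
  have h4 : ((T.image fun k => (k.1 : ℝ) * δ).card : ℝ) ≤ T.card := by
    exact_mod_cast Finset.card_image_le
  have h5 : ∑ _k ∈ T, 2 * b ≤ ∑ k ∈ T, μ.real (cl δ k.1) :=
    Finset.sum_le_sum fun k _ => le_of_lt k.2
  rw [Finset.sum_const, nsmul_eq_mul] at h5
  have h6 := mul_le_mul_of_nonneg_right h4 hb
  have h7 : ∑ k ∈ T, μ.real (cl δ k.1) ≤ 2 * a := by linarith
  calc ∑ k ∈ T, μ (cl δ k.1) = ENNReal.ofReal (∑ k ∈ T, μ.real (cl δ k.1)) := by
        rw [ENNReal.ofReal_sum_of_nonneg fun _ _ => measureReal_nonneg]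
        exact Finset.sum_congr rfl fun k _ => (ofReal_measureReal).symm
    _ ≤ _ := ENNReal.ofReal_le_ofReal h7

theorem small_le [IsProbabilityMeasure μ] {θ δ : ℝ} (hδ : 0 < δ) (hθ : 0 ≤ θ) {s : Set ℝ}
    (hs : ∀ x ∈ s, ∀ y ∈ s, |x - y| ≤ δ) : μ (s \ hv μ θ δ) ≤ ENNReal.ofReal (3 * θ) := by
  rcases s.eq_empty_or_nonempty with rfl | ⟨x₀, hx₀⟩
  · simp
  have h1 : ∀ k : ℤ, μ (cl δ k \ hv μ θ δ) ≤ ENNReal.ofReal θ := by
    intro k
    by_cases hk : θ < μ.real (cl δ k)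
    · have : cl δ k \ hv μ θ δ = ∅ :=
        Set.sdiff_eq_empty.2 (Set.subset_biUnion_of_mem (u := fun k => cl δ k)
          (s := {k : ℤ | θ < μ.real (cl δ k)}) hk)
      rw [this]
      simp
    · refine (measure_mono Set.sdiff_subset).trans ?_
      rw [← ofReal_measureReal]
      exact ENNReal.ofReal_le_ofReal (not_lt.1 hk)
  have h2 : s \ hv μ θ δ ⊆ (cl δ (⌊x₀ / δ⌋ - 1) \ hv μ θ δ) ∪ (cl δ ⌊x₀ / δ⌋ \ hv μ θ δ) ∪
      (cl δ (⌊x₀ / δ⌋ + 1) \ hv μ θ δ) := by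
    intro x hx
    have h3 := abs_le.1 (hs x hx.1 x₀ hx₀)
    have h4 : ⌊x₀ / δ⌋ - 1 ≤ ⌊x / δ⌋ := by
      rw [← Int.floor_sub_one]
      refine Int.floor_le_floor ?_
      rw [sub_le_iff_le_add, div_add_one hδ.ne']
      exact div_le_div_of_nonneg_right (by linarith) hδ.le
    have h5 : ⌊x / δ⌋ ≤ ⌊x₀ / δ⌋ + 1 := by
      rw [← Int.floor_add_one]
      refine Int.floor_le_floor ?_
      rw [div_add_one hδ.ne']
      exact div_le_div_of_nonneg_right (by linarith) hδ.le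
    simp only [Set.mem_union, Set.mem_sdiff, mem_cl hδ]
    have h6 := hx.2
    rcases (by omega : ⌊x / δ⌋ = ⌊x₀ / δ⌋ - 1 ∨ ⌊x / δ⌋ = ⌊x₀ / δ⌋ ∨ ⌊x / δ⌋ = ⌊x₀ / δ⌋ + 1) with
      h | h | h
    · exact Or.inl (Or.inl ⟨h, h6⟩)
    · exact Or.inl (Or.inr ⟨h, h6⟩)
    · exact Or.inr ⟨h, h6⟩
  calc μ (s \ hv μ θ δ) ≤ _ := measure_mono h2
    _ ≤ ENNReal.ofReal θ + ENNReal.ofReal θ + ENNReal.ofReal θ :=
        (measure_union_le _ _).trans
          (add_le_add ((measure_union_le _ _).trans (add_le_add (h1 _) (h1 _))) (h1 _))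
    _ = _ := by
        rw [← ENNReal.ofReal_add hθ hθ, ← ENNReal.ofReal_add (add_nonneg hθ hθ) hθ]
        congr 1
        ring

/-- mass distribution principle -/
theorem null_of_hausdorff [IsProbabilityMeasure μ] {γ C β : ℝ} (hγ : 0 < γ) (hC : 0 < C) (hβ : 0 < β)
    (h : ∀ (δ : ℝ) (S : Finset ℝ), 0 < δ → δ ≤ 1 →
      μ.real (⋃ x ∈ S, Set.Icc x (x + δ)) ≤ C * δ ^ β + C * S.card * δ ^ γ)
    {E : Set ℝ} (hE : MeasurableSet E) (h0 : μH[γ] E = 0) : μ E = 0 := by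
  have hp : ∀ j : ℕ, (0 : ℝ) < (1 / 2) ^ j := fun j => by positivity
  have hp1 : ∀ j : ℕ, ((1 / 2) ^ j : ℝ) ≤ 1 := fun j => pow_le_one₀ (by norm_num) (by norm_num)
  obtain ⟨B, hB⟩ : ∃ B : ℕ → Set ℝ,
      B = fun j => hv μ (2 * (C * ((1 / 2) ^ j : ℝ) ^ γ)) ((1 / 2) ^ j) := ⟨_, rfl⟩
  have hBm : ∀ j, MeasurableSet (B j) := fun j => by rw [hB]; exact measurableSet_hv _ _
  have hB1 : ∀ j, μ (B j) ≤ ENNReal.ofReal (2 * (C * ((1 / 2 : ℝ) ^ β) ^ j)) := by
    intro j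
    rw [hB, ← Real.rpow_natCast, ← Real.rpow_mul (by norm_num), mul_comm β, Real.rpow_mul (by norm_num),
      Real.rpow_natCast]
    refine hv_le (hp j) (by have := Real.rpow_nonneg (hp j).le γ; positivity) fun S => ?_
    have := h _ S (hp j) (hp1 j)
    linarith
  have hq0 : (0 : ℝ) ≤ (1 / 2) ^ β := Real.rpow_nonneg (by norm_num) β
  have hq1 : (1 / 2 : ℝ) ^ β < 1 := Real.rpow_lt_one (by norm_num) (by norm_num) hβ
  have hsum : ∑' j, μ (B j) ≠ ∞ := by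
    refine ne_top_of_le_ne_top ?_ (ENNReal.tsum_le_tsum hB1)
    rw [← ENNReal.ofReal_tsum_of_nonneg (fun j => by positivity)
      (((summable_geometric_of_lt_one hq0 hq1).mul_left C).mul_left 2)]
    exact ENNReal.ofReal_ne_top
  -- good sets
  have hG : ∀ J : ℕ, μ (E ∩ (⋃ j, B (j + J))ᶜ) = 0 := by
    intro J
    have hGm : MeasurableSet (⋃ j, B (j + J))ᶜ := (MeasurableSet.iUnion fun j => hBm _).compl
    obtain ⟨c, hc⟩ : ∃ c : ℝ, c = 6 * C * 2 ^ γ := ⟨_, rfl⟩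
    have hc0 : 0 < c := by rw [hc]; positivity
    have key : ∀ (s : Set ℝ) (j : ℕ), (∀ x ∈ s, ∀ y ∈ s, |x - y| ≤ (1 / 2) ^ (j + J)) →
        μ.restrict (⋃ j, B (j + J))ᶜ s ≤ ENNReal.ofReal (6 * C * ((1 / 2) ^ (j + J) : ℝ) ^ γ) := by
      intro s j hs
      rw [Measure.restrict_apply' hGm]
      have h1 := small_le (μ := μ) (θ := 2 * (C * ((1 / 2) ^ (j + J) : ℝ) ^ γ)) (hp (j + J))
        (by have := Real.rpow_nonneg (hp (j + J)).le γ; positivity) hs
      refine le_trans (measure_mono fun x hx => ?_) (h1.trans (le_of_eq (by congr 1; ring)))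
      refine ⟨hx.1, fun hx' => hx.2 ?_⟩
      refine Set.mem_iUnion.2 ⟨j, ?_⟩
      rw [hB]
      exact hx'
    have hle : (ENNReal.ofReal c)⁻¹ • μ.restrict (⋃ j, B (j + J))ᶜ ≤ μH[γ] := by
      refine Measure.le_hausdorffMeasure γ _ (ENNReal.ofReal ((1 / 2) ^ J))
        (ENNReal.ofReal_pos.2 (hp J)) fun s hs => ?_
      rw [Measure.smul_apply, smul_eq_mul,
        ENNReal.inv_mul_le_iff (ENNReal.ofReal_pos.2 hc0).ne' ENNReal.ofReal_ne_top]
      have hfin : Metric.ediam s ≠ ∞ := ne_top_of_le_ne_top ENNReal.ofReal_ne_top hs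
      obtain ⟨d, hd⟩ : ∃ d : ℝ, d = (Metric.ediam s).toReal := ⟨_, rfl⟩
      have hd0 : 0 ≤ d := by rw [hd]; exact ENNReal.toReal_nonneg
      have hd1 : Metric.ediam s = ENNReal.ofReal d := by rw [hd, ENNReal.ofReal_toReal hfin]
      have hd2 : d ≤ (1 / 2) ^ J := by
        rw [hd1] at hs
        exact (ENNReal.ofReal_le_ofReal_iff (hp J).le).1 hs
      have hd3 : ∀ x ∈ s, ∀ y ∈ s, |x - y| ≤ d := by
        intro x hx y hy
        have h1 := Metric.edist_le_ediam_of_mem hx hy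
        rw [hd1, edist_dist, Real.dist_eq] at h1
        exact (ENNReal.ofReal_le_ofReal_iff hd0).1 h1
      rcases hd0.eq_or_lt with hd4 | hd4
      · have h1 : Filter.Tendsto (fun j : ℕ => ENNReal.ofReal (6 * C * ((1 / 2) ^ (j + J) : ℝ) ^ γ))
            Filter.atTop (nhds 0) := by
          have h2 : Filter.Tendsto (fun j : ℕ => ((1 / 2) ^ (j + J) : ℝ)) Filter.atTop (nhds 0) :=
            (tendsto_pow_atTop_nhds_zero_of_lt_one (by norm_num) (by norm_num)).comp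
              (Filter.tendsto_add_atTop_nat J)
          have h3 := ((h2.rpow_const (p := γ) (Or.inr hγ.le)).const_mul (6 * C))
          rw [Real.zero_rpow hγ.ne', mul_zero] at h3
          simpa using ENNReal.tendsto_ofReal h3
        have h2 : μ.restrict (⋃ j, B (j + J))ᶜ s ≤ 0 :=
          ge_of_tendsto' h1 fun j => key s j fun x hx y hy =>
            (hd3 x hx y hy).trans (hd4 ▸ (hp _).le)
        exact h2.trans zero_le
      · have hex : ∃ j : ℕ, ((1 / 2) ^ (j + 1 + J) : ℝ) < d := by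
          obtain ⟨j, hj⟩ := exists_pow_lt_of_lt_one hd4 (by norm_num : (1 / 2 : ℝ) < 1)
          exact ⟨j, lt_of_le_of_lt (pow_le_pow_of_le_one (by norm_num) (by norm_num) (by omega)) hj⟩
        have h1 := Nat.find_spec hex
        have h2 : d ≤ (1 / 2) ^ (Nat.find hex + J) := by
          rcases Nat.eq_zero_or_eq_succ_pred (Nat.find hex) with h3 | h3
          · rw [h3, zero_add]; exact hd2
          · have h4 := Nat.find_min hex (m := (Nat.find hex).pred) (by rw [h3]; simp)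
            rw [h3]
            exact not_lt.1 h4
        refine (key s (Nat.find hex) fun x hx y hy => (hd3 x hx y hy).trans h2).trans ?_
        rw [hd1, ENNReal.ofReal_rpow_of_pos hd4, ← ENNReal.ofReal_mul hc0.le]
        refine ENNReal.ofReal_le_ofReal ?_
        rw [hc, mul_assoc (6 * C), ← Real.mul_rpow (by norm_num) hd0]
        refine mul_le_mul_of_nonneg_left (Real.rpow_le_rpow (hp _).le ?_ hγ.le) (by positivity)
        rw [show Nat.find hex + 1 + J = Nat.find hex + J + 1 by ring, pow_succ] at h1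
        linarith
    have h1 := Measure.le_iff'.1 hle E
    rw [h0, Measure.smul_apply, smul_eq_mul, nonpos_iff_eq_zero, mul_eq_zero,
      Measure.restrict_apply hE] at h1
    exact h1.resolve_left (ENNReal.inv_ne_zero.2 ENNReal.ofReal_ne_top)
  have h1 : ∀ J : ℕ, μ E ≤ ∑' j, μ (B (j + J)) := by
    intro J
    calc μ E ≤ μ (E ∩ (⋃ j, B (j + J))ᶜ ∪ ⋃ j, B (j + J)) := by
          refine measure_mono fun x hx => ?_
          by_cases h2 : x ∈ ⋃ j, B (j + J)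
          · exact Or.inr h2
          · exact Or.inl ⟨hx, h2⟩
      _ ≤ μ (E ∩ (⋃ j, B (j + J))ᶜ) + μ (⋃ j, B (j + J)) := measure_union_le _ _
      _ ≤ _ := by rw [hG J, zero_add]; exact measure_iUnion_le _
  exact nonpos_iff_eq_zero.1 (ge_of_tendsto' (ENNReal.tendsto_sum_nat_add _ hsum) h1)

end DimLow

theorem Stat.dim_low (h : Stat M σ μ) : ENNReal.ofReal (eR M σ / chi M σ) ≤ lowerHausdorffDim μ := by
  have := h.1
  refine le_iInf fun E => le_iInf fun hE => le_iInf fun hpos => ?_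
  by_contra hlt
  obtain ⟨d, hd1, hd2⟩ := ENNReal.lt_iff_exists_nnreal_btwn.1 (not_le.1 hlt)
  have hd0 : (0 : ℝ) < d := by
    have : (0 : ENNReal) < d := lt_of_le_of_lt zero_le hd1
    exact_mod_cast this
  have hd3 : (d : ℝ) < eR M σ / chi M σ := by
    rw [← ENNReal.ofReal_coe_nnreal] at hd2
    exact (ENNReal.ofReal_lt_ofReal_iff_of_nonneg hd0.le).1 hd2
  rw [lt_div_iff₀ (chi_pos M σ)] at hd3
  obtain ⟨C, β, hC, hβ, hm⟩ := h.mass_le hd0.le hd3
  exact hpos.ne' (DimLow.null_of_hausdorff hd0 hC hβ hm hE (hausdorffMeasure_of_dimH_lt hd1))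

end Crest.Agent.R98
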