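import Crest.Agent.R98.TreeA

/-!
# R98/TreeCls: the classes of an adapted tree at scale `s`
`cls s T y` = the path of `y` through the nodes with label `≥ s`. The supports of the two children are disjoint (side
condition of `SV₀`), so `push (cls s T) (law T) = mix v (push (true :: cls L)) (push (false :: cls H))` and
`ent_mix_of_disjoint` gives `ent_cls`. Counting (`cls_card`): let `N T x y` be the number of values of `cls s T` on
`supp ∩ [x, y]`. By induction: (B) if `supp ⊆ [A, B]` then `N ≤ max 1 (8 (B - A)/s)` (a node with `D ≥ s` has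
`A + s/8 ≤ b ≤ B - s/8`); (R) if `supp ⊆ (-∞, B]` then `N T x ∞ ≤ 1 + 8 max 0 (B - x)/s`; (L) symmetric;
(A) `N T x y ≤ 2 + 8 (y - x)/s`. Then `ent_push_le_Hs`.
-/

set_option autoImplicit false

namespace Crest.Agent.R98

open Classical in
/-- path of `y` through the nodes with label `≥ s` -/
noncomputable def Tr.cls (s : ℝ) : Tr → ℝ → List Bool
  | .leaf _, _ => []
  | .node D _ _ _ L H, y =>
      if s ≤ D then (if y ∈ L.law.support then true :: L.cls s y else false :: H.cls s y) else []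

/-- `f` takes at most `n` values on the points of `S` with property `P` -/
def ClsCnt (S : Finset ℝ) (f : ℝ → List Bool) (P : ℝ → Prop) (n : ℝ) : Prop :=
  ∃ F : Finset (List Bool), (F.card : ℝ) ≤ n ∧ ∀ y ∈ S, P y → f y ∈ F

/-- the four counting statements -/
structure ClsFour (s : ℝ) (S : Finset ℝ) (f : ℝ → List Bool) : Prop where
  hB : ∀ x y, (∀ z ∈ S, x ≤ z) → (∀ z ∈ S, z ≤ y) →
    ClsCnt S f (fun _ => True) (max 1 (8 * (y - x) / s))
  hR : ∀ x y, (∀ z ∈ S, z ≤ y) → ClsCnt S f (fun z => x ≤ z) (1 + 8 * max 0 (y - x) / s)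
  hL : ∀ x y, (∀ z ∈ S, x ≤ z) → ClsCnt S f (fun z => z ≤ y) (1 + 8 * max 0 (y - x) / s)
  hA : ∀ x y, ClsCnt S f (fun z => x ≤ z ∧ z ≤ y) (2 + 8 * max 0 (y - x) / s)

theorem ClsCnt.map {S : Finset ℝ} {f f' : ℝ → List Bool} {P : ℝ → Prop} {n : ℝ}
    (h : ClsCnt S f P n) (g : List Bool → List Bool) (hg : ∀ y ∈ S, f' y = g (f y)) :
    ClsCnt S f' P n := by
  obtain ⟨F, h1, h2⟩ := h
  refine ⟨F.image g, le_trans (by exact_mod_cast Finset.card_image_le) h1, fun y hy hP => ?_⟩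
  rw [hg y hy]
  exact Finset.mem_image_of_mem _ (h2 y hy hP)

theorem ClsCnt.union {S S₁ S₂ : Finset ℝ} {f : ℝ → List Bool} {P P₁ P₂ : ℝ → Prop} {n n₁ n₂ : ℝ}
    (h₁ : ClsCnt S₁ f P₁ n₁) (h₂ : ClsCnt S₂ f P₂ n₂)
    (hS : ∀ z ∈ S, P z → (z ∈ S₁ ∧ P₁ z) ∨ (z ∈ S₂ ∧ P₂ z)) (hn : n₁ + n₂ ≤ n) :
    ClsCnt S f P n := by
  obtain ⟨F₁, a1, a2⟩ := h₁
  obtain ⟨F₂, b1, b2⟩ := h₂
  refine ⟨F₁ ∪ F₂, ?_, fun y hy hP => ?_⟩
  · have : ((F₁ ∪ F₂).card : ℝ) ≤ F₁.card + F₂.card := by exact_mod_cast Finset.card_union_le _ _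
    linarith
  · rcases hS y hy hP with h | h
    · exact Finset.mem_union_left _ (a2 y h.1 h.2)
    · exact Finset.mem_union_right _ (b2 y h.1 h.2)

theorem ClsCnt.of {S S₁ : Finset ℝ} {f : ℝ → List Bool} {P P₁ : ℝ → Prop} {n : ℝ}
    (h₁ : ClsCnt S₁ f P₁ n) (hS : ∀ z ∈ S, P z → z ∈ S₁ ∧ P₁ z) : ClsCnt S f P n := by
  obtain ⟨F₁, a1, a2⟩ := h₁
  exact ⟨F₁, a1, fun y hy hP => a2 y (hS y hy hP).1 (hS y hy hP).2⟩

theorem ClsFour.map {s : ℝ} {S : Finset ℝ} {f f' : ℝ → List Bool} (h : ClsFour s S f)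
    (g : List Bool → List Bool) (hg : ∀ y ∈ S, f' y = g (f y)) : ClsFour s S f' :=
  ⟨fun x y a b => (h.hB x y a b).map g hg, fun x y a => (h.hR x y a).map g hg,
    fun x y a => (h.hL x y a).map g hg, fun x y => (h.hA x y).map g hg⟩

theorem clsFour_const {s : ℝ} (hs : 0 < s) {S : Finset ℝ} {f : ℝ → List Bool}
    (hf : ∀ y ∈ S, f y = []) : ClsFour s S f := by
  have key : ∀ (P : ℝ → Prop) (n : ℝ), 1 ≤ n → ClsCnt S f P n := fun P n hn =>
    ⟨{[]}, by simpa using hn, fun y hy _ => by rw [hf y hy]; exact Finset.mem_singleton_self _⟩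
  have h0 : ∀ r : ℝ, 0 ≤ 8 * max 0 r / s := fun r =>
    div_nonneg (mul_nonneg (by norm_num) (le_max_left _ _)) hs.le
  exact ⟨fun x y _ _ => key _ _ (le_max_left _ _), fun x y _ => key _ _ (by linarith [h0 (y - x)]),
    fun x y _ => key _ _ (by linarith [h0 (y - x)]), fun x y => key _ _ (by linarith [h0 (y - x)])⟩

theorem clsFour_step {s b p q : ℝ} (hs : 0 < s) {S S₁ S₂ : Finset ℝ} {f : ℝ → List Bool}
    (hS : ∀ z, z ∈ S ↔ z ∈ S₁ ∨ z ∈ S₂) (h1 : ∀ z ∈ S₁, z ≤ b) (h2 : ∀ z ∈ S₂, b ≤ z)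
    (hp : p ∈ S) (hpb : p + s / 8 ≤ b) (hq : q ∈ S) (hqb : b + s / 8 ≤ q)
    (F₁ : ClsFour s S₁ f) (F₂ : ClsFour s S₂ f) : ClsFour s S f := by
  have m1 : ∀ z ∈ S₁, z ∈ S := fun z hz => (hS z).2 (Or.inl hz)
  have m2 : ∀ z ∈ S₂, z ∈ S := fun z hz => (hS z).2 (Or.inr hz)
  have big : ∀ r : ℝ, s / 8 ≤ r → max 1 (8 * r / s) = 8 * r / s := fun r hr =>
    max_eq_right ((one_le_div hs).2 (by linarith))
  have add : ∀ x y : ℝ, 8 * (b - x) / s + 8 * (y - b) / s = 8 * (y - x) / s := fun x y => by ring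
  refine ⟨fun x y hx hy => ?_, fun x y hy => ?_, fun x y hx => ?_, fun x y => ?_⟩
  · refine (F₁.hB x b (fun z hz => hx z (m1 z hz)) h1).union
      (F₂.hB b y h2 fun z hz => hy z (m2 z hz))
      (fun z hz _ => ((hS z).1 hz).imp (fun h => ⟨h, trivial⟩) fun h => ⟨h, trivial⟩) ?_
    rw [big _ (by linarith [hx p hp]), big _ (by linarith [hy q hq]), add]
    exact le_max_right _ _
  · rcases le_or_gt x b with h | h
    · refine (F₁.hR x b h1).union (F₂.hB b y h2 fun z hz => hy z (m2 z hz))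
        (fun z hz hz' => ((hS z).1 hz).imp (fun h => ⟨h, hz'⟩) fun h => ⟨h, trivial⟩) ?_
      have := hy q hq
      rw [big _ (by linarith), max_eq_right (by linarith), max_eq_right (by linarith), add_assoc, add]
    · refine (F₂.hR x y fun z hz => hy z (m2 z hz)).of fun z hz hz' => ⟨?_, hz'⟩
      exact ((hS z).1 hz).resolve_left fun h' => by linarith [h1 z h']
  · rcases le_or_gt b y with h | h
    · refine (F₁.hB x b (fun z hz => hx z (m1 z hz)) h1).union (F₂.hL b y h2)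
        (fun z hz hz' => ((hS z).1 hz).imp (fun h => ⟨h, trivial⟩) fun h => ⟨h, hz'⟩) ?_
      have := hx p hp
      rw [big _ (by linarith), max_eq_right (by linarith), max_eq_right (by linarith), ← add x y]
      linarith
    · refine (F₁.hL x y fun z hz => hx z (m1 z hz)).of fun z hz hz' => ⟨?_, hz'⟩
      exact ((hS z).1 hz).resolve_right fun h' => by linarith [h2 z h']
  · rcases lt_or_ge b x with h | h
    · refine (F₂.hA x y).of fun z hz hz' => ⟨?_, hz'⟩
      exact ((hS z).1 hz).resolve_left fun h' => by linarith [h1 z h', hz'.1]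
    rcases lt_or_ge y b with h' | h'
    · refine (F₁.hA x y).of fun z hz hz' => ⟨?_, hz'⟩
      exact ((hS z).1 hz).resolve_right fun h'' => by linarith [h2 z h'', hz'.2]
    refine (F₁.hR x b h1).union (F₂.hL b y h2)
      (fun z hz hz' => ((hS z).1 hz).imp (fun h => ⟨h, hz'.1⟩) fun h => ⟨h, hz'.2⟩) ?_
    rw [max_eq_right (by linarith), max_eq_right (by linarith), max_eq_right (by linarith), ← add x y]
    linarith

section node
variable {D v b : ℝ} {Nr : Set ℝ} {L H : Tr}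

theorem Tr.SV.cls_left (h : (Tr.node D v b Nr L H).SV) : L.SV := ⟨h.1.2.1, h.2.2.1⟩

theorem Tr.SV.cls_right (h : (Tr.node D v b Nr L H).SV) : H.SV := ⟨h.1.2.2, h.2.2.2⟩

theorem Tr.SV.cls_mem (h : (Tr.node D v b Nr L H).SV) (z : ℝ) :
    z ∈ (Tr.node D v b Nr L H).law.support ↔ z ∈ L.law.support ∨ z ∈ H.law.support := by
  obtain ⟨-, h0, h1, -⟩ := h.1.1
  exact mem_support_mix h.cls_left.1.isP h.cls_right.1.isP h0 (by linarith)

theorem Tr.SV.cls_disj (h : (Tr.node D v b Nr L H).SV) {z : ℝ} (hz : z ∈ H.law.support) :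
    z ∉ L.law.support := by
  intro hz'
  obtain ⟨-, -, h1 | h1, -⟩ := h.2.1
  · linarith [h1.1 z hz', h1.2 z hz]
  · linarith [h1.1 z hz', h1.2 z hz]

theorem Tr.cls_of_mem {s y : ℝ} (hD : s ≤ D) (hy : y ∈ L.law.support) :
    (Tr.node D v b Nr L H).cls s y = true :: L.cls s y := by
  rw [Tr.cls, if_pos hD, if_pos hy]

theorem Tr.cls_of_not_mem {s y : ℝ} (hD : s ≤ D) (hy : y ∉ L.law.support) :
    (Tr.node D v b Nr L H).cls s y = false :: H.cls s y := by
  rw [Tr.cls, if_pos hD, if_neg hy]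

theorem Tr.cls_of_lt {s : ℝ} (hD : ¬ s ≤ D) (y : ℝ) : (Tr.node D v b Nr L H).cls s y = [] := by
  rw [Tr.cls, if_neg hD]

end node

theorem Tr.SV.clsFour {T : Tr} (h : T.SV) {s : ℝ} (hs : 0 < s) :
    ClsFour s T.law.support (T.cls s) := by
  induction T with
  | leaf y => exact clsFour_const hs fun _ _ => rfl
  | node D v b Nr L H ihL ihH =>
    by_cases hD : s ≤ D
    · have FL : ClsFour s L.law.support ((Tr.node D v b Nr L H).cls s) :=
        (ihL h.cls_left).map (List.cons true) fun y hy => Tr.cls_of_mem hD hy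
      have FH : ClsFour s H.law.support ((Tr.node D v b Nr L H).cls s) :=
        (ihH h.cls_right).map (List.cons false) fun y hy => Tr.cls_of_not_mem hD (h.cls_disj hy)
      obtain ⟨-, -, h1, ⟨p, hp, hpb⟩, ⟨q, hq, hqb⟩, -⟩ := h.2.1
      rcases h1 with h1 | h1
      · exact clsFour_step (b := b) hs (fun z => (h.cls_mem z).trans or_comm) h1.2
          (fun z hz => (h1.1 z hz).le) hp (by linarith) hq (by linarith) FH FL
      · exact clsFour_step (b := b) hs h.cls_mem (fun z hz => (h1.1 z hz).le) h1.2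
          hp (by linarith) hq (by linarith) FL FH
    · exact clsFour_const hs fun y _ => Tr.cls_of_lt hD y

theorem Tr.SV.ent_cls {T : Tr} (h : T.SV) (s : ℝ) :
    ent (push (T.cls s) T.law) = T.gsum (hOn (Set.Ici s)) := by
  induction T with
  | leaf y => rw [Tr.law, push_pur, ent_pur, Tr.gsum]
  | node D v b Nr L H ihL ihH =>
    by_cases hD : s ≤ D
    · have hL := h.cls_left.1.isP
      have hH := h.cls_right.1.isP
      obtain ⟨-, h0, h1, -⟩ := h.1.1
      have e1 : push ((Tr.node D v b Nr L H).cls s) L.law =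
          push (List.cons true) (push (L.cls s) L.law) := by
        rw [push_push]
        exact push_congr fun y hy => Tr.cls_of_mem hD hy
      have e2 : push ((Tr.node D v b Nr L H).cls s) H.law =
          push (List.cons false) (push (H.cls s) H.law) := by
        rw [push_push]
        exact push_congr fun y hy => Tr.cls_of_not_mem hD (h.cls_disj hy)
      have e3 : hOn (Set.Ici s) (Tr.node D v b Nr L H) = Real.binEntropy v := if_pos hD
      rw [Tr.law, push_mix, e1, e2, ent_mix_of_disjoint ((hL.push _).push _) ((hH.push _).push _)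
        h0.le (by linarith), ent_push_of_injOn fun _ _ _ _ e => List.tail_eq_of_cons_eq e,
        ent_push_of_injOn fun _ _ _ _ e => List.tail_eq_of_cons_eq e, ihL h.cls_left,
        ihH h.cls_right, Tr.gsum, e3]
      intro a ha ha'
      obtain ⟨_, _, rfl⟩ := (hL.push _).mem_support_push.1 ha
      obtain ⟨_, _, e⟩ := (hH.push _).mem_support_push.1 ha'
      simp at e
    · rw [push_congr (g := fun _ => []) fun y _ => Tr.cls_of_lt hD y, ← bnd_pur,
        h.1.isP.bnd_const, ent_pur, ← Tr.gsum_zero (Tr.node D v b Nr L H)]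
      refine Tr.gsum_congr (h.1.all_lab.mono fun S hS => ?_)
      refine (if_neg fun hle => hD ?_).symm
      exact le_trans hle hS.2.1

theorem Tr.SV.cls_diam {T : Tr} (h : T.SV) {s : ℝ} (hs : 0 < s) :
    ∀ y ∈ T.law.support, ∀ y' ∈ T.law.support, T.cls s y = T.cls s y' → |y - y'| < s := by
  induction T with
  | leaf z =>
    intro y hy y' hy' _
    rw [mem_support_pur.1 hy, mem_support_pur.1 hy', sub_self, abs_zero]
    exact hs
  | node D v b Nr L H ihL ihH =>
    intro y hy y' hy' e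
    by_cases hD : s ≤ D
    · by_cases h1 : y ∈ L.law.support <;> by_cases h2 : y' ∈ L.law.support
      · rw [Tr.cls_of_mem hD h1, Tr.cls_of_mem hD h2] at e
        exact ihL h.cls_left y h1 y' h2 (List.tail_eq_of_cons_eq e)
      · rw [Tr.cls_of_mem hD h1, Tr.cls_of_not_mem hD h2] at e
        simp at e
      · rw [Tr.cls_of_not_mem hD h1, Tr.cls_of_mem hD h2] at e
        simp at e
      · rw [Tr.cls_of_not_mem hD h1, Tr.cls_of_not_mem hD h2] at e
        exact ihH h.cls_right y (((h.cls_mem y).1 hy).resolve_left h1) y'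
          (((h.cls_mem y').1 hy').resolve_left h2) (List.tail_eq_of_cons_eq e)
    · exact (h.1.diam y hy y' hy').trans_lt (not_le.1 hD)

theorem Tr.SV.cls_card {T : Tr} (h : T.SV) {s : ℝ} (hs : 0 < s) (x : ℝ) :
    ∃ S : Finset (List Bool), (S.card : ℝ) ≤ 10 ∧
      ∀ y ∈ T.law.support, x ≤ y → y ≤ x + s → T.cls s y ∈ S := by
  obtain ⟨F, h1, h2⟩ := (h.clsFour hs).hA x (x + s)
  refine ⟨F, h1.trans_eq ?_, fun y hy a b => h2 y hy ⟨a, b⟩⟩
  rw [add_sub_cancel_left, max_eq_right hs.le, mul_div_assoc, div_self hs.ne']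
  norm_num

theorem Tr.SV.hOn_Ici_le {T : Tr} (h : T.SV) {s : ℝ} (hs : 0 < s) :
    T.gsum (hOn (Set.Ici s)) ≤ Hs s T.law + Real.log 10 := by
  rw [← h.ent_cls s]
  exact ent_push_le_Hs h.1.isP hs _ (h.cls_card hs)

end Crest.Agent.R98
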