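import Crest.Agent.R98.Multi
import Crest.Agent.R98.TreeCls

/-!
# R98/Engine: few windows carry little entropy at one of many levels
Let `n j = n₀ (2^a)^j`, `T j` trees (`exists_trees`), `S j = Dist (n j) ∩ Ici s` (increasing in `j`, finite), `s₀ j = e^{-χ n j}`,
`B j = {D ∈ S j | ∃ D' ∈ S (j-1), 7/8 D ≤ D' ≤ 8/7 e^{ξ n j} D}` (`∅` for `j = 0`), covered by `R` windows of log-length `(ξ + 2) n j`,
`G j = (S j ∩ Iio (s₀ j)) \\ B j`. With `f ω = (T j ω).cls s`: `E ent = E gsum (hOn (Ici s)) ≤ E gsum (hOn (Ici s₀)) +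
E gsum (hOn (B j ∩ Iio s₀)) + E gsum (hOn (G j))` (labels lie in `Dist`). First term `≤ (e + ε/4) n j` (`hOn_Ici_le`, `Hs_nat`,
`An_le`); second `≤ ε/4 n j` (`hOn_le` with a constant `v₁`, `single`). If the conclusion fails for all `j ≤ C₁ a`, the third is
`≥ ε/2 n j`, so by `hOn_le` with `v₁ = (ε / (C R' 2^a))²` (`binEntropy_le_sqrt`) `E gsum (vOn (G j)) / n j ≥ c ε / a`, contradicting
`multi` when `C₁` is large.
-/

set_option autoImplicit false

namespace Crest.Agent.R98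

open Filter

variable {Ω ι : Type*} [Fintype Ω] [Fintype ι] (M : Mod Ω ι) (σ : Sys Ω ι)

theorem eng_sqrt (A B : ℝ) {δ : ℝ} (hδ : 0 < δ) :
    ∀ᶠ n : ℕ in atTop, A * Real.sqrt n + B ≤ δ * n := by
  have h : Tendsto (fun n : ℕ => Real.sqrt (n : ℝ)) atTop atTop :=
    Real.tendsto_sqrt_atTop.comp tendsto_natCast_atTop_atTop
  filter_upwards [h.eventually_ge_atTop 1, h.eventually_ge_atTop ((|A| + |B|) / δ)] with n h1 h2
  have hs : Real.sqrt (n : ℝ) * Real.sqrt (n : ℝ) = n := Real.mul_self_sqrt (Nat.cast_nonneg n)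
  rw [div_le_iff₀ hδ] at h2
  have hA : A * Real.sqrt n ≤ |A| * Real.sqrt n :=
    mul_le_mul_of_nonneg_right (le_abs_self A) (by linarith)
  have hB : B ≤ |B| * Real.sqrt n :=
    (le_abs_self B).trans (le_mul_of_one_le_right (abs_nonneg B) h1)
  have h3 : (|A| + |B|) * Real.sqrt n ≤ (Real.sqrt n * δ) * Real.sqrt n :=
    mul_le_mul_of_nonneg_right h2 (by linarith)
  have h4 : (Real.sqrt n * δ) * Real.sqrt n = δ * n := by
    rw [mul_comm (Real.sqrt n) δ, mul_assoc, hs]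
  nlinarith

/-- the entropy of the nodes with large labels -/
theorem eng_first {δ : ℝ} (hδ : 0 < δ) : ∀ᶠ n : ℕ in atTop, ∀ T, Trees M σ n T →
    (ex (M.Om n) fun ω => (T ω).gsum (hOn (Set.Ici (Real.exp (-(chi M σ * n)))))) ≤
      (eR M σ + δ) * n := by
  obtain ⟨C, -, hC⟩ := Hs_nat M σ
  obtain ⟨C', hC'⟩ := An_le M σ
  filter_upwards [eng_sqrt C (C + C' + Real.log 10) hδ] with n hn T hT
  have hs : 0 < Real.exp (-(chi M σ * n)) := Real.exp_pos _
  have h1 : (ex (M.Om n) fun ω => (T ω).gsum (hOn (Set.Ici (Real.exp (-(chi M σ * n)))))) ≤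
      ex (M.Om n) fun ω => Hs (Real.exp (-(chi M σ * n))) (nu M σ ω) + Real.log 10 := by
    refine (isP_Om M n).ex_mono fun ω hω => ?_
    have := (hT ω hω).1.hOn_Ici_le hs
    rwa [(hT ω hω).2] at this
  rw [ex_add, (isP_Om M n).ex_const] at h1
  have h2 := hC n _ hs
  rw [Real.log_exp, neg_add_cancel, abs_zero, zero_add] at h2
  have h3 := (abs_le.1 h2).2
  have h4 := hC' n
  linarith

theorem eng_vOn_mono {T : Tr} (h : T.WV) {G G' : Set ℝ} (hG : G ⊆ G') :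
    T.gsum (vOn G) ≤ T.gsum (vOn G') := by
  refine h.gsum_mono (h.all_lab.mono fun S hS => ?_)
  unfold vOn
  by_cases h1 : S.lab ∈ G
  · rw [if_pos h1, if_pos (hG h1)]
  · rw [if_neg h1]
    split_ifs
    · exact hS.2.2.1.le
    · exact le_rfl

theorem Cov.subset {S S' : Set ℝ} {R : ℕ} {Λ : ℝ} (h : Cov S R Λ) (hS : S' ⊆ S) : Cov S' R Λ := by
  obtain ⟨x, hx, h⟩ := h
  exact ⟨x, hx, fun d hd => h d (hS hd)⟩

/-- the entropy of the nodes with small labels in a set covered by short windows -/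
theorem eng_second (h : eR M σ < chi M σ) {δ L : ℝ} (hδ : 0 < δ) (hL : 0 < L) (R : ℕ) :
    ∀ᶠ n : ℕ in atTop, ∀ T, Trees M σ n T → ∀ B : Set ℝ, Cov B R (L * n) →
      (ex (M.Om n) fun ω => (T ω).gsum (hOn (B ∩ Set.Iio (Real.exp (-(chi M σ * n)))))) ≤ δ * n := by
  set K : ℝ := R * (8 * L + 1) + 1 with hK
  have hK0 : 0 < K := by positivity
  set η : ℝ := min (1 / 2) (δ / (6 * K)) with hη
  have hη0 : 0 < η := lt_min (by norm_num) (by positivity)
  have hη1 : η ≤ 1 / 2 := min_le_left _ _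
  have hη2 : η ≤ δ / (6 * K) := min_le_right _ _
  have hv0 : 0 < η ^ 2 := by positivity
  have hv1 : η ^ 2 ≤ 1 / 2 := by nlinarith
  have hlog : 0 ≤ Real.log (1 / η ^ 2) := by
    apply Real.log_nonneg
    rw [le_div_iff₀ hv0]
    linarith
  have hbin : Real.binEntropy (η ^ 2) ≤ 3 * η := by
    have := binEntropy_le_sqrt hv0.le (by linarith)
    rwa [Real.sqrt_sq hη0.le] at this
  have hbin0 : 0 ≤ Real.binEntropy (η ^ 2) := Real.binEntropy_nonneg hv0.le (by linarith)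
  set W : ℝ := 1 + Real.log (1 / η ^ 2) with hW
  have hW0 : 0 < W := by linarith
  have hδ' : 0 < δ / (2 * W) := by positivity
  filter_upwards [single M σ h hδ', eventually_ge_atTop 1] with n hn hn1 T hT B hB
  have hn1' : (1 : ℝ) ≤ n := by exact_mod_cast hn1
  have h1 : (ex (M.Om n) fun ω => (T ω).gsum (hOn (B ∩ Set.Iio (Real.exp (-(chi M σ * n)))))) ≤
      ex (M.Om n) fun ω => R * (8 * (L * n) + 1) * Real.binEntropy (η ^ 2) +
        W * (T ω).gsum (vOn (Set.Iio (Real.exp (-(chi M σ * n))))) := by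
    refine (isP_Om M n).ex_mono fun ω hω => ?_
    have hwv := (hT ω hω).1.1
    refine (hwv.hOn_le (by positivity) (hB.subset Set.inter_subset_left) hv0 hv1).trans ?_
    have := eng_vOn_mono hwv (Set.inter_subset_right (s := B)
      (t := Set.Iio (Real.exp (-(chi M σ * n)))))
    have := mul_le_mul_of_nonneg_left this hW0.le
    linarith
  rw [ex_add, (isP_Om M n).ex_const, ex_mul_left] at h1
  have h2 := mul_le_mul_of_nonneg_left (hn T hT) hW0.le
  have h3 : W * (δ / (2 * W) * n) = δ / 2 * n := by field_simp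
  have h4 : (R : ℝ) * (8 * (L * n) + 1) ≤ K * n := by
    have hR : (0 : ℝ) ≤ R := Nat.cast_nonneg R
    have : (R : ℝ) * 1 ≤ R * n := mul_le_mul_of_nonneg_left hn1' hR
    rw [hK]
    nlinarith
  have h5 : K * (3 * η) ≤ δ / 2 := by
    rw [le_div_iff₀ (by positivity)] at hη2
    linarith
  have h6 : (R : ℝ) * (8 * (L * n) + 1) * Real.binEntropy (η ^ 2) ≤ K * n * (3 * η) :=
    mul_le_mul h4 hbin hbin0 (by positivity)
  have h7 : K * (3 * η) * n ≤ δ / 2 * n := mul_le_mul_of_nonneg_right h5 (by positivity)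
  nlinarith

omit [Fintype Ω] [Fintype ι] in
/-- the entropy of the nodes with labels in a set covered by long windows -/
theorem eng_third {δ : ℝ} (hδ : 0 < δ) (R : ℕ) : ∃ K : ℝ, 0 < K ∧
    ∀ (a n : ℕ), 1 ≤ a → 1 ≤ n → ∀ T, Trees M σ n T → ∀ G : Set ℝ, Cov G R ((n : ℝ) * 2 ^ a) →
      (ex (M.Om n) fun ω => (T ω).gsum (hOn G)) ≤
        δ * n + a * K * ex (M.Om n) fun ω => (T ω).gsum (vOn G) := by
  set K : ℝ := R * 9 + 1 with hK
  have hK0 : 0 < K := by positivity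
  set η : ℝ := min (1 / 2) (δ / (3 * K)) with hη
  have hη0 : 0 < η := lt_min (by norm_num) (by positivity)
  have hη1 : η ≤ 1 / 2 := min_le_left _ _
  have hη2 : η ≤ δ / (3 * K) := min_le_right _ _
  have hlogη : Real.log η ≤ 0 := Real.log_nonpos hη0.le (by linarith)
  refine ⟨3 - 2 * Real.log η, by linarith, fun a n ha hn T hT G hG => ?_⟩
  have ha' : (1 : ℝ) ≤ a := by exact_mod_cast ha
  have hn' : (1 : ℝ) ≤ n := by exact_mod_cast hn
  have hΛ : (1 : ℝ) ≤ 2 ^ a := one_le_pow₀ (by norm_num)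
  have hw0 : 0 < η / 2 ^ a := by positivity
  have hw1 : η / 2 ^ a ≤ 1 / 2 := (div_le_self hη0.le hΛ).trans hη1
  have hv0 : 0 < (η / 2 ^ a) ^ 2 := by positivity
  have hv1 : (η / 2 ^ a) ^ 2 ≤ 1 / 2 := by nlinarith
  have hbin : Real.binEntropy ((η / 2 ^ a) ^ 2) ≤ 3 * (η / 2 ^ a) := by
    have := binEntropy_le_sqrt hv0.le (by linarith)
    rwa [Real.sqrt_sq hw0.le] at this
  have hbin0 : 0 ≤ Real.binEntropy ((η / 2 ^ a) ^ 2) := Real.binEntropy_nonneg hv0.le (by linarith)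
  have hlog : 1 + Real.log (1 / (η / 2 ^ a) ^ 2) ≤ a * (3 - 2 * Real.log η) := by
    rw [one_div, Real.log_inv, Real.log_pow, Real.log_div hη0.ne' (by positivity), Real.log_pow]
    have h2 : Real.log 2 ≤ 1 := by
      have := Real.log_le_sub_one_of_pos (show (0 : ℝ) < 2 by norm_num)
      linarith
    have h3 : (a : ℝ) * Real.log 2 ≤ a * 1 := mul_le_mul_of_nonneg_left h2 (by linarith)
    have h4 : 1 * (-Real.log η) ≤ a * (-Real.log η) := mul_le_mul_of_nonneg_right ha' (by linarith)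
    push_cast
    nlinarith
  have h1 : (ex (M.Om n) fun ω => (T ω).gsum (hOn G)) ≤
      ex (M.Om n) fun ω => R * (8 * ((n : ℝ) * 2 ^ a) + 1) * Real.binEntropy ((η / 2 ^ a) ^ 2) +
        a * (3 - 2 * Real.log η) * (T ω).gsum (vOn G) := by
    refine (isP_Om M n).ex_mono fun ω hω => ?_
    have hwv := (hT ω hω).1.1
    refine (hwv.hOn_le (by positivity) hG hv0 hv1).trans ?_
    have h0 : 0 ≤ (T ω).gsum (vOn G) := by
      refine hwv.gsum_nonneg (hwv.all_lab.mono fun S hS => ?_)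
      unfold vOn
      split_ifs
      · exact hS.2.2.1.le
      · exact le_rfl
    have := mul_le_mul_of_nonneg_right hlog h0
    linarith
  rw [ex_add, (isP_Om M n).ex_const, ex_mul_left] at h1
  have h4 : (R : ℝ) * (8 * ((n : ℝ) * 2 ^ a) + 1) ≤ K * (n * 2 ^ a) := by
    have hR : (0 : ℝ) ≤ R := Nat.cast_nonneg R
    have h5 : (1 : ℝ) ≤ n * 2 ^ a := one_le_mul_of_one_le_of_one_le hn' hΛ
    have : (R : ℝ) * 1 ≤ R * (n * 2 ^ a) := mul_le_mul_of_nonneg_left h5 hR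
    rw [hK]
    nlinarith
  have h5 : K * (3 * η) ≤ δ := by
    rw [le_div_iff₀ (by positivity)] at hη2
    linarith
  have h6 : (R : ℝ) * (8 * ((n : ℝ) * 2 ^ a) + 1) * Real.binEntropy ((η / 2 ^ a) ^ 2) ≤
      K * (n * 2 ^ a) * (3 * (η / 2 ^ a)) :=
    mul_le_mul h4 hbin hbin0 (by positivity)
  have h7 : K * (n * 2 ^ a) * (3 * (η / 2 ^ a)) = K * (3 * η) * n := by field_simp
  have h8 : K * (3 * η) * n ≤ δ * n := mul_le_mul_of_nonneg_right h5 (by positivity)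
  linarith

/-- splitting the entropy of the classes into three parts -/
theorem eng_split {T : Tr} (h : T.WV) {D : Set ℝ} (hD : T.All fun S => S.lab ∈ D) (s s₀ : ℝ)
    (B : Set ℝ) :
    T.gsum (hOn (Set.Ici s)) ≤ T.gsum (hOn (Set.Ici s₀)) + T.gsum (hOn (B ∩ Set.Iio s₀)) +
      T.gsum (hOn ((D ∩ Set.Ici s) \ B)) := by
  rw [← Tr.gsum_add, ← Tr.gsum_add]
  refine h.gsum_mono ((h.all_lab.and hD).mono fun S hS => ?_)
  obtain ⟨⟨-, -, h0, h1⟩, hS⟩ := hS
  have hb : 0 ≤ Real.binEntropy S.vv := Real.binEntropy_nonneg h0.le (by linarith)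
  have hnn : ∀ G : Set ℝ, 0 ≤ hOn G S := fun G => by
    unfold hOn
    split_ifs
    · exact hb
    · exact le_rfl
  have hpos : ∀ G : Set ℝ, S.lab ∈ G → hOn G S = Real.binEntropy S.vv := fun G hG => by
    unfold hOn
    rw [if_pos hG]
  have e1 := hnn (Set.Ici s₀)
  have e2 := hnn (B ∩ Set.Iio s₀)
  have e3 := hnn ((D ∩ Set.Ici s) \ B)
  by_cases hs : S.lab ∈ Set.Ici s
  · rw [hpos _ hs]
    by_cases hB : S.lab ∈ B
    · by_cases h₀ : S.lab ∈ Set.Ici s₀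
      · have := hpos _ h₀
        linarith
      · have := hpos (B ∩ Set.Iio s₀) ⟨hB, Set.mem_Iio.2 (not_le.1 h₀)⟩
        linarith
    · have := hpos ((D ∩ Set.Ici s) \ B) ⟨⟨hS, hs⟩, hB⟩
      linarith
  · have : hOn (Set.Ici s) S = 0 := by
      unfold hOn
      rw [if_neg hs]
    linarith

/-- a multiplicative neighbourhood of a covered set is covered -/
theorem Cov.nbhd {S : Set ℝ} {R : ℕ} {n ξ : ℝ} (h : Cov S R n) (hn : 1 ≤ n) :
    Cov {D | ∃ D' ∈ S, 7 / 8 * D ≤ D' ∧ D' ≤ 8 / 7 * Real.exp (ξ * n) * D} R ((ξ + 2) * n) := by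
  obtain ⟨x, hx, h⟩ := h
  refine ⟨fun r => 7 / 8 * Real.exp (-(ξ * n)) * x r, fun r => by have := hx r; positivity, ?_⟩
  rintro d ⟨D', hD', h1, h2⟩
  obtain ⟨r, h3, h4⟩ := h D' hD'
  refine ⟨r, ?_, ?_⟩
  · have e1 : Real.exp (-(ξ * n)) * Real.exp (ξ * n) = 1 := by
      rw [← Real.exp_add, neg_add_cancel, Real.exp_zero]
    have e2 : 7 / 8 * Real.exp (-(ξ * n)) * x r ≤
        7 / 8 * Real.exp (-(ξ * n)) * (8 / 7 * Real.exp (ξ * n) * d) :=
      mul_le_mul_of_nonneg_left (h3.trans h2) (by positivity)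
    have e3 : 7 / 8 * Real.exp (-(ξ * n)) * (8 / 7 * Real.exp (ξ * n) * d) =
        (Real.exp (-(ξ * n)) * Real.exp (ξ * n)) * d := by ring
    rw [e3, e1, one_mul] at e2
    exact e2
  · have e1 : Real.exp (-(ξ * n)) * Real.exp ((ξ + 2) * n) = Real.exp n * Real.exp n := by
      rw [← Real.exp_add, ← Real.exp_add]
      congr 1
      ring
    have e2 : 2 ≤ Real.exp n := by
      have := Real.add_one_le_exp n
      linarith
    have e3 : 7 / 8 * Real.exp (-(ξ * n)) * x r * Real.exp ((ξ + 2) * n) =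
        7 / 8 * (x r * Real.exp n) * Real.exp n := by
      calc _ = 7 / 8 * x r * (Real.exp (-(ξ * n)) * Real.exp ((ξ + 2) * n)) := by ring
        _ = _ := by rw [e1]; ring
    have e4 : 0 < x r * Real.exp n := mul_pos (hx r) (Real.exp_pos n)
    show d ≤ 7 / 8 * Real.exp (-(ξ * n)) * x r * Real.exp ((ξ + 2) * n)
    rw [e3]
    nlinarith

theorem engine (h : eR M σ < chi M σ) {ε : ℝ} (hε : 0 < ε) (R : ℕ) : ∃ n₁ C₁ : ℕ,
    ∀ (a n₀ : ℕ) (s : ℝ), 1 ≤ a → n₁ ≤ n₀ → 0 < s →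
      (∀ j ≤ C₁ * a, Cov (Dist M σ (n₀ * (2 ^ a) ^ j) ∩ Set.Ici s) R ((n₀ * (2 ^ a) ^ j : ℕ) * 2 ^ a)) →
      ∃ j ≤ C₁ * a, ∃ f, Classes M σ (n₀ * (2 ^ a) ^ j) (eR M σ + ε) s f := by
  obtain ⟨C, ξ, hC, hξ, hm⟩ := multi M σ h
  have hε4 : 0 < ε / 4 := by positivity
  obtain ⟨K, hK, h3⟩ := eng_third M σ hε4 R
  obtain ⟨n₁, hn₁⟩ := eventually_atTop.1 (((eng_first M σ hε4).and
    (eng_second M σ h hε4 (show 0 < ξ + 2 by positivity) R)).and (eventually_ge_atTop 1))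
  obtain ⟨C₁, hC₁⟩ := exists_nat_ge (4 * K * C / ε)
  refine ⟨n₁, C₁, fun a n₀ s ha hn₀ hs hcov => ?_⟩
  by_contra hcon
  push Not at hcon
  have hΛ : 1 ≤ 2 ^ a := Nat.one_le_two_pow
  have hge : ∀ j : ℕ, n₁ ≤ n₀ * (2 ^ a) ^ j := fun j =>
    hn₀.trans (Nat.le_mul_of_pos_right _ (by positivity))
  have hn₀1 : 1 ≤ n₀ := by
    have := (hn₁ n₀ hn₀).2
    exact this
  choose T hT using fun j : ℕ => exists_trees M σ (n₀ * (2 ^ a) ^ j)
  set S : ℕ → Set ℝ := fun j => Dist M σ (n₀ * (2 ^ a) ^ j) ∩ Set.Ici s with hS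
  have hSmono : ∀ j j', j ≤ j' → S j ⊆ S j' := fun j j' hj =>
    Set.inter_subset_inter_left _
      (Dist_mono M σ (Nat.mul_le_mul_left _ (Nat.pow_le_pow_right hΛ hj)))
  set B : ℕ → Set ℝ := fun j => {D | ∃ j' < j, ∃ D' ∈ S j', 7 / 8 * D ≤ D' ∧
    D' ≤ 8 / 7 * Real.exp (ξ * (n₀ * (2 ^ a) ^ j : ℕ)) * D} with hB
  have hBcov : ∀ j ≤ C₁ * a, Cov (B j) R ((ξ + 2) * (n₀ * (2 ^ a) ^ j : ℕ)) := by
    intro j hj
    rcases j with _ | j
    · exact ⟨fun _ => 1, fun _ => one_pos, fun d ⟨j', hj', _⟩ => absurd hj' (Nat.not_lt_zero _)⟩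
    · have h1 := hcov j (by omega)
      have h2 : ((n₀ * (2 ^ a) ^ j : ℕ) : ℝ) * 2 ^ a = (n₀ * (2 ^ a) ^ (j + 1) : ℕ) := by
        push_cast
        ring
      rw [h2] at h1
      have h3 : (1 : ℝ) ≤ (n₀ * (2 ^ a) ^ (j + 1) : ℕ) := by
        exact_mod_cast (hn₁ _ (hge (j + 1))).2
      refine (h1.nbhd (ξ := ξ) h3).subset ?_
      rintro d ⟨j', hj', D', hD', h4⟩
      exact ⟨D', hSmono j' j (by omega) hD', h4⟩
  have hsum := hm n₀ (2 ^ a) (C₁ * a) T (fun j => S j \ B j) hn₀1 hΛ (fun j _ => hT j)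
    (fun j _ => ((Dist_finite M σ _).inter_of_left _).sdiff) (by
      intro j _ j' hj' D hD D' hD'
      by_contra hno
      push Not at hno
      exact hD.2 ⟨j', hj', D', hD'.1, hno.1, hno.2⟩)
  have ha' : (1 : ℝ) ≤ a := by exact_mod_cast ha
  have haK : 0 < (a : ℝ) * K := by positivity
  have hlow : ∀ j ∈ Finset.range (C₁ * a + 1), ε / (4 * (a * K)) ≤
      (ex (M.Om (n₀ * (2 ^ a) ^ j)) fun ω => (T j ω).gsum (vOn (S j \ B j))) /
        (n₀ * (2 ^ a) ^ j : ℕ) := by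
    intro j hj
    have hj' : j ≤ C₁ * a := Nat.lt_succ_iff.1 (Finset.mem_range.1 hj)
    obtain ⟨⟨e1, e2⟩, e0⟩ := hn₁ _ (hge j)
    set n := n₀ * (2 ^ a) ^ j with hn
    have hn0 : (0 : ℝ) < n := by exact_mod_cast e0
    have e1 := e1 (T j) (hT j)
    have e2 := e2 (T j) (hT j) (B j) (hBcov j hj')
    have e3 := h3 a n ha e0 (T j) (hT j) (S j \ B j) ((hcov j hj').subset Set.sdiff_subset)
    have e4 : (eR M σ + ε) * n < ex (M.Om n) fun ω => (T j ω).gsum (hOn (Set.Ici s)) := by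
      by_contra hle
      push Not at hle
      refine hcon j hj' (fun ω => (T j ω).cls s) ⟨le_trans (le_of_eq ?_) hle, ?_⟩
      · refine ex_congr fun ω hω => ?_
        rw [← (hT j ω hω).2, (hT j ω hω).1.ent_cls]
      · intro ω hω
        rw [← (hT j ω hω).2]
        exact (hT j ω hω).1.cls_diam hs
    have e5 : (ex (M.Om n) fun ω => (T j ω).gsum (hOn (Set.Ici s))) ≤
        ex (M.Om n) fun ω => (T j ω).gsum (hOn (Set.Ici (Real.exp (-(chi M σ * n))))) +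
          (T j ω).gsum (hOn (B j ∩ Set.Iio (Real.exp (-(chi M σ * n))))) +
          (T j ω).gsum (hOn (S j \ B j)) :=
      (isP_Om M n).ex_mono fun ω hω => eng_split (hT j ω hω).1.1 ((hT j).all_dist ω hω) s _ (B j)
    rw [ex_add, ex_add] at e5
    rw [div_le_div_iff₀ (by positivity) hn0]
    nlinarith
  have hsum' := Finset.card_nsmul_le_sum _ _ _ hlow
  rw [Finset.card_range, nsmul_eq_mul] at hsum'
  have e6 : ((C₁ * a + 1 : ℕ) : ℝ) * (ε / (4 * (a * K))) ≤ C := hsum'.trans hsum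
  rw [div_le_iff₀ hε] at hC₁
  rw [← mul_div_assoc, div_le_iff₀ (by positivity)] at e6
  push_cast at e6
  have e7 : 4 * K * C * a ≤ C₁ * ε * a := mul_le_mul_of_nonneg_right hC₁ (by linarith)
  nlinarith

/-- classes finer than every distance are exact -/
theorem hR_le_of_classes {n : ℕ} (hn : 1 ≤ n) {a s : ℝ} {f : List Ω → ℝ → List Bool}
    (h : Classes M σ n a s f) (hs : ∀ d ∈ Dist M σ n, s ≤ d) : hR M σ ≤ a := by
  have hn' : (0 : ℝ) < n := by exact_mod_cast hn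
  have h1 : Hn M σ n = ex (M.Om n) fun ω => ent (push (f ω) (nu M σ ω)) := by
    refine ex_congr fun ω hω => (ent_push_of_injOn fun y hy y' hy' hf => ?_).symm
    by_contra hne
    have h2 := h.2 ω hω y hy y' hy' hf
    have h3 := hs |y - y'| ⟨abs_pos.2 (sub_ne_zero.2 hne), ω, hω, y, hy, y', hy', rfl⟩
    linarith
  have h2 := hR_le M σ n
  rw [h1] at h2
  exact le_of_mul_le_mul_right (h2.trans h.1) hn'

end Crest.Agent.R98
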