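import Crest.Agent.R98.FP

/-!
# R98/Ent: Shannon entropy of finite laws
Recipes: everything follows from `ent_eq_ex`, `ent_push_eq` and `gibbs` (`log x ≤ x - 1`).
* `ent_submod`: Gibbs for the law of `(f, h)` with `q (b, c) = P(g∘f = g b, h = c) * P(f = b) / P(g∘f = g b)`.
* `ent_joint`: `joint m k (a,b) = m a * k a b`.
* `cond_concave`: `ent_submod` on `joint m k` with `h = Prod.fst`, and `ent_joint` twice
  (`push (fun p => (f p.2, p.1)) (joint m k)` has the entropy of `joint m (fun a => push f (k a))`).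
* `ent_push_le_add`: Gibbs for the law of the pair `(f, g)` with `q (b, c) = P(g = c) / K`.
-/

set_option autoImplicit false

namespace Crest.Agent.R98

variable {α β γ δ : Type*}

namespace EntAux

theorem push_apply_eq (f : α → β) (m : α →₀ ℝ) (b : β) : push f m b = pr m {a | f a = b} := by
  rw [apply_eq_pr, pr_push]
  rfl

theorem pr_congr {m : α →₀ ℝ} {A B : Set α} (h : ∀ a ∈ m.support, a ∈ A ↔ a ∈ B) :
    pr m A = pr m B := by
  classical
  rw [pr_eq_ex_ite, pr_eq_ex_ite]
  exact ex_congr fun a ha => by simp only [h a ha]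

theorem sum_pr_fiber {m : α →₀ ℝ} (hm : IsP m) (h : α → β) (P : α → Prop) :
    ∑ c ∈ (push h m).support, pr m {a | P a ∧ h a = c} = pr m {a | P a} := by
  classical
  simp only [pr_eq_ex_ite]
  rw [← ex_sum]
  refine ex_congr fun a ha => ?_
  have hmem : h a ∈ (push h m).support := hm.mem_support_push.2 ⟨a, ha, rfl⟩
  rw [Finset.sum_eq_single (h a)]
  · simp
  · intro c _ hc
    simp [Ne.symm hc]
  · intro h'
    exact absurd hmem h'

theorem push_const {m : α →₀ ℝ} (hm : IsP m) (c : β) : push (fun _ => c) m = pur c :=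
  ext_ex fun F => by rw [ex_push, hm.ex_const, ex_pur]

theorem joint_apply (m : α →₀ ℝ) (k : α → β →₀ ℝ) (a : α) (b : β) :
    joint m k (a, b) = m a * k a b := by
  classical
  rw [apply_eq_pr, joint, pr_bnd, ex_def, Finset.sum_eq_single a]
  · rw [pr_push, apply_eq_pr (k a)]
    congr 2
    ext b'
    simp
  · intro a' _ ha'
    rw [pr_push, pr_eq_zero, mul_zero]
    intro b' _
    simp [ha']
  · intro ha
    rw [Finsupp.notMem_support_iff.1 ha, zero_mul]

theorem push_snd_joint (m : α →₀ ℝ) (k : α → β →₀ ℝ) : push Prod.snd (joint m k) = bnd m k := by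
  rw [joint, push_bnd]
  exact bnd_congr fun a _ => by rw [push_push, push_id]

theorem bin_le_mul {v : ℝ} (h0 : 0 ≤ v) (h1 : v ≤ 1) :
    Real.binEntropy v ≤ v * (1 + Real.log (1 / v)) := by
  have h2 : (1 - v) * Real.log (1 - v)⁻¹ ≤ v := by
    rcases h1.eq_or_lt with rfl | h
    · simp
    · have hp : 0 < 1 - v := by linarith
      have h3 := mul_le_mul_of_nonneg_left (Real.log_le_sub_one_of_pos (inv_pos.2 hp)) hp.le
      rw [mul_sub, mul_inv_cancel₀ hp.ne'] at h3
      linarith
  rw [Real.binEntropy, one_div]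
  linarith

end EntAux

theorem ent_eq_ex (m : α →₀ ℝ) : ent m = ex m fun a => -Real.log (m a) := by
  rw [ex_def]
  exact Finset.sum_congr rfl fun a _ => by simp only [Real.negMulLog]; ring

theorem IsP.ent_nonneg {m : α →₀ ℝ} (h : IsP m) : 0 ≤ ent m := by
  exact Finset.sum_nonneg fun a _ => Real.negMulLog_nonneg (h.nonneg a) (h.le_one a)

@[simp] theorem ent_pur (a : α) : ent (pur a) = 0 := by
  rw [ent_eq_ex, ex_pur]
  simp [pur]

/-- Gibbs inequality -/
theorem IsP.gibbs {m : α →₀ ℝ} (h : IsP m) {q : α → ℝ} (hq : ∀ a ∈ m.support, 0 < q a)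
    (hs : ∑ a ∈ m.support, q a ≤ 1) : ent m ≤ ex m fun a => -Real.log (q a) := by
  have h1 : (ex m fun a => -Real.log (m a)) ≤ ex m fun a => -Real.log (q a) + (q a / m a - 1) := by
    refine h.ex_mono fun a ha => ?_
    have h2 := Real.log_le_sub_one_of_pos (div_pos (hq a ha) (h.pos ha))
    rw [Real.log_div (hq a ha).ne' (h.pos ha).ne'] at h2
    linarith
  have h3 : (ex m fun a => q a / m a) = ∑ a ∈ m.support, q a := by
    rw [ex_def]
    refine Finset.sum_congr rfl fun a ha => ?_
    have := (h.pos ha).ne'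
    field_simp
  rw [ex_add, ex_sub, h.mass, h3] at h1
  rw [ent_eq_ex]
  linarith

theorem IsP.ent_le_log_card {m : α →₀ ℝ} (h : IsP m) {K : ℝ} (hK : (m.support.card : ℝ) ≤ K) :
    ent m ≤ Real.log K := by
  have h1 : (0 : ℝ) < m.support.card := by exact_mod_cast h.support_nonempty.card_pos
  have hK0 : 0 < K := lt_of_lt_of_le h1 hK
  have h2 := h.gibbs (q := fun _ => K⁻¹) (fun _ _ => inv_pos.2 hK0) (by
    rw [Finset.sum_const, nsmul_eq_mul, ← div_eq_mul_inv, div_le_one hK0]
    exact hK)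
  rw [h.ex_const, Real.log_inv, neg_neg] at h2
  exact h2

theorem ent_push_eq (f : α → β) (m : α →₀ ℝ) :
    ent (push f m) = ex m fun a => -Real.log (pr m {a' | f a' = f a}) := by
  rw [ent_eq_ex, ex_push]
  refine ex_congr fun a _ => ?_
  rw [EntAux.push_apply_eq]

/-- two maps with the same fibres on the support have the same entropy -/
theorem ent_push_congr {m : α →₀ ℝ} {f : α → β} {g : α → γ}
    (h : ∀ a ∈ m.support, ∀ a' ∈ m.support, f a = f a' ↔ g a = g a') :
    ent (push f m) = ent (push g m) := by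
  rw [ent_push_eq, ent_push_eq]
  refine ex_congr fun a ha => ?_
  rw [EntAux.pr_congr (A := {a' | f a' = f a}) (B := {a' | g a' = g a}) fun a' ha' => h a' ha' a ha]

theorem ent_push_of_injOn {m : α →₀ ℝ} {f : α → β}
    (h : ∀ a ∈ m.support, ∀ a' ∈ m.support, f a = f a' → a = a') : ent (push f m) = ent m := by
  rw [ent_push_congr (g := fun a => a) fun a ha a' ha' => ⟨h a ha a' ha', fun e => by rw [e]⟩, push_id]

/-- if `g` determines `f` then `H(f) ≤ H(g)` -/
theorem IsP.ent_push_le_of_det {m : α →₀ ℝ} (h : IsP m) {f : α → β} {g : α → γ}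
    (hd : ∀ a ∈ m.support, ∀ a' ∈ m.support, g a = g a' → f a = f a') :
    ent (push f m) ≤ ent (push g m) := by
  rw [ent_push_eq, ent_push_eq]
  refine h.ex_mono fun a ha => neg_le_neg (Real.log_le_log (h.pr_pos ha rfl) ?_)
  exact h.pr_mono fun a' ha' e => hd a' ha' a ha e

theorem IsP.ent_push_le {m : α →₀ ℝ} (h : IsP m) (f : α → β) : ent (push f m) ≤ ent m := by
  have := h.ent_push_le_of_det (f := f) (g := fun a => a) fun a _ a' _ e => by rw [e]
  rwa [push_id] at this

theorem EntAux.pair_le_add {m : α →₀ ℝ} (h : IsP m) {f : α → β} {g : α → γ} {K : ℝ}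
    (hK : KtoOne m f g K) : ent (push (fun a => (g a, f a)) m) ≤ ent (push g m) + Real.log K := by
  classical
  have hcard : ∀ c, ((((push (fun a => (g a, f a)) m).support.filter fun p => p.1 = c).card : ℕ) : ℝ) ≤
      K := by
    intro c
    refine le_trans ?_ (hK c)
    refine Nat.cast_le.2 (Finset.card_le_card_of_injOn Prod.snd ?_ ?_)
    · intro p hp
      obtain ⟨hp1, hp2⟩ := Finset.mem_filter.1 (Finset.mem_coe.1 hp)
      obtain ⟨a, ha, rfl⟩ := h.mem_support_push.1 hp1
      simp only [Finset.coe_image, Finset.coe_filter, Set.mem_image, Set.mem_ofPred_eq]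
      exact ⟨a, ⟨ha, hp2⟩, rfl⟩
    · intro p hp p' hp' e
      exact Prod.ext ((Finset.mem_filter.1 (Finset.mem_coe.1 hp)).2.trans
        (Finset.mem_filter.1 (Finset.mem_coe.1 hp')).2.symm) e
  have hK0 : 0 < K := by
    obtain ⟨a, ha⟩ := h.support_nonempty
    refine lt_of_lt_of_le ?_ (hcard (g a))
    refine Nat.cast_pos.2 (Finset.card_pos.2 ⟨(g a, f a), Finset.mem_filter.2 ⟨?_, rfl⟩⟩)
    exact h.mem_support_push.2 ⟨a, ha, rfl⟩
  have h1 := (h.push fun a => (g a, f a)).gibbs (q := fun p => push g m p.1 / K) (by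
    intro p hp
    obtain ⟨a, ha, rfl⟩ := h.mem_support_push.1 hp
    exact div_pos ((h.push g).pos (h.mem_support_push.2 ⟨a, ha, rfl⟩)) hK0) (by
    rw [← Finset.sum_fiberwise_of_maps_to (t := (push g m).support) (g := Prod.fst) (by
      intro p hp
      obtain ⟨a, ha, rfl⟩ := h.mem_support_push.1 hp
      exact h.mem_support_push.2 ⟨a, ha, rfl⟩), ← (h.push g).mass, ex_def]
    refine Finset.sum_le_sum fun c _ => ?_
    rw [Finset.sum_congr rfl (g := fun _ => push g m c / K)
      (fun p hp => by rw [(Finset.mem_filter.1 hp).2]), Finset.sum_const, nsmul_eq_mul, mul_one,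
      ← mul_div_assoc, div_le_iff₀ hK0, mul_comm]
    exact mul_le_mul_of_nonneg_left (hcard c) ((h.push g).nonneg c))
  rw [ex_push] at h1
  refine h1.trans (le_of_eq ?_)
  rw [ent_eq_ex, ex_push, ← h.ex_const (Real.log K), ← ex_add]
  refine ex_congr fun a ha => ?_
  rw [Real.log_div ((h.push g).pos (h.mem_support_push.2 ⟨a, ha, rfl⟩)).ne' hK0.ne']
  ring

theorem EntAux.ent_swap {m : α →₀ ℝ} (f : α → β) (g : α → γ) :
    ent (push (fun a => (f a, g a)) m) = ent (push (fun a => (g a, f a)) m) :=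
  ent_push_congr fun a _ a' _ => by simp only [Prod.mk.injEq]; exact and_comm

theorem IsP.ent_push_le_add {m : α →₀ ℝ} (h : IsP m) {f : α → β} {g : α → γ} {K : ℝ}
    (hK : KtoOne m f g K) : ent (push f m) ≤ ent (push g m) + Real.log K := by
  refine le_trans ?_ (EntAux.pair_le_add h hK)
  exact h.ent_push_le_of_det fun a _ a' _ e => congrArg Prod.snd e

/-- the same for the pair `(g, f)` -/
theorem IsP.ent_pair_le_add {m : α →₀ ℝ} (h : IsP m) {f : α → β} {g : α → γ} {K : ℝ}
    (hK : KtoOne m f g K) : ent (push (fun a => (g a, f a)) m) ≤ ent (push g m) + Real.log K := by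
  exact EntAux.pair_le_add h hK

/-- conditioning reduces entropy: `H(f | g∘f, h) ≤ H(f | g∘f)` -/
theorem IsP.ent_submod {m : α →₀ ℝ} (hm : IsP m) (f : α → β) (g : β → γ) (h : α → δ) :
    ent (push (fun a => (f a, h a)) m) - ent (push (fun a => (g (f a), h a)) m) ≤
      ent (push f m) - ent (push (fun a => g (f a)) m) := by
  classical
  have hP := hm.push fun a => (f a, h a)
  let q : β × δ → ℝ := fun p =>
    pr m {a | g (f a) = g p.1 ∧ h a = p.2} * (pr m {a | f a = p.1} / pr m {a | g (f a) = g p.1})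
  have hq0 : ∀ p, 0 ≤ q p := fun p =>
    mul_nonneg (hm.pr_nonneg _) (div_nonneg (hm.pr_nonneg _) (hm.pr_nonneg _))
  have h1 := hP.gibbs (q := q) (by
    intro p hp
    obtain ⟨a, ha, rfl⟩ := hm.mem_support_push.1 hp
    exact mul_pos (hm.pr_pos ha ⟨rfl, rfl⟩) (div_pos (hm.pr_pos ha rfl) (hm.pr_pos ha rfl))) (by
    have hsub : (push (fun a => (f a, h a)) m).support ⊆ (push f m).support ×ˢ (push h m).support := by
      intro p hp
      obtain ⟨a, ha, rfl⟩ := hm.mem_support_push.1 hp
      exact Finset.mem_product.2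
        ⟨hm.mem_support_push.2 ⟨a, ha, rfl⟩, hm.mem_support_push.2 ⟨a, ha, rfl⟩⟩
    refine (Finset.sum_le_sum_of_subset_of_nonneg hsub fun p _ _ => hq0 p).trans (le_of_eq ?_)
    rw [Finset.sum_product, ← (hm.push f).mass, ex_def]
    refine Finset.sum_congr rfl fun b hb => ?_
    obtain ⟨a, ha, rfl⟩ := hm.mem_support_push.1 hb
    have hpos : 0 < pr m {a' | g (f a') = g (f a)} := hm.pr_pos ha rfl
    simp only [q]
    rw [← Finset.sum_mul, EntAux.sum_pr_fiber hm h (fun a' => g (f a') = g (f a)),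
      EntAux.push_apply_eq]
    field_simp)
  rw [ex_push] at h1
  have h2 : (ex m fun a => -Real.log (q (f a, h a))) =
      ent (push (fun a => (g (f a), h a)) m) + (ent (push f m) - ent (push (fun a => g (f a)) m)) := by
    rw [ent_push_eq, ent_push_eq, ent_push_eq, ← ex_sub, ← ex_add]
    refine ex_congr fun a ha => ?_
    have e1 : 0 < pr m {a' | g (f a') = g (f a) ∧ h a' = h a} := hm.pr_pos ha ⟨rfl, rfl⟩
    have e2 : 0 < pr m {a' | f a' = f a} := hm.pr_pos ha rfl
    have e3 : 0 < pr m {a' | g (f a') = g (f a)} := hm.pr_pos ha rfl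
    simp only [q, Prod.mk.injEq]
    rw [Real.log_mul e1.ne' (div_pos e2 e3).ne', Real.log_div e2.ne' e3.ne']
    ring
  linarith

theorem IsP.ent_pair_le {m : α →₀ ℝ} (hm : IsP m) (f : α → β) (h : α → γ) :
    ent (push (fun a => (f a, h a)) m) ≤ ent (push f m) + ent (push h m) := by
  have h1 := hm.ent_submod f (fun _ => ()) h
  have h2 : ent (push (fun a => ((), h a)) m) = ent (push h m) :=
    ent_push_congr fun a _ a' _ => by simp
  have h3 := (hm.push fun _ => ()).ent_nonneg
  linarith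

/-- `H(f, f') - H(g f, g' f') ≤ (H f - H (g f)) + (H f' - H (g' f'))` -/
theorem IsP.ent_pair_sub_le {β' γ' : Type*} {m : α →₀ ℝ} (hm : IsP m) (f : α → β) (g : β → γ)
    (f' : α → β') (g' : β' → γ') :
    ent (push (fun a => (f a, f' a)) m) - ent (push (fun a => (g (f a), g' (f' a))) m) ≤
      (ent (push f m) - ent (push (fun a => g (f a)) m)) +
        (ent (push f' m) - ent (push (fun a => g' (f' a)) m)) := by
  have h1 := hm.ent_submod f g f'
  have h2 := hm.ent_submod f' g' (fun a => g (f a))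
  rw [EntAux.ent_swap f' (fun a => g (f a)), EntAux.ent_swap (fun a => g' (f' a)) (fun a => g (f a))] at h2
  linarith

theorem IsP.ent_joint {m : α →₀ ℝ} (h : IsP m) {k : α → β →₀ ℝ} (hk : ∀ a ∈ m.support, IsP (k a)) :
    ent (joint m k) = ent m + ex m fun a => ent (k a) := by
  rw [ent_eq_ex, ex_joint, ent_eq_ex m, ← ex_add]
  refine ex_congr fun a ha => ?_
  rw [ent_eq_ex, ← (hk a ha).ex_const (-Real.log (m a)), ← ex_add]
  refine ex_congr fun b hb => ?_
  rw [EntAux.joint_apply, Real.log_mul (h.pos ha).ne' ((hk a ha).pos hb).ne']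
  ring

theorem EntAux.ent_pair_fst {m : α →₀ ℝ} (h : IsP m) {k : α → β →₀ ℝ} (hk : ∀ a ∈ m.support, IsP (k a))
    (G : α × β → γ) : ent (push (fun p => (G p, p.1)) (joint m k)) =
      ent m + ex m fun a => ent (push (fun b => G (a, b)) (k a)) := by
  rw [EntAux.ent_swap, ← h.ent_joint (k := fun a => push (fun b => G (a, b)) (k a))
    fun a ha => (hk a ha).push _]
  congr 1
  rw [joint, joint, push_bnd]
  exact bnd_congr fun a _ => by rw [push_push, push_push]

theorem IsP.ent_bnd_le {m : α →₀ ℝ} (h : IsP m) {k : α → β →₀ ℝ} (hk : ∀ a ∈ m.support, IsP (k a)) :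
    ent (bnd m k) ≤ ent m + ex m fun a => ent (k a) := by
  rw [← h.ent_joint hk, ← EntAux.push_snd_joint]
  exact (h.joint hk).ent_push_le _

/-- concavity of conditional entropy -/
theorem IsP.cond_concave {m : α →₀ ℝ} (h : IsP m) {k : α → β →₀ ℝ} (hk : ∀ a ∈ m.support, IsP (k a))
    (f : β → γ) (g : γ → δ) :
    (ex m fun a => ent (push f (k a)) - ent (push (fun b => g (f b)) (k a))) ≤
      ent (push f (bnd m k)) - ent (push (fun b => g (f b)) (bnd m k)) := by
  have h1 := (h.joint hk).ent_submod (fun p => f p.2) g Prod.fst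
  rw [EntAux.ent_pair_fst h hk (fun p => f p.2), EntAux.ent_pair_fst h hk (fun p => g (f p.2)),
    ← push_push Prod.snd f, ← push_push Prod.snd (fun b => g (f b)), EntAux.push_snd_joint] at h1
  rw [ex_sub]
  linarith

/-- concavity of entropy -/
theorem IsP.ex_ent_le {m : α →₀ ℝ} (h : IsP m) {k : α → β →₀ ℝ} (hk : ∀ a ∈ m.support, IsP (k a)) :
    (ex m fun a => ent (k a)) ≤ ent (bnd m k) := by
  have h1 := h.cond_concave hk (fun b => b) (fun _ => ())
  rw [push_id, EntAux.push_const (h.bnd hk), ent_pur, sub_zero] at h1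
  refine le_trans (le_of_eq (ex_congr fun a ha => ?_)) h1
  rw [push_id, EntAux.push_const (hk a ha), ent_pur, sub_zero]

theorem ent_mix_le {L H : α →₀ ℝ} (hL : IsP L) (hH : IsP H) {v : ℝ} (h0 : 0 ≤ v) (h1 : v ≤ 1) :
    ent (mix v L H) ≤ Real.binEntropy v + v * ent L + (1 - v) * ent H := by
  have hc : IsP (mix v (pur true) (pur false)) := (isP_pur _).mix (isP_pur _) h0 h1
  have h2 := hc.ent_bnd_le (k := fun b => if b then L else H) (fun b _ => by cases b <;> simpa)
  rw [← mix_eq_bnd, ex_mix, ex_pur, ex_pur, ent_eq_ex (mix v (pur true) (pur false)), ex_mix, ex_pur,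
    ex_pur] at h2
  have e1 : mix v (pur true) (pur false) true = v := by simp [mix, pur]
  have e2 : mix v (pur true) (pur false) false = 1 - v := by simp [mix, pur]
  rw [e1, e2] at h2
  simp only [if_true, Bool.false_eq_true, if_false] at h2
  rw [Real.binEntropy, Real.log_inv, Real.log_inv]
  linarith

theorem ent_mix_of_disjoint {L H : α →₀ ℝ} (hL : IsP L) (hH : IsP H) {v : ℝ} (h0 : 0 ≤ v) (h1 : v ≤ 1)
    (hd : ∀ a ∈ L.support, a ∉ H.support) :
    ent (mix v L H) = Real.binEntropy v + v * ent L + (1 - v) * ent H := by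
  have key : ∀ (M : α →₀ ℝ), IsP M → ∀ c : ℝ,
      c * (ex M fun a => -Real.log (c * M a)) = c * -Real.log c + c * ent M := by
    intro M hM c
    rcases eq_or_ne c 0 with rfl | hc
    · simp
    · rw [← mul_add, ent_eq_ex, ← hM.ex_const (-Real.log c), ← ex_add]
      congr 1
      refine ex_congr fun a ha => ?_
      rw [Real.log_mul hc (hM.pos ha).ne']
      ring
  have e1 : (ex L fun a => -Real.log (mix v L H a)) = ex L fun a => -Real.log (v * L a) :=
    ex_congr fun a ha => by
      have : H a = 0 := Finsupp.notMem_support_iff.1 (hd a ha)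
      simp [mix, this]
  have e2 : (ex H fun a => -Real.log (mix v L H a)) = ex H fun a => -Real.log ((1 - v) * H a) :=
    ex_congr fun a ha => by
      have : L a = 0 := Finsupp.notMem_support_iff.1 fun h' => hd a h' ha
      simp [mix, this]
  rw [ent_eq_ex, ex_mix, e1, e2, key L hL, key H hH, Real.binEntropy, Real.log_inv, Real.log_inv]
  ring

/-- peeling: `H(g) ≥ H(f(a)) - log K + E_a H(g(a, ·))` when `g` determines `f(a)` up to `K` values.
Recipe: `H g + log K ≥ H (g, f∘fst)` (`ent_pair_le_add`); `ent_submod` with the pair `(g, f∘fst)`, `Prod.snd`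
and `h = fst` gives `H (g, f∘fst) - H (f∘fst) ≥ H (g, fst) - H fst = E_a H(g(a,·))` (`ent_joint`). -/
theorem IsP.peel {m : α →₀ ℝ} (h : IsP m) {k : α → β →₀ ℝ} (hk : ∀ a ∈ m.support, IsP (k a))
    (g : α × β → γ) (f : α → δ) {K : ℝ} (hK : KtoOne (joint m k) (fun p => f p.1) g K) :
    ent (push f m) - Real.log K + (ex m fun a => ent (push (fun b => g (a, b)) (k a))) ≤
      ent (push g (joint m k)) := by
  have hJ := h.joint hk
  have h1 := hJ.ent_pair_le_add hK
  have h2 := hJ.ent_submod (fun p => (g p, f p.1)) Prod.snd Prod.fst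
  rw [EntAux.ent_pair_fst h hk (fun p => (g p, f p.1)), EntAux.ent_pair_fst h hk (fun p => f p.1)] at h2
  have h3 : (ex m fun a => ent (push (fun b => (g (a, b), f a)) (k a))) =
      ex m fun a => ent (push (fun b => g (a, b)) (k a)) :=
    ex_congr fun a _ => ent_push_congr fun b _ b' _ => by simp
  have h4 : (ex m fun a => ent (push (fun _ => f a) (k a))) = 0 := by
    rw [← ex_zero m]
    exact ex_congr fun a ha => by rw [EntAux.push_const (hk a ha), ent_pur]
  have h5 : push (fun p : α × β => f p.1) (joint m k) = push f m := by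
    rw [joint, push_bnd, ← bnd_pur]
    exact bnd_congr fun a ha => by rw [push_push]; exact EntAux.push_const (hk a ha) (f a)
  simp only at h2
  rw [h3, h4, h5] at h2
  linarith

/-- `h v ≤ h v₁ + v * log (e / v₁)` -/
theorem binEntropy_le_add {v v₁ : ℝ} (h0 : 0 ≤ v) (h1 : v ≤ 1 / 2) (h2 : 0 < v₁) (h3 : v₁ ≤ 1 / 2) :
    Real.binEntropy v ≤ Real.binEntropy v₁ + v * (1 + Real.log (1 / v₁)) := by
  have hl : 0 ≤ Real.log (1 / v₁) := Real.log_nonneg (by rw [le_div_iff₀ h2]; linarith)
  rcases le_total v v₁ with h | h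
  · have h4 := Real.binEntropy_strictMonoOn.monotoneOn (a := v) (b := v₁)
      ⟨h0, by linarith⟩ ⟨h2.le, by linarith⟩ h
    have : 0 ≤ v * (1 + Real.log (1 / v₁)) := by positivity
    linarith
  · have h4 := EntAux.bin_le_mul h0 (by linarith : v ≤ 1)
    have h5 : 0 ≤ Real.binEntropy v₁ := Real.binEntropy_nonneg h2.le (by linarith)
    have h6 : Real.log (1 / v) ≤ Real.log (1 / v₁) :=
      Real.log_le_log (by have : 0 < v := by linarith
                          positivity) (one_div_le_one_div_of_le h2 h)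
    have h7 := mul_le_mul_of_nonneg_left h6 h0
    linarith

theorem binEntropy_le_mul {v : ℝ} (h0 : 0 ≤ v) (h1 : v ≤ 1) :
    Real.binEntropy v ≤ v * (1 + Real.log (1 / v)) := by
  exact EntAux.bin_le_mul h0 h1

theorem binEntropy_le_sqrt {v : ℝ} (h0 : 0 ≤ v) (h1 : v ≤ 1) : Real.binEntropy v ≤ 3 * Real.sqrt v := by
  rcases h0.eq_or_lt with rfl | hv
  · simp
  have h2 := binEntropy_le_mul h0 h1
  obtain ⟨s, hs, rfl⟩ : ∃ s : ℝ, 0 < s ∧ v = s * s :=
    ⟨Real.sqrt v, Real.sqrt_pos.2 hv, (Real.mul_self_sqrt h0).symm⟩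
  rw [Real.sqrt_mul_self hs.le]
  have hs1 : s ≤ 1 := by nlinarith
  have h3 : Real.log (1 / (s * s)) = 2 * Real.log (1 / s) := by
    rw [one_div, one_div, Real.log_inv, Real.log_inv, Real.log_mul hs.ne' hs.ne']
    ring
  have h4 := Real.log_le_sub_one_of_pos (one_div_pos.2 hs)
  have h5 : s * Real.log (1 / s) ≤ 1 - s := by
    have := mul_le_mul_of_nonneg_left h4 hs.le
    rwa [mul_sub, mul_one_div_cancel hs.ne', mul_one] at this
  have h6 := mul_le_mul_of_nonneg_left h5 hs.le
  rw [h3] at h2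
  nlinarith

end Crest.Agent.R98
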