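import Crest.Agent.R98.Defs

/-!
# R98/FP: the finite probability monad (`ex`, `pr`, `push`, `bnd`, `mix`, `pur`)
Routine Finsupp manipulations (`Finsupp.sum_mapDomain_index`, `Finsupp.sum_sum_index`, `Finsupp.sum_of_support_subset`;
the workhorse is `ext_ex` + `ex_push`, `ex_bnd`).
-/

set_option autoImplicit false

namespace Crest.Agent.R98

variable {α β γ : Type*}

theorem ex_def (m : α →₀ ℝ) (F : α → ℝ) : ex m F = ∑ a ∈ m.support, m a * F a := rfl

theorem ex_of_subset (m : α →₀ ℝ) (F : α → ℝ) {S : Finset α} (h : m.support ⊆ S) :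
    ex m F = ∑ a ∈ S, m a * F a := by
  exact Finsupp.sum_of_support_subset m h _ fun _ _ => zero_mul _

theorem ex_fintype [Fintype α] (m : α →₀ ℝ) (F : α → ℝ) : ex m F = ∑ a, m a * F a := by
  exact ex_of_subset m F (Finset.subset_univ _)

@[simp] theorem ex_pur (a : α) (F : α → ℝ) : ex (pur a) F = F a := by
  unfold ex pur
  rw [Finsupp.sum_single_index (zero_mul _), one_mul]

theorem ex_push (f : α → β) (m : α →₀ ℝ) (F : β → ℝ) : ex (push f m) F = ex m fun a => F (f a) := by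
  exact Finsupp.sum_mapDomain_index (fun _ => zero_mul _) fun _ _ _ => add_mul _ _ _

theorem FP_ex_add (m m' : α →₀ ℝ) (F : α → ℝ) : ex (m + m') F = ex m F + ex m' F :=
  Finsupp.sum_add_index' (fun _ => zero_mul _) fun _ _ _ => add_mul _ _ _

theorem FP_ex_smul (c : ℝ) (m : α →₀ ℝ) (F : α → ℝ) : ex (c • m) F = c * ex m F := by
  rw [ex_of_subset (c • m) F Finsupp.support_smul, ex_def, Finset.mul_sum]
  exact Finset.sum_congr rfl fun a _ => by rw [Finsupp.smul_apply, smul_eq_mul, mul_assoc]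

theorem ex_bnd (m : α →₀ ℝ) (k : α → β →₀ ℝ) (F : β → ℝ) :
    ex (bnd m k) F = ex m fun a => ex (k a) F := by
  unfold bnd
  rw [ex, Finsupp.sum_sum_index (fun _ => zero_mul _) fun _ _ _ => add_mul _ _ _]
  exact Finset.sum_congr rfl fun a _ => FP_ex_smul _ _ _

theorem ex_mix (v : ℝ) (L H : α →₀ ℝ) (F : α → ℝ) :
    ex (mix v L H) F = v * ex L F + (1 - v) * ex H F := by
  rw [mix, FP_ex_add, FP_ex_smul, FP_ex_smul]

theorem ex_joint (m : α →₀ ℝ) (k : α → β →₀ ℝ) (F : α × β → ℝ) :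
    ex (joint m k) F = ex m fun a => ex (k a) fun b => F (a, b) := by
  simp only [joint, ex_bnd, ex_push]

theorem apply_eq_pr (m : α →₀ ℝ) (a : α) : m a = pr m {a} := by
  classical
  rw [pr, ex_of_subset m _ (Finset.subset_insert a _), Finset.sum_eq_single a]
  · simp
  · intro b _ hb; simp [hb]
  · intro h; exact absurd (Finset.mem_insert_self _ _) h

theorem ext_ex {m m' : α →₀ ℝ} (h : ∀ F, ex m F = ex m' F) : m = m' := by
  ext a
  rw [apply_eq_pr, apply_eq_pr, pr, pr, h]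

theorem ex_congr {m : α →₀ ℝ} {F G : α → ℝ} (h : ∀ a ∈ m.support, F a = G a) : ex m F = ex m G := by
  rw [ex_def, ex_def]
  exact Finset.sum_congr rfl fun a ha => by rw [h a ha]

theorem ex_add (m : α →₀ ℝ) (F G : α → ℝ) : (ex m fun a => F a + G a) = ex m F + ex m G := by
  simp only [ex_def, mul_add, Finset.sum_add_distrib]

theorem ex_sub (m : α →₀ ℝ) (F G : α → ℝ) : (ex m fun a => F a - G a) = ex m F - ex m G := by
  simp only [ex_def, mul_sub, Finset.sum_sub_distrib]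

theorem ex_neg (m : α →₀ ℝ) (F : α → ℝ) : (ex m fun a => -F a) = -ex m F := by
  simp only [ex_def, mul_neg, Finset.sum_neg_distrib]

theorem ex_mul_left (m : α →₀ ℝ) (c : ℝ) (F : α → ℝ) : (ex m fun a => c * F a) = c * ex m F := by
  simp only [ex_def, Finset.mul_sum, mul_left_comm]

theorem ex_mul_right (m : α →₀ ℝ) (c : ℝ) (F : α → ℝ) : (ex m fun a => F a * c) = ex m F * c := by
  simp only [ex_def, Finset.sum_mul, mul_assoc]

theorem ex_div (m : α →₀ ℝ) (c : ℝ) (F : α → ℝ) : (ex m fun a => F a / c) = ex m F / c := by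
  simp only [div_eq_mul_inv, ex_mul_right]

@[simp] theorem ex_zero (m : α →₀ ℝ) : (ex m fun _ => 0) = 0 := by
  simp only [ex_def, mul_zero, Finset.sum_const_zero]

theorem ex_sum {κ : Type*} (m : α →₀ ℝ) (S : Finset κ) (F : κ → α → ℝ) :
    (ex m fun a => ∑ i ∈ S, F i a) = ∑ i ∈ S, ex m (F i) := by
  simp only [ex_def, Finset.mul_sum]
  exact Finset.sum_comm

theorem ex_comm (m : α →₀ ℝ) (m' : β →₀ ℝ) (F : α → β → ℝ) :
    (ex m fun a => ex m' fun b => F a b) = ex m' fun b => ex m fun a => F a b := by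
  simp only [ex_def, Finset.mul_sum]
  rw [Finset.sum_comm]
  simp only [mul_left_comm]

theorem IsP.ex_const {m : α →₀ ℝ} (h : IsP m) (c : ℝ) : (ex m fun _ => c) = c := by
  have := ex_mul_left m c fun _ => 1
  simpa only [mul_one, h.mass] using this

theorem IsP.ex_mono {m : α →₀ ℝ} (h : IsP m) {F G : α → ℝ} (hFG : ∀ a ∈ m.support, F a ≤ G a) :
    ex m F ≤ ex m G := by
  exact Finset.sum_le_sum fun a ha => mul_le_mul_of_nonneg_left (hFG a ha) (h.nonneg a)

theorem IsP.ex_nonneg {m : α →₀ ℝ} (h : IsP m) {F : α → ℝ} (hF : ∀ a ∈ m.support, 0 ≤ F a) :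
    0 ≤ ex m F := by
  simpa only [ex_zero] using h.ex_mono (F := fun _ => 0) hF

theorem IsP.ex_le {m : α →₀ ℝ} (h : IsP m) {F : α → ℝ} {c : ℝ} (hF : ∀ a ∈ m.support, F a ≤ c) :
    ex m F ≤ c := by
  simpa only [h.ex_const] using h.ex_mono (G := fun _ => c) hF

theorem IsP.le_ex {m : α →₀ ℝ} (h : IsP m) {F : α → ℝ} {c : ℝ} (hF : ∀ a ∈ m.support, c ≤ F a) :
    c ≤ ex m F := by
  simpa only [h.ex_const] using h.ex_mono (F := fun _ => c) hF

theorem IsP.abs_ex_le {m : α →₀ ℝ} (h : IsP m) (F : α → ℝ) : |ex m F| ≤ ex m fun a => |F a| := by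
  rw [abs_le, ← ex_neg]
  exact ⟨h.ex_mono fun a _ => neg_abs_le _, h.ex_mono fun a _ => le_abs_self _⟩

theorem IsP.pos {m : α →₀ ℝ} (h : IsP m) {a : α} (ha : a ∈ m.support) : 0 < m a := by
  exact (h.nonneg a).lt_of_ne' (Finsupp.mem_support_iff.mp ha)

theorem IsP.le_one {m : α →₀ ℝ} (h : IsP m) (a : α) : m a ≤ 1 := by
  rw [apply_eq_pr]
  exact h.ex_le fun b _ => Set.indicator_le_self' (fun _ _ => zero_le_one) b

theorem IsP.support_nonempty {m : α →₀ ℝ} (h : IsP m) : m.support.Nonempty := by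
  by_contra hc
  have := h.mass
  rw [ex_def, Finset.not_nonempty_iff_eq_empty.mp hc, Finset.sum_empty] at this
  exact zero_ne_one this

/-- some point of the support is at most the mean -/
theorem IsP.exists_le_ex {m : α →₀ ℝ} (h : IsP m) (F : α → ℝ) : ∃ a ∈ m.support, F a ≤ ex m F := by
  obtain ⟨a, ha, hmin⟩ := Finset.exists_min_image m.support F h.support_nonempty
  exact ⟨a, ha, h.le_ex hmin⟩

theorem isP_pur (a : α) : IsP (pur a) := by
  refine ⟨fun b => ?_, ex_pur _ _⟩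
  classical
  rw [pur, Finsupp.single_apply]
  split_ifs
  · exact zero_le_one
  · exact le_rfl

theorem FP_ind_nonneg (A : Set α) (a : α) : (0 : ℝ) ≤ A.indicator (fun _ => 1) a :=
  Set.indicator_nonneg (fun _ _ => zero_le_one) a

protected theorem IsP.push {m : α →₀ ℝ} (h : IsP m) (f : α → β) : IsP (push f m) := by
  refine ⟨fun b => ?_, by rw [ex_push]; exact h.mass⟩
  rw [apply_eq_pr, pr, ex_push]
  exact h.ex_nonneg fun a _ => FP_ind_nonneg _ _

protected theorem IsP.bnd {m : α →₀ ℝ} (h : IsP m) {k : α → β →₀ ℝ} (hk : ∀ a ∈ m.support, IsP (k a)) :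
    IsP (bnd m k) := by
  refine ⟨fun b => ?_, by rw [ex_bnd, ex_congr fun a ha => (hk a ha).mass]; exact h.mass⟩
  rw [apply_eq_pr, pr, ex_bnd]
  exact h.ex_nonneg fun a ha => (hk a ha).ex_nonneg fun _ _ => FP_ind_nonneg _ _

protected theorem IsP.mix {L H : α →₀ ℝ} (hL : IsP L) (hH : IsP H) {v : ℝ} (h0 : 0 ≤ v) (h1 : v ≤ 1) :
    IsP (mix v L H) := by
  refine ⟨fun b => ?_, by rw [ex_mix, hL.mass, hH.mass]; ring⟩
  exact add_nonneg (mul_nonneg h0 (hL.nonneg b)) (mul_nonneg (sub_nonneg.mpr h1) (hH.nonneg b))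

protected theorem IsP.joint {m : α →₀ ℝ} (h : IsP m) {k : α → β →₀ ℝ} (hk : ∀ a ∈ m.support, IsP (k a)) :
    IsP (joint m k) := by
  exact h.bnd fun a ha => (hk a ha).push _

theorem mem_support_pur {a b : α} : b ∈ (pur a).support ↔ b = a := by
  rw [pur, Finsupp.support_single a one_ne_zero, Finset.mem_singleton]

theorem FP_ex_ne_zero {m : α →₀ ℝ} (h : IsP m) {F : α → ℝ} (hF : ∀ a ∈ m.support, 0 ≤ F a) :
    ex m F ≠ 0 ↔ ∃ a ∈ m.support, F a ≠ 0 := by
  rw [ex_def, Ne, Finset.sum_eq_zero_iff_of_nonneg fun a ha => mul_nonneg (h.nonneg a) (hF a ha)]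
  push Not
  exact exists_congr fun a => and_congr_right fun ha =>
    mul_ne_zero_iff_left (Finsupp.mem_support_iff.mp ha)

theorem IsP.mem_support_push {m : α →₀ ℝ} (h : IsP m) {f : α → β} {b : β} :
    b ∈ (push f m).support ↔ ∃ a ∈ m.support, f a = b := by
  rw [Finsupp.mem_support_iff, apply_eq_pr, pr, ex_push,
    FP_ex_ne_zero h fun _ _ => FP_ind_nonneg _ _]
  simp

theorem IsP.mem_support_bnd {m : α →₀ ℝ} (h : IsP m) {k : α → β →₀ ℝ}
    (hk : ∀ a ∈ m.support, IsP (k a)) {b : β} :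
    b ∈ (bnd m k).support ↔ ∃ a ∈ m.support, b ∈ (k a).support := by
  rw [Finsupp.mem_support_iff, apply_eq_pr, pr, ex_bnd,
    FP_ex_ne_zero h fun a ha => (hk a ha).ex_nonneg fun _ _ => FP_ind_nonneg _ _]
  refine exists_congr fun a => and_congr_right fun _ => ?_
  rw [Finsupp.mem_support_iff, apply_eq_pr, pr]

theorem mem_support_mix {L H : α →₀ ℝ} (hL : IsP L) (hH : IsP H) {v : ℝ} (h0 : 0 < v) (h1 : v < 1)
    {a : α} : a ∈ (mix v L H).support ↔ a ∈ L.support ∨ a ∈ H.support := by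
  have e : mix v L H a = v * L a + (1 - v) * H a := rfl
  have h2 : 0 < 1 - v := sub_pos.mpr h1
  simp only [Finsupp.mem_support_iff, e]
  rw [← not_and_or, Ne, add_eq_zero_iff_of_nonneg (mul_nonneg h0.le (hL.nonneg a))
    (mul_nonneg h2.le (hH.nonneg a)), mul_eq_zero_iff_left h0.ne', mul_eq_zero_iff_left h2.ne']

theorem push_push (f : α → β) (g : β → γ) (m : α →₀ ℝ) :
    push g (push f m) = push (fun a => g (f a)) m := by
  exact ext_ex fun F => by simp only [ex_push]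

theorem push_id (m : α →₀ ℝ) : push (fun a => a) m = m := by
  exact ext_ex fun F => by simp only [ex_push]

theorem push_congr {f g : α → β} {m : α →₀ ℝ} (h : ∀ a ∈ m.support, f a = g a) :
    push f m = push g m := by
  exact ext_ex fun F => by rw [ex_push, ex_push]; exact ex_congr fun a ha => by rw [h a ha]

theorem push_pur (f : α → β) (a : α) : push f (pur a) = pur (f a) := by
  exact ext_ex fun F => by simp only [ex_push, ex_pur]

theorem push_bnd (f : β → γ) (m : α →₀ ℝ) (k : α → β →₀ ℝ) :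
    push f (bnd m k) = bnd m fun a => push f (k a) := by
  exact ext_ex fun F => by simp only [ex_push, ex_bnd]

theorem push_mix (f : α → β) (v : ℝ) (L H : α →₀ ℝ) :
    push f (mix v L H) = mix v (push f L) (push f H) := by
  exact ext_ex fun F => by simp only [ex_push, ex_mix]

theorem bnd_push (f : α → β) (m : α →₀ ℝ) (k : β → γ →₀ ℝ) :
    bnd (push f m) k = bnd m fun a => k (f a) := by
  exact ext_ex fun F => by simp only [ex_push, ex_bnd]

theorem bnd_bnd (m : α →₀ ℝ) (k : α → β →₀ ℝ) (l : β → γ →₀ ℝ) :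
    bnd (bnd m k) l = bnd m fun a => bnd (k a) l := by
  exact ext_ex fun F => by simp only [ex_bnd]

theorem pur_bnd (a : α) (k : α → β →₀ ℝ) : bnd (pur a) k = k a := by
  exact ext_ex fun F => by simp only [ex_bnd, ex_pur]

theorem bnd_pur (m : α →₀ ℝ) (f : α → β) : (bnd m fun a => pur (f a)) = push f m := by
  exact ext_ex fun F => by simp only [ex_bnd, ex_pur, ex_push]

theorem bnd_congr {m : α →₀ ℝ} {k l : α → β →₀ ℝ} (h : ∀ a ∈ m.support, k a = l a) :
    bnd m k = bnd m l := by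
  exact ext_ex fun F => by rw [ex_bnd, ex_bnd]; exact ex_congr fun a ha => by rw [h a ha]

theorem mix_bnd (v : ℝ) (L H : α →₀ ℝ) (k : α → β →₀ ℝ) :
    bnd (mix v L H) k = mix v (bnd L k) (bnd H k) := by
  exact ext_ex fun F => by simp only [ex_bnd, ex_mix]

theorem IsP.bnd_const {m : α →₀ ℝ} (h : IsP m) (m' : β →₀ ℝ) : (bnd m fun _ => m') = m' := by
  exact ext_ex fun F => by simp only [ex_bnd, h.ex_const]

/-- a two-component mixture is a mixture over a coin -/
theorem mix_eq_bnd (v : ℝ) (L H : α →₀ ℝ) :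
    mix v L H = bnd (mix v (pur true) (pur false)) fun b => if b then L else H := by
  exact ext_ex fun F => by simp [ex_bnd, ex_mix]

theorem pr_push (f : α → β) (m : α →₀ ℝ) (A : Set β) : pr (push f m) A = pr m (f ⁻¹' A) := by
  rw [pr, ex_push]
  rfl

theorem pr_bnd (m : α →₀ ℝ) (k : α → β →₀ ℝ) (A : Set β) :
    pr (bnd m k) A = ex m fun a => pr (k a) A := by
  exact ex_bnd _ _ _

theorem pr_mix (v : ℝ) (L H : α →₀ ℝ) (A : Set α) :
    pr (mix v L H) A = v * pr L A + (1 - v) * pr H A := by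
  exact ex_mix _ _ _ _

open Classical in
theorem pr_eq_ex_ite (m : α →₀ ℝ) (A : Set α) : pr m A = ex m fun a => if a ∈ A then 1 else 0 := by
  exact ex_congr fun a _ => Set.indicator_apply _ _ _

theorem IsP.pr_nonneg {m : α →₀ ℝ} (h : IsP m) (A : Set α) : 0 ≤ pr m A := by
  exact h.ex_nonneg fun _ _ => FP_ind_nonneg _ _

theorem IsP.pr_le_one {m : α →₀ ℝ} (h : IsP m) (A : Set α) : pr m A ≤ 1 := by
  exact h.ex_le fun b _ => Set.indicator_le_self' (fun _ _ => zero_le_one) b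

theorem IsP.pr_mono {m : α →₀ ℝ} (h : IsP m) {A B : Set α} (hAB : ∀ a ∈ m.support, a ∈ A → a ∈ B) :
    pr m A ≤ pr m B := by
  refine h.ex_mono fun a ha => ?_
  by_cases hA : a ∈ A
  · rw [Set.indicator_of_mem hA, Set.indicator_of_mem (hAB a ha hA)]
  · rw [Set.indicator_of_notMem hA]; exact FP_ind_nonneg _ _

theorem IsP.pr_pos {m : α →₀ ℝ} (h : IsP m) {A : Set α} {a : α} (ha : a ∈ m.support) (hA : a ∈ A) :
    0 < pr m A := by
  exact (h.pos ha).trans_le ((apply_eq_pr m a).trans_le (h.pr_mono fun b _ hb => hb ▸ hA))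

theorem IsP.le_pr {m : α →₀ ℝ} (h : IsP m) {A : Set α} {a : α} (hA : a ∈ A) : m a ≤ pr m A := by
  exact (apply_eq_pr m a).trans_le (h.pr_mono fun b _ hb => hb ▸ hA)

theorem IsP.pr_compl {m : α →₀ ℝ} (h : IsP m) (A : Set α) : pr m Aᶜ = 1 - pr m A := by
  rw [← h.mass, pr, pr, ← ex_sub]
  refine ex_congr fun a _ => ?_
  by_cases hA : a ∈ A <;> simp [hA]

theorem IsP.pr_union_le {m : α →₀ ℝ} (h : IsP m) (A B : Set α) : pr m (A ∪ B) ≤ pr m A + pr m B := by
  rw [pr, pr, pr, ← ex_add]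
  refine h.ex_mono fun a _ => ?_
  by_cases hA : a ∈ A <;> by_cases hB : a ∈ B <;> simp [hA, hB]

theorem IsP.pr_eq_one {m : α →₀ ℝ} (h : IsP m) {A : Set α} (hA : ∀ a ∈ m.support, a ∈ A) :
    pr m A = 1 := by
  rw [← h.mass]
  exact ex_congr fun a ha => Set.indicator_of_mem (hA a ha) _

theorem pr_eq_zero {m : α →₀ ℝ} {A : Set α} (hA : ∀ a ∈ m.support, a ∉ A) : pr m A = 0 := by
  rw [← ex_zero m]
  exact ex_congr fun a ha => Set.indicator_of_notMem (hA a ha) _

/-- Markov -/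
theorem IsP.markov {m : α →₀ ℝ} (h : IsP m) {F : α → ℝ} (hF : ∀ a ∈ m.support, 0 ≤ F a) {θ : ℝ}
    (hθ : 0 < θ) : pr m {a | θ ≤ F a} ≤ ex m F / θ := by
  rw [← ex_div]
  refine h.ex_mono fun a ha => ?_
  by_cases hA : a ∈ {a | θ ≤ F a}
  · rw [Set.indicator_of_mem hA]; exact (one_le_div hθ).mpr hA
  · rw [Set.indicator_of_notMem hA]; exact div_nonneg (hF a ha) hθ.le

/-- Jensen for the logarithm -/
theorem IsP.ex_log_le {m : α →₀ ℝ} (h : IsP m) {F : α → ℝ} (hF : ∀ a ∈ m.support, 0 < F a) :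
    (ex m fun a => Real.log (F a)) ≤ Real.log (ex m F) := by
  obtain ⟨a₀, ha₀, h₀⟩ := h.exists_le_ex F
  have hE : 0 < ex m F := (hF a₀ ha₀).trans_le h₀
  have h1 : (ex m fun a => Real.log (F a)) ≤
      ex m fun a => Real.log (ex m F) + (F a / ex m F - 1) := h.ex_mono fun a ha => by
    have := Real.log_le_sub_one_of_pos (div_pos (hF a ha) hE)
    rw [Real.log_div (hF a ha).ne' hE.ne'] at this
    linarith
  rwa [ex_add, ex_sub, ex_div, h.ex_const, h.ex_const, div_self hE.ne', sub_self, add_zero] at h1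

/-- Jensen for the square -/
theorem IsP.ex_abs_le_sqrt {m : α →₀ ℝ} (h : IsP m) (F : α → ℝ) :
    (ex m fun a => |F a|) ≤ Real.sqrt (ex m fun a => F a ^ 2) := by
  refine Real.le_sqrt_of_sq_le ?_
  set c := ex m fun a => |F a| with hc
  have h1 : (ex m fun a => 2 * c * |F a| - c ^ 2) ≤ ex m fun a => F a ^ 2 :=
    h.ex_mono fun a _ => by nlinarith [sq_nonneg (|F a| - c), sq_abs (F a)]
  rw [ex_sub, ex_mul_left, h.ex_const, ← hc] at h1
  linarith

/-- expectation commutes with interval integrals -/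
theorem ex_intervalIntegral (m : α →₀ ℝ) (F : α → ℝ → ℝ) (a b : ℝ)
    (hF : ∀ x ∈ m.support, IntervalIntegrable (F x) MeasureTheory.volume a b) :
    (ex m fun x => ∫ u in a..b, F x u) = ∫ u in a..b, ex m fun x => F x u := by
  simp only [ex_def]
  rw [intervalIntegral.integral_finsetSum fun x hx => (hF x hx).const_mul _]
  simp only [intervalIntegral.integral_const_mul]

theorem intervalIntegrable_ex (m : α →₀ ℝ) (F : α → ℝ → ℝ) (a b : ℝ)
    (hF : ∀ x ∈ m.support, IntervalIntegrable (F x) MeasureTheory.volume a b) :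
    IntervalIntegrable (fun u => ex m fun x => F x u) MeasureTheory.volume a b := by
  have := IntervalIntegrable.sum m.support fun x hx => (hF x hx).const_mul (m x)
  have e : (fun u => ex m fun x => F x u) = ∑ i ∈ m.support, fun u => m i * F i u := by
    funext u
    rw [Finset.sum_apply, ex_def]
  rw [e]
  exact this

theorem measurable_ex {δ : Type*} [MeasurableSpace δ] (m : α →₀ ℝ) (F : α → δ → ℝ)
    (hF : ∀ x ∈ m.support, Measurable (F x)) : Measurable fun u => ex m fun x => F x u := by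
  exact Finset.measurable_fun_sum m.support fun x hx => (hF x hx).const_mul (m x)

/-! convolution and dilation on the line -/

theorem ex_conv (m₁ m₂ : ℝ →₀ ℝ) (F : ℝ → ℝ) :
    ex (conv m₁ m₂) F = ex m₁ fun y => ex m₂ fun x => F (y + x) := by
  simp only [conv, ex_bnd, ex_push]

theorem ex_dil (c : ℝ) (m : ℝ →₀ ℝ) (F : ℝ → ℝ) : ex (dil c m) F = ex m fun x => F (c * x) := by
  exact ex_push _ _ _

theorem conv_comm (m₁ m₂ : ℝ →₀ ℝ) : conv m₁ m₂ = conv m₂ m₁ := by
  exact ext_ex fun F => by rw [ex_conv, ex_conv, ex_comm]; simp only [add_comm]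

theorem conv_assoc (m₁ m₂ m₃ : ℝ →₀ ℝ) : conv (conv m₁ m₂) m₃ = conv m₁ (conv m₂ m₃) := by
  exact ext_ex fun F => by simp only [ex_conv, add_assoc]

theorem pur_conv (y : ℝ) (m : ℝ →₀ ℝ) : conv (pur y) m = push (fun x => y + x) m := by
  exact ext_ex fun F => by simp only [ex_conv, ex_pur, ex_push]

theorem pur_zero_conv (m : ℝ →₀ ℝ) : conv (pur 0) m = m := by
  exact ext_ex fun F => by simp only [ex_conv, ex_pur, zero_add]

theorem bnd_conv (m : α →₀ ℝ) (k : α → ℝ →₀ ℝ) (m' : ℝ →₀ ℝ) :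
    conv (bnd m k) m' = bnd m fun a => conv (k a) m' := by
  exact ext_ex fun F => by simp only [ex_conv, ex_bnd]

theorem mix_conv (v : ℝ) (L H m : ℝ →₀ ℝ) : conv (mix v L H) m = mix v (conv L m) (conv H m) := by
  exact ext_ex fun F => by simp only [ex_conv, ex_mix]

theorem dil_conv (c : ℝ) (m₁ m₂ : ℝ →₀ ℝ) : dil c (conv m₁ m₂) = conv (dil c m₁) (dil c m₂) := by
  exact ext_ex fun F => by simp only [ex_conv, ex_dil, mul_add]

theorem dil_dil (c c' : ℝ) (m : ℝ →₀ ℝ) : dil c (dil c' m) = dil (c * c') m := by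
  exact ext_ex fun F => by simp only [ex_dil, mul_assoc]

theorem dil_one (m : ℝ →₀ ℝ) : dil 1 m = m := by
  exact ext_ex fun F => by simp only [ex_dil, one_mul]

protected theorem IsP.conv {m₁ m₂ : ℝ →₀ ℝ} (h₁ : IsP m₁) (h₂ : IsP m₂) : IsP (conv m₁ m₂) := by
  exact h₁.bnd fun _ _ => h₂.push _

protected theorem IsP.dil {m : ℝ →₀ ℝ} (h : IsP m) (c : ℝ) : IsP (dil c m) := by
  exact h.push _

theorem isP_two (o : ℝ) : IsP (two o) := by
  exact (isP_pur _).mix (isP_pur _) (by norm_num) (by norm_num)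

theorem mem_support_conv {m₁ m₂ : ℝ →₀ ℝ} (h₁ : IsP m₁) (h₂ : IsP m₂) {z : ℝ} :
    z ∈ (conv m₁ m₂).support ↔ ∃ y ∈ m₁.support, ∃ x ∈ m₂.support, y + x = z := by
  rw [conv, h₁.mem_support_bnd fun _ _ => h₂.push _]
  simp only [h₂.mem_support_push]

end Crest.Agent.R98
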