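import Crest.Agent.R98.Mahler

/-!
# R98/Generic: almost every `z` is non-Liouville
For `n ≥ 1` let `Z n` be the finite set of complex roots of non-zero determinants of `Bd (K n)`-matrices: `#Z n ≤ d K n * 5^{(K n + 1) d²} ≤ e^{C n}`.
The set of real `z` within `e^{-(C+1) n}` of `Z n` has measure `≤ 2 e^{-n}`; Borel-Cantelli (`MeasureTheory.ae_eventually_notMem`).
Then `eval_ge_of_roots_far` + `det_bounds` give `|det z| ≥ exp (-C' n log (n+2))` for large `n`, and `C' log (n+2) ≤ 2^(b³)` for `n ≤ 2^(2b^9)`, `b` large.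
-/

set_option autoImplicit false

namespace Crest.Agent.R98

open Polynomial Filter MeasureTheory

theorem card_Bd_le (N : ℕ) : ({p : ℤ[X] | Bd N p}.ncard : ℝ) ≤ 5 ^ (N + 1) := by
  classical
  have h := Set.ncard_le_ncard_of_injOn (s := {p : ℤ[X] | Bd N p})
    (t := ((Fintype.piFinset fun _ : Fin (N + 1) => Finset.Icc (-2 : ℤ) 2 : Finset (Fin (N + 1) → ℤ)) :
      Set (Fin (N + 1) → ℤ)))
    (fun p (j : Fin (N + 1)) => p.coeff j) (fun p hp => by
      simp only [Finset.mem_coe, Fintype.mem_piFinset, Finset.mem_Icc]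
      exact fun j => abs_le.1 (hp.2 j)) (fun p hp q hq h => by
      ext j
      by_cases hj : j < N + 1
      · exact congrFun h ⟨j, hj⟩
      · rw [coeff_eq_zero_of_natDegree_lt (hp.1.trans_lt (by omega)),
          coeff_eq_zero_of_natDegree_lt (hq.1.trans_lt (by omega))]) (Finset.finite_toSet _)
  rw [Set.ncard_coe_finset, Fintype.card_piFinset] at h
  simp only [Int.card_Icc, Finset.prod_const, Finset.card_univ, Fintype.card_fin] at h
  exact_mod_cast h

namespace GenericAux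

theorem exists_Z (ι : Type*) [Fintype ι] [DecidableEq ι] (N : ℕ) : ∃ Z : Finset ℂ,
    (Z.card : ℝ) ≤ 5 ^ ((N + 1) * Fintype.card ι ^ 2) * (Fintype.card ι * N) ∧
    ∀ A : Matrix ι ι ℤ[X], (∀ i j, Bd N (A i j)) → A.det ≠ 0 → ∀ η : ℂ, aeval η A.det = 0 → η ∈ Z := by
  classical
  let T : Finset ℤ[X] := (finite_Bd N).toFinset
  have hT : (T.card : ℝ) ≤ 5 ^ (N + 1) := by
    have := card_Bd_le N
    rwa [Set.ncard_eq_toFinset_card _ (finite_Bd N)] at this
  let Ms : Finset (ι → ι → ℤ[X]) := Fintype.piFinset fun _ => Fintype.piFinset fun _ => T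
  have hMs : (Ms.card : ℝ) ≤ 5 ^ ((N + 1) * Fintype.card ι ^ 2) := by
    simp only [Ms, Fintype.card_piFinset, Finset.prod_const, Finset.card_univ]
    push_cast
    rw [← pow_mul, ← sq, pow_mul]
    exact pow_le_pow_left₀ (Nat.cast_nonneg _) hT _
  refine ⟨Ms.biUnion fun A => (((Matrix.of A).det.map (Int.castRingHom ℂ)).roots).toFinset, ?_, ?_⟩
  · have h1 := Finset.card_biUnion_le_card_mul Ms
      (fun A => (((Matrix.of A).det.map (Int.castRingHom ℂ)).roots).toFinset) (Fintype.card ι * N)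
      fun A hA => by
        refine (Multiset.toFinset_card_le _).trans ((card_roots' _).trans (natDegree_map_le.trans ?_))
        simp only [Ms, T, Fintype.mem_piFinset, Set.Finite.mem_toFinset] at hA
        exact (det_bounds (Matrix.of A) (fun i j => (hA i j).1) fun i j => (hA i j).l1_le).1
    calc _ ≤ ((Ms.card * (Fintype.card ι * N) : ℕ) : ℝ) := by exact_mod_cast h1
      _ ≤ _ := by
        push_cast
        exact mul_le_mul_of_nonneg_right hMs (by positivity)
  · intro A hA h0 η hη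
    refine Finset.mem_biUnion.2 ⟨A, ?_, ?_⟩
    · simp only [Ms, T, Fintype.mem_piFinset, Set.Finite.mem_toFinset]
      exact hA
    · rw [Multiset.mem_toFinset]
      refine (mem_roots ((Polynomial.map_ne_zero_iff (Int.castRingHom ℂ).injective_int).2 h0)).2 ?_
      rw [aeval_def, ← eval_map] at hη
      exact hη

theorem vol_near (Z : Finset ℂ) {δ : ℝ} (hδ : 0 ≤ δ) :
    volume {z : ℝ | ∃ η ∈ Z, ‖(z : ℂ) - η‖ < δ} ≤ ENNReal.ofReal (Z.card * (2 * δ)) := by
  have h1 : {z : ℝ | ∃ η ∈ Z, ‖(z : ℂ) - η‖ < δ} ⊆ ⋃ η ∈ Z, Metric.ball η.re δ := by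
    rintro z ⟨η, hη, h⟩
    refine Set.mem_biUnion hη ?_
    rw [Metric.mem_ball, Real.dist_eq]
    have := Complex.abs_re_le_norm ((z : ℂ) - η)
    simp only [Complex.sub_re, Complex.ofReal_re] at this
    exact this.trans_lt h
  refine (measure_mono h1).trans ((measure_biUnion_finset_le _ _).trans ?_)
  simp only [Real.volume_ball, Finset.sum_const, nsmul_eq_mul]
  rw [ENNReal.ofReal_mul (Nat.cast_nonneg _), ENNReal.ofReal_natCast]

theorem ev_pow (A B : ℝ) : ∀ᶠ b : ℕ in atTop, A + B * (b : ℝ) ^ 9 ≤ 2 ^ (b ^ 3) := by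
  have h1 := (tendsto_pow_const_div_const_pow_of_one_lt 3 (one_lt_two : (1 : ℝ) < 2)).const_mul
    (|A| + |B|)
  rw [mul_zero] at h1
  have h2 : Tendsto (fun b : ℕ => b ^ 3) atTop atTop := tendsto_pow_atTop (by norm_num)
  filter_upwards [h2.eventually (h1.eventually (eventually_le_nhds one_pos)), eventually_ge_atTop 1]
    with b hb hb1
  have h3 : (1 : ℝ) ≤ (b : ℝ) ^ 9 := one_le_pow₀ (by exact_mod_cast hb1)
  rw [← mul_div_assoc, div_le_one (by positivity)] at hb
  push_cast at hb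
  rw [← pow_mul] at hb
  have h4 : (|A| + |B|) * (b : ℝ) ^ 9 ≤ 2 ^ (b ^ 3) := hb
  have h5 : A ≤ |A| * (b : ℝ) ^ 9 := (le_abs_self A).trans (le_mul_of_one_le_right (abs_nonneg A) h3)
  have h6 : B * (b : ℝ) ^ 9 ≤ |B| * (b : ℝ) ^ 9 :=
    mul_le_mul_of_nonneg_right (le_abs_self B) (by positivity)
  linarith

end GenericAux

open GenericAux in
theorem ae_good (ι : Type*) [Fintype ι] (K : ℕ) :
    ∀ᵐ z : ℝ, 0 < z ∧ z < 1 → ∀ᶠ b in atTop, GoodStage ι K z b := by
  classical
  choose Z hZ hZ' using fun n : ℕ => exists_Z ι (K * n)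
  set d : ℕ := Fintype.card ι with hd
  let W : ℕ → ℝ := fun n => 2 ^ n * (5 ^ ((K * n + 1) * d ^ 2) * (d * (K * n) + 1))
  have hW1 : ∀ n, 1 ≤ W n := fun n =>
    one_le_mul_of_one_le_of_one_le (one_le_pow₀ one_le_two)
      (one_le_mul_of_one_le_of_one_le (one_le_pow₀ (by norm_num)) (le_add_of_nonneg_left (by positivity)))
  have hW0 : ∀ n, 0 < W n := fun n => one_pos.trans_le (hW1 n)
  have hvol : ∀ n, volume {z : ℝ | ∃ η ∈ Z n, ‖(z : ℂ) - η‖ < 1 / W n} ≤
      ENNReal.ofReal (2 * (1 / 2) ^ n) := by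
    intro n
    refine (vol_near (Z n) (one_div_pos.2 (hW0 n)).le).trans (ENNReal.ofReal_le_ofReal ?_)
    rw [mul_left_comm, mul_one_div]
    refine mul_le_mul_of_nonneg_left ?_ zero_le_two
    rw [div_le_iff₀ (hW0 n), ← mul_assoc, ← mul_pow]
    norm_num
    refine (hZ n).trans ?_
    push_cast
    exact mul_le_mul_of_nonneg_left (by linarith) (by positivity)
  have hsum : ∑' n, volume {z : ℝ | ∃ η ∈ Z n, ‖(z : ℂ) - η‖ < 1 / W n} ≠ ⊤ := by
    refine ne_top_of_le_ne_top ?_ (ENNReal.tsum_le_tsum hvol)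
    rw [← ENNReal.ofReal_tsum_of_nonneg (fun n => by positivity) (summable_geometric_two.mul_left 2)]
    exact ENNReal.ofReal_ne_top
  filter_upwards [ae_eventually_notMem hsum] with z hz hz01
  obtain ⟨n₀, hn₀⟩ := eventually_atTop.1 hz
  obtain ⟨C, hC, hCz⟩ := eval_ge_of_roots_far hz01
  set c : ℝ := 1 + 2 * ((K + 1) * d ^ 2) + d * K with hc
  have hc0 : 0 ≤ c := by positivity
  filter_upwards [ev_pow (C * (d * K) + C * (Real.log d.factorial + d * Real.log (2 * (K + 1))) * c)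
    (C * (d * 2) * c), eventually_ge_atTop (n₀ + 1)] with b hb hbn n hn1 hn2 A hA hne
  have hbn' : n₀ + 1 ≤ n := by
    have h1 : b ≤ b ^ 9 := Nat.le_self_pow (by norm_num) b
    have h2 : b ^ 9 < 2 ^ (b ^ 9) := Nat.lt_two_pow_self
    omega
  have hn : (1 : ℝ) ≤ n := by exact_mod_cast (by omega : 1 ≤ n)
  have h0 : A.det ≠ 0 := fun h => hne (by rw [h, map_zero])
  obtain ⟨hdeg, hl1⟩ := det_bounds A (fun i j => (hA i j).1) fun i j => (hA i j).l1_le
  refine le_trans (Real.exp_le_exp.2 (neg_le_neg ?_)) (hCz A.det _ _ (1 / W n) h0 hdeg hl1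
    (one_div_pos.2 (hW0 n)) (by rw [div_le_one (hW0 n)]; exact hW1 n) fun η hη _ => by
      by_contra h
      exact hn₀ n (by omega) ⟨η, hZ' n A hA h0 η hη, not_le.1 h⟩)
  rw [one_div_one_div, ← hd]
  have hl2 : Real.log 2 ≤ 1 := by linarith [Real.log_two_lt_d9]
  have hl5 : Real.log 5 ≤ 2 := by
    have : Real.log 5 ≤ Real.log (2 ^ 2 * (5 / 4)) := by norm_num
    rw [Real.log_mul (by norm_num) (by norm_num), Real.log_pow] at this
    have h2 := Real.log_le_sub_one_of_pos (by norm_num : (0 : ℝ) < 5 / 4)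
    push_cast at this
    linarith [Real.log_two_lt_d9]
  have hLW : Real.log (W n) ≤ c * n := by
    simp only [W]
    rw [Real.log_mul (by positivity) (by positivity), Real.log_mul (by positivity) (by positivity),
      Real.log_pow, Real.log_pow]
    have h1 := Real.log_le_sub_one_of_pos (by positivity : (0 : ℝ) < d * (K * n) + 1)
    have h2 : (n : ℝ) * Real.log 2 ≤ n := by nlinarith
    have h3 : (((K * n + 1) * d ^ 2 : ℕ) : ℝ) * Real.log 5 ≤ 2 * ((K + 1) * d ^ 2) * n := by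
      push_cast
      have h4 : ((K : ℝ) * n + 1) * d ^ 2 ≤ (K + 1) * n * d ^ 2 :=
        mul_le_mul_of_nonneg_right (by linarith) (by positivity)
      have h5 : (0 : ℝ) ≤ (K * n + 1) * d ^ 2 := by positivity
      nlinarith
    rw [hc]
    nlinarith
  have hLn : Real.log n ≤ 2 * (b : ℝ) ^ 9 := by
    have h1 : (n : ℝ) ≤ 2 ^ (2 * b ^ 9) := by exact_mod_cast hn2
    have h2 := Real.log_le_log (by positivity) h1
    rw [Real.log_pow] at h2
    push_cast at h2
    have : (0 : ℝ) ≤ 2 * (b : ℝ) ^ 9 := by positivity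
    nlinarith
  have hLB : Real.log (d.factorial * (2 * (((K * n : ℕ) : ℝ) + 1)) ^ d) ≤
      Real.log d.factorial + d * Real.log (2 * (K + 1)) + d * 2 * (b : ℝ) ^ 9 := by
    have hf : (0 : ℝ) < d.factorial := by exact_mod_cast d.factorial_pos
    rw [Real.log_mul hf.ne' (by positivity), Real.log_pow]
    have h1 : Real.log (2 * (((K * n : ℕ) : ℝ) + 1)) ≤ Real.log (2 * (K + 1)) + Real.log n := by
      rw [← Real.log_mul (by positivity) (by positivity)]
      refine Real.log_le_log (by positivity) ?_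
      push_cast
      nlinarith
    have h2 : (0 : ℝ) ≤ d := Nat.cast_nonneg d
    nlinarith
  have hLB0 : 0 ≤ Real.log (d.factorial * (2 * (((K * n : ℕ) : ℝ) + 1)) ^ d) :=
    Real.log_nonneg ((one_le_l1 h0).trans hl1)
  have h1 : C * Real.log (d.factorial * (2 * (((K * n : ℕ) : ℝ) + 1)) ^ d) * Real.log (W n) ≤
      C * (Real.log d.factorial + d * Real.log (2 * (K + 1)) + d * 2 * (b : ℝ) ^ 9) * (c * n) :=
    mul_le_mul (mul_le_mul_of_nonneg_left hLB hC.le) hLW (Real.log_nonneg (hW1 n))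
      (mul_nonneg hC.le (hLB0.trans hLB))
  have h2 := mul_le_mul_of_nonneg_left hb (zero_le_one.trans hn)
  push_cast at h1 ⊢
  linarith

end Crest.Agent.R98
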