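import Crest.Agent.R98.Ent

/-!
# R98/HsA: entropy at a scale, part 1 (measurability, invariance, concavity)
Recipes: `ent_push_eq` writes the integrand as a finite sum of measurable functions of `(s, u)`; it lies in
`[0, ent m]`. The integrand is 1-periodic in `u` (`cell s (u+1) x = cell s u x + 1`, `ent_push_congr`), use
`Function.Periodic.intervalIntegral_add_eq`. `Hs_dil` for `c < 0`: for all but finitely many `u` no `x/s - u`
(`x` in the support) is an integer, and then `⌊-x/s + u⌋ = -⌊x/s - u⌋ - 1`; substitute `u ↦ 1 - u`.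
`Hs_eq_mul`: `Hs s m = ∫ u in 0..1, ent (push (cell s (M u)) m)` (periodicity,
`Function.Periodic.intervalIntegral_add_zsmul_eq` / `intervalIntegral.integral_comp_mul_left`) and
`cell (M s) u x = cell s (M u) x / M` (`Int.floor_div_natCast`); then integrate `IsP.cond_concave`.
-/

set_option autoImplicit false

namespace Crest.Agent.R98

variable {α : Type*}

theorem hsa_measurable_cell (x : ℝ) : Measurable fun p : ℝ × ℝ => cell p.1 p.2 x := by
  unfold cell
  exact Int.measurable_floor.comp ((measurable_const.div measurable_fst).add measurable_snd)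

/-- bounded measurable functions are interval integrable -/
theorem hsa_ii {f : ℝ → ℝ} (hf : Measurable f) {B : ℝ} (hB : ∀ τ, |f τ| ≤ B) (a b : ℝ) :
    IntervalIntegrable f MeasureTheory.volume a b :=
  (intervalIntegrable_const (c := B)).mono_fun' hf.aestronglyMeasurable
    (Filter.Eventually.of_forall fun τ => hB τ)

theorem hsa_periodic (m : ℝ →₀ ℝ) (s : ℝ) :
    Function.Periodic (fun u => ent (push (cell s u) m)) 1 := by
  intro u
  refine ent_push_congr fun a _ a' _ => ?_
  unfold cell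
  rw [← add_assoc, ← add_assoc, Int.floor_add_one, Int.floor_add_one, add_left_inj]

theorem measurable_ent_cell (m : ℝ →₀ ℝ) :
    Measurable fun p : ℝ × ℝ => ent (push (cell p.1 p.2) m) := by
  classical
  simp only [ent_push_eq]
  refine measurable_ex _ _ fun x _ => ?_
  refine Measurable.neg (Real.measurable_log.comp ?_)
  simp only [pr_eq_ex_ite]
  refine measurable_ex _ _ fun y _ => ?_
  refine Measurable.ite ?_ measurable_const measurable_const
  exact measurableSet_eq_fun (hsa_measurable_cell y) (hsa_measurable_cell x)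

theorem intervalIntegrable_ent_cell {m : ℝ →₀ ℝ} (h : IsP m) (s a b : ℝ) :
    IntervalIntegrable (fun u => ent (push (cell s u) m)) MeasureTheory.volume a b := by
  refine hsa_ii (B := ent m)
    ((measurable_ent_cell m).comp (measurable_const.prodMk measurable_id)) (fun u => ?_) a b
  exact (abs_of_nonneg (h.push _).ent_nonneg).trans_le (h.ent_push_le _)

theorem measurable_Hs {m : ℝ →₀ ℝ} (h : IsP m) : Measurable fun s => Hs s m := by
  unfold Hs
  simp only [intervalIntegral.integral_of_le zero_le_one]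
  exact ((measurable_ent_cell m).stronglyMeasurable.integral_prod_right'
    (ν := MeasureTheory.volume.restrict (Set.Ioc (0 : ℝ) 1))).measurable

theorem Hs_nonneg {m : ℝ →₀ ℝ} (h : IsP m) (s : ℝ) : 0 ≤ Hs s m := by
  exact intervalIntegral.integral_nonneg zero_le_one fun u _ => (h.push _).ent_nonneg

theorem Hs_le_ent {m : ℝ →₀ ℝ} (h : IsP m) (s : ℝ) : Hs s m ≤ ent m := by
  have := intervalIntegral.integral_mono_on zero_le_one (intervalIntegrable_ent_cell h s 0 1)
    (intervalIntegrable_const (c := ent m)) fun u _ => h.ent_push_le _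
  simpa [Hs] using this

@[simp] theorem Hs_pur (s y : ℝ) : Hs s (pur y) = 0 := by
  simp [Hs, push_pur]

theorem Hs_shift {m : ℝ →₀ ℝ} (h : IsP m) (s y : ℝ) : Hs s (push (fun x => y + x) m) = Hs s m := by
  unfold Hs
  have e : ∀ u, ent (push (cell s u) (push (fun x => y + x) m)) =
      ent (push (cell s (u + y / s)) m) := by
    intro u
    rw [push_push]
    congr 2
    funext x
    unfold cell
    congr 1
    rw [add_div]
    ring
  simp only [e]
  rw [intervalIntegral.integral_comp_add_right (fun u => ent (push (cell s u) m)) (y / s)]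
  have := (hsa_periodic m s).intervalIntegral_add_eq (y / s) 0
  rw [zero_add] at this
  rw [zero_add, add_comm, this]

theorem hsa_neg (m : ℝ →₀ ℝ) (s : ℝ) : Hs s (push (fun x => -x) m) = Hs s m := by
  unfold Hs
  have hc : (⋃ x ∈ (m.support : Set ℝ), Set.range fun n : ℤ => x / s - n).Countable :=
    m.support.countable_toSet.biUnion fun x _ => Set.countable_range _
  have e : ∫ u in (0 : ℝ)..1, ent (push (cell s u) (push (fun x => -x) m)) =
      ∫ u in (0 : ℝ)..1, ent (push (cell s (-u)) m) := by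
    refine intervalIntegral.integral_congr_ae ?_
    filter_upwards [hc.ae_notMem MeasureTheory.volume] with u hu _
    rw [push_push]
    have key : ∀ x ∈ m.support, cell s u (-x) = -cell s (-u) x - 1 := by
      intro x hx
      unfold cell
      have h1 : -x / s + u = -(x / s + -u) := by ring
      rw [h1, Int.floor_neg, (Int.ceil_eq_floor_add_one_iff_notMem _).2]
      · ring
      · rintro ⟨n, hn⟩
        apply hu
        simp only [Set.mem_iUnion]
        exact ⟨x, hx, n, by simp only; linarith⟩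
    refine ent_push_congr fun a ha a' ha' => ?_
    rw [key a ha, key a' ha']
    constructor <;> intro h <;> linarith
  rw [e, intervalIntegral.integral_comp_neg (fun u => ent (push (cell s u) m))]
  have := (hsa_periodic m s).intervalIntegral_add_eq (-1) 0
  simpa using this

theorem hsa_dil_pos (m : ℝ →₀ ℝ) {c : ℝ} (hc : c ≠ 0) (s : ℝ) : Hs s (dil c m) = Hs (s / c) m := by
  unfold Hs dil
  congr 1
  funext u
  rw [push_push]
  congr 2
  funext x
  unfold cell
  congr 2
  rw [div_div_eq_mul_div, mul_comm]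

theorem Hs_dil {m : ℝ →₀ ℝ} (h : IsP m) {c s : ℝ} (hc : c ≠ 0) (hs : 0 < s) :
    Hs s (dil c m) = Hs (s / |c|) m := by
  rcases lt_or_gt_of_ne hc with hc' | hc'
  · have e : dil c m = push (fun x => -x) (dil (-c) m) := by
      unfold dil
      rw [push_push]
      congr 1
      funext x
      ring
    rw [e, hsa_neg, hsa_dil_pos m (neg_ne_zero.2 hc), abs_of_neg hc']
  · rw [hsa_dil_pos m hc, abs_of_pos hc']

theorem Dsc_dil {m : ℝ →₀ ℝ} (h : IsP m) {c s : ℝ} (hc : c ≠ 0) (hs : 0 < s) {M : ℕ} (hM : 1 ≤ M) :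
    Dsc s M (dil c m) = Dsc (s / |c|) M m := by
  have hM' : (0 : ℝ) < M := by exact_mod_cast hM
  unfold Dsc
  rw [Hs_dil h hc hs, Hs_dil h hc (mul_pos hM' hs), mul_div_assoc]

theorem Dsc_shift {m : ℝ →₀ ℝ} (h : IsP m) (s y : ℝ) (M : ℕ) :
    Dsc s M (push (fun x => y + x) m) = Dsc s M m := by
  unfold Dsc
  rw [Hs_shift h, Hs_shift h]

theorem cell_mul {s : ℝ} (hs : 0 < s) {M : ℕ} (hM : 1 ≤ M) (u x : ℝ) :
    cell (M * s) u x = cell s (M * u) x / (M : ℤ) := by
  have hM' : (0 : ℝ) < M := by exact_mod_cast hM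
  unfold cell
  rw [← Int.floor_div_natCast]
  congr 1
  field_simp

theorem Hs_eq_mul {m : ℝ →₀ ℝ} (h : IsP m) (s : ℝ) {M : ℕ} (hM : 1 ≤ M) :
    Hs s m = ∫ u in (0 : ℝ)..1, ent (push (cell s (M * u)) m) := by
  have hM' : (0 : ℝ) < M := by exact_mod_cast hM
  rw [intervalIntegral.integral_comp_mul_left (fun u => ent (push (cell s u) m)) hM'.ne']
  have := (hsa_periodic m s).intervalIntegral_add_zsmul_eq (M : ℤ) 0
    (intervalIntegrable_ent_cell h s)
  simp only [zero_add, zsmul_eq_mul, mul_one, Int.cast_natCast] at this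
  rw [mul_zero, mul_one, this, smul_eq_mul, ← mul_assoc, inv_mul_cancel₀ hM'.ne', one_mul]
  rfl

theorem hsa_push_div (m : ℝ →₀ ℝ) {s : ℝ} (hs : 0 < s) {M : ℕ} (hM : 1 ≤ M) (u : ℝ) :
    push (fun j : ℤ => j / (M : ℤ)) (push (cell s (M * u)) m) = push (cell (M * s) u) m := by
  rw [push_push]
  congr 1
  funext x
  rw [cell_mul hs hM]

theorem hsa_ii_mul {m : ℝ →₀ ℝ} (h : IsP m) (s c a b : ℝ) :
    IntervalIntegrable (fun u => ent (push (cell s (c * u)) m)) MeasureTheory.volume a b := by
  refine hsa_ii (B := ent m)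
    ((measurable_ent_cell m).comp (measurable_const.prodMk (measurable_const.mul measurable_id)))
    (fun u => ?_) a b
  exact (abs_of_nonneg (h.push _).ent_nonneg).trans_le (h.ent_push_le _)

theorem hsa_ii_Dsc {m : ℝ →₀ ℝ} (h : IsP m) {s : ℝ} (hs : 0 < s) {M : ℕ} (hM : 1 ≤ M) (a b : ℝ) :
    IntervalIntegrable (fun u => ent (push (cell s (M * u)) m) -
      ent (push (fun j : ℤ => j / (M : ℤ)) (push (cell s (M * u)) m))) MeasureTheory.volume a b := by
  simp only [hsa_push_div m hs hM]
  exact (hsa_ii_mul h s M a b).sub (intervalIntegrable_ent_cell h _ a b)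

/-- `Dsc` as an integral of conditional entropies -/
theorem Dsc_eq {m : ℝ →₀ ℝ} (h : IsP m) {s : ℝ} (hs : 0 < s) {M : ℕ} (hM : 1 ≤ M) :
    Dsc s M m = ∫ u in (0 : ℝ)..1, (ent (push (cell s (M * u)) m) -
      ent (push (fun j : ℤ => j / (M : ℤ)) (push (cell s (M * u)) m))) := by
  simp only [hsa_push_div m hs hM]
  rw [intervalIntegral.integral_sub (hsa_ii_mul h s M 0 1) (intervalIntegrable_ent_cell h _ 0 1),
    ← Hs_eq_mul h s hM]
  rfl

theorem Dsc_concave {m : α →₀ ℝ} (h : IsP m) {k : α → ℝ →₀ ℝ} (hk : ∀ a ∈ m.support, IsP (k a))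
    {s : ℝ} (hs : 0 < s) {M : ℕ} (hM : 1 ≤ M) :
    (ex m fun a => Dsc s M (k a)) ≤ Dsc s M (bnd m k) := by
  rw [ex_congr fun a ha => Dsc_eq (hk a ha) hs hM, Dsc_eq (h.bnd hk) hs hM,
    ex_intervalIntegral _ _ _ _ fun a ha => hsa_ii_Dsc (hk a ha) hs hM 0 1]
  refine intervalIntegral.integral_mono_on zero_le_one
    (intervalIntegrable_ex _ _ _ _ fun a ha => hsa_ii_Dsc (hk a ha) hs hM 0 1)
    (hsa_ii_Dsc (h.bnd hk) hs hM 0 1) fun u _ => ?_
  simp only [push_push]
  exact h.cond_concave hk (cell s (M * u)) fun j : ℤ => j / (M : ℤ)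

theorem Hs_concave {m : α →₀ ℝ} (h : IsP m) {k : α → ℝ →₀ ℝ} (hk : ∀ a ∈ m.support, IsP (k a))
    (s : ℝ) : (ex m fun a => Hs s (k a)) ≤ Hs s (bnd m k) := by
  unfold Hs
  rw [ex_intervalIntegral _ _ _ _ fun a ha => intervalIntegrable_ent_cell (hk a ha) s 0 1]
  refine intervalIntegral.integral_mono_on zero_le_one
    (intervalIntegrable_ex _ _ _ _ fun a ha => intervalIntegrable_ent_cell (hk a ha) s 0 1)
    (intervalIntegrable_ent_cell (h.bnd hk) s 0 1) fun u _ => ?_
  rw [push_bnd]
  exact h.ex_ent_le fun a ha => (hk a ha).push _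

theorem Dsc_mix_ge {L H : ℝ →₀ ℝ} (hL : IsP L) (hH : IsP H) {v : ℝ} (h0 : 0 ≤ v) (h1 : v ≤ 1)
    {s : ℝ} (hs : 0 < s) {M : ℕ} (hM : 1 ≤ M) :
    v * Dsc s M L + (1 - v) * Dsc s M H ≤ Dsc s M (mix v L H) := by
  have := Dsc_concave ((isP_pur true).mix (isP_pur false) h0 h1)
    (k := fun b => if b then L else H) (fun b _ => by cases b <;> simpa) hs hM
  rw [← mix_eq_bnd, ex_mix, ex_pur, ex_pur] at this
  simpa using this

theorem Dsc_nonneg {m : ℝ →₀ ℝ} (h : IsP m) {s : ℝ} (hs : 0 < s) {M : ℕ} (hM : 1 ≤ M) :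
    0 ≤ Dsc s M m := by
  rw [Dsc_eq h hs hM]
  exact intervalIntegral.integral_nonneg zero_le_one fun u _ =>
    sub_nonneg.2 ((h.push _).ent_push_le _)

theorem Dsc_le_log {m : ℝ →₀ ℝ} (h : IsP m) {s : ℝ} (hs : 0 < s) {M : ℕ} (hM : 1 ≤ M) :
    Dsc s M m ≤ Real.log M := by
  rw [Dsc_eq h hs hM]
  have hM' : (0 : ℤ) < M := by exact_mod_cast hM
  have := intervalIntegral.integral_mono_on zero_le_one (hsa_ii_Dsc h hs hM 0 1)
    (intervalIntegrable_const (c := Real.log M)) fun u _ => by
      have hK : KtoOne (push (cell s (M * u)) m) (fun j : ℤ => j) (fun j : ℤ => j / (M : ℤ)) M := by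
        intro c
        have h1 : (Finset.Ico (c * M) (c * M + M)).card = M := by simp
        refine Nat.cast_le.2 ((Finset.card_le_card fun j hj => ?_).trans h1.le)
        simp only [Finset.mem_image, Finset.mem_filter] at hj
        obtain ⟨j', ⟨-, hj'⟩, rfl⟩ := hj
        rw [Finset.mem_Ico, ← hj']
        have h2 := Int.ediv_mul_add_emod j' M
        have h3 := Int.emod_nonneg j' hM'.ne'
        have h4 := Int.emod_lt_of_pos j' hM'
        constructor <;> linarith
      have := (h.push (cell s (M * u))).ent_push_le_add hK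
      rw [push_id] at this
      linarith
  simpa using this

theorem Hs_le_conv {m₁ m₂ : ℝ →₀ ℝ} (h₁ : IsP m₁) (h₂ : IsP m₂) (s : ℝ) :
    Hs s m₂ ≤ Hs s (conv m₁ m₂) := by
  have := Hs_concave h₁ (k := fun y => push (fun x => y + x) m₂) (fun y _ => h₂.push _) s
  simp only [Hs_shift h₂, h₁.ex_const] at this
  exact this

theorem Dsc_le_conv {m₁ m₂ : ℝ →₀ ℝ} (h₁ : IsP m₁) (h₂ : IsP m₂) {s : ℝ} (hs : 0 < s) {M : ℕ}
    (hM : 1 ≤ M) : Dsc s M m₂ ≤ Dsc s M (conv m₁ m₂) := by
  have := Dsc_concave h₁ (k := fun y => push (fun x => y + x) m₂) (fun y _ => h₂.push _) hs hM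
  simp only [Dsc_shift h₂, h₁.ex_const] at this
  exact this

/-- telescoping of an integral of increments: `∫_a^b (f τ - f (τ - L)) ≤ L (sup - inf)` -/
theorem integral_incr_le {f : ℝ → ℝ} (hf : Measurable f) {B : ℝ} (hB : ∀ τ, |f τ| ≤ B) {a b L U V : ℝ}
    (hL : 0 ≤ L) (hU : ∀ τ ∈ Set.Icc (b - L) b, f τ ≤ U) (hV : ∀ τ ∈ Set.Icc (a - L) a, V ≤ f τ) :
    ∫ τ in a..b, (f τ - f (τ - L)) ≤ L * (U - V) := by
  have hi := hsa_ii hf hB
  have hi' : IntervalIntegrable (fun τ => f (τ - L)) MeasureTheory.volume a b :=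
    hsa_ii (hf.comp (measurable_id.sub measurable_const)) (fun τ => hB _) a b
  rw [intervalIntegral.integral_sub (hi a b) hi', intervalIntegral.integral_comp_sub_right f L]
  have e1 := intervalIntegral.integral_add_adjacent_intervals (hi (a - L) a) (hi a b)
  have e2 := intervalIntegral.integral_add_adjacent_intervals (hi (a - L) (b - L)) (hi (b - L) b)
  have e3 := intervalIntegral.integral_mono_on (by linarith : b - L ≤ b) (hi _ _)
    (intervalIntegrable_const (c := U)) hU
  have e4 := intervalIntegral.integral_mono_on (by linarith : a - L ≤ a)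
    (intervalIntegrable_const (c := V)) (hi _ _) hV
  simp only [intervalIntegral.integral_const, sub_sub_cancel, smul_eq_mul] at e3 e4
  linarith

end Crest.Agent.R98
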