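import Crest.Agent.R98.HsA

/-!
# R98/HsB: entropy at a scale, part 2 (comparisons, submodularity)
Recipes: `ent_cell_le`: a cell of mesh `s'` meets at most `s'/s + 2` cells of mesh `s`
(`IsP.ent_push_le_add`, `Int.card_Icc`). `Hs_submod`: with independent `x ∼ m, y ∼ a, z ∼ b`:
`Hs (m*a) - Hs m = ∫ u, H(y) - H(y | cell (x+y))`; `H(y | cell(x+y+z)) ≥ H(y | cell(x+y+z), z)`
(`ent_submod`) and the last is `E_z H(y | cell_{u + z/s}(x+y))`; a short way: apply `cond_concave` to
`m := b`, `k z := law of (y, x+y+z)`, `f := (y, cell ·)`, `g := Prod.snd`, integrate in `u`, use shift invariance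
of the integrals. `Hs_two`: the two points are separated for a set of `u` of measure `≤ |o|/s`.
`ex_log_ball`: the cell of mesh `R₂` is inside `closedBall x R₂`; `closedBall x R₁` lies in three adjacent
cells of mesh `R₁`, Jensen (`IsP.ex_log_le`) gives `E log (q₃/q) ≤ log 3`.
-/

set_option autoImplicit false

namespace Crest.Agent.R98

/-- `F` is integrable on `[0, 1]` with integral `c`. -/
def HsB.HasInt (F : ℝ → ℝ) (c : ℝ) : Prop :=
  IntervalIntegrable F MeasureTheory.volume 0 1 ∧ ∫ u in (0 : ℝ)..1, F u = c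

namespace HsB

theorem HasInt.const (c : ℝ) : HasInt (fun _ => c) c := ⟨intervalIntegrable_const, by simp⟩

theorem HasInt.add {F G : ℝ → ℝ} {c d : ℝ} (h : HasInt F c) (h' : HasInt G d) :
    HasInt (fun u => F u + G u) (c + d) :=
  ⟨h.1.add h'.1, by rw [intervalIntegral.integral_add h.1 h'.1, h.2, h'.2]⟩

theorem HasInt.sub {F G : ℝ → ℝ} {c d : ℝ} (h : HasInt F c) (h' : HasInt G d) :
    HasInt (fun u => F u - G u) (c - d) :=
  ⟨h.1.sub h'.1, by rw [intervalIntegral.integral_sub h.1 h'.1, h.2, h'.2]⟩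

theorem HasInt.mul_const {F : ℝ → ℝ} {c : ℝ} (h : HasInt F c) (d : ℝ) :
    HasInt (fun u => F u * d) (c * d) :=
  ⟨h.1.mul_const d, by rw [intervalIntegral.integral_mul_const, h.2]⟩

theorem HasInt.ex {α : Type*} {m : α →₀ ℝ} (hm : IsP m) {F : α → ℝ → ℝ} {c : ℝ}
    (h : ∀ a, HasInt (F a) c) : HasInt (fun u => ex m fun a => F a u) c :=
  ⟨intervalIntegrable_ex m F 0 1 fun a _ => (h a).1, by
    rw [← ex_intervalIntegral m F 0 1 fun a _ => (h a).1]
    simp only [(h _).2]
    exact hm.ex_const c⟩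

theorem HasInt.le {F G : ℝ → ℝ} {c d : ℝ} (h : HasInt F c) (h' : HasInt G d) (hle : ∀ u, F u ≤ G u) :
    c ≤ d := by
  rw [← h.2, ← h'.2]
  exact intervalIntegral.integral_mono zero_le_one h.1 h'.1 hle

theorem hasInt_Hs {m : ℝ →₀ ℝ} (h : IsP m) (s : ℝ) :
    HasInt (fun u => ent (push (cell s u) m)) (Hs s m) :=
  ⟨intervalIntegrable_ent_cell h s 0 1, rfl⟩

theorem hasInt_shift {m : ℝ →₀ ℝ} (h : IsP m) (s y : ℝ) :
    HasInt (fun u => ent (push (cell s u) (push (fun x => y + x) m))) (Hs s m) := by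
  rw [← Hs_shift h s y]
  exact hasInt_Hs (h.push _) s

theorem ktoOne_of {α β γ : Type*} {m : α →₀ ℝ} {f : α → β} {g : α → γ} {K : ℝ}
    (h : ∀ c, ∃ S : Finset β, (S.card : ℝ) ≤ K ∧ ∀ a ∈ m.support, g a = c → f a ∈ S) :
    KtoOne m f g K := by
  intro c
  obtain ⟨S, hS, hm⟩ := h c
  refine le_trans (Nat.cast_le.2 (Finset.card_le_card fun b hb => ?_)) hS
  simp only [Finset.mem_image, Finset.mem_filter] at hb
  obtain ⟨a, ⟨ha, hc⟩, rfl⟩ := hb
  exact hm a ha hc

theorem cell_mono {s : ℝ} (hs : 0 < s) (u : ℝ) {x y : ℝ} (h : x ≤ y) : cell s u x ≤ cell s u y := by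
  unfold cell
  gcongr

/-- an interval of length `L` meets at most `L / s + 2` cells -/
theorem exists_cells {s L : ℝ} (hs : 0 < s) (hL : 0 ≤ L) (u x : ℝ) :
    ∃ S : Finset ℤ, (S.card : ℝ) ≤ L / s + 2 ∧ ∀ y, x ≤ y → y ≤ x + L → cell s u y ∈ S := by
  refine ⟨Finset.Icc (cell s u x) (cell s u (x + L)), ?_, fun y h1 h2 =>
    Finset.mem_Icc.2 ⟨cell_mono hs u h1, cell_mono hs u h2⟩⟩
  have h0 : cell s u x ≤ cell s u (x + L) := cell_mono hs u (by linarith)
  have h1 : ((Finset.Icc (cell s u x) (cell s u (x + L))).card : ℤ) =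
      cell s u (x + L) + 1 - cell s u x := Int.card_Icc_of_le _ _ (by omega)
  have h2 : ((Finset.Icc (cell s u x) (cell s u (x + L))).card : ℝ) =
      (cell s u (x + L) : ℝ) + 1 - cell s u x := by exact_mod_cast h1
  have h3 : (cell s u (x + L) : ℝ) ≤ (x + L) / s + u := Int.floor_le _
  have h4 : x / s + u < (cell s u x : ℝ) + 1 := Int.lt_floor_add_one _
  rw [add_div] at h3
  linarith

theorem cell_bounds {s : ℝ} (hs : 0 < s) {u y : ℝ} {c : ℤ} (h : cell s u y = c) :
    (c - u) * s ≤ y ∧ y ≤ (c - u) * s + s := by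
  obtain ⟨h1, h2⟩ := Int.floor_eq_iff.1 h
  have h3 : (c - u) * s ≤ y := by rw [← le_div_iff₀ hs]; linarith
  have h4 : y ≤ (c - u + 1) * s := by rw [← div_le_iff₀ hs]; linarith
  exact ⟨h3, by linarith⟩

theorem measurable_cell (s x : ℝ) : Measurable fun u => cell s u x :=
  Int.measurable_floor.comp (measurable_const.add measurable_id)

theorem hasInt_floor (p : ℝ) : HasInt (fun u => ((⌊p + u⌋ : ℤ) : ℝ) - u)
    (p - ∫ u in (0 : ℝ)..1, Int.fract u) := by
  have hm : Monotone fun u : ℝ => ((⌊p + u⌋ : ℤ) : ℝ) := fun a b hab => by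
    have : ⌊p + a⌋ ≤ ⌊p + b⌋ := Int.floor_mono (by linarith)
    exact Int.cast_le.2 this
  have h1 : IntervalIntegrable (fun u : ℝ => ((⌊p + u⌋ : ℤ) : ℝ) - u) MeasureTheory.volume 0 1 :=
    hm.intervalIntegrable.sub (continuous_id.intervalIntegrable 0 1)
  refine ⟨h1, ?_⟩
  have h2 : ∫ u in (0 : ℝ)..1, Int.fract (p + u) = ∫ u in (0 : ℝ)..1, Int.fract u := by
    rw [intervalIntegral.integral_comp_add_left (fun u => Int.fract u) p, add_zero,
      (Int.fract_periodic ℝ).intervalIntegral_add_eq p 0, zero_add]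
  have h3 : ∀ u : ℝ, Int.fract (p + u) = p - (((⌊p + u⌋ : ℤ) : ℝ) - u) := fun u => by
    unfold Int.fract; ring
  rw [← h2]
  simp only [h3]
  rw [intervalIntegral.integral_sub intervalIntegrable_const h1]
  simp

theorem intervalIntegrable_ne (s x x' : ℝ) :
    IntervalIntegrable (fun u => if cell s u x = cell s u x' then (0 : ℝ) else 1)
      MeasureTheory.volume 0 1 := by
  have hm : Measurable fun u => if cell s u x = cell s u x' then (0 : ℝ) else 1 :=
    Measurable.ite (measurableSet_eq_fun (measurable_cell s x) (measurable_cell s x'))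
      measurable_const measurable_const
  refine (intervalIntegrable_const (c := (1 : ℝ))).mono_fun' hm.aestronglyMeasurable
    (Filter.Eventually.of_forall fun u => ?_)
  dsimp only
  split_ifs <;> simp

theorem integral_ne_le {s : ℝ} (hs : 0 < s) {x x' : ℝ} (h : x ≤ x') :
    (∫ u in (0 : ℝ)..1, if cell s u x = cell s u x' then (0 : ℝ) else 1) ≤ (x' - x) / s := by
  have := HasInt.le ⟨intervalIntegrable_ne s x x', rfl⟩
    ((hasInt_floor (x' / s)).sub (hasInt_floor (x / s))) fun u => by
      have h1 := cell_mono hs u h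
      unfold cell at h1 ⊢
      split_ifs with h2
      · rw [h2, sub_self]
      · have h3 : ⌊x / s + u⌋ + 1 ≤ ⌊x' / s + u⌋ := by omega
        have h4 : ((⌊x / s + u⌋ : ℤ) : ℝ) + 1 ≤ ((⌊x' / s + u⌋ : ℤ) : ℝ) := by exact_mod_cast h3
        linarith
  rw [sub_div]
  linarith

theorem integral_ne_le_abs {s : ℝ} (hs : 0 < s) (x x' : ℝ) :
    (∫ u in (0 : ℝ)..1, if cell s u x = cell s u x' then (0 : ℝ) else 1) ≤ |x - x'| / s := by
  rcases le_total x x' with h | h
  · rw [abs_sub_comm, abs_of_nonneg (sub_nonneg.2 h)]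
    exact integral_ne_le hs h
  · rw [abs_of_nonneg (sub_nonneg.2 h)]
    simp only [eq_comm (a := cell s _ x)]
    exact integral_ne_le hs h

theorem sum_le_one {α : Type*} {m : α →₀ ℝ} (h : IsP m) (S : Finset α) : ∑ a ∈ S, m a ≤ 1 := by
  classical
  rw [← h.mass, ex_of_subset m _ (Finset.subset_union_right (s₁ := S))]
  simp only [mul_one]
  exact Finset.sum_le_sum_of_subset_of_nonneg Finset.subset_union_left fun a _ _ => h.nonneg a

theorem sum_shift_le_one {n : ℤ →₀ ℝ} (h : IsP n) (S : Finset ℤ) (d : ℤ) :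
    ∑ c ∈ S, n (c + d) ≤ 1 := by
  refine le_trans (le_of_eq ?_) (sum_le_one h (S.image fun c => c + d))
  rw [Finset.sum_image fun a _ b _ hab => add_right_cancel hab]

end HsB

open HsB

theorem ent_cell_le {m : ℝ →₀ ℝ} (h : IsP m) {s s' : ℝ} (hs : 0 < s) (hs' : 0 < s') (u u' : ℝ) :
    ent (push (cell s u) m) ≤ ent (push (cell s' u') m) + Real.log (s' / s + 2) := by
  refine h.ent_push_le_add (ktoOne_of fun c => ?_)
  obtain ⟨S, hS, hm⟩ := exists_cells hs hs'.le u ((c - u') * s')
  exact ⟨S, hS, fun a _ ha => hm a (cell_bounds hs' ha).1 (cell_bounds hs' ha).2⟩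

theorem Hs_le_add {m : ℝ →₀ ℝ} (h : IsP m) {s s' : ℝ} (hs : 0 < s) (hs' : 0 < s') :
    Hs s m ≤ Hs s' m + Real.log (s' / s + 2) := by
  exact (hasInt_Hs h s).le ((hasInt_Hs h s').add (HasInt.const _)) fun u => ent_cell_le h hs hs' u u

theorem HsB.log_div_add_two_le {s s' : ℝ} (hs : 0 < s) (hs' : 0 < s') :
    Real.log (s' / s + 2) ≤ |Real.log s - Real.log s'| + Real.log 3 := by
  have h0 : 0 < s' / s := div_pos hs' hs
  rcases le_total (s' / s) 1 with h1 | h1
  · have : Real.log (s' / s + 2) ≤ Real.log 3 := Real.log_le_log (by linarith) (by linarith)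
    linarith [abs_nonneg (Real.log s - Real.log s')]
  · have : Real.log (s' / s + 2) ≤ Real.log (s' / s * 3) := Real.log_le_log (by linarith) (by linarith)
    rw [Real.log_mul h0.ne' (by norm_num), Real.log_div hs'.ne' hs.ne'] at this
    linarith [neg_abs_le (Real.log s - Real.log s')]

/-- symmetric form -/
theorem abs_Hs_sub_le {m : ℝ →₀ ℝ} (h : IsP m) {s s' : ℝ} (hs : 0 < s) (hs' : 0 < s') :
    |Hs s m - Hs s' m| ≤ |Real.log s - Real.log s'| + Real.log 3 := by
  have h1 := Hs_le_add h hs hs'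
  have h2 := Hs_le_add h hs' hs
  have h3 := log_div_add_two_le hs hs'
  have h4 := log_div_add_two_le hs' hs
  rw [abs_sub_comm] at h4
  rw [abs_le]
  constructor <;> linarith

theorem Hs_le_ent_cell {m : ℝ →₀ ℝ} (h : IsP m) {s : ℝ} (hs : 0 < s) (u : ℝ) :
    Hs s m ≤ ent (push (cell s u) m) + Real.log 3 := by
  refine (hasInt_Hs h s).le (HasInt.const _) fun u' => ?_
  have := ent_cell_le h hs hs u' u
  rwa [div_self hs.ne', show (1 : ℝ) + 2 = 3 by norm_num] at this

/-- a law carried by an interval of length `L` -/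
theorem Hs_le_of_diam {m : ℝ →₀ ℝ} (h : IsP m) {s L : ℝ} (hs : 0 < s)
    (hL : ∀ y ∈ m.support, ∀ y' ∈ m.support, |y - y'| ≤ L) : Hs s m ≤ Real.log (L / s + 2) := by
  refine (hasInt_Hs h s).le (HasInt.const _) fun u => ?_
  obtain ⟨y₀, hy₀, hmin⟩ := m.support.exists_min_image (fun y => y) h.support_nonempty
  have hL0 : 0 ≤ L := (abs_nonneg _).trans (hL y₀ hy₀ y₀ hy₀)
  obtain ⟨S, hS, hm⟩ := exists_cells hs hL0 u y₀
  refine (h.push _).ent_le_log_card
    (le_trans (Nat.cast_le.2 (Finset.card_le_card fun c hc => ?_)) hS)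
  obtain ⟨y, hy, rfl⟩ := h.mem_support_push.1 hc
  exact hm y (hmin y hy) (by linarith [le_abs_self (y - y₀), hL y hy y₀ hy₀])

/-- a function taking at most `K` values on each interval `[x, x + s]` has entropy `≤ Hs s + log K` -/
theorem ent_push_le_Hs {β : Type*} {m : ℝ →₀ ℝ} (h : IsP m) {s K : ℝ} (hs : 0 < s) (f : ℝ → β)
    (hK : ∀ x : ℝ, ∃ S : Finset β, (S.card : ℝ) ≤ K ∧ ∀ y ∈ m.support, x ≤ y → y ≤ x + s → f y ∈ S) :
    ent (push f m) ≤ Hs s m + Real.log K := by
  refine (HasInt.const _).le ((hasInt_Hs h s).add (HasInt.const _)) fun u => ?_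
  refine h.ent_push_le_add (ktoOne_of fun c => ?_)
  obtain ⟨S, hS, hm⟩ := hK ((c - u) * s)
  exact ⟨S, hS, fun a ha hc => hm a ha (cell_bounds hs hc).1 (cell_bounds hs hc).2⟩

theorem Hs_submod {m a b : ℝ →₀ ℝ} (hm : IsP m) (ha : IsP a) (hb : IsP b) {s : ℝ} (hs : 0 < s) :
    Hs s (conv b (conv a m)) + Hs s m ≤ Hs s (conv a m) + Hs s (conv b m) := by
  have key : ∀ u : ℝ,
      (ex b fun z => (ent a + ex a fun y => ent (push (cell s u) (push (fun x => (z + y) + x) m))) -
        ent (push (cell s u) (push (fun x => z + x) (conv a m)))) ≤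
      (ent a + ex a fun y => ent (push (cell s u) (push (fun x => y + x) (conv b m)))) -
        ent (push (cell s u) (conv b (conv a m))) := by
    intro u
    have hc := hb.cond_concave
      (k := fun z => joint a fun y => push (fun x => (z + y) + x) m)
      (fun z _ => ha.joint fun y _ => hm.push _)
      (fun q : ℝ × ℝ => (q.1, cell s u q.2)) Prod.snd
    have e1 : ∀ z : ℝ, push (fun q : ℝ × ℝ => (q.1, cell s u q.2))
        (joint a fun y => push (fun x => (z + y) + x) m) =
        joint a fun y => push (cell s u) (push (fun x => (z + y) + x) m) := fun z =>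
      ext_ex fun F => by simp only [ex_push, ex_joint]
    have e2 : ∀ z : ℝ, push (fun q : ℝ × ℝ => (q.1, cell s u q.2).2)
        (joint a fun y => push (fun x => (z + y) + x) m) =
        push (cell s u) (push (fun x => z + x) (conv a m)) := fun z =>
      ext_ex fun F => by simp only [ex_push, ex_joint, ex_conv, add_assoc]
    have e3 : push (fun q : ℝ × ℝ => (q.1, cell s u q.2))
        (bnd b fun z => joint a fun y => push (fun x => (z + y) + x) m) =
        joint a fun y => push (cell s u) (push (fun x => y + x) (conv b m)) :=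
      ext_ex fun F => by
        simp only [ex_push, ex_joint, ex_conv, ex_bnd]
        rw [ex_comm]
        simp only [add_assoc, add_left_comm]
    have e4 : push (fun q : ℝ × ℝ => (q.1, cell s u q.2).2)
        (bnd b fun z => joint a fun y => push (fun x => (z + y) + x) m) =
        push (cell s u) (conv b (conv a m)) :=
      ext_ex fun F => by simp only [ex_push, ex_joint, ex_conv, ex_bnd, add_assoc]
    rw [e3, e4, ha.ent_joint fun y _ => (((hb.conv hm).push _).push _)] at hc
    refine le_trans (le_of_eq (ex_congr fun z _ => ?_)) hc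
    rw [e1, e2, ha.ent_joint fun y _ => ((hm.push _).push _)]
  have h1 := (HasInt.ex hb fun z => ((HasInt.const (ent a)).add
    (HasInt.ex ha fun y => hasInt_shift hm s (z + y))).sub (hasInt_shift (ha.conv hm) s z)).le
    (((HasInt.const (ent a)).add (HasInt.ex ha fun y => hasInt_shift (hb.conv hm) s y)).sub
      (hasInt_Hs (hb.conv (ha.conv hm)) s)) key
  linarith

theorem Hs_conv_le {a b : ℝ →₀ ℝ} (ha : IsP a) (hb : IsP b) {s : ℝ} (hs : 0 < s) :
    Hs s (conv a b) ≤ Hs s a + Hs s b := by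
  have h := Hs_submod (isP_pur 0) hb ha hs
  rw [conv_comm b (pur 0), conv_comm a (pur 0), pur_zero_conv, pur_zero_conv, Hs_pur] at h
  linarith

theorem Hs_two {s : ℝ} (hs : 0 < s) (o : ℝ) : Hs s (two o) ≤ |o| / s * Real.log 2 := by
  have h1 := (hasInt_Hs (isP_two o) s).le
    (HasInt.mul_const ⟨intervalIntegrable_ne s 0 o, rfl⟩ (Real.log 2)) fun u => by
      have hsub : (push (cell s u) (two o)).support ⊆ {cell s u 0, cell s u o} := by
        intro c hc
        obtain ⟨y, hy, rfl⟩ := (isP_two o).mem_support_push.1 hc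
        rcases (mem_support_mix (isP_pur 0) (isP_pur o) (by norm_num) (by norm_num)).1 hy with h | h
        · rw [mem_support_pur.1 h]; simp
        · rw [mem_support_pur.1 h]; simp
      have hcard := Finset.card_le_card hsub
      split_ifs with h2
      · rw [h2, Finset.pair_eq_singleton, Finset.card_singleton] at hcard
        have := ((isP_two o).push (cell s u)).ent_le_log_card (K := 1) (by exact_mod_cast hcard)
        rwa [Real.log_one, ← zero_mul (Real.log 2)] at this
      · rw [one_mul]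
        exact ((isP_two o).push (cell s u)).ent_le_log_card (K := 2)
          (by exact_mod_cast hcard.trans Finset.card_le_two)
  have h2 := integral_ne_le_abs hs 0 o
  rw [zero_sub, abs_neg] at h2
  exact h1.trans (mul_le_mul_of_nonneg_right h2 (Real.log_nonneg one_le_two))

/-- the set of shifts for which `x` and `x'` lie in different cells -/
theorem integral_cell_ne {s : ℝ} (hs : 0 < s) (x x' : ℝ) :
    (∫ u in (0 : ℝ)..1, if cell s u x = cell s u x' then (0 : ℝ) else 1) ≤ |x - x'| / s := by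
  exact integral_ne_le_abs hs x x'

/-- the set of shifts for which `z` is within `η s` of a cell boundary -/
theorem integral_near_boundary {s η : ℝ} (hs : 0 < s) (hη : 0 ≤ η) (z : ℝ) :
    (∫ u in (0 : ℝ)..1, Set.indicator {u : ℝ | ∃ z', |z' - z| ≤ η * s ∧ cell s u z' ≠ cell s u z}
      (fun _ => (1 : ℝ)) u) ≤ 2 * η ∧
    MeasurableSet {u : ℝ | ∃ z', |z' - z| ≤ η * s ∧ cell s u z' ≠ cell s u z} := by
  have hηs : 0 ≤ η * s := mul_nonneg hη hs.le
  have e : {u : ℝ | ∃ z', |z' - z| ≤ η * s ∧ cell s u z' ≠ cell s u z} =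
      {u : ℝ | cell s u (z - η * s) = cell s u (z + η * s)}ᶜ := by
    ext u
    simp only [Set.mem_ofPred_eq, Set.mem_compl_iff]
    constructor
    · rintro ⟨z', h1, h2⟩ h3
      obtain ⟨h4, h5⟩ := abs_le.1 h1
      have a1 := cell_mono hs u (show z - η * s ≤ z' by linarith)
      have a2 := cell_mono hs u (show z' ≤ z + η * s by linarith)
      have a3 := cell_mono hs u (show z - η * s ≤ z by linarith)
      have a4 := cell_mono hs u (show z ≤ z + η * s by linarith)
      omega
    · intro h1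
      by_cases h2 : cell s u (z - η * s) = cell s u z
      · refine ⟨z + η * s, by rw [add_sub_cancel_left, abs_of_nonneg hηs], fun h3 => h1 ?_⟩
        rw [h2, h3]
      · exact ⟨z - η * s, by rw [sub_sub_cancel_left, abs_neg, abs_of_nonneg hηs], h2⟩
  rw [e]
  refine ⟨?_, (measurableSet_eq_fun (measurable_cell s _) (measurable_cell s _)).compl⟩
  have h1 := integral_ne_le hs (show z - η * s ≤ z + η * s by linarith)
  have h2 : (z + η * s - (z - η * s)) / s = 2 * η := by field_simp; ring
  rw [h2] at h1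
  refine le_trans (le_of_eq ?_) h1
  congr 1
  funext u
  by_cases h3 : cell s u (z - η * s) = cell s u (z + η * s)
  · rw [if_pos h3, Set.indicator_of_notMem (by simpa using h3)]
  · rw [if_neg h3, Set.indicator_of_mem (by simpa using h3)]

theorem ex_log_ball {m : ℝ →₀ ℝ} (h : IsP m) {R₁ R₂ : ℝ} (h₁ : 0 < R₁) (h₂ : 0 < R₂) :
    (ex m fun x => Real.log (pr m (Metric.closedBall x R₁) / pr m (Metric.closedBall x R₂))) ≤
      Hs R₂ m - Hs R₁ m + Real.log 3 := by
  refine (HasInt.const _).le (((hasInt_Hs h R₂).sub (hasInt_Hs h R₁)).add (HasInt.const _))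
    fun u => ?_
  set n := push (cell R₁ u) m with hn
  have hnP : IsP n := h.push _
  have hg := hnP.gibbs (q := fun c => (n (c + -1) + n (c + 0) + n (c + 1)) / 3)
    (fun c hc => by
      have := hnP.pos hc
      have := hnP.nonneg (c + -1)
      have := hnP.nonneg (c + 1)
      rw [add_zero]
      positivity)
    (by
      rw [← Finset.sum_div, Finset.sum_add_distrib, Finset.sum_add_distrib]
      linarith [sum_shift_le_one hnP n.support (-1), sum_shift_le_one hnP n.support 0,
        sum_shift_le_one hnP n.support 1])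
  rw [hn, ex_push, ← hn] at hg
  have key : (ex m fun x =>
      Real.log (pr m (Metric.closedBall x R₁) / pr m (Metric.closedBall x R₂))) ≤
      ex m fun x => -Real.log (pr m {x' | cell R₂ u x' = cell R₂ u x}) -
        -Real.log ((n (cell R₁ u x + -1) + n (cell R₁ u x + 0) + n (cell R₁ u x + 1)) / 3) +
        Real.log 3 := by
    refine h.ex_mono fun x hx => ?_
    have p1 : 0 < pr m (Metric.closedBall x R₁) := h.pr_pos hx (Metric.mem_closedBall_self h₁.le)
    have p2 : 0 < pr m (Metric.closedBall x R₂) := h.pr_pos hx (Metric.mem_closedBall_self h₂.le)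
    have p3 : 0 < pr m {x' | cell R₂ u x' = cell R₂ u x} := h.pr_pos hx rfl
    have l2 : pr m {x' | cell R₂ u x' = cell R₂ u x} ≤ pr m (Metric.closedBall x R₂) := by
      refine h.pr_mono fun x' _ hx' => ?_
      have b1 := cell_bounds h₂ (show cell R₂ u x' = cell R₂ u x from hx')
      have b2 := cell_bounds h₂ (rfl : cell R₂ u x = cell R₂ u x)
      rw [Metric.mem_closedBall, Real.dist_eq, abs_le]
      constructor <;> linarith [b1.1, b1.2, b2.1, b2.2]
    have l1 : pr m (Metric.closedBall x R₁) ≤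
        n (cell R₁ u x + -1) + n (cell R₁ u x + 0) + n (cell R₁ u x + 1) := by
      have hap : ∀ c, n c = pr m (cell R₁ u ⁻¹' {c}) := fun c => by rw [apply_eq_pr, hn, pr_push]
      rw [hap, hap, hap]
      refine le_trans ?_ (add_le_add (h.pr_union_le _ _) le_rfl)
      refine le_trans ?_ (h.pr_union_le _ _)
      refine h.pr_mono fun x' _ hx' => ?_
      rw [Metric.mem_closedBall, Real.dist_eq, abs_le] at hx'
      have a1 := cell_mono h₁ u (show x - R₁ ≤ x' by linarith [hx'.1])
      have a2 := cell_mono h₁ u (show x' ≤ x + R₁ by linarith [hx'.2])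
      have a3 : cell R₁ u (x - R₁) = cell R₁ u x - 1 := by
        unfold cell
        rw [← Int.floor_sub_one, sub_div, div_self h₁.ne']
        congr 1; ring
      have a4 : cell R₁ u (x + R₁) = cell R₁ u x + 1 := by
        unfold cell
        rw [← Int.floor_add_one, add_div, div_self h₁.ne']
        congr 1; ring
      simp only [Set.mem_union, Set.mem_preimage, Set.mem_singleton_iff]
      omega
    rw [Real.log_div p1.ne' p2.ne', Real.log_div (p1.trans_le l1).ne' (by norm_num)]
    linarith [Real.log_le_log p1 l1, Real.log_le_log p3 l2]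
  rw [ex_add, ex_sub, h.ex_const, ← ent_push_eq] at key
  linarith

end Crest.Agent.R98
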