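import Crest.Agent.R98.Rate

/-!
# R98/InfUp: the information about `n` letters is at most `e n + C`
Choose `N` with `e^{-ξ' N} ≤ s₁`. Let `I = Inf n n' s`, `B k σ = E_k Hs σ ν`. (1) for `0 < σ ≤ s` and `n'' ≥ n'`:
`Inf n n'' σ ≥ I - C'`: pick `j` with `s/2^j ∈ [σ, 2σ)`; `Inf n n'' (s/2^j) ≥ Inf n n'' s` (`Dsc_le_conv`), changing the
scale by a factor `≤ 2` costs `2 (log 2 + log 3)`, and at scale `s` lengthening the tail changes each `Hs` by at most
`log (2R₀ + 2)` (`Hs_le_conv`, `Hs_conv_le`, `Hs_le_of_diam`). (2) `B (n + k) σ = Inf n k σ + E_ω B k (σ/|cc ω|)` (`Hs_dil`).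
Assume `I ≥ C'`. Induction on `k`: `B (k n + n') σ ≥ (I - C') ∑_{i<k} P_{i n}(σ/s ≤ |cc|)` for all `σ > 0`. Take
`σ = s e^{-(χ+δ) k n}`, Chebyshev (`exists_dev`: each probability is `≥ 1 - V/(δ² k n)`), `Hs_nat`, `An_le`; let `k → ∞`,
`δ → 0`: `I - C' ≤ e n`. (`n = 0`: `Inf = 0`.)
-/

set_option autoImplicit false

namespace Crest.Agent.R98

variable {Ω ι : Type*} [Fintype Ω] [Fintype ι] (M : Mod Ω ι) (σ : Sys Ω ι)

/-- refining the scale does not lose information (up to a constant) -/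
theorem infUp_scale (ω ω' : List Ω) {s t : ℝ} (ht : 0 < t) (hts : t ≤ s) :
    Hs s (nu M σ (ω ++ ω')) - Hs s (dil (σ.cc ω) (nu M σ ω')) - 2 * Real.log 4 ≤
      Hs t (nu M σ (ω ++ ω')) - Hs t (dil (σ.cc ω) (nu M σ ω')) := by
  have hs : 0 < s := lt_of_lt_of_le ht hts
  set K : ℕ := ⌈s / t⌉₊ with hK
  have hst : 1 ≤ s / t := by rw [le_div_iff₀ ht]; linarith
  have hK1 : 1 ≤ K := by
    rw [hK]; exact Nat.one_le_iff_ne_zero.2 (Nat.pos_iff_ne_zero.1 (Nat.ceil_pos.2 (by linarith)))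
  have h1 : s ≤ K * t := by
    have := Nat.le_ceil (s / t)
    rwa [div_le_iff₀ ht] at this
  have h2 : (K : ℝ) * t ≤ 2 * s := by
    have := (Nat.ceil_lt_add_one (show 0 ≤ s / t by linarith)).le
    have h3 : (K : ℝ) * t ≤ (s / t + 1) * t := mul_le_mul_of_nonneg_right this ht.le
    have h4 : (s / t + 1) * t = s + t := by field_simp
    linarith
  have hKt : 0 < (K : ℝ) * t := lt_of_lt_of_le hs h1
  have hA := isP_nu M σ (ω ++ ω')
  have hB := (isP_nu M σ ω').dil (σ.cc ω)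
  have hD := Dsc_le_conv (isP_nu M σ ω) hB ht hK1
  rw [← nu_append] at hD
  unfold Dsc at hD
  have e1 := Hs_le_add hA hs hKt
  have e2 := Hs_le_add hB hKt hs
  have l1 : Real.log (K * t / s + 2) ≤ Real.log 4 := by
    refine Real.log_le_log (by positivity) ?_
    have : (K : ℝ) * t / s ≤ 2 := by rw [div_le_iff₀ hs]; exact h2
    linarith
  have l2 : Real.log (s / (K * t) + 2) ≤ Real.log 4 := by
    refine Real.log_le_log (by positivity) ?_
    have : s / (K * t) ≤ 1 := by rw [div_le_iff₀ hKt]; linarith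
    linarith
  linarith

/-- lengthening the tail does not lose information (up to a constant) -/
theorem infUp_tail {R₀ : ℝ} (hR1 : 1 ≤ R₀) (hR : ∀ (ω : List Ω) (u : List ι), |σ.X ω u| ≤ R₀)
    (ω ω' ω'' : List Ω) {s : ℝ} (hs : 0 < s) (hc : |σ.cc ω'| ≤ s) :
    Hs s (nu M σ (ω ++ ω')) - Hs s (dil (σ.cc ω) (nu M σ ω')) - Real.log (2 * R₀ + 2) ≤
      Hs s (nu M σ (ω ++ (ω' ++ ω''))) - Hs s (dil (σ.cc ω) (nu M σ (ω' ++ ω''))) := by
  have e1 : Hs s (nu M σ (ω ++ ω')) ≤ Hs s (nu M σ (ω ++ (ω' ++ ω''))) := by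
    rw [← List.append_assoc, nu_append M σ (ω ++ ω') ω'', conv_comm]
    exact Hs_le_conv ((isP_nu M σ ω'').dil _) (isP_nu M σ _) s
  have hP := (isP_nu M σ ω'').dil (σ.cc ω * σ.cc ω')
  have e2 : Hs s (dil (σ.cc ω) (nu M σ (ω' ++ ω''))) ≤
      Hs s (dil (σ.cc ω) (nu M σ ω')) + Hs s (dil (σ.cc ω * σ.cc ω') (nu M σ ω'')) := by
    rw [nu_append, dil_conv, dil_dil]
    exact Hs_conv_le ((isP_nu M σ ω').dil _) hP hs
  have e3 : Hs s (dil (σ.cc ω * σ.cc ω') (nu M σ ω'')) ≤ Real.log (2 * R₀ * s / s + 2) := by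
    refine Hs_le_of_diam hP hs ?_
    intro y hy y' hy'
    unfold dil at hy hy'
    rw [(isP_nu M σ ω'').mem_support_push] at hy hy'
    obtain ⟨x, hx, rfl⟩ := hy
    obtain ⟨x', hx', rfl⟩ := hy'
    rw [mem_support_nu] at hx hx'
    obtain ⟨u, -, rfl⟩ := hx
    obtain ⟨u', -, rfl⟩ := hx'
    rw [← mul_sub, abs_mul, abs_mul]
    have a1 := abs_cc_le_one σ ω
    have a2 : |σ.X ω'' u - σ.X ω'' u'| ≤ 2 * R₀ := by
      have := abs_sub (σ.X ω'' u) (σ.X ω'' u')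
      linarith [hR ω'' u, hR ω'' u']
    have a3 : |σ.cc ω| * |σ.cc ω'| ≤ s := by
      have := mul_le_mul a1 hc (abs_nonneg _) zero_le_one
      linarith
    calc |σ.cc ω| * |σ.cc ω'| * |σ.X ω'' u - σ.X ω'' u'| ≤ s * (2 * R₀) :=
          mul_le_mul a3 a2 (abs_nonneg _) hs.le
      _ = 2 * R₀ * s := by ring
  rw [mul_div_assoc, div_self hs.ne', mul_one] at e3
  linarith

/-- step (1) -/
theorem infUp_one {R₀ : ℝ} (hR1 : 1 ≤ R₀) (hR : ∀ (ω : List Ω) (u : List ι), |σ.X ω u| ≤ R₀)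
    (n n' m : ℕ) {s t : ℝ} (ht : 0 < t) (hts : t ≤ s)
    (hc : ∀ ω' : List Ω, ω'.length = n' → |σ.cc ω'| ≤ s) :
    Inf M σ n n' s - (2 * Real.log 4 + Real.log (2 * R₀ + 2)) ≤ Inf M σ n (n' + m) t := by
  have hs : 0 < s := lt_of_lt_of_le ht hts
  unfold Inf
  rw [← (isP_Om M n).ex_const (2 * Real.log 4 + Real.log (2 * R₀ + 2)), ← ex_sub]
  refine (isP_Om M n).ex_mono fun ω _ => ?_
  rw [← (isP_Om M n').ex_const (2 * Real.log 4 + Real.log (2 * R₀ + 2)), ← ex_sub, ex_Om_append]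
  refine (isP_Om M n').ex_mono fun ω' hω' => ?_
  refine (isP_Om M m).le_ex fun ω'' _ => ?_
  have h1 := infUp_tail M σ hR1 hR ω ω' ω'' hs (hc ω' ((mem_support_Om M).1 hω'))
  have h2 := infUp_scale M σ ω (ω' ++ ω'') ht hts
  linarith

/-- step (2) -/
theorem infUp_two (n k : ℕ) {t : ℝ} (ht : 0 < t) :
    (ex (M.Om (n + k)) fun ω => Hs t (nu M σ ω)) =
      Inf M σ n k t + ex (M.Om n) fun ω => ex (M.Om k) fun ω' => Hs (t / |σ.cc ω|) (nu M σ ω') := by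
  unfold Inf
  rw [ex_Om_append, ← ex_add]
  refine ex_congr fun ω _ => ?_
  rw [← ex_add]
  refine ex_congr fun ω' _ => ?_
  rw [Hs_dil (isP_nu M σ ω') (cc_ne_zero σ ω) ht]
  ring

theorem infUp_pr (n k : ℕ) (s t : ℝ) :
    pr (M.Om (n + k)) {ω | t ≤ s * |σ.cc ω|} =
      ex (M.Om n) fun ω => pr (M.Om k) {ω' | t / |σ.cc ω| ≤ s * |σ.cc ω'|} := by
  classical
  rw [pr_eq_ex_ite, ex_Om_append]
  refine ex_congr fun ω _ => ?_
  rw [pr_eq_ex_ite]
  refine ex_congr fun ω' _ => ?_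
  have h : (ω ++ ω' ∈ {ω | t ≤ s * |σ.cc ω|}) ↔ ω' ∈ {ω' | t / |σ.cc ω| ≤ s * |σ.cc ω'|} := by
    simp only [Set.mem_setOf_eq]
    rw [div_le_iff₀ (abs_cc_pos σ ω), cc_append, abs_mul]
    constructor <;> intro h <;> linarith
  by_cases h' : ω ++ ω' ∈ {ω | t ≤ s * |σ.cc ω|}
  · rw [if_pos h', if_pos (h.1 h')]
  · rw [if_neg h', if_neg fun h'' => h' (h.2 h'')]

/-- the induction -/
theorem infUp_ind (n n' : ℕ) {s J : ℝ} (hs : 0 < s) (hJ : 0 ≤ J)
    (h : ∀ (m : ℕ) (t : ℝ), 0 < t → t ≤ s → J ≤ Inf M σ n (n' + m) t) (k : ℕ) :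
    ∀ t : ℝ, 0 < t → J * k * pr (M.Om (k * n)) {ω | t ≤ s * |σ.cc ω|} ≤
      ex (M.Om (n' + k * n)) fun ω => Hs t (nu M σ ω) := by
  induction k with
  | zero =>
    intro t _
    simp only [Nat.cast_zero, mul_zero, zero_mul]
    exact (isP_Om M _).ex_nonneg fun ω _ => Hs_nonneg (isP_nu M σ ω) t
  | succ k ih =>
    intro t ht
    have e1 : n' + (k + 1) * n = n + (n' + k * n) := by ring
    have e2 : (k + 1) * n = n + k * n := by ring
    rw [e1, infUp_two M σ n _ ht]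
    have a1 : J * pr (M.Om ((k + 1) * n)) {ω | t ≤ s * |σ.cc ω|} ≤ Inf M σ n (n' + k * n) t := by
      by_cases hts : t ≤ s
      · have := (isP_Om M ((k + 1) * n)).pr_le_one {ω | t ≤ s * |σ.cc ω|}
        have h2 := h (k * n) t ht hts
        nlinarith
      · rw [pr_eq_zero, mul_zero]
        · exact Inf_nonneg M σ _ _ _
        · intro ω _ hω
          simp only [Set.mem_setOf_eq] at hω
          have := abs_cc_le_one σ ω
          apply hts
          nlinarith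
    have a2 : J * k * pr (M.Om ((k + 1) * n)) {ω | t ≤ s * |σ.cc ω|} ≤
        ex (M.Om n) fun ω => ex (M.Om (n' + k * n)) fun ω' => Hs (t / |σ.cc ω|) (nu M σ ω') := by
      rw [e2, infUp_pr, ← ex_mul_left]
      exact (isP_Om M n).ex_mono fun ω _ => ih _ (div_pos ht (abs_cc_pos σ ω))
    push_cast
    linarith

theorem infUp_lim {J A D : ℝ} (h : ∀ k : ℕ, 1 ≤ k → J * k ≤ A * k + D) : J ≤ A := by
  by_contra hc
  push Not at hc
  obtain ⟨k, hk⟩ := exists_nat_gt (D / (J - A))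
  have h1 := h (k + 1) (by omega)
  rw [div_lt_iff₀ (by linarith)] at hk
  push_cast at h1
  nlinarith

theorem Inf_up : ∃ C : ℝ, 0 < C ∧ ∀ s₁ : ℝ, 0 < s₁ → ∃ N : ℕ, ∀ (n n' : ℕ) (s : ℝ), N ≤ n' → s₁ ≤ s →
    Inf M σ n n' s ≤ eR M σ * n + C := by
  obtain ⟨R₀, hR1, hR⟩ := exists_R0 σ
  obtain ⟨ξ, ξ', hξ', -, hξ⟩ := exists_xi σ
  obtain ⟨V, hV, hdev⟩ := exists_dev M σ
  obtain ⟨C₁, hC₁⟩ := An_le M σ
  obtain ⟨C₂, hC₂, hnat⟩ := Hs_nat M σ
  have hl4 : 0 < Real.log 4 := Real.log_pos (by norm_num)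
  have hlR : 0 < Real.log (2 * R₀ + 2) := Real.log_pos (by linarith)
  set C' := 2 * Real.log 4 + Real.log (2 * R₀ + 2) with hC'
  have he := eR_nonneg M σ
  have hχ := chi_pos M σ
  refine ⟨C' + 2, by positivity, fun s₁ hs₁ => ?_⟩
  obtain ⟨N, hN⟩ := exists_nat_gt (-Real.log s₁ / ξ')
  refine ⟨N, fun n n' s hn' hs₁s => ?_⟩
  have hs : 0 < s := lt_of_lt_of_le hs₁ hs₁s
  have hc : ∀ ω' : List Ω, ω'.length = n' → |σ.cc ω'| ≤ s := by
    intro ω' hω'
    refine (hξ ω').2.trans (le_trans ?_ hs₁s)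
    rw [← Real.exp_log hs₁]
    refine Real.exp_le_exp.2 ?_
    rw [div_lt_iff₀ hξ'] at hN
    have : (N : ℝ) ≤ ω'.length := by rw [hω']; exact_mod_cast hn'
    nlinarith
  set J := Inf M σ n n' s - C' with hJ
  have hn0 : (0 : ℝ) ≤ n := Nat.cast_nonneg n
  have hn'0 : (0 : ℝ) ≤ n' := Nat.cast_nonneg n'
  suffices hh : J ≤ eR M σ * n + 2 by linarith
  by_cases hJ0 : 0 ≤ J
  swap
  · push Not at hJ0
    have : 0 ≤ eR M σ * n := by positivity
    linarith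
  have hind := infUp_ind M σ n n' hs hJ0 fun m t ht hts => infUp_one M σ hR1 hR n n' m ht hts hc
  refine infUp_lim (D := J * V * n + eR M σ * n' + C₁ + |Real.log s| + chi M σ * n' + n' +
    C₂ ^ 2 * (n + 1) / 4 + C₂) fun k hk => ?_
  have hk1 : (1 : ℝ) ≤ k := by exact_mod_cast hk
  have hk0 : (0 : ℝ) < k := by linarith
  set t := s * Real.exp (-(chi M σ * (k * n) + k)) with ht
  have ht0 : 0 < t := by positivity
  have h1 := hind k t ht0
  -- lower bound on the probability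
  have h2 : 1 - V * n / k ≤ pr (M.Om (k * n)) {ω | t ≤ s * |σ.cc ω|} := by
    have b1 := (hdev (k * n)).2 k hk0
    have b2 := (isP_Om M (k * n)).pr_compl
      {ω | (k : ℝ) ≤ |Real.log |σ.cc ω| + chi M σ * ((k * n : ℕ) : ℝ)|}
    have b3 : pr (M.Om (k * n)) {ω | (k : ℝ) ≤ |Real.log |σ.cc ω| + chi M σ * ((k * n : ℕ) : ℝ)|}ᶜ ≤
        pr (M.Om (k * n)) {ω | t ≤ s * |σ.cc ω|} := by
      refine (isP_Om M _).pr_mono fun ω _ hω => ?_
      simp only [Set.mem_compl_iff, Set.mem_setOf_eq, not_le] at hω ⊢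
      refine mul_le_mul_of_nonneg_left ?_ hs.le
      rw [← Real.exp_log (abs_cc_pos σ ω)]
      refine Real.exp_le_exp.2 ?_
      have := (abs_lt.1 hω).1
      push_cast at this
      linarith
    have b4 : V * ((k * n : ℕ) : ℝ) / (k : ℝ) ^ 2 = V * n / k := by
      push_cast
      field_simp
    linarith
  have h3 : J * k - J * V * n ≤ J * k * pr (M.Om (k * n)) {ω | t ≤ s * |σ.cc ω|} := by
    have := mul_le_mul_of_nonneg_left h2 (show 0 ≤ J * k by positivity)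
    have e : J * k * (1 - V * n / k) = J * k - J * V * n := by field_simp
    linarith
  -- upper bound
  have h4 := (abs_le.1 (hnat (n' + k * n) t ht0)).2
  have h5 := hC₁ (n' + k * n)
  have h6 : |Real.log t + chi M σ * ((n' + k * n : ℕ) : ℝ)| ≤ |Real.log s| + chi M σ * n' + k := by
    rw [ht, Real.log_mul hs.ne' (Real.exp_pos _).ne', Real.log_exp]
    push_cast
    have a1 := le_abs_self (Real.log s)
    have a2 := neg_abs_le (Real.log s)
    have a3 : 0 ≤ chi M σ * n' := by positivity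
    rw [abs_le]
    constructor <;> nlinarith
  have h7 : C₂ * Real.sqrt ((n' + k * n : ℕ) : ℝ) ≤ k + n' + C₂ ^ 2 * (n + 1) / 4 := by
    set y : ℝ := ((n' + k * n : ℕ) : ℝ) with hy
    have hy0 : 0 ≤ y := Nat.cast_nonneg _
    have hy1 : y ≤ (k + n') * (n + 1) := by
      rw [hy]; push_cast; nlinarith
    have hsq := Real.sq_sqrt hy0
    have hn1 : (0 : ℝ) < n + 1 := by linarith
    have key : (n + 1) * (C₂ * Real.sqrt y) ≤ (n + 1) * (k + n' + C₂ ^ 2 * (n + 1) / 4) := by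
      nlinarith [sq_nonneg (Real.sqrt y - C₂ * (n + 1) / 2)]
    exact le_of_mul_le_mul_left key hn1
  push_cast at h4 h5 h6 h7
  nlinarith

end Crest.Agent.R98
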