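import Crest.Agent.R98.TreeA

/-!
# R98/JLow: lower bound for the information about one coin
For a fixed shift `u` let `qL, qH, q = mix v qL qH` be the laws of the cell index (`mix_conv`, `push_mix`).
`ent q - v ent qL - (1-v) ent qH = v E_{qL} log (qL/q) + (1-v) E_{qH} log (qH/q) ≥ v E_{qL} log (qL/q)` (Gibbs) and with
`R = qH/qL`: `log (qL/q) ≥ -log (v + R) ≥ -log 2 - log max(v,R) ≥ -log 2 + log (1/θ) 1[R ≤ θ] - R`, `E_{qL} R ≤ 1`.
`prune_info`: `law_prune`, `bnd_conv`, `Dsc_concave`; for a pruned tree `T'` (all labels `≤ s₀`, so diameter `≤ s₀ ≤ N s`):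
`Hs (N s) (T' * m) - Hs (N s) m ≤ log 3` (`Hs_conv_le`, `Hs_le_of_diam`), `Hs s (T' * m) - Hs s m = gsum Jinf` (`Hs_conv_eq`),
`Jinf_mono`, `Jinf_ge`, `Jinf_nonneg`.
-/

set_option autoImplicit false

namespace Crest.Agent.R98

theorem jl_ii {f : ℝ → ℝ} (hf : Measurable f) {C : ℝ} (hb : ∀ u, |f u| ≤ C) (a b : ℝ) :
    IntervalIntegrable f MeasureTheory.volume a b := by
  refine (intervalIntegrable_const (c := C)).mono_fun' hf.aestronglyMeasurable ?_
  exact Filter.Eventually.of_forall fun u => hb u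

theorem jl_meas_pr (m : ℝ →₀ ℝ) (s z : ℝ) :
    Measurable fun u => pr m {z' | cell s u z' = cell s u z} := by
  classical
  simp only [pr_eq_ex_ite]
  refine measurable_ex m (fun z' u => @ite ℝ (z' ∈ {z' | cell s u z' = cell s u z})
    (Classical.propDecidable _) 1 0) ?_
  intro x _
  refine Measurable.ite ?_ measurable_const measurable_const
  have h : ∀ y : ℝ, Measurable fun u => cell s u y := fun y =>
    Int.measurable_floor.comp (measurable_const.add measurable_id)
  exact measurableSet_eq_fun (h x) (h z)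

open Classical in
/-- the integrand of `piL` -/
noncomputable def jlF (θ s : ℝ) (A B : ℝ →₀ ℝ) (u : ℝ) : ℝ :=
  ex A fun z =>
    if pr B {z' | cell s u z' = cell s u z} ≤ θ * pr A {z' | cell s u z' = cell s u z} then 1 else 0

theorem jl_piL (θ s : ℝ) (L H m : ℝ →₀ ℝ) :
    piL θ s L H m = ∫ u in (0 : ℝ)..1, jlF θ s (conv L m) (conv H m) u := rfl

theorem jlF_meas (θ s : ℝ) (A B : ℝ →₀ ℝ) : Measurable (jlF θ s A B) := by
  unfold jlF
  refine measurable_ex A (fun z u =>
    if pr B {z' | cell s u z' = cell s u z} ≤ θ * pr A {z' | cell s u z' = cell s u z} then 1 else 0) ?_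
  intro z _
  refine Measurable.ite ?_ measurable_const measurable_const
  exact measurableSet_le (jl_meas_pr B s z) (measurable_const.mul (jl_meas_pr A s z))

theorem jlF_mem (θ s : ℝ) {A : ℝ →₀ ℝ} (hA : IsP A) (B : ℝ →₀ ℝ) (u : ℝ) :
    0 ≤ jlF θ s A B u ∧ jlF θ s A B u ≤ 1 := by
  unfold jlF
  constructor
  · refine hA.ex_nonneg fun a _ => ?_
    split_ifs <;> norm_num
  · refine hA.ex_le fun a _ => ?_
    split_ifs <;> norm_num

theorem jlF_ii (θ s : ℝ) {A : ℝ →₀ ℝ} (hA : IsP A) (B : ℝ →₀ ℝ) (a b : ℝ) :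
    IntervalIntegrable (jlF θ s A B) MeasureTheory.volume a b := by
  refine jl_ii (jlF_meas θ s A B) (C := 1) (fun u => ?_) a b
  have := jlF_mem θ s hA B u
  rw [abs_le]
  constructor <;> linarith [this.1, this.2]

theorem jl_sum_le {α : Type*} {q : α →₀ ℝ} (hq : IsP q) (S : Finset α) : ∑ a ∈ S, q a ≤ 1 := by
  classical
  have h := ex_of_subset q (fun _ => 1) (S := S ∪ q.support) Finset.subset_union_right
  rw [hq.mass] at h
  rw [h]
  simp only [mul_one]
  exact Finset.sum_le_sum_of_subset_of_nonneg Finset.subset_union_left fun a _ _ => hq.nonneg a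

theorem jl_point {p r v θ : ℝ} (hp : 0 < p) (hr : 0 ≤ r) (h0 : 0 < v) (h1 : v ≤ 1 / 2) (hθ : v ≤ θ) :
    Real.log (1 / θ) * (if r ≤ θ * p then 1 else 0) - 1 - r / p ≤
      -Real.log (v * p + (1 - v) * r) - -Real.log p := by
  have hθ0 : 0 < θ := h0.trans_le hθ
  have hq : 0 < v * p + (1 - v) * r := by
    have : 0 ≤ (1 - v) * r := mul_nonneg (by linarith) hr
    have : 0 < v * p := mul_pos h0 hp
    linarith
  have hrp : 0 ≤ r / p := div_nonneg hr hp.le
  split_ifs with h
  · have h2 : v * p + (1 - v) * r ≤ 2 * θ * p := by nlinarith [mul_nonneg h0.le hr]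
    have h3 := Real.log_le_log hq h2
    rw [Real.log_mul (by positivity) hp.ne', Real.log_mul (by norm_num) hθ0.ne'] at h3
    have h4 : Real.log 2 ≤ 1 := by
      have := Real.log_le_sub_one_of_pos (show (0 : ℝ) < 2 by norm_num)
      linarith
    rw [one_div, Real.log_inv]
    linarith
  · have h2 : v * p + (1 - v) * r ≤ p * (1 + r / p) := by
      have : p * (1 + r / p) = p + r := by field_simp
      rw [this]
      nlinarith [mul_nonneg h0.le hr]
    have h3 := Real.log_le_log hq h2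
    rw [Real.log_mul hp.ne' (by positivity)] at h3
    have h4 := Real.log_le_sub_one_of_pos (show 0 < 1 + r / p by positivity)
    linarith

theorem jl_core {α : Type*} {A B : α →₀ ℝ} (hA : IsP A) (hB : IsP B) {v θ : ℝ} (h0 : 0 < v)
    (h1 : v ≤ 1 / 2) (hθ : v ≤ θ) :
    v * (Real.log (1 / θ) * (ex A fun a => if B a ≤ θ * A a then 1 else 0) - 2) ≤
      ent (mix v A B) - v * ent A - (1 - v) * ent B := by
  have hq : IsP (mix v A B) := hA.mix hB h0.le (by linarith)
  have happ : ∀ a, mix v A B a = v * A a + (1 - v) * B a := fun a => by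
    simp [mix]
  have hG : ent B ≤ ex B fun a => -Real.log (mix v A B a) := by
    refine hB.gibbs (fun a ha => ?_) (jl_sum_le hq _)
    rw [happ]
    have h2 : 0 < (1 - v) * B a := mul_pos (by linarith) (hB.pos ha)
    have h3 : 0 ≤ v * A a := mul_nonneg h0.le (hA.nonneg a)
    linarith
  have hR : (ex A fun a => B a / A a) ≤ 1 := by
    rw [ex_def]
    refine le_trans (le_of_eq (Finset.sum_congr rfl fun a ha => ?_)) (jl_sum_le hB A.support)
    have := (hA.pos ha).ne'
    field_simp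
  have hL : (ex A fun a => Real.log (1 / θ) * (if B a ≤ θ * A a then 1 else 0) - 1 - B a / A a) ≤
      ex A fun a => -Real.log (mix v A B a) - -Real.log (A a) := by
    refine hA.ex_mono fun a ha => ?_
    rw [happ]
    exact jl_point (hA.pos ha) (hB.nonneg a) h0 h1 hθ
  rw [ex_sub, ex_sub, ex_sub, ex_mul_left, hA.ex_const, ← ent_eq_ex] at hL
  rw [ent_eq_ex (mix v A B), ex_mix]
  have h5 : 0 ≤ (1 - v) * ((ex B fun a => -Real.log (mix v A B a)) - ent B) :=
    mul_nonneg (by linarith) (by linarith)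
  have h6 : v * (Real.log (1 / θ) * (ex A fun a => if B a ≤ θ * A a then 1 else 0) - 2) ≤
      v * ((ex A fun a => -Real.log (mix v A B a)) - ent A) :=
    mul_le_mul_of_nonneg_left (by linarith) h0.le
  linarith

theorem jl_push_apply {α β : Type*} (f : α → β) (A : α →₀ ℝ) (z : α) :
    push f A (f z) = pr A {z' | f z' = f z} := by
  rw [apply_eq_pr, pr_push]
  rfl

theorem jl_cell {A B : ℝ →₀ ℝ} (hA : IsP A) (hB : IsP B) {v θ : ℝ} (h0 : 0 < v)
    (h1 : v ≤ 1 / 2) (hθ : v ≤ θ) (s u : ℝ) :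
    v * (Real.log (1 / θ) * jlF θ s A B u - 2) ≤
      ent (push (cell s u) (mix v A B)) - v * ent (push (cell s u) A) -
        (1 - v) * ent (push (cell s u) B) := by
  have h := jl_core (hA.push (cell s u)) (hB.push (cell s u)) h0 h1 hθ
  rw [ex_push] at h
  simp only [jl_push_apply] at h
  rw [push_mix]
  exact h

theorem piL_mem {L H m : ℝ →₀ ℝ} (hL : IsP L) (hm : IsP m) (θ s : ℝ) :
    0 ≤ piL θ s L H m ∧ piL θ s L H m ≤ 1 := by
  rw [jl_piL]
  have hA := hL.conv hm
  constructor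
  · exact intervalIntegral.integral_nonneg zero_le_one fun u _ => (jlF_mem θ s hA _ u).1
  · have h := intervalIntegral.integral_mono_on zero_le_one (jlF_ii θ s hA (conv H m) 0 1)
      (intervalIntegrable_const (c := (1 : ℝ))) fun u _ => (jlF_mem θ s hA _ u).2
    simpa using h

theorem piL_mono {L H m : ℝ →₀ ℝ} (hL : IsP L) (hm : IsP m) {θ θ' : ℝ} (h : θ ≤ θ') (s : ℝ) :
    piL θ s L H m ≤ piL θ' s L H m := by
  rw [jl_piL, jl_piL]
  have hA := hL.conv hm
  refine intervalIntegral.integral_mono_on zero_le_one (jlF_ii θ s hA _ 0 1) (jlF_ii θ' s hA _ 0 1)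
    fun u _ => ?_
  unfold jlF
  refine hA.ex_mono fun z _ => ?_
  have h2 := mul_le_mul_of_nonneg_right h (hA.pr_nonneg {z' | cell s u z' = cell s u z})
  split_ifs with h3 h4
  · exact le_rfl
  · exact absurd (h3.trans h2) h4
  · norm_num
  · exact le_rfl

theorem Jinf_nonneg {L H m : ℝ →₀ ℝ} (hL : IsP L) (hH : IsP H) (hm : IsP m) {v : ℝ} (h0 : 0 ≤ v)
    (h1 : v ≤ 1) (s : ℝ) : 0 ≤ Jinf s v L H m := by
  unfold Jinf
  have hc : IsP (mix v (pur true) (pur false)) := (isP_pur true).mix (isP_pur false) h0 h1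
  have h := Hs_concave hc (k := fun b => if b then conv L m else conv H m) (fun b _ => by
    cases b
    · simpa using hH.conv hm
    · simpa using hL.conv hm) s
  rw [← mix_eq_bnd, ex_mix, ex_pur, ex_pur] at h
  rw [mix_conv]
  simp only [if_true, Bool.false_eq_true, if_false] at h
  linarith

theorem Jinf_mono {L H m : ℝ →₀ ℝ} (hL : IsP L) (hH : IsP H) (hm : IsP m) {v : ℝ} (h0 : 0 ≤ v)
    (h1 : v ≤ 1) {s : ℝ} (hs : 0 < s) {N : ℕ} (hN : 1 ≤ N) : Jinf (N * s) v L H m ≤ Jinf s v L H m := by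
  have h := Dsc_mix_ge (hL.conv hm) (hH.conv hm) h0 h1 hs hN
  unfold Dsc at h
  unfold Jinf
  rw [mix_conv]
  linarith

theorem Jinf_ge {L H m : ℝ →₀ ℝ} (hL : IsP L) (hH : IsP H) (hm : IsP m) {v θ : ℝ} (h0 : 0 < v)
    (h1 : v ≤ 1 / 2) (hθ : v ≤ θ) (hθ1 : θ ≤ 1) (s : ℝ) :
    v * (Real.log (1 / θ) * piL θ s L H m - 2) ≤ Jinf s v L H m := by
  have hA := hL.conv hm
  have hB := hH.conv hm
  have hq : IsP (mix v (conv L m) (conv H m)) := hA.mix hB h0.le (by linarith)
  have i1 := intervalIntegrable_ent_cell hq s 0 1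
  have i2 := (intervalIntegrable_ent_cell hA s 0 1).const_mul v
  have i3 := (intervalIntegrable_ent_cell hB s 0 1).const_mul (1 - v)
  have i4 := (jlF_ii θ s hA (conv H m) 0 1).const_mul (Real.log (1 / θ))
  have i5 : IntervalIntegrable (fun _ : ℝ => (2 : ℝ)) MeasureTheory.volume 0 1 := intervalIntegrable_const
  have h := intervalIntegral.integral_mono_on zero_le_one ((i4.sub i5).const_mul v) ((i1.sub i2).sub i3)
    fun u _ => jl_cell hA hB h0 h1 hθ s u
  rw [intervalIntegral.integral_const_mul, intervalIntegral.integral_sub i4 i5,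
    intervalIntegral.integral_const_mul, intervalIntegral.integral_sub (i1.sub i2) i3,
    intervalIntegral.integral_sub i1 i2, intervalIntegral.integral_const_mul,
    intervalIntegral.integral_const_mul, intervalIntegral.integral_const] at h
  rw [jl_piL]
  unfold Jinf Hs
  rw [mix_conv]
  simpa using h

/-- the guaranteed gain at a node, for threshold `v ^ κ₁` and scale `sc D v * s` -/
noncomputable def Jn (κ₁ s : ℝ) (sc : ℝ → ℝ → ℕ) (m : ℝ →₀ ℝ) : Tr → ℝ
  | .leaf _ => 0
  | .node D v _ _ L H =>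
      max 0 (v * (κ₁ * Real.log (1 / v) * piL (v ^ κ₁) (sc D v * s) L.law H.law m - 2))

theorem prune_info {T : Tr} (hT : T.WV) (act : ℝ → ℝ → Prop) {s₀ s κ₁ : ℝ} {N : ℕ} {m : ℝ →₀ ℝ}
    (hact : ∀ D v, act D v → D ≤ s₀) (hm : IsP m) (hs : 0 < s) (hN : 1 ≤ N) (hs₀ : s₀ ≤ N * s)
    (hκ : 0 < κ₁) (hκ1 : κ₁ ≤ 1) (sc : ℝ → ℝ → ℕ) (hsc : ∀ D v, 1 ≤ sc D v) :
    (ex (T.prune act) fun T' => T'.gsum (Jn κ₁ s sc m)) - Real.log 3 ≤
      Dsc s N (conv T.law m) - Dsc s N m := by
  have hP := hT.isP_prune act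
  have hsp := hT.prune_spec act
  have hNs : 0 < (N : ℝ) * s := mul_pos (by exact_mod_cast hN) hs
  have hc := Dsc_concave hP (k := fun T' : Tr => conv T'.law m)
    (fun T' hT' => (hsp T' hT').1.isP.conv hm) hs hN
  rw [← bnd_conv, hT.law_prune] at hc
  have key : (ex (T.prune act) fun T' => T'.gsum (Jn κ₁ s sc m) - Real.log 3 + Dsc s N m) ≤
      ex (T.prune act) fun T' : Tr => Dsc s N (conv T'.law m) := by
    refine hP.ex_mono fun T' hT' => ?_
    obtain ⟨hW, -, -, hall⟩ := hsp T' hT'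
    have hlab : T'.lab ≤ N * s := by
      cases T' with
      | leaf y => exact hNs.le
      | node D v b Nr L H => exact (hact _ _ hall.1).trans hs₀
    have h1 := Hs_conv_le hW.isP hm hNs
    have h2 := Hs_le_of_diam hW.isP hNs hW.diam
    have h3 : Real.log (T'.lab / (N * s) + 2) ≤ Real.log 3 := by
      have h4 : T'.lab / (N * s) ≤ 1 := (div_le_one hNs).2 hlab
      have h5 : 0 ≤ T'.lab / (N * s) := div_nonneg hW.lab_nonneg hNs.le
      exact Real.log_le_log (by linarith) (by linarith)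
    have h6 := Tr.Hs_conv_eq T' hm s
    have h7 : T'.gsum (Jn κ₁ s sc m) ≤ Hs s (conv T'.law m) - Hs s m := by
      rw [h6]
      refine hW.gsum_mono (Tr.All.mono (fun S hS => ?_) (Tr.All.self hW))
      cases S with
      | leaf y => exact le_rfl
      | node D v b Nr L H =>
        obtain ⟨⟨-, hv0, hv1, -⟩, hL, hH⟩ := hS
        have hL' : IsP L.law := Tr.WV.isP hL
        have hH' : IsP H.law := Tr.WV.isP hH
        have hv2 : v ≤ 1 := by linarith
        refine max_le (Jinf_nonneg hL' hH' hm hv0.le hv2 s) ?_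
        have e1 : v ≤ v ^ κ₁ := by
          have := Real.rpow_le_rpow_of_exponent_ge hv0 hv2 hκ1
          rwa [Real.rpow_one] at this
        have e2 : v ^ κ₁ ≤ 1 := Real.rpow_le_one hv0.le hv2 hκ.le
        have e3 : Real.log (1 / v ^ κ₁) = κ₁ * Real.log (1 / v) := by
          rw [one_div, one_div, Real.log_inv, Real.log_inv, Real.log_rpow hv0]
          ring
        have e4 := Jinf_ge hL' hH' hm hv0 hv1 e1 e2 (sc D v * s)
        rw [e3] at e4
        exact e4.trans (Jinf_mono hL' hH' hm hv0.le hv2 hs (hsc D v))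
    unfold Dsc
    linarith
  rw [ex_add, ex_sub, hP.ex_const, hP.ex_const] at key
  linarith

end Crest.Agent.R98
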