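import Crest.Agent.R98.PolyB

/-!
# R98/Limit: compactness
Let `𝒰` be an ultrafilter on `ℕ` finer than `atTop` (`Filter.hyperfilter` or `Ultrafilter.of atTop`). A *limit relation* is a
`Q : I → ℕ → ℤ` such that there are `q J ∈ 𝓡 J` (for `𝒰`-most `J`) with `(q J i).coeff j = Q i j` for `𝒰`-most `J`, for every `i, j`; every such
sequence `q J` has a limit (finitely many values per coefficient). `ev Q x i = ∑' j, Q i j x^j` for `|x| < 1`, and `aeval x (q J i) → ev Q x i` along `𝒰`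
(tails are `≤ 2|x|^m/(1-|x|)`). Facts: (a) `∑ i, t i * ev Q z i = 0`; (b) `det (ev Q^i x j) = 0` for limit relations `Q^i`, `|x - z| ≤ ρ₂`;
(c) if `∑ i, t' i * ev Q x i = 0` for all limit relations then for every `ϑ > 0`, for `𝒰`-most `J` all `q ∈ 𝓡 J` have `|pair t' x q| ≤ ϑ`
(else choose violators). `F = {t' | annihilates all ev Q z}` contains `t`. Case A: some `t* ∈ F` is not a multiple of `t`: `a = t* i/t i ≠ b = t* j/t j`,
`t' = (t* - a t)/(b-a)`, `t'' = (b t - t*)/(b-a)`. Case B: `F = ℝ t`; then the `ev Q z` span `t^⊥`; fix `i₀`, choose limit relations `Q^i`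
(`i ≠ i₀`) whose values at `z` form a basis of `t^⊥`; `A x` = matrix with rows `ev Q^i x` and row `i₀` to be replaced;
`t₀ x j = det (A x with row i₀ := e_j)`, so `∑ j, t₀ x j * w j = det (A x with row i₀ := w)`. `t₀ z = κ t` with `κ ≠ 0`. For a polynomial vector `q` with
`pair t z q ≠ 0` the function `x ↦ pair (t₀ x) x q` is real analytic on `(-1, 1)` and non-zero at `z`, so its zero set is countable (null);
there are countably many `q`; pick `z₀` close to `z`, in `Gen`, outside all these sets.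
-/

set_option autoImplicit false

namespace Crest.Agent.R98

open Polynomial Filter Topology MeasureTheory

namespace LimitAux

variable {I : Type*}

/-- limit relations along `𝒰` -/
def IsLim (𝒰 : Ultrafilter ℕ) (𝓡 : ℕ → Set (I → ℤ[X])) (Q : I → ℕ → ℤ) : Prop :=
  ∃ q : ℕ → I → ℤ[X], (∀ᶠ J in (𝒰 : Filter ℕ), q J ∈ 𝓡 J) ∧
    ∀ i j, ∀ᶠ J in (𝒰 : Filter ℕ), (q J i).coeff j = Q i j

/-- value of a limit relation -/
noncomputable def ev (Q : I → ℕ → ℤ) (x : ℝ) (i : I) : ℝ := ∑' j, (Q i j : ℝ) * x ^ j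

theorem exists_lim (𝒰 : Ultrafilter ℕ) {𝓡 : ℕ → Set (I → ℤ[X])}
    (hb : ∀ J, ∀ q ∈ 𝓡 J, ∀ i j, |(q i).coeff j| ≤ 2) {q : ℕ → I → ℤ[X]}
    (hq : ∀ᶠ J in (𝒰 : Filter ℕ), q J ∈ 𝓡 J) :
    ∃ Q : I → ℕ → ℤ, ∀ i j, ∀ᶠ J in (𝒰 : Filter ℕ), (q J i).coeff j = Q i j := by
  have key : ∀ i j, ∃ a : ℤ, ∀ᶠ J in (𝒰 : Filter ℕ), (q J i).coeff j = a := by
    intro i j
    have h : ∀ᶠ J in (𝒰 : Filter ℕ), ∃ a ∈ Set.Icc (-2 : ℤ) 2, (q J i).coeff j = a := by
      filter_upwards [hq] with J hJ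
      exact ⟨_, abs_le.1 (hb J _ hJ i j), rfl⟩
    obtain ⟨a, -, ha⟩ := (Ultrafilter.eventually_exists_mem_iff (Set.finite_Icc _ _)).1 h
    exact ⟨a, ha⟩
  choose Q hQ using key
  exact ⟨Q, hQ⟩

theorem IsLim.bound {𝒰 : Ultrafilter ℕ} {𝓡 : ℕ → Set (I → ℤ[X])}
    (hb : ∀ J, ∀ q ∈ 𝓡 J, ∀ i j, |(q i).coeff j| ≤ 2) {Q : I → ℕ → ℤ} (hQ : IsLim 𝒰 𝓡 Q)
    (i : I) (j : ℕ) : |Q i j| ≤ 2 := by
  obtain ⟨q, hq, hc⟩ := hQ
  obtain ⟨J, hJ1, hJ2⟩ := (hq.and (hc i j)).exists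
  rw [← hJ2]
  exact hb J _ hJ1 i j

theorem aeval_eq_tsum (p : ℤ[X]) (x : ℝ) : aeval x p = ∑' j, (p.coeff j : ℝ) * x ^ j := by
  rw [tsum_eq_sum (s := Finset.range (p.natDegree + 1))]
  · rw [aeval_eq_sum_range]
    simp [zsmul_eq_mul]
  · intro j hj
    have : p.coeff j = 0 := coeff_eq_zero_of_natDegree_lt (by simpa using hj)
    simp [this]

theorem tendsto_ev {𝒰 : Ultrafilter ℕ} {𝓡 : ℕ → Set (I → ℤ[X])}
    (hb : ∀ J, ∀ q ∈ 𝓡 J, ∀ i j, |(q i).coeff j| ≤ 2) {q : ℕ → I → ℤ[X]}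
    (hq : ∀ᶠ J in (𝒰 : Filter ℕ), q J ∈ 𝓡 J) {Q : I → ℕ → ℤ}
    (hc : ∀ i j, ∀ᶠ J in (𝒰 : Filter ℕ), (q J i).coeff j = Q i j) {x : ℝ} (hx : |x| < 1) (i : I) :
    Tendsto (fun J => aeval x (q J i)) 𝒰 (𝓝 (ev Q x i)) := by
  simp only [aeval_eq_tsum, ev]
  refine tendsto_tsum_of_dominated_convergence (bound := fun j => 2 * |x| ^ j)
    ((summable_geometric_of_lt_one (abs_nonneg x) hx).mul_left 2) (fun j => ?_) ?_
  · refine tendsto_const_nhds.congr' ?_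
    filter_upwards [hc i j] with J hJ
    rw [hJ]
  · filter_upwards [hq] with J hJ j
    rw [Real.norm_eq_abs, abs_mul, abs_pow]
    have : |((q J i).coeff j : ℝ)| ≤ 2 := by exact_mod_cast hb J _ hJ i j
    gcongr

theorem analyticAt_ev {Q : I → ℕ → ℤ} {i : I} (hQ : ∀ j, |Q i j| ≤ 2) {x : ℝ} (hx : |x| < 1) :
    AnalyticAt ℝ (fun x => ev Q x i) x := by
  set c : ℕ → ℝ := fun j => (Q i j : ℝ) with hc
  have h1 : (fun x => ev Q x i) = (FormalMultilinearSeries.ofScalars ℝ c).sum := by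
    funext y
    have := FormalMultilinearSeries.ofScalars_sum_eq c y
    simp only [FormalMultilinearSeries.ofScalarsSum, smul_eq_mul] at this
    rw [this]
    rfl
  rw [h1]
  have hr : ((1 : NNReal) : ENNReal) ≤ (FormalMultilinearSeries.ofScalars ℝ c).radius := by
    refine FormalMultilinearSeries.le_radius_of_bound _ 2 fun n => ?_
    rw [FormalMultilinearSeries.ofScalars_norm]
    simp only [NNReal.coe_one, one_pow, mul_one, Real.norm_eq_abs, hc]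
    exact_mod_cast hQ n
  refine FormalMultilinearSeries.analyticOnNhd (p := FormalMultilinearSeries.ofScalars ℝ c) x ?_
  rw [Metric.mem_eball, edist_zero_right]
  refine lt_of_lt_of_le ?_ hr
  rw [enorm_eq_nnnorm]
  exact_mod_cast (show ‖x‖₊ < 1 from hx)

theorem analyticAt_det [Fintype I] [DecidableEq I] {M : ℝ → Matrix I I ℝ} {x : ℝ}
    (hM : ∀ i j, AnalyticAt ℝ (fun y => M y i j) x) : AnalyticAt ℝ (fun y => (M y).det) x := by
  simp only [Matrix.det_apply']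
  refine Finset.analyticAt_fun_sum _ fun σ _ => ?_
  exact analyticAt_const.mul (Finset.analyticAt_fun_prod _ fun i _ => hM _ _)

theorem det_updateRow_eq_sum [Fintype I] [DecidableEq I] (A : Matrix I I ℝ) (i₀ : I) (w : I → ℝ) :
    (A.updateRow i₀ w).det = ∑ j, (A.updateRow i₀ (Pi.single j 1)).det * w j := by
  simp only [← Matrix.cramer_transpose_apply]
  have h := LinearMap.pi_apply_eq_sum_univ (Matrix.cramer A.transpose) w
  rw [h, Finset.sum_apply]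
  refine Finset.sum_congr rfl fun j _ => ?_
  have : (fun k => if j = k then (1 : ℝ) else 0) = Pi.single j 1 := by
    funext k
    simp [Pi.single_apply, eq_comm]
  rw [this, Pi.smul_apply, smul_eq_mul, mul_comm]

variable [Fintype I]

/-- fact (a) -/
theorem fact_a {𝒰 : Ultrafilter ℕ} (hU : (𝒰 : Filter ℕ) ≤ atTop) {𝓡 : ℕ → Set (I → ℤ[X])}
    (hb : ∀ J, ∀ q ∈ 𝓡 J, ∀ i j, |(q i).coeff j| ≤ 2) {θ : ℕ → ℝ} (hθ : Tendsto θ atTop (𝓝 0))
    {t : I → ℝ} {z : ℝ} (hz : |z| < 1) (h1 : ∀ J, ∀ q ∈ 𝓡 J, |pair t z q| ≤ θ J)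
    {Q : I → ℕ → ℤ} (hQ : IsLim 𝒰 𝓡 Q) : ∑ i, t i * ev Q z i = 0 := by
  obtain ⟨q, hq, hc⟩ := hQ
  have hT : Tendsto (fun J => |pair t z (q J)|) 𝒰 (𝓝 |∑ i, t i * ev Q z i|) := by
    refine Tendsto.abs ?_
    exact tendsto_finsetSum _ fun i _ => (tendsto_ev hb hq hc hz i).const_mul _
  have : |∑ i, t i * ev Q z i| ≤ 0 :=
    le_of_tendsto_of_tendsto hT (hθ.mono_left hU) (hq.mono fun J hJ => h1 J _ hJ)
  exact abs_nonpos_iff.1 this

/-- fact (b) -/
theorem fact_b [DecidableEq I] {𝒰 : Ultrafilter ℕ} (hU : (𝒰 : Filter ℕ) ≤ atTop)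
    {𝓡 : ℕ → Set (I → ℤ[X])}
    (hb : ∀ J, ∀ q ∈ 𝓡 J, ∀ i j, |(q i).coeff j| ≤ 2) {θ : ℕ → ℝ} (hθ : Tendsto θ atTop (𝓝 0))
    {x : ℝ} (hx : |x| < 1)
    (h2 : ∀ J, ∀ A : Matrix I I ℤ[X], (∀ i, A i ∈ 𝓡 J) → |aeval x A.det| ≤ θ J)
    {Q : I → I → ℕ → ℤ} (hQ : ∀ i, IsLim 𝒰 𝓡 (Q i)) :
    (Matrix.of fun i j => ev (Q i) x j).det = 0 := by
  choose q hq hc using hQ
  have hT0 : Tendsto (fun J => (Matrix.of fun i j => aeval x (q i J j) : Matrix I I ℝ)) 𝒰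
      (𝓝 (Matrix.of fun i j => ev (Q i) x j)) := by
    refine tendsto_pi_nhds.2 fun i => tendsto_pi_nhds.2 fun j => ?_
    exact tendsto_ev hb (hq i) (hc i) hx j
  have hT : Tendsto (fun J => |(Matrix.of fun i j => aeval x (q i J j) : Matrix I I ℝ).det|) 𝒰
      (𝓝 |(Matrix.of fun i j => ev (Q i) x j).det|) :=
    (((continuous_id.matrix_det).tendsto _).comp hT0).abs
  have : |(Matrix.of fun i j => ev (Q i) x j).det| ≤ 0 := by
    refine le_of_tendsto_of_tendsto hT (hθ.mono_left hU) ?_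
    filter_upwards [eventually_all.2 hq] with J hJ
    have h := h2 J (Matrix.of fun i j => q i J j) hJ
    rw [AlgHom.map_det] at h
    exact h
  exact abs_nonpos_iff.1 this

/-- fact (c) -/
theorem fact_c {𝒰 : Ultrafilter ℕ} {𝓡 : ℕ → Set (I → ℤ[X])}
    (hb : ∀ J, ∀ q ∈ 𝓡 J, ∀ i j, |(q i).coeff j| ≤ 2) {t : I → ℝ} {x : ℝ} (hx : |x| < 1)
    (h : ∀ Q, IsLim 𝒰 𝓡 Q → ∑ i, t i * ev Q x i = 0) {ϑ : ℝ} (hϑ : 0 < ϑ) :
    ∀ᶠ J in (𝒰 : Filter ℕ), ∀ q ∈ 𝓡 J, |pair t x q| ≤ ϑ := by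
  by_contra hcon
  have h1 := Ultrafilter.eventually_not.2 hcon
  have h2 : ∀ᶠ J in (𝒰 : Filter ℕ), ∃ q, q ∈ 𝓡 J ∧ ϑ < |pair t x q| := by
    filter_upwards [h1] with J hJ
    push Not at hJ
    exact hJ
  obtain ⟨q, hq⟩ := h2.choice
  have hq1 : ∀ᶠ J in (𝒰 : Filter ℕ), q J ∈ 𝓡 J := hq.mono fun J hJ => hJ.1
  obtain ⟨Q, hc⟩ := exists_lim 𝒰 hb hq1
  have hT : Tendsto (fun J => |pair t x (q J)|) 𝒰 (𝓝 |∑ i, t i * ev Q x i|) := by
    refine Tendsto.abs ?_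
    exact tendsto_finsetSum _ fun i _ => (tendsto_ev hb hq1 hc hx i).const_mul _
  rw [h Q ⟨q, hq1, hc⟩, abs_zero] at hT
  have : ϑ ≤ 0 := ge_of_tendsto hT (hq.mono fun J hJ => hJ.2.le)
  linarith

/-- linear algebra: if the annihilator of `S` is `ℝ t`, `t ⊥ S`, then some matrix with row `i₀` equal to `t` and
the other rows in `S` is invertible -/
theorem exists_rows [DecidableEq I] [Nonempty I] {S : Set (I → ℝ)} {t : I → ℝ} (ht : ∀ i, t i ≠ 0)
    (hS : ∀ w ∈ S, ∑ i, t i * w i = 0)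
    (hF : ∀ s : I → ℝ, (∀ w ∈ S, ∑ i, s i * w i = 0) → ∃ c : ℝ, s = c • t) :
    ∃ (i₀ : I) (A : Matrix I I ℝ), (∀ i, i ≠ i₀ → A i ∈ S) ∧ A i₀ = t ∧ A.det ≠ 0 := by
  have htt : ∑ i, t i * t i ≠ 0 := by
    refine ne_of_gt (Finset.sum_pos (fun i _ => mul_self_pos.2 (ht i)) Finset.univ_nonempty)
  have hspan : Submodule.span ℝ (insert t S) = ⊤ := by
    by_contra hne
    obtain ⟨φ, hφ0, hφ⟩ := Submodule.exists_le_ker_of_lt_top _ (lt_top_iff_ne_top.2 hne)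
    set s : I → ℝ := fun i => φ fun k => if i = k then 1 else 0 with hs
    have hφs : ∀ w, φ w = ∑ i, s i * w i := by
      intro w
      rw [LinearMap.pi_apply_eq_sum_univ φ w]
      exact Finset.sum_congr rfl fun i _ => by rw [smul_eq_mul, mul_comm]
    have hz : ∀ w ∈ insert t S, φ w = 0 := fun w hw => hφ (Submodule.subset_span hw)
    obtain ⟨c, hc⟩ := hF s fun w hw => by rw [← hφs]; exact hz w (Set.mem_insert_of_mem _ hw)
    have h0 := hz t (Set.mem_insert _ _)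
    rw [hφs, hc] at h0
    simp only [Pi.smul_apply, smul_eq_mul, mul_assoc, ← Finset.mul_sum] at h0
    have hc0 : c = 0 := (mul_eq_zero.1 h0).resolve_right htt
    apply hφ0
    ext1 i
    ext1
    simp [hφs, hc, hc0]
  obtain ⟨b, hbS, hbspan, hbli⟩ := exists_linearIndependent ℝ (insert t S)
  rw [hspan] at hbspan
  have htb : t ∈ b := by
    by_contra htb
    have hsub : b ⊆ S := fun w hw => (hbS hw).resolve_left fun h => htb (h ▸ hw)
    have hall : ∀ w ∈ Submodule.span ℝ b, ∑ i, t i * w i = 0 := by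
      intro w hw
      induction hw using Submodule.span_induction with
      | mem w hw => exact hS w (hsub hw)
      | zero => simp
      | add u v _ _ hu hv => simp only [Pi.add_apply, mul_add, Finset.sum_add_distrib, hu, hv, add_zero]
      | smul a u _ hu =>
        simp only [Pi.smul_apply, smul_eq_mul, mul_left_comm _ a, ← Finset.mul_sum, hu, mul_zero]
    exact htt (hall t (by rw [hbspan]; trivial))
  let B : Module.Basis b ℝ (I → ℝ) := Module.Basis.mk hbli (by rw [Subtype.range_coe, hbspan])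
  let e : I ≃ b := (Pi.basisFun ℝ I).indexEquiv B
  refine ⟨e.symm ⟨t, htb⟩, Matrix.of fun i => (e i : I → ℝ), fun i hi => ?_, ?_, ?_⟩
  · refine (hbS (e i).2).resolve_left fun h => hi ?_
    rw [Equiv.eq_symm_apply]
    exact Subtype.ext h
  · ext j
    simp
  · have hli : LinearIndependent ℝ (Matrix.of fun i => (e i : I → ℝ)).row :=
      hbli.comp e e.injective
    exact ((Matrix.isUnit_iff_isUnit_det _).1 (Matrix.linearIndependent_rows_iff_isUnit.1 hli)).ne_zero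

theorem countable_poly : Countable ℤ[X] :=
  (AddMonoidAlgebra.coeff_injective.comp (Polynomial.toFinsupp_injective (R := ℤ))).countable

theorem ae_ne_zero {f : ℝ → ℝ} (hf : AnalyticOnNhd ℝ f (Set.Ioo (-1) 1)) {z : ℝ}
    (hz : z ∈ Set.Ioo (-1 : ℝ) 1) (hfz : f z ≠ 0) : ∀ᵐ x : ℝ, x ∈ Set.Ioo (-1 : ℝ) 1 → f x ≠ 0 := by
  rcases hf.eqOn_zero_or_eventually_ne_zero_of_preconnected isPreconnected_Ioo with h | h
  · exact absurd (h hz) hfz
  · exact (ae_restrict_iff' measurableSet_Ioo).1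
      (ae_restrict_le_codiscreteWithin (μ := volume) measurableSet_Ioo h)

end LimitAux

open LimitAux in
theorem limit_lemma {I : Type*} [Fintype I] [DecidableEq I] [Nonempty I] (t : I → ℝ) (ht : ∀ i, t i ≠ 0)
    {z ρ₂ ρ₃ : ℝ} (hz : 0 < z ∧ z < 1) (h₂ : 0 < ρ₂) (h₃ : 0 < ρ₃) (𝓡 : ℕ → Set (I → ℤ[X]))
    (θ : ℕ → ℝ) (hθ : Tendsto θ atTop (𝓝 0))
    (hb : ∀ J, ∀ q ∈ 𝓡 J, ∀ i j, |(q i).coeff j| ≤ 2)
    (h1 : ∀ J, ∀ q ∈ 𝓡 J, |pair t z q| ≤ θ J)
    (h2 : ∀ J, ∀ A : Matrix I I ℤ[X], (∀ i, A i ∈ 𝓡 J) → ∀ x : ℝ, |x - z| ≤ ρ₂ →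
      |aeval x A.det| ≤ θ J)
    {Gen : Set ℝ} (hGen : ∀ᵐ x : ℝ, x ∈ Gen) :
    (∃ t' t'' : I → ℝ, t = t' + t'' ∧ (∃ i, t' i = 0) ∧ (∃ i, t'' i = 0) ∧
      ∀ ϑ : ℝ, 0 < ϑ → ∃ᶠ J in atTop, ∀ q ∈ 𝓡 J, |pair t' z q| ≤ ϑ ∧ |pair t'' z q| ≤ ϑ) ∨
    (∃ z₀ ∈ Gen, |z₀ - z| < ρ₃ ∧ (0 < z₀ ∧ z₀ < 1) ∧ ∃ t₀ : I → ℝ,
      (∀ ϑ : ℝ, 0 < ϑ → ∃ᶠ J in atTop, ∀ q ∈ 𝓡 J, |pair t₀ z₀ q| ≤ ϑ) ∧
      ∀ q : I → ℤ[X], pair t₀ z₀ q = 0 → pair t z q = 0) := by
  obtain ⟨𝒰, hU⟩ : ∃ 𝒰 : Ultrafilter ℕ, (𝒰 : Filter ℕ) ≤ atTop := Ultrafilter.exists_le _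
  have hz1 : |z| < 1 := abs_lt.2 ⟨by linarith [hz.1], hz.2⟩
  have ha : ∀ Q, IsLim 𝒰 𝓡 Q → ∑ i, t i * ev Q z i = 0 := fun Q hQ => fact_a hU hb hθ hz1 h1 hQ
  by_cases hF : ∀ s : I → ℝ, (∀ Q, IsLim 𝒰 𝓡 Q → ∑ i, s i * ev Q z i = 0) → ∃ c : ℝ, s = c • t
  · -- Case B
    right
    obtain ⟨i₀, A, hA, hAt, hdet⟩ := exists_rows (S := {w | ∃ Q, IsLim 𝒰 𝓡 Q ∧ w = ev Q z}) ht
      (by rintro w ⟨Q, hQ, rfl⟩; exact ha Q hQ)
      (fun s hs => hF s fun Q hQ => hs _ ⟨Q, hQ, rfl⟩)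
    have hQex : ∀ i, ∃ Q : I → ℕ → ℤ, (∀ k j, |Q k j| ≤ 2) ∧
        (i ≠ i₀ → IsLim 𝒰 𝓡 Q ∧ A i = ev Q z) := by
      intro i
      by_cases hi : i = i₀
      · exact ⟨0, by simp, fun h => absurd hi h⟩
      · obtain ⟨Q, hQ, hQ'⟩ := hA i hi
        exact ⟨Q, hQ.bound hb, fun _ => ⟨hQ, hQ'⟩⟩
    choose Q hQb hQ using hQex
    set M : ℝ → Matrix I I ℝ := fun x => Matrix.of fun i j => ev (Q i) x j with hM
    set t₀ : ℝ → I → ℝ := fun x j => ((M x).updateRow i₀ (Pi.single j 1)).det with ht₀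
    have hsum : ∀ x w, ∑ j, t₀ x j * w j = ((M x).updateRow i₀ w).det := fun x w =>
      (det_updateRow_eq_sum (M x) i₀ w).symm
    -- `t₀ x` annihilates the limit relations near `z`
    have hann : ∀ x, |x| < 1 → |x - z| ≤ ρ₂ → ∀ Q', IsLim 𝒰 𝓡 Q' → ∑ j, t₀ x j * ev Q' x j = 0 := by
      intro x hx hxz Q' hQ'
      rw [hsum]
      have h := fact_b hU hb hθ hx (fun J A hA => h2 J A hA x hxz) (Q := Function.update Q i₀ Q')
        (fun i => by
          by_cases hi : i = i₀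
          · subst hi; simpa using hQ'
          · rw [Function.update_of_ne hi]; exact (hQ i hi).1)
      rw [← h]
      congr 1
      ext i j
      by_cases hi : i = i₀
      · subst hi; simp
      · simp [Matrix.updateRow_ne hi, Function.update_of_ne hi, hM]
    obtain ⟨κ, hκ⟩ := hF (t₀ z) (hann z hz1 (by simpa using h₂.le))
    have hκ0 : κ ≠ 0 := by
      rintro rfl
      apply hdet
      have h := hsum z t
      rw [hκ] at h
      simp only [zero_smul, Pi.zero_apply, zero_mul, Finset.sum_const_zero] at h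
      rw [h]
      congr 1
      ext i j
      by_cases hi : i = i₀
      · subst hi; simp [hAt]
      · simp [Matrix.updateRow_ne hi, hM, (hQ i hi).2]
    have han : ∀ q : I → ℤ[X], AnalyticOnNhd ℝ (fun x => pair (t₀ x) x q) (Set.Ioo (-1) 1) := by
      intro q x hx
      have hx1 : |x| < 1 := abs_lt.2 hx
      refine Finset.analyticAt_fun_sum _ fun j _ => AnalyticAt.mul ?_ ?_
      · refine analyticAt_det fun i k => ?_
        by_cases hi : i = i₀
        · subst hi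
          simp only [Matrix.updateRow_self]
          exact analyticAt_const
        · simp only [Matrix.updateRow_ne hi, hM, Matrix.of_apply]
          exact analyticAt_ev (hQb i k) hx1
      · exact analyticAt_id.aeval_polynomial (q j)
    have hae : ∀ q : I → ℤ[X], ∀ᵐ x : ℝ, x ∈ Set.Ioo (-1 : ℝ) 1 →
        pair (t₀ x) x q = 0 → pair t z q = 0 := by
      intro q
      by_cases hq : pair t z q = 0
      · exact Eventually.of_forall fun _ _ _ => hq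
      · have hne : pair (t₀ z) z q ≠ 0 := by
          have : pair (t₀ z) z q = κ * pair t z q := by
            simp only [pair, hκ, Pi.smul_apply, smul_eq_mul, mul_assoc, Finset.mul_sum]
          rw [this]
          exact mul_ne_zero hκ0 hq
        filter_upwards [ae_ne_zero (han q) (abs_lt.1 hz1) hne] with x hx hx1 h0
        exact absurd h0 (hx hx1)
    have := countable_poly
    have hall := hGen.and (ae_all_iff.2 hae)
    set δ : ℝ := min (min ρ₂ ρ₃) (1 - z) with hδ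
    have hδ0 : 0 < δ := lt_min (lt_min h₂ h₃) (by linarith [hz.2])
    have hδ2 : δ ≤ ρ₂ := (min_le_left _ _).trans (min_le_left _ _)
    have hδ3 : δ ≤ ρ₃ := (min_le_left _ _).trans (min_le_right _ _)
    have hδ1 : δ ≤ 1 - z := min_le_right _ _
    have hpos : (volume (Set.Ioo z (z + δ))) ≠ 0 := by
      simp [Real.volume_Ioo, hδ0]
    obtain ⟨x, hx, hxG, hxq⟩ := Measure.exists_mem_of_measure_ne_zero_of_ae hpos
      (ae_restrict_of_ae hall)
    have hxz : |x - z| < δ := abs_lt.2 ⟨by linarith [hx.1], by linarith [hx.2]⟩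
    have hx0 : 0 < x := hz.1.trans hx.1
    have hx1 : x < 1 := by linarith [hx.2]
    have hxa : |x| < 1 := abs_lt.2 ⟨by linarith, hx1⟩
    refine ⟨x, hxG, hxz.trans_le hδ3, ⟨hx0, hx1⟩, t₀ x, fun ϑ hϑ => ?_, fun q => hxq q (abs_lt.1 hxa)⟩
    exact ((fact_c hb hxa (hann x hxa (hxz.le.trans hδ2)) hϑ).frequently).filter_mono hU
  · -- Case A
    left
    push Not at hF
    obtain ⟨s, hs, hns⟩ := hF
    obtain ⟨i⟩ := ‹Nonempty I›
    obtain ⟨j, hj⟩ : ∃ j, s j / t j ≠ s i / t i := by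
      by_contra hcon
      push Not at hcon
      apply hns (s i / t i)
      funext j
      rw [Pi.smul_apply, smul_eq_mul, ← hcon j, div_mul_cancel₀ _ (ht j)]
    set a := s i / t i with ha'
    set b := s j / t j with hb'
    have hba : b - a ≠ 0 := sub_ne_zero.2 hj
    refine ⟨fun k => (s k - a * t k) / (b - a), fun k => (b * t k - s k) / (b - a), ?_, ⟨i, ?_⟩,
      ⟨j, ?_⟩, fun ϑ hϑ => ?_⟩
    · funext k
      simp only [Pi.add_apply]
      field_simp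
      ring
    · simp only [ha', div_mul_cancel₀ _ (ht i), sub_self, zero_div]
    · simp only [hb', div_mul_cancel₀ _ (ht j), sub_self, zero_div]
    · have e1 : ∀ Q, IsLim 𝒰 𝓡 Q → ∑ k, (s k - a * t k) / (b - a) * ev Q z k = 0 := by
        intro Q hQ
        have : ∑ k, (s k - a * t k) / (b - a) * ev Q z k =
            (∑ k, s k * ev Q z k - a * ∑ k, t k * ev Q z k) / (b - a) := by
          rw [Finset.mul_sum, ← Finset.sum_sub_distrib, Finset.sum_div]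
          exact Finset.sum_congr rfl fun k _ => by ring
        rw [this, hs Q hQ, ha Q hQ]
        simp
      have e2 : ∀ Q, IsLim 𝒰 𝓡 Q → ∑ k, (b * t k - s k) / (b - a) * ev Q z k = 0 := by
        intro Q hQ
        have : ∑ k, (b * t k - s k) / (b - a) * ev Q z k =
            (b * ∑ k, t k * ev Q z k - ∑ k, s k * ev Q z k) / (b - a) := by
          rw [Finset.mul_sum, ← Finset.sum_sub_distrib, Finset.sum_div]
          exact Finset.sum_congr rfl fun k _ => by ring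
        rw [this, hs Q hQ, ha Q hQ]
        simp
      refine Frequently.filter_mono (Eventually.frequently ?_) hU
      filter_upwards [fact_c hb hz1 e1 hϑ, fact_c hb hz1 e2 hϑ] with J hJ1 hJ2 q hq
      exact ⟨hJ1 q hq, hJ2 q hq⟩

end Crest.Agent.R98
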