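import Crest.Agent.R98.Rate

/-!
# R98/Lq: heavy cells are exponentially rare (annealed `L^q` estimate)
`sum_rpow_le`: refine to the pair `(f, g)`; `(∑_{i ≤ K} a_i)^q ≤ K^(q-1) ∑ a_i^q` (`Real.rpow_sum_le_const_mul_sum_rpow_of_nonneg` /
`Real.inner_le_nnorm_mul_nnorm`-type) and `∑ a_i^q ≤ (∑ a_i)^q`.
`Sq_conv_le`: split `m₁` along its cells of mesh `s₁`; a cell of mesh `s ≤ s₁` of the sum is reached from at most `2L/s₁ + 3` of them; inside one
cell use convexity of `x ↦ x^q` and `sum_rpow_le` for a shifted grid (`K = 2`). Equivalently apply `sum_rpow_le` to the product law with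
`f (y, x) = cell s 0 (y + x)`, `g (y, x) = (cell s₁ 0 y, cell s 0 (y + x))`.
`exists_rho`: `Z ω = Sq q |c| (nu ω) * |c|^(-(q-1)γ)` is sub-multiplicative up to `K^(q-1)` (`nu_append`, `Sq_conv_le`, `Sq_dil_le`);
`Sq q |c| ν = E_x exp (-(q-1) W)`, `W = -log (mass of the cell of x)`; `E (W + γ log |c|) ≥ An m - log 3 - γ χ m ≥ log K + 1` for large `m`
(`tendsto_An`), `W + γ log|c|` is bounded for fixed `m`, `exp (-x) ≤ 1 - x + x²` for `|x| ≤ 1`; take `q - 1` small. Markov.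
-/

set_option autoImplicit false

namespace Crest.Agent.R98

section aux
variable {α β γ : Type*}

theorem lq_push_apply (f : α → β) (m : α →₀ ℝ) (b : β) : push f m b = pr m {a | f a = b} := by
  rw [apply_eq_pr, pr_push]; rfl

open Classical in
theorem lq_sum {m : α →₀ ℝ} (hm : IsP m) (f : α → β) {q : ℝ} (hq : q ≠ 0) {T : Finset β}
    (hT : ∀ a ∈ m.support, f a ∈ T) :
    ((push f m).sum fun _ w => w ^ q) = ∑ b ∈ T, pr m {a | f a = b} ^ q := by
  rw [Finsupp.sum_of_support_subset _ (s := T) (fun b hb => by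
    obtain ⟨a, ha, rfl⟩ := hm.mem_support_push.mp hb
    exact hT a ha) (fun _ w => w ^ q) fun _ _ => Real.zero_rpow hq]
  exact Finset.sum_congr rfl fun b _ => by rw [lq_push_apply]

theorem lq_ex {m : α →₀ ℝ} (hm : IsP m) (f : α → β) (q : ℝ) :
    ((push f m).sum fun _ w => w ^ q) = ex m fun a => pr m {a' | f a' = f a} ^ (q - 1) := by
  have h1 : ((push f m).sum fun _ w => w ^ q) = ex (push f m) fun b => push f m b ^ (q - 1) := by
    rw [ex_def, Finsupp.sum]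
    refine Finset.sum_congr rfl fun b hb => ?_
    have := (hm.push f).pos hb
    rw [Real.rpow_sub_one this.ne']
    field_simp
  rw [h1, ex_push]
  simp only [lq_push_apply]

/-- weighted power mean inequality -/
theorem lq_wj (T : Finset α) (w z : α → ℝ) (hw : ∀ a ∈ T, 0 ≤ w a) (hz : ∀ a ∈ T, 0 ≤ z a) {q : ℝ}
    (hq : 1 ≤ q) : (∑ a ∈ T, w a * z a) ^ q ≤ (∑ a ∈ T, w a) ^ (q - 1) * ∑ a ∈ T, w a * z a ^ q := by
  rcases (Finset.sum_nonneg hw).eq_or_lt with h0 | h0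
  · have h1 := (Finset.sum_eq_zero_iff_of_nonneg hw).mp h0.symm
    rw [Finset.sum_eq_zero fun a ha => by rw [h1 a ha, zero_mul],
      Finset.sum_eq_zero (f := fun a => w a * z a ^ q) fun a ha => by rw [h1 a ha, zero_mul],
      Real.zero_rpow (by linarith), mul_zero]
  · set W := ∑ a ∈ T, w a with hW
    have h1 := Real.rpow_arith_mean_le_arith_mean_rpow T (fun a => w a / W) z
      (fun a ha => div_nonneg (hw a ha) h0.le) (by rw [← Finset.sum_div, div_self h0.ne']) hz hq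
    have h2 : ∑ a ∈ T, w a * z a = W * ∑ a ∈ T, w a / W * z a := by
      rw [Finset.mul_sum]
      exact Finset.sum_congr rfl fun a _ => by field_simp
    have h3 : ∑ a ∈ T, w a * z a ^ q = W * ∑ a ∈ T, w a / W * z a ^ q := by
      rw [Finset.mul_sum]
      exact Finset.sum_congr rfl fun a _ => by field_simp
    rw [h2, h3, Real.mul_rpow h0.le (Finset.sum_nonneg fun a ha =>
      mul_nonneg (div_nonneg (hw a ha) h0.le) (hz a ha)), ← mul_assoc, ← Real.rpow_add_one h0.ne',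
      sub_add_cancel]
    exact mul_le_mul_of_nonneg_left h1 (Real.rpow_nonneg h0.le _)

theorem lq_kto {m : α →₀ ℝ} {g : α → γ} {f : α → β} {K : ℝ}
    (h : ∀ c, ∃ T : Finset γ, (T.card : ℝ) ≤ K ∧ ∀ a ∈ m.support, f a = c → g a ∈ T) :
    KtoOne m g f K := by
  classical
  intro c
  obtain ⟨T, h1, h2⟩ := h c
  refine le_trans (Nat.cast_le.mpr (Finset.card_le_card fun x hx => ?_)) h1
  simp only [Finset.mem_image, Finset.mem_filter] at hx
  obtain ⟨a, ⟨ha, hc⟩, rfl⟩ := hx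
  exact h2 a ha hc

open Classical in
theorem lq_split (m : α →₀ ℝ) (A : Set α) (g : α → γ) {T : Finset γ}
    (hT : ∀ a ∈ m.support, a ∈ A → g a ∈ T) :
    pr m A = ∑ c ∈ T, pr m {a | a ∈ A ∧ g a = c} := by
  simp only [pr_eq_ex_ite]
  rw [← ex_sum]
  refine ex_congr fun a ha => ?_
  by_cases h : a ∈ A
  · simp only [Set.mem_ofPred_eq, h, true_and, if_true]
    rw [Finset.sum_ite_eq, if_pos (hT a ha h)]
  · simp only [Set.mem_ofPred_eq, h, false_and, if_false, Finset.sum_const_zero]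

/-- a positive mean gives a small exponential moment -/
theorem lq_exp {m : α →₀ ℝ} (hm : IsP m) (V : α → ℝ) (hV : 1 ≤ ex m V) :
    ∃ τ : ℝ, 0 < τ ∧ (ex m fun a => Real.exp (-(τ * V a))) < 1 := by
  set B := 1 + ∑ a ∈ m.support, |V a| with hB
  have hB1 : 1 ≤ B := le_add_of_nonneg_right (Finset.sum_nonneg fun a _ => abs_nonneg _)
  have hVB : ∀ a ∈ m.support, |V a| ≤ B := fun a ha =>
    (Finset.single_le_sum (f := fun a => |V a|) (fun a _ => abs_nonneg _) ha).trans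
      (le_add_of_nonneg_left zero_le_one)
  have hτ : 0 < 1 / (2 * B ^ 2) := by positivity
  refine ⟨1 / (2 * B ^ 2), hτ, ?_⟩
  set τ := 1 / (2 * B ^ 2) with hτd
  have h1 : τ * B ^ 2 = 1 / 2 := by rw [hτd]; field_simp
  have h2 : (ex m fun a => Real.exp (-(τ * V a))) ≤ ex m fun a => (1 + τ / 2) - τ * V a := by
    refine hm.ex_mono fun a ha => ?_
    have b1 := hVB a ha
    have b2 : |-(τ * V a)| ≤ 1 := by
      rw [abs_neg, abs_mul, abs_of_pos hτ]
      nlinarith [mul_le_mul_of_nonneg_left b1 hτ.le]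
    have b3 := (abs_le.mp (Real.abs_exp_sub_one_sub_id_le b2)).2
    have b4 : V a ^ 2 ≤ B ^ 2 := by
      rw [← sq_abs]; exact pow_le_pow_left₀ (abs_nonneg _) b1 2
    have b5 : (-(τ * V a)) ^ 2 ≤ τ / 2 := by
      have := mul_le_mul_of_nonneg_left b4 (mul_pos hτ hτ).le
      nlinarith
    linarith
  rw [ex_sub, ex_mul_left, hm.ex_const] at h2
  nlinarith

end aux

theorem sum_rpow_le {α β γ : Type*} {m : α →₀ ℝ} (hm : IsP m) {f : α → β} {g : α → γ} {K q : ℝ}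
    (hq : 1 ≤ q) (hK : KtoOne m g f K) :
    ((push f m).sum fun _ w => w ^ q) ≤ K ^ (q - 1) * (push g m).sum fun _ w => w ^ q := by
  classical
  have hq0 : q ≠ 0 := by linarith
  obtain ⟨a₀, -⟩ := hm.support_nonempty
  have hK0 : 0 ≤ K := (Nat.cast_nonneg _).trans (hK (f a₀))
  have h1 : ((push (fun a => (f a, g a)) m).sum fun _ w => w ^ q) ≤
      (push g m).sum fun _ w => w ^ q := by
    rw [lq_ex hm, lq_ex hm]
    exact hm.ex_mono fun a _ => Real.rpow_le_rpow (hm.pr_nonneg _)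
      (hm.pr_mono fun a' _ h => congrArg Prod.snd h) (by linarith)
  refine le_trans ?_ (mul_le_mul_of_nonneg_left h1 (Real.rpow_nonneg hK0 _))
  rw [lq_sum hm f hq0 (T := m.support.image f) fun a ha => Finset.mem_image_of_mem f ha,
    lq_sum hm _ hq0 (T := m.support.image f ×ˢ m.support.image g) fun a ha =>
      Finset.mem_product.mpr ⟨Finset.mem_image_of_mem f ha, Finset.mem_image_of_mem g ha⟩,
    Finset.sum_product, Finset.mul_sum]
  refine Finset.sum_le_sum fun b _ => ?_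
  rw [lq_split m {a | f a = b} g (T := (m.support.filter fun a => f a = b).image g)
    fun a ha h => Finset.mem_image_of_mem g (Finset.mem_filter.mpr ⟨ha, h⟩)]
  refine (Real.rpow_sum_le_const_mul_sum_rpow_of_nonneg _ hq fun c _ => hm.pr_nonneg _).trans
    (mul_le_mul (Real.rpow_le_rpow (Nat.cast_nonneg _) (by convert hK b) (by linarith)) ?_
      (Finset.sum_nonneg fun c _ => Real.rpow_nonneg (hm.pr_nonneg _) _) (Real.rpow_nonneg hK0 _))
  refine le_trans (Finset.sum_le_sum_of_subset_of_nonneg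
    (Finset.image_subset_image (Finset.filter_subset _ _))
    fun c _ _ => Real.rpow_nonneg (hm.pr_nonneg _) _) (le_of_eq ?_)
  refine Finset.sum_congr rfl fun c _ => ?_
  simp only [Set.mem_ofPred_eq, Prod.mk.injEq]

theorem Sq_eq_ex {m : ℝ →₀ ℝ} (hm : IsP m) (q s : ℝ) :
    Sq q s m = ex m fun x => pr m {x' | cell s 0 x' = cell s 0 x} ^ (q - 1) :=
  lq_ex hm _ q

theorem lq_Sq_nonneg {m : ℝ →₀ ℝ} (hm : IsP m) (q s : ℝ) : 0 ≤ Sq q s m := by
  rw [Sq_eq_ex hm]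
  exact hm.ex_nonneg fun x _ => Real.rpow_nonneg (hm.pr_nonneg _) _

theorem lq_shift {m : ℝ →₀ ℝ} (hm : IsP m) {q : ℝ} (hq : 1 ≤ q) (s y : ℝ) :
    ((push (fun x => cell s 0 (y + x)) m).sum fun _ w => w ^ q) ≤ 2 ^ (q - 1) * Sq q s m := by
  refine sum_rpow_le hm hq (lq_kto fun j => ⟨Finset.Icc (j - ⌊y / s⌋ - 1) (j - ⌊y / s⌋), ?_, ?_⟩)
  · rw [Int.card_Icc, show j - ⌊y / s⌋ + 1 - (j - ⌊y / s⌋ - 1) = 2 by ring]
    norm_num
  · intro x _ hx
    unfold cell at hx ⊢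
    rw [add_zero] at hx ⊢
    rw [add_div] at hx
    have h1 := Int.le_floor_add (y / s) (x / s)
    have h2 := Int.le_floor_add_floor (y / s) (x / s)
    rw [Finset.mem_Icc]
    omega

theorem Sq_conv_le {m₁ m₂ : ℝ →₀ ℝ} (h₁ : IsP m₁) (h₂ : IsP m₂) {q s s₁ L : ℝ} (hq : 1 ≤ q) (hs : 0 < s)
    (hss : s ≤ s₁) (hL : ∀ x ∈ m₂.support, |x| ≤ L) :
    Sq q s (conv m₁ m₂) ≤ (2 * (2 * L / s₁ + 3)) ^ (q - 1) * Sq q s₁ m₁ * Sq q s m₂ := by
  classical
  have hq0 : q ≠ 0 := by linarith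
  have hs₁ : 0 < s₁ := hs.trans_le hss
  obtain ⟨x₀, hx₀⟩ := h₂.support_nonempty
  have hL0 : 0 ≤ L := (abs_nonneg _).trans (hL x₀ hx₀)
  set μ := joint m₁ fun _ => m₂ with hμ
  have hP : IsP μ := h₁.joint fun _ _ => h₂
  have hsupp : ∀ p ∈ μ.support, p.1 ∈ m₁.support ∧ p.2 ∈ m₂.support := by
    intro p hp
    obtain ⟨y, hy, hp⟩ := (h₁.mem_support_bnd fun _ _ => h₂.push _).mp hp
    obtain ⟨x, hx, rfl⟩ := h₂.mem_support_push.mp hp
    exact ⟨hy, hx⟩
  have e1 : push (cell s 0) (conv m₁ m₂) = push (fun p : ℝ × ℝ => cell s 0 (p.1 + p.2)) μ :=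
    ext_ex fun F => by rw [ex_push, ex_push, ex_conv, hμ, ex_joint]
  have h1 : Sq q s (conv m₁ m₂) ≤ (2 * L / s₁ + 3) ^ (q - 1) *
      (push (fun p : ℝ × ℝ => (cell s₁ 0 p.1, cell s 0 (p.1 + p.2))) μ).sum fun _ w => w ^ q := by
    unfold Sq
    rw [e1]
    refine sum_rpow_le hP hq (lq_kto fun j => ⟨Finset.Icc ⌊(j * s - L) / s₁⌋
      ⌊(j * s + s₁ + L) / s₁⌋ ×ˢ {j}, ?_, ?_⟩)
    · rw [Finset.card_product, Finset.card_singleton, mul_one, Int.card_Icc]
      have a1 := Int.floor_le ((j * s + s₁ + L) / s₁)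
      have a2 := Int.lt_floor_add_one ((j * s - L) / s₁)
      have a3 : (j * s + s₁ + L) / s₁ = (j * s - L) / s₁ + (2 * L / s₁ + 1) := by field_simp; ring
      have a4 : ⌊(j * s - L) / s₁⌋ ≤ ⌊(j * s + s₁ + L) / s₁⌋ :=
        Int.floor_le_floor (div_le_div_of_nonneg_right (by linarith) hs₁.le)
      rw [← Int.cast_natCast, Int.toNat_of_nonneg (by omega)]
      push_cast
      linarith
    · intro p hp hj
      have b0 := abs_le.mp (hL _ (hsupp p hp).2)
      unfold cell at hj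
      rw [add_zero] at hj
      have b1 := Int.floor_le ((p.1 + p.2) / s)
      have b2 := Int.lt_floor_add_one ((p.1 + p.2) / s)
      rw [hj, le_div_iff₀ hs] at b1
      rw [hj, div_lt_iff₀ hs] at b2
      simp only [Finset.mem_product, Finset.mem_Icc, Finset.mem_singleton, cell, add_zero]
      exact ⟨⟨Int.floor_le_floor (div_le_div_of_nonneg_right (by linarith [b0.2]) hs₁.le),
        Int.floor_le_floor (div_le_div_of_nonneg_right (by linarith [b0.1]) hs₁.le)⟩, hj⟩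
  set I := m₁.support.image (cell s₁ 0) with hI
  set J := (m₁.support ×ˢ m₂.support).image fun p : ℝ × ℝ => cell s 0 (p.1 + p.2) with hJ
  have h2 : ((push (fun p : ℝ × ℝ => (cell s₁ 0 p.1, cell s 0 (p.1 + p.2))) μ).sum
      fun _ w => w ^ q) ≤ Sq q s₁ m₁ * (2 ^ (q - 1) * Sq q s m₂) := by
    rw [lq_sum hP _ hq0 (T := I ×ˢ J) fun p hp => Finset.mem_product.mpr
      ⟨Finset.mem_image_of_mem _ (hsupp p hp).1,
        Finset.mem_image_of_mem _ (Finset.mem_product.mpr (hsupp p hp))⟩, Finset.sum_product]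
    unfold Sq
    rw [lq_sum h₁ (cell s₁ 0) hq0 (T := I) fun y hy => Finset.mem_image_of_mem _ hy, Finset.sum_mul]
    refine Finset.sum_le_sum fun i _ => ?_
    set w : ℝ → ℝ := fun y => m₁ y * if cell s₁ 0 y = i then 1 else 0 with hw
    have hw0 : ∀ y ∈ m₁.support, 0 ≤ w y := fun y _ =>
      mul_nonneg (h₁.nonneg y) (by split_ifs <;> norm_num)
    have c1 : pr m₁ {y | cell s₁ 0 y = i} = ∑ y ∈ m₁.support, w y := by
      rw [pr_eq_ex_ite, ex_def]
      exact Finset.sum_congr rfl fun y _ => by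
        by_cases d : cell s₁ 0 y = i <;> simp [hw, d]
    have c2 : ∀ j, pr μ {p | (cell s₁ 0 p.1, cell s 0 (p.1 + p.2)) = (i, j)} =
        ∑ y ∈ m₁.support, w y * pr m₂ {x | cell s 0 (y + x) = j} := fun j => by
      rw [pr_eq_ex_ite, hμ, ex_joint, ex_def]
      refine Finset.sum_congr rfl fun y _ => ?_
      rw [hw, mul_assoc, pr_eq_ex_ite]
      congr 1
      rw [← ex_mul_left]
      refine ex_congr fun x _ => ?_
      simp only [Set.mem_ofPred_eq, Prod.mk.injEq]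
      by_cases d1 : cell s₁ 0 y = i <;> by_cases d2 : cell s 0 (y + x) = j <;> simp [d1, d2]
    have c0 := Finset.sum_nonneg hw0
    simp only [c2]
    refine (Finset.sum_le_sum fun j _ => lq_wj _ w _ hw0 (fun y _ => h₂.pr_nonneg _) hq).trans ?_
    rw [← Finset.mul_sum, Finset.sum_comm, c1]
    have c3 : ∑ y ∈ m₁.support, ∑ j ∈ J, w y * pr m₂ {x | cell s 0 (y + x) = j} ^ q ≤
        (∑ y ∈ m₁.support, w y) * (2 ^ (q - 1) * Sq q s m₂) := by
      rw [Finset.sum_mul]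
      refine Finset.sum_le_sum fun y hy => ?_
      rw [← Finset.mul_sum, ← lq_sum h₂ (fun x => cell s 0 (y + x)) hq0 (T := J) fun x hx =>
        Finset.mem_image_of_mem (fun p : ℝ × ℝ => cell s 0 (p.1 + p.2))
          (Finset.mk_mem_product hy hx)]
      exact mul_le_mul_of_nonneg_left (lq_shift h₂ hq s y) (hw0 y hy)
    refine (mul_le_mul_of_nonneg_left c3 (Real.rpow_nonneg c0 _)).trans (le_of_eq ?_)
    rw [← mul_assoc, ← Real.rpow_add_one' c0 (by linarith), sub_add_cancel]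
    rfl
  have h3 : (0 : ℝ) ≤ 2 * L / s₁ + 3 := by positivity
  refine h1.trans ((mul_le_mul_of_nonneg_left h2 (Real.rpow_nonneg h3 _)).trans (le_of_eq ?_))
  rw [Real.mul_rpow (by norm_num) h3]
  ring

theorem Sq_dil_le {m : ℝ →₀ ℝ} (hm : IsP m) {q s c : ℝ} (hq : 1 ≤ q) (hs : 0 < s) (hc : c ≠ 0) :
    Sq q (|c| * s) (dil c m) ≤ 2 ^ (q - 1) * Sq q s m := by
  unfold Sq dil
  rw [push_push]
  refine sum_rpow_le hm hq (lq_kto fun j => ?_)
  rcases lt_or_gt_of_ne hc with h | h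
  · refine ⟨Finset.Icc (-j - 1) (-j), ?_, fun x _ hx => ?_⟩
    · rw [Int.card_Icc, show -j + 1 - (-j - 1) = 2 by ring]
      norm_num
    · unfold cell at hx ⊢
      rw [add_zero] at hx ⊢
      rw [abs_of_neg h, show c * x / (-c * s) = -(x / s) by field_simp, Int.floor_neg] at hx
      have h1 := Int.floor_le_ceil (x / s)
      have h2 := Int.ceil_le_floor_add_one (x / s)
      rw [Finset.mem_Icc]
      omega
  · refine ⟨{j}, by simp, fun x _ hx => ?_⟩
    unfold cell at hx ⊢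
    rw [abs_of_pos h, show c * x / (c * s) = x / s by field_simp] at hx
    exact Finset.mem_singleton.mpr hx

variable {Ω ι : Type*} [Fintype Ω] [Fintype ι] (M : Mod Ω ι) (σ : Sys Ω ι)

omit [Fintype Ω] [Fintype ι] in
theorem lq_submul {R₀ q : ℝ} (hR : ∀ (ω : List Ω) (u : List ι), |σ.X ω u| ≤ R₀) (hq : 1 ≤ q)
    (ω ω' : List Ω) :
    Sq q |σ.cc (ω ++ ω')| (nu M σ (ω ++ ω')) ≤ (4 * (2 * R₀ + 3)) ^ (q - 1) *
      Sq q |σ.cc ω| (nu M σ ω) * Sq q |σ.cc ω'| (nu M σ ω') := by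
  have hc := abs_cc_pos σ ω
  have hc' := abs_cc_pos σ ω'
  have hR0 : 0 ≤ R₀ := (abs_nonneg _).trans (hR [] [])
  rw [nu_append, cc_append, abs_mul]
  have h1 := Sq_conv_le (isP_nu M σ ω) ((isP_nu M σ ω').dil (σ.cc ω)) hq (mul_pos hc hc')
    (mul_le_of_le_one_right hc.le (abs_cc_le_one σ ω')) (L := |σ.cc ω| * R₀) fun x hx => by
      obtain ⟨y, hy, rfl⟩ := (isP_nu M σ ω').mem_support_push.mp hx
      obtain ⟨u, _, rfl⟩ := (mem_support_nu M σ).mp hy
      rw [abs_mul]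
      exact mul_le_mul_of_nonneg_left (hR _ _) hc.le
  have h2 := Sq_dil_le (isP_nu M σ ω') hq hc' (cc_ne_zero σ ω)
  rw [show 2 * (|σ.cc ω| * R₀) / |σ.cc ω| = 2 * R₀ by field_simp] at h1
  refine h1.trans ((mul_le_mul_of_nonneg_left h2 (mul_nonneg (by positivity)
    (lq_Sq_nonneg (isP_nu M σ ω) _ _))).trans (le_of_eq ?_))
  rw [show 4 * (2 * R₀ + 3) = 2 * (2 * (2 * R₀ + 3)) by ring,
    Real.mul_rpow (x := 2) (y := 2 * (2 * R₀ + 3)) (by norm_num) (by positivity)]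
  ring

theorem exists_rho {γ : ℝ} (h0 : 0 ≤ γ) (hγ : γ * chi M σ < eR M σ) :
    ∃ (m : ℕ) (ρ : ℝ), 1 ≤ m ∧ 0 ≤ ρ ∧ ρ < 1 ∧ ∀ k : ℕ,
      (ex (M.Om (k * m)) fun ω => pr (nu M σ ω)
        {x | |σ.cc ω| ^ γ < pr (nu M σ ω) {x' | cell |σ.cc ω| 0 x' = cell |σ.cc ω| 0 x}}) ≤ ρ ^ k := by
  have _ := h0
  obtain ⟨R₀, hR1, hR⟩ := exists_R0 σ
  set K := 4 * (2 * R₀ + 3) with hK
  have hK0 : 0 < K := by positivity
  obtain ⟨m, hm1, hm⟩ : ∃ m : ℕ, 1 ≤ m ∧
      γ * chi M σ * m + (Real.log 3 + Real.log K + 1) ≤ An M σ m := by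
    set δ := (eR M σ - γ * chi M σ) / 2 with hδ
    have hδ0 : 0 < δ := by linarith
    have e1 := (tendsto_An M σ).eventually (lt_mem_nhds (show γ * chi M σ + δ < eR M σ by linarith))
    have e2 := (tendsto_natCast_atTop_atTop (R := ℝ)).eventually_ge_atTop
      ((Real.log 3 + Real.log K + 1) / δ)
    obtain ⟨m, a1, a2, a3⟩ := (e1.and (e2.and (Filter.eventually_ge_atTop 1))).exists
    refine ⟨m, a3, ?_⟩
    rw [lt_div_iff₀ (by exact_mod_cast a3)] at a1
    rw [div_le_iff₀ hδ0] at a2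
    linarith
  set P : List Ω → ℝ → ℝ := fun ω x =>
    pr (nu M σ ω) {x' | cell |σ.cc ω| 0 x' = cell |σ.cc ω| 0 x} with hP
  have hPpos : ∀ ω, ∀ x ∈ (nu M σ ω).support, 0 < P ω x := fun ω x hx =>
    (isP_nu M σ ω).pr_pos hx rfl
  obtain ⟨τ, hτ, hexp⟩ := lq_exp ((isP_Om M m).joint fun ω _ => isP_nu M σ ω)
    (fun p => -Real.log (P p.1 p.2) - γ * -Real.log |σ.cc p.1| - Real.log K) (by
      rw [ex_joint]
      have a1 : (ex (M.Om m) fun ω => -Real.log |σ.cc ω|) = m * chi M σ := by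
        simp only [neg_log_cc]
        exact M.hP.ex_iid_sum m _
      have a2 : (ex (M.Om m) fun ω => Hs |σ.cc ω| (nu M σ ω) - γ * -Real.log |σ.cc ω| -
          (Real.log 3 + Real.log K)) = An M σ m - γ * (m * chi M σ) - (Real.log 3 + Real.log K) := by
        rw [ex_sub, ex_sub, ex_mul_left, a1, (isP_Om M m).ex_const]; rfl
      refine le_trans (le_trans (by linarith) a2.ge) ((isP_Om M m).ex_mono fun ω _ => ?_)
      have a3 := Hs_le_ent_cell (isP_nu M σ ω) (abs_cc_pos σ ω) 0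
      rw [ent_push_eq] at a3
      dsimp only
      rw [ex_sub, ex_sub, (isP_nu M σ ω).ex_const, (isP_nu M σ ω).ex_const]
      linarith)
  rw [ex_joint] at hexp
  set Z : List Ω → ℝ := fun ω => Sq (1 + τ) |σ.cc ω| (nu M σ ω) * (|σ.cc ω| ^ γ)⁻¹ ^ τ with hZ
  have hcγ : ∀ ω, 0 < |σ.cc ω| ^ γ := fun ω => Real.rpow_pos_of_pos (abs_cc_pos σ ω) γ
  have hZ0 : ∀ ω, 0 ≤ Z ω := fun ω =>
    mul_nonneg (lq_Sq_nonneg (isP_nu M σ ω) _ _) (Real.rpow_nonneg (inv_pos.mpr (hcγ ω)).le _)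
  have hZe : ∀ ω, Z ω = ex (nu M σ ω) fun x => (P ω x * (|σ.cc ω| ^ γ)⁻¹) ^ τ := fun ω => by
    simp only [hZ]
    rw [Sq_eq_ex (isP_nu M σ ω), ← ex_mul_right, add_sub_cancel_left]
    refine ex_congr fun x hx => ?_
    rw [Real.mul_rpow (hPpos ω x hx).le (inv_pos.mpr (hcγ ω)).le]
  have hKτ : 0 < K ^ τ := Real.rpow_pos_of_pos hK0 τ
  have hsub : ∀ ω ω', Z (ω ++ ω') ≤ Z ω * (K ^ τ * Z ω') := fun ω ω' => by
    have a1 := lq_submul M σ hR (q := 1 + τ) (by linarith) ω ω'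
    rw [add_sub_cancel_left, ← hK] at a1
    simp only [hZ]
    refine (mul_le_mul_of_nonneg_right a1 (Real.rpow_nonneg (inv_pos.mpr (hcγ _)).le _)).trans
      (le_of_eq ?_)
    rw [cc_append, abs_mul, Real.mul_rpow (abs_nonneg _) (abs_nonneg _), mul_inv,
      Real.mul_rpow (inv_pos.mpr (hcγ _)).le (inv_pos.mpr (hcγ _)).le]
    ring
  have hρ : (ex (M.Om m) fun ω => K ^ τ * Z ω) < 1 := by
    refine lt_of_eq_of_lt (ex_congr fun ω _ => ?_) hexp
    rw [hZe, ← ex_mul_left]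
    refine ex_congr fun x hx => ?_
    have a1 := mul_pos (hPpos ω x hx) (inv_pos.mpr (hcγ ω))
    rw [← Real.mul_rpow hK0.le a1.le, Real.rpow_def_of_pos (mul_pos hK0 a1),
      Real.log_mul hK0.ne' a1.ne', Real.log_mul (hPpos ω x hx).ne' (inv_pos.mpr (hcγ ω)).ne',
      Real.log_inv, Real.log_rpow (abs_cc_pos σ ω)]
    congr 1
    ring
  have hρ0 : 0 ≤ ex (M.Om m) fun ω => K ^ τ * Z ω :=
    (isP_Om M m).ex_nonneg fun ω _ => mul_nonneg hKτ.le (hZ0 ω)
  refine ⟨m, _, hm1, hρ0, hρ, fun k => le_trans ((isP_Om M _).ex_mono (G := Z) fun ω _ => ?_) ?_⟩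
  · rw [hZe, pr_eq_ex_ite]
    refine (isP_nu M σ ω).ex_mono fun x hx => ?_
    split_ifs with c
    · exact Real.one_le_rpow ((le_mul_inv_iff₀ (hcγ ω)).mpr (by rw [one_mul]; exact c.le)) hτ.le
    · exact Real.rpow_nonneg (mul_pos (hPpos ω x hx) (inv_pos.mpr (hcγ ω))).le _
  · induction k with
    | zero =>
      rw [zero_mul, ex_Om_zero, hZe, pow_zero]
      refine (isP_nu M σ []).ex_le fun x hx => ?_
      rw [cc_nil, abs_one, Real.one_rpow, inv_one, mul_one]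
      exact Real.rpow_le_one (hPpos _ x hx).le ((isP_nu M σ []).pr_le_one _) hτ.le
    | succ k ih =>
      rw [Nat.succ_mul, ex_Om_append, pow_succ]
      refine le_trans ((isP_Om M _).ex_mono (G := fun ω => Z ω * ex (M.Om m) fun ω' => K ^ τ * Z ω')
        fun ω _ => ?_) ?_
      · rw [← ex_mul_left]
        exact (isP_Om M m).ex_mono fun ω' _ => hsub ω ω'
      · rw [ex_mul_right]
        exact mul_le_mul_of_nonneg_right ih hρ0

end Crest.Agent.R98
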