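import Crest.Agent.R98.PolyB

/-!
# R98/Mahler: values of integer polynomials away from their roots, Liouville inequality
`eval_ge_of_roots_far`: over `ℂ`, `|D z| = |lc| ∏ |z - η_j|`; `r = (1+z)/2`. Roots `η = 0` give a factor `z`; roots with `‖η‖ ≥ r` a factor
`≥ ‖η‖ (1 - z/r)`; roots with `0 < ‖η‖ < r` a factor `≥ δ ≥ δ ‖η‖`. `|lc| ∏_{η ≠ 0} ‖η‖ = |trailing coefficient| ≥ 1` (write
`D = X^k D'`, `D'(0) ≠ 0`), and `|lc| ∏ max 1 ‖η‖ = M(D) ≤ B` (`mahlerMeasure_eq_leadingCoeff_mul_prod_roots`, `mahler_le_l1`), so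
`r^{#small roots} ≥ 1/B`.
`liouville`: `R = resultant (D₀.map C) (C X - G.map C) ∈ ℤ[X]` (polynomials over `ℤ[X]`, degrees `natDegree D₀`, `natDegree G`); mapped to
`ℂ[X]` it is `C lc^g ∏_i (X - C G(η_i))` (`resultant_map_map`, `resultant_eq_prod_eval`); its trailing coefficient is a non-zero integer of norm
`|lc|^g ∏_{G(η_i) ≠ 0} ‖G(η_i)‖`; bound the other factors by `norm_aeval_le`. (Alternative: an irreducible factor of `D₀` over `ℤ` vanishing at
`η`, `resultant_ne_zero`, `mahlerMeasure_mul`.)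
-/

set_option autoImplicit false

namespace Crest.Agent.R98

open Polynomial

namespace MahlerAux

open Classical in
/-- the weight of a root: its norm, or `1` for the root `0` -/
noncomputable def wt (η : ℂ) : ℝ := if η = 0 then 1 else ‖η‖

open Classical in
/-- indicator of the small non-zero roots -/
noncomputable def sm (r : ℝ) (η : ℂ) : ℕ := if η ≠ 0 ∧ ‖η‖ < r then 1 else 0

theorem wt_nonneg (η : ℂ) : 0 ≤ wt η := by
  unfold wt
  split_ifs
  · exact zero_le_one
  · exact norm_nonneg _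

theorem norm_trail_X_sub (η : ℂ) : ‖(X - C η : ℂ[X]).trailingCoeff‖ = wt η := by
  unfold wt
  split_ifs with h
  · subst h
    simp [trailingCoeff]
  · rw [trailingCoeff_eq_coeff_zero (by simpa using h)]
    simp

theorem norm_trail_prod (a : ℂ) (s : Multiset ℂ) :
    ‖(C a * (s.map (X - C ·)).prod : ℂ[X]).trailingCoeff‖ = ‖a‖ * (s.map wt).prod := by
  induction s using Multiset.induction_on with
  | empty => simp [trailingCoeff]
  | cons η s ih =>
    rw [Multiset.map_cons, Multiset.prod_cons, mul_left_comm, trailingCoeff_mul, norm_mul, ih,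
      norm_trail_X_sub, Multiset.map_cons, Multiset.prod_cons]
    ring

theorem one_le_trail {D : ℤ[X]} (h : D ≠ 0) :
    1 ≤ ‖(D.map (Int.castRingHom ℂ)).trailingCoeff‖ := by
  have h1 : D.map (Int.castRingHom ℂ) ≠ 0 :=
    (Polynomial.map_ne_zero_iff (Int.castRingHom ℂ).injective_int).2 h
  have h2 := trailingCoeff_nonzero_iff_nonzero.2 h1
  rw [trailingCoeff, coeff_map, eq_intCast] at h2 ⊢
  rw [Complex.norm_intCast]
  exact_mod_cast Int.one_le_abs (by exact_mod_cast h2)

theorem prod_wt_le {r : ℝ} (hr : 0 ≤ r) (s : Multiset ℂ) :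
    (s.map wt).prod ≤ (s.map fun a => max 1 ‖a‖).prod * r ^ (s.map (sm r)).sum := by
  induction s using Multiset.induction_on with
  | empty => simp
  | cons η s ih =>
    simp only [Multiset.map_cons, Multiset.prod_cons, Multiset.sum_cons, pow_add]
    have h1 : wt η ≤ max 1 ‖η‖ * r ^ sm r η := by
      unfold wt sm
      by_cases h0 : η = 0
      · simp [h0]
      · by_cases h2 : ‖η‖ < r
        · simp only [h0, if_false, ne_eq, not_false_eq_true, h2, and_self, if_true, pow_one]
          nlinarith [le_max_left 1 ‖η‖]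
        · simp [h0, h2]
    have h2 : 0 ≤ (s.map wt).prod := Multiset.prod_nonneg fun a ha => by
      obtain ⟨b, _, rfl⟩ := Multiset.mem_map.1 ha
      exact wt_nonneg b
    calc wt η * (s.map wt).prod ≤ (max 1 ‖η‖ * r ^ sm r η) *
          ((s.map fun a => max 1 ‖a‖).prod * r ^ (s.map (sm r)).sum) :=
          mul_le_mul h1 ih h2 (by positivity)
      _ = _ := by ring

theorem prod_ge {z r κ δ : ℝ} (hz : 0 < z) (hr : z < r) (hr1 : r ≤ 1) (hκ : 0 ≤ κ) (hκz : κ ≤ z)
    (hκr : κ ≤ 1 - z / r) (hδ : 0 ≤ δ) (s : Multiset ℂ) (hs : ∀ η ∈ s, η ≠ 0 → δ ≤ ‖(z : ℂ) - η‖) :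
    κ ^ s.card * (s.map wt).prod * δ ^ (s.map (sm r)).sum ≤ ‖(s.map ((z : ℂ) - ·)).prod‖ := by
  induction s using Multiset.induction_on with
  | empty => simp
  | cons η s ih =>
    have ih' := ih fun a ha => hs a (Multiset.mem_cons_of_mem ha)
    simp only [Multiset.map_cons, Multiset.prod_cons, Multiset.sum_cons, pow_add, Multiset.card_cons,
      norm_mul, pow_one]
    have hr0 : 0 < r := hz.trans hr
    have h1 : κ * wt η * δ ^ sm r η ≤ ‖(z : ℂ) - η‖ := by
      unfold wt sm
      by_cases h0 : η = 0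
      · simp [h0, abs_of_pos hz, hκz]
      · by_cases h2 : ‖η‖ < r
        · simp only [h0, if_false, ne_eq, not_false_eq_true, h2, and_self, if_true, pow_one]
          have h3 := hs η (Multiset.mem_cons_self _ _) h0
          have h4 : κ * ‖η‖ ≤ 1 := by
            have : κ ≤ 1 := by linarith
            nlinarith [norm_nonneg η]
          nlinarith
        · simp only [h0, if_false, h2, and_false, pow_zero, mul_one]
          have h3 : ‖η‖ - z ≤ ‖(z : ℂ) - η‖ := by
            have := norm_sub_norm_le η (z : ℂ)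
            rw [Complex.norm_real, Real.norm_of_nonneg hz.le, norm_sub_rev] at this
            exact this
          have h4 : z ≤ z / r * ‖η‖ := by
            rw [div_mul_eq_mul_div, le_div_iff₀ hr0]
            exact mul_le_mul_of_nonneg_left (not_lt.1 h2) hz.le
          nlinarith [norm_nonneg η]
    have h2 : 0 ≤ (s.map wt).prod := Multiset.prod_nonneg fun a ha => by
      obtain ⟨b, _, rfl⟩ := Multiset.mem_map.1 ha
      exact wt_nonneg b
    calc κ ^ s.card * κ * (wt η * (s.map wt).prod) * (δ ^ sm r η * δ ^ (s.map (sm r)).sum)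
        = (κ * wt η * δ ^ sm r η) * (κ ^ s.card * (s.map wt).prod * δ ^ (s.map (sm r)).sum) := by ring
      _ ≤ _ := mul_le_mul h1 ih' (by positivity) (norm_nonneg _)

theorem exists_irred {η : ℂ} (D : ℤ[X]) (h0 : D ≠ 0) (hη : aeval η D = 0) :
    ∃ P : ℤ[X], Irreducible P ∧ P ∣ D ∧ aeval η P = 0 := by
  induction D using WfDvdMonoid.induction_on_irreducible with
  | zero => exact (h0 rfl).elim
  | unit u hu => exact ((hu.map (aeval η)).ne_zero hη).elim
  | mul a i ha hi ih =>
    rw [map_mul, mul_eq_zero] at hη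
    rcases hη with h | h
    · exact ⟨i, hi, dvd_mul_right _ _, h⟩
    · obtain ⟨P, hP, hd, h'⟩ := ih ha h
      exact ⟨P, hP, hd.mul_left _, h'⟩

theorem res_ne_zero {P G : ℤ[X]} {η : ℂ} (hP : Irreducible P) (hη : aeval η P = 0)
    (hG : aeval η G ≠ 0) : resultant P G ≠ 0 := by
  have hd : P.natDegree ≠ 0 := by
    intro h
    rw [eq_C_of_natDegree_eq_zero h, aeval_C] at hη
    apply hP.ne_zero
    rw [eq_C_of_natDegree_eq_zero h, (algebraMap ℤ ℂ).injective_int (hη.trans (map_zero _).symm), C_0]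
  have h1 : Irreducible (P.map (Int.castRingHom ℚ)) :=
    (IsPrimitive.Int.irreducible_iff_irreducible_map_cast (hP.isPrimitive hd)).1 hP
  have h2 : IsCoprime (P.map (Int.castRingHom ℚ)) (G.map (Int.castRingHom ℚ)) := by
    rw [h1.coprime_iff_not_dvd]
    rintro ⟨Q, hQ⟩
    apply hG
    have e : ∀ F : ℤ[X], aeval η (F.map (Int.castRingHom ℚ)) = aeval η F := fun F =>
      aeval_map_algebraMap ℚ η F
    rw [← e, hQ, map_mul, e, hη, zero_mul]
  have h3 := resultant_ne_zero _ _ h2
  rw [natDegree_map_eq_of_injective (Int.castRingHom ℚ).injective_int,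
    natDegree_map_eq_of_injective (Int.castRingHom ℚ).injective_int, resultant_map_map] at h3
  exact fun h => h3 (by rw [h, map_zero])

theorem prod_eval_le (G : ℤ[X]) (s : Multiset ℂ) :
    ‖(s.map (G.map (Int.castRingHom ℂ)).eval).prod‖ ≤
      l1 G ^ s.card * (s.map fun a => max 1 ‖a‖).prod ^ G.natDegree := by
  induction s using Multiset.induction_on with
  | empty => simp
  | cons η s ih =>
    simp only [Multiset.map_cons, Multiset.prod_cons, Multiset.card_cons, norm_mul, pow_succ, mul_pow]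
    have h1 : ‖(G.map (Int.castRingHom ℂ)).eval η‖ ≤ l1 G * max 1 ‖η‖ ^ G.natDegree := by
      have := norm_aeval_le G η
      rwa [aeval_def, ← eval_map] at this
    have h2 := l1_nonneg G
    calc _ ≤ (l1 G * max 1 ‖η‖ ^ G.natDegree) *
          (l1 G ^ s.card * (s.map fun a => max 1 ‖a‖).prod ^ G.natDegree) :=
          mul_le_mul h1 ih (norm_nonneg _) (by positivity)
      _ = _ := by ring

end MahlerAux

open MahlerAux in
theorem eval_ge_of_roots_far {z : ℝ} (hz : 0 < z ∧ z < 1) : ∃ C : ℝ, 0 < C ∧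
    ∀ (D : ℤ[X]) (N : ℕ) (B δ : ℝ), D ≠ 0 → D.natDegree ≤ N → l1 D ≤ B → 0 < δ → δ ≤ 1 →
      (∀ η : ℂ, aeval η D = 0 → η ≠ 0 → δ ≤ ‖(z : ℂ) - η‖) →
      Real.exp (-(C * N + C * Real.log B * Real.log (1 / δ))) ≤ |aeval z D| := by
  obtain ⟨hz0, hz1⟩ := hz
  set r : ℝ := (1 + z) / 2 with hr
  have hzr : z < r := by rw [hr]; linarith
  have hr1 : r < 1 := by rw [hr]; linarith
  have hr0 : 0 < r := hz0.trans hzr
  set κ : ℝ := min z (1 - z / r) with hκ
  have hκ0 : 0 < κ := lt_min hz0 (by rw [sub_pos, div_lt_one hr0]; exact hzr)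
  have hκ1 : κ ≤ 1 := (min_le_left _ _).trans hz1.le
  have hlr : 0 < -Real.log r := neg_pos.2 (Real.log_neg hr0 hr1)
  have hlκ : 0 ≤ -Real.log κ := neg_nonneg.2 (Real.log_nonpos hκ0.le hκ1)
  refine ⟨-Real.log κ + 1 / -Real.log r, by positivity, fun D N B δ hD hN hB hδ hδ1 hfar => ?_⟩
  set p : ℂ[X] := D.map (Int.castRingHom ℂ) with hp
  have hp0 : p ≠ 0 := (Polynomial.map_ne_zero_iff (Int.castRingHom ℂ).injective_int).2 hD
  have hsp : p.Splits := IsAlgClosed.splits p
  have hcard : p.roots.card ≤ N :=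
    (card_roots' p).trans (natDegree_map_le.trans hN)
  have hT : 1 ≤ ‖p.leadingCoeff‖ * (p.roots.map wt).prod := by
    rw [← norm_trail_prod, ← hsp.eq_prod_roots]
    exact one_le_trail hD
  set s : ℕ := (p.roots.map (sm r)).sum with hs
  have hB1 : 1 ≤ B := (one_le_l1 hD).trans hB
  have hBr : 1 ≤ B * r ^ s := by
    refine hT.trans ((mul_le_mul_of_nonneg_left (prod_wt_le hr0.le p.roots) (norm_nonneg _)).trans ?_)
    rw [← mul_assoc, ← mahlerMeasure_eq_leadingCoeff_mul_prod_roots]
    exact mul_le_mul_of_nonneg_right ((mahler_le_l1 D).trans hB) (by positivity)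
  have hsl : (s : ℝ) ≤ 1 / -Real.log r * Real.log B := by
    have := Real.log_nonneg hBr
    rw [Real.log_mul (by positivity) (by positivity), Real.log_pow] at this
    rw [div_mul_eq_mul_div, one_mul, le_div_iff₀ hlr]
    linarith
  have hval : |aeval z D| = ‖p.leadingCoeff‖ * ‖(p.roots.map ((z : ℂ) - ·)).prod‖ := by
    rw [← norm_mul, ← hsp.eval_eq_prod_roots, ← Real.norm_eq_abs, ← Complex.norm_real, ← aeval_ofReal,
      aeval_def, ← eval_map]
    rfl
  have hge := prod_ge hz0 hzr hr1.le hκ0.le (min_le_left _ _) (min_le_right _ _) hδ.le p.roots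
    fun η hη h0 => hfar η (by
      have := (mem_roots hp0).1 hη
      rwa [aeval_def, ← eval_map]) h0
  have hlδ : 0 ≤ Real.log (1 / δ) := Real.log_nonneg (by rw [le_div_iff₀ hδ]; linarith)
  have hlB : 0 ≤ Real.log B := Real.log_nonneg hB1
  have e1 : κ ^ p.roots.card * δ ^ s =
      Real.exp (-(-Real.log κ * p.roots.card + s * Real.log (1 / δ))) := by
    rw [one_div, Real.log_inv, show -(-Real.log κ * p.roots.card + s * -Real.log δ) =
      p.roots.card * Real.log κ + s * Real.log δ by ring, Real.exp_add, Real.exp_nat_mul,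
      Real.exp_nat_mul, Real.exp_log hκ0, Real.exp_log hδ]
  calc _ ≤ κ ^ p.roots.card * δ ^ s := by
        rw [e1]
        refine Real.exp_le_exp.2 (neg_le_neg (add_le_add ?_ ?_))
        · have h1 : (p.roots.card : ℝ) ≤ N := by exact_mod_cast hcard
          have h2 : 0 ≤ 1 / -Real.log r * N := by positivity
          nlinarith
        · refine mul_le_mul_of_nonneg_right (hsl.trans ?_) hlδ
          nlinarith
    _ ≤ (‖p.leadingCoeff‖ * (p.roots.map wt).prod) * (κ ^ p.roots.card * δ ^ s) :=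
        le_mul_of_one_le_left (by positivity) hT
    _ = ‖p.leadingCoeff‖ * (κ ^ p.roots.card * (p.roots.map wt).prod * δ ^ s) := by ring
    _ ≤ _ := by
        rw [hval]
        exact mul_le_mul_of_nonneg_left hge (norm_nonneg _)

open MahlerAux in
theorem liouville {D₀ : ℤ[X]} {η : ℂ} (h0 : D₀ ≠ 0) (hη : aeval η D₀ = 0) {N₀ : ℕ} {B₀ : ℝ}
    (hN : D₀.natDegree ≤ N₀) (hB : l1 D₀ ≤ B₀) (N : ℕ) {B : ℝ} (h1 : 1 ≤ B) :
    Liou η N B (N₀ * Real.log B + N * Real.log B₀) := by
  intro G hGN hGB hG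
  obtain ⟨P, hP, ⟨Q, hQ⟩, hPη⟩ := exists_irred D₀ h0 hη
  have hQ0 : Q ≠ 0 := by
    rintro rfl
    exact h0 (by rw [hQ, mul_zero])
  have hres := res_ne_zero hP hPη hG
  set p : ℂ[X] := P.map (Int.castRingHom ℂ) with hp
  have hp0 : p ≠ 0 := (Polynomial.map_ne_zero_iff (Int.castRingHom ℂ).injective_int).2 hP.ne_zero
  have hsp : p.Splits := IsAlgClosed.splits p
  have h2 := resultant_eq_prod_eval p (G.map (Int.castRingHom ℂ)) G.natDegree natDegree_map_le hsp
  rw [hp, natDegree_map_eq_of_injective (Int.castRingHom ℂ).injective_int, resultant_map_map, ← hp] at h2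
  have h3 : 1 ≤ ‖p.leadingCoeff ^ G.natDegree * (p.roots.map (G.map (Int.castRingHom ℂ)).eval).prod‖ := by
    rw [← h2, eq_intCast, Complex.norm_intCast]
    exact_mod_cast Int.one_le_abs hres
  have hmem : η ∈ p.roots := (mem_roots hp0).2 (by
    rw [aeval_def, ← eval_map] at hPη
    exact hPη)
  obtain ⟨s, hs⟩ := Multiset.exists_cons_of_mem hmem
  have hM : ‖p.leadingCoeff‖ * (s.map fun a => max 1 ‖a‖).prod ≤ B₀ := by
    have h4 : p.mahlerMeasure ≤ B₀ := by
      refine le_trans ?_ ((mahler_le_l1 D₀).trans hB)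
      rw [hQ, Polynomial.map_mul, mahlerMeasure_mul]
      exact le_mul_of_one_le_right (mahlerMeasure_nonneg _) (one_le_mahlerMeasure_of_ne_zero hQ0)
    refine le_trans ?_ h4
    rw [mahlerMeasure_eq_leadingCoeff_mul_prod_roots, hs, Multiset.map_cons, Multiset.prod_cons]
    refine mul_le_mul_of_nonneg_left (le_mul_of_one_le_left ?_ (le_max_left _ _)) (norm_nonneg _)
    exact Multiset.prod_nonneg fun a ha => by
      obtain ⟨b, _, rfl⟩ := Multiset.mem_map.1 ha
      positivity
  have hB0 : 1 ≤ B₀ := (one_le_l1 h0).trans hB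
  have hcard : s.card ≤ N₀ := by
    have h4 : p.roots.card ≤ N₀ := (card_roots' p).trans (natDegree_map_le.trans
      ((natDegree_le_of_dvd ⟨Q, hQ⟩ h0).trans hN))
    rw [hs, Multiset.card_cons] at h4
    omega
  have hprod : 0 ≤ (s.map fun a => max 1 ‖a‖).prod := Multiset.prod_nonneg fun a ha => by
    obtain ⟨b, _, rfl⟩ := Multiset.mem_map.1 ha
    positivity
  have h5 : 1 ≤ ‖aeval η G‖ * (B ^ N₀ * B₀ ^ N) := by
    rw [hs, Multiset.map_cons, Multiset.prod_cons, norm_mul, norm_mul, norm_pow, mul_left_comm] at h3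
    refine h3.trans (mul_le_mul (le_of_eq (by rw [aeval_def, ← eval_map]; rfl)) ?_ (by positivity)
      (norm_nonneg _))
    refine (mul_le_mul_of_nonneg_left (prod_eval_le G s) (by positivity)).trans ?_
    rw [mul_left_comm, ← mul_pow]
    refine mul_le_mul ?_ ?_ (by positivity) (by positivity)
    · exact (pow_le_pow_left₀ (l1_nonneg G) hGB _).trans (pow_le_pow_right₀ h1 hcard)
    · exact (pow_le_pow_left₀ (by positivity) hM _).trans (pow_le_pow_right₀ hB0 hGN)
  rw [Real.exp_neg, Real.exp_add, Real.exp_nat_mul, Real.exp_nat_mul, Real.exp_log (by positivity),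
    Real.exp_log (by positivity), inv_le_iff_one_le_mul₀ (by positivity)]
  exact h5

end Crest.Agent.R98
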