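import Crest.Agent.R98.TreeA

/-!
# R98/TreeEx: existence of an adapted tree
`exists_split`: let `[a, a + D]` be the hull of the support (`D > 0`), `y₀` a median (mass of `≤ y₀` and of `≥ y₀` both
`≥ 1/2`). By the reflection `x ↦ -x` (or a symmetric argument) assume `y₀ ≤ a + D/2`. Put `b_k = y₀ + D/8 * (2 - 2^{-k})`,
`v_k = pr ν (Ioi b_k)`: `0 < ν (a + D) ≤ v_k ≤ 1/2`, decreasing. Let `k` be minimal with `v_k² ≤ v_{k+1}` (exists: otherwise
`v_k ≤ 2^{-2^k} → 0`); minimality gives `v_k ≤ 2^{-2^k}`. Take `b = b_{k+1}`, `v = v_{k+1}`, `L = ν(·| > b)`, `H = ν(·| ≤ b)`,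
`Nr = Ioc b_k b_{k+1}`; `b_{k+1} - b_k = D/(16·2^k) ≥ D log 2/(16 log (1/v)) ≥ D/(24 log (1/v))`;
`pr H Nr ≤ v_k/(1-v) ≤ 2√v`. `exists_tree`: strong induction on the cardinality of the support
(statement: `∃ T, SV T ∧ law T = ν ∧ lab T ≤ diameter`, i.e. `∀ D', (∀ y y' ∈ supp, |y-y'| ≤ D') → lab T ≤ D'`).
-/

set_option autoImplicit false

namespace Crest.Agent.R98

open Classical in
/-- conditioning on a set -/
noncomputable def teCnd (ν : ℝ →₀ ℝ) (A : Set ℝ) : ℝ →₀ ℝ := (pr ν A)⁻¹ • ν.filter (· ∈ A)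

theorem te_mem {ν : ℝ →₀ ℝ} {A : Set ℝ} {y : ℝ} (hy : y ∈ (teCnd ν A).support) :
    y ∈ ν.support ∧ y ∈ A := by
  classical
  have := Finsupp.support_smul hy
  rw [Finsupp.support_filter] at this
  exact Finset.mem_filter.1 this

theorem te_pr (ν : ℝ →₀ ℝ) (A B : Set ℝ) : pr (teCnd ν A) B = pr ν (A ∩ B) / pr ν A := by
  classical
  rw [pr, ex_of_subset _ _ fun y hy => (te_mem hy).1, pr, ex_def, Finset.sum_div]
  refine Finset.sum_congr rfl fun y _ => ?_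
  by_cases hA : y ∈ A <;> by_cases hB : y ∈ B <;>
    simp [teCnd, hA, hB, div_eq_inv_mul]

theorem te_isP {ν : ℝ →₀ ℝ} (h : IsP ν) {A : Set ℝ} (hA : 0 < pr ν A) : IsP (teCnd ν A) := by
  classical
  refine ⟨fun y => ?_, ?_⟩
  · simp only [teCnd, Finsupp.smul_apply, Finsupp.filter_apply, smul_eq_mul]
    have := h.nonneg y
    split_ifs <;> positivity
  · have := te_pr ν A Set.univ
    rw [Set.inter_univ, div_self hA.ne', pr, Set.indicator_univ] at this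
    exact this

theorem te_mix {ν : ℝ →₀ ℝ} (h : IsP ν) {A : Set ℝ} (h0 : 0 < pr ν A) (h1 : pr ν A < 1) :
    ν = mix (pr ν A) (teCnd ν A) (teCnd ν Aᶜ) := by
  classical
  have h2 : 1 - pr ν A ≠ 0 := by linarith
  ext y
  by_cases hA : y ∈ A
  · simp [mix, teCnd, hA, h0.ne']
  · simp [mix, teCnd, hA, h.pr_compl, h2]

theorem te_seq {v : ℕ → ℝ} {m : ℝ} (hm : 0 < m) (h1 : ∀ k, m ≤ v k) (h0 : v 0 ≤ 1 / 2) :
    ∃ k, v k ≤ (1 / 2) ^ (2 ^ k) ∧ v k ^ 2 ≤ v (k + 1) := by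
  by_contra hc
  push Not at hc
  have h2 : ∀ k, v k ≤ (1 / 2) ^ (2 ^ k) := fun k => by
    induction k with
    | zero => simpa using h0
    | succ k ih =>
      refine (hc k ih).le.trans ?_
      rw [pow_succ 2 k, pow_mul]
      exact pow_le_pow_left₀ (hm.le.trans (h1 k)) ih 2
  obtain ⟨n, hn⟩ := exists_pow_lt_of_lt_one hm (show (1 / 2 : ℝ) < 1 by norm_num)
  have h3 : ((1 : ℝ) / 2) ^ (2 ^ n) ≤ (1 / 2) ^ n :=
    pow_le_pow_of_le_one (by norm_num) (by norm_num) Nat.lt_two_pow_self.le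
  linarith [h1 n, h2 n]

theorem te_split {ν : ℝ →₀ ℝ} (h : IsP ν) {φ : ℝ → ℝ} (hφ : ∀ y y', |y - y'| = |φ y - φ y'|)
    {a D : ℝ} (hD : 0 < D) (hb : ∀ y ∈ ν.support, a ≤ φ y ∧ φ y ≤ a + D) {y₁ : ℝ}
    (hy₁ : y₁ ∈ ν.support) (hy₁' : φ y₁ = a + D) (hmed : 1 / 2 ≤ pr ν {y | φ y ≤ a + D / 2}) :
    ∃ (v b : ℝ) (Nr : Set ℝ) (L H : ℝ →₀ ℝ), IsP L ∧ IsP H ∧ ν = mix v L H ∧ 0 < v ∧ v ≤ 1 / 2 ∧
      (∀ y ∈ L.support, ∀ y' ∈ L.support, |y - y'| ≤ 7 / 8 * D) ∧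
      (∀ y ∈ H.support, ∀ y' ∈ H.support, |y - y'| ≤ 7 / 8 * D) ∧
      (∀ y ∈ L.support, ∀ y' ∈ H.support, y' ∉ Nr → D / (24 * Real.log (1 / v)) ≤ |y - y'|) ∧
      pr H Nr ≤ 2 * Real.sqrt v ∧
      1 / 2 ≤ pr H {y' | ∀ y ∈ L.support, D / 8 ≤ |y - y'|} ∧
      (∀ y ∈ L.support, b < φ y) ∧ (∀ y ∈ H.support, φ y ≤ b) ∧ a + D / 8 ≤ b ∧
      b + D / 8 ≤ a + D := by
  set β : ℕ → ℝ := fun k => a + D / 2 + D / 8 * (2 - (1 / 2) ^ k) with hβ
  have hβ1 : ∀ k, a + D / 2 + D / 8 ≤ β k ∧ β k ≤ a + D / 2 + D / 4 := fun k => by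
    have h1 : ((1 : ℝ) / 2) ^ k ≤ 1 := pow_le_one₀ (by norm_num) (by norm_num)
    have h2 : (0 : ℝ) < (1 / 2) ^ k := by positivity
    simp only [hβ]
    constructor <;> nlinarith
  have hβ2 : ∀ k, β (k + 1) - β k = D / 16 * (1 / 2) ^ k := fun k => by
    simp only [hβ, pow_succ]
    ring
  set w : ℕ → ℝ := fun k => pr ν {y | β k < φ y} with hw
  have hw1 : ∀ k, ν y₁ ≤ w k := fun k => h.le_pr (by
    change β k < φ y₁
    linarith [(hβ1 k).2])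
  have hw2 : ∀ k, w k ≤ 1 / 2 := fun k => by
    have h1 : w k ≤ pr ν {y | φ y ≤ a + D / 2}ᶜ := h.pr_mono fun y _ hy => by
      change β k < φ y at hy
      change ¬ φ y ≤ a + D / 2
      linarith [(hβ1 k).1, not_le.2 (show a + D / 2 < φ y by linarith [(hβ1 k).1])]
    rw [h.pr_compl] at h1
    linarith
  obtain ⟨k, hk1, hk2⟩ := te_seq (h.pos hy₁) hw1 (hw2 0)
  have hv0 : 0 < w (k + 1) := (h.pos hy₁).trans_le (hw1 _)
  have hv1 := hw2 (k + 1)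
  have hc : pr ν {y | β (k + 1) < φ y}ᶜ = 1 - w (k + 1) := h.pr_compl _
  have hc0 : 0 < pr ν {y | β (k + 1) < φ y}ᶜ := by rw [hc]; linarith
  have hL : ∀ y ∈ (teCnd ν {y | β (k + 1) < φ y}).support, β (k + 1) < φ y ∧ φ y ≤ a + D :=
    fun y hy => ⟨(te_mem hy).2, (hb y (te_mem hy).1).2⟩
  have hH : ∀ y ∈ (teCnd ν {y | β (k + 1) < φ y}ᶜ).support, a ≤ φ y ∧ φ y ≤ β (k + 1) :=
    fun y hy => ⟨(hb y (te_mem hy).1).1, not_lt.1 (te_mem hy).2⟩
  obtain ⟨b1, b2⟩ := hβ1 (k + 1)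
  refine ⟨w (k + 1), β (k + 1), {y | β k < φ y}, teCnd ν {y | β (k + 1) < φ y},
    teCnd ν {y | β (k + 1) < φ y}ᶜ, te_isP h hv0, te_isP h hc0, te_mix h hv0 (by linarith), hv0, hv1,
    fun y hy y' hy' => ?_, fun y hy y' hy' => ?_, fun y hy y' hy' hN => ?_, ?_, ?_,
    fun y hy => (hL y hy).1, fun y hy => (hH y hy).2, by linarith, by linarith⟩
  · rw [hφ, abs_le]
    constructor <;> linarith [hL y hy, hL y' hy', (hL y hy).1, (hL y hy).2, (hL y' hy').1, (hL y' hy').2]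
  · rw [hφ, abs_le]
    constructor <;> linarith [(hH y hy).1, (hH y hy).2, (hH y' hy').1, (hH y' hy').2]
  · have h1 : φ y' ≤ β k := not_lt.1 hN
    have h2 := (hL y hy).1
    have h3 : w (k + 1) ≤ w k := h.pr_mono fun z _ hz => by
      change β (k + 1) < φ z at hz
      change β k < φ z
      have := hβ2 k
      have : 0 < D / 16 * (1 / 2) ^ k := by positivity
      linarith
    have h4 : (2 : ℝ) ^ k * Real.log 2 ≤ Real.log (1 / w (k + 1)) := by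
      have h5 := Real.log_le_log hv0 (h3.trans hk1)
      rw [Real.log_pow, one_div, Real.log_inv] at h5
      rw [one_div, Real.log_inv]
      push_cast at h5
      linarith
    have h5 : (2 : ℝ) / 3 ≤ Real.log 2 := by linarith [Real.log_two_gt_d9]
    have h6 : (0 : ℝ) < 2 ^ k := by positivity
    have h7 : D / (24 * Real.log (1 / w (k + 1))) ≤ D / (16 * 2 ^ k) :=
      div_le_div_of_nonneg_left hD.le (by positivity) (by nlinarith)
    have h8 : D / (16 * 2 ^ k) = D / 16 * (1 / 2) ^ k := by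
      rw [one_div, inv_pow]
      field_simp
    rw [hφ]
    linarith [le_abs_self (φ y - φ y'), hβ2 k]
  · rw [te_pr, div_le_iff₀ hc0, hc]
    have h1 : pr ν ({y | β (k + 1) < φ y}ᶜ ∩ {y | β k < φ y}) ≤ w k :=
      h.pr_mono fun y _ hy => hy.2
    have h2 : w k ≤ √(w (k + 1)) := Real.le_sqrt_of_sq_le hk2
    have h3 := Real.sqrt_nonneg (w (k + 1))
    nlinarith
  · rw [te_pr, le_div_iff₀ hc0, hc]
    refine le_trans (by linarith) (hmed.trans (h.pr_mono fun y' _ hy' => ?_))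
    change φ y' ≤ a + D / 2 at hy'
    refine ⟨(not_lt.2 (by linarith) : ¬ β (k + 1) < φ y'), fun y hy => ?_⟩
    rw [hφ]
    linarith [le_abs_self (φ y - φ y'), (hL y hy).1]

theorem exists_split {ν : ℝ →₀ ℝ} (h : IsP ν) (h2 : 2 ≤ ν.support.card) :
    ∃ (D v b : ℝ) (Nr : Set ℝ) (L H : ℝ →₀ ℝ), IsP L ∧ IsP H ∧ ν = mix v L H ∧ 0 < D ∧ 0 < v ∧ v ≤ 1 / 2 ∧
      (∀ y ∈ ν.support, ∀ y' ∈ ν.support, |y - y'| ≤ D) ∧
      (∃ y ∈ ν.support, ∃ y' ∈ ν.support, D = |y - y'|) ∧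
      (∀ y ∈ L.support, ∀ y' ∈ L.support, |y - y'| ≤ 7 / 8 * D) ∧
      (∀ y ∈ H.support, ∀ y' ∈ H.support, |y - y'| ≤ 7 / 8 * D) ∧
      (∀ y ∈ L.support, ∀ y' ∈ H.support, y' ∉ Nr → D / (24 * Real.log (1 / v)) ≤ |y - y'|) ∧
      pr H Nr ≤ 2 * Real.sqrt v ∧
      1 / 2 ≤ pr H {y' | ∀ y ∈ L.support, D / 8 ≤ |y - y'|} ∧
      (((∀ y ∈ L.support, b < y) ∧ ∀ y ∈ H.support, y ≤ b) ∨
        ((∀ y ∈ L.support, y < b) ∧ ∀ y ∈ H.support, b ≤ y)) ∧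
      (∃ y ∈ ν.support, y + D / 8 ≤ b) ∧ (∃ y ∈ ν.support, b + D / 8 ≤ y) := by
  have hne := h.support_nonempty
  have ha := ν.support.min'_mem hne
  have hb := ν.support.max'_mem hne
  have hab := ν.support.min'_lt_max'_of_card (by omega : 1 < ν.support.card)
  have h1 : ∀ y ∈ ν.support, ν.support.min' hne ≤ y ∧ y ≤ ν.support.max' hne :=
    fun y hy => ⟨Finset.min'_le _ _ hy, Finset.le_max' _ _ hy⟩
  set a := ν.support.min' hne
  set c := ν.support.max' hne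
  have hD : 0 < c - a := sub_pos.2 hab
  have hdiam : ∀ y ∈ ν.support, ∀ y' ∈ ν.support, |y - y'| ≤ c - a := fun y hy y' hy' => by
    rw [abs_le]
    constructor <;> linarith [(h1 y hy).1, (h1 y hy).2, (h1 y' hy').1, (h1 y' hy').2]
  have hex : ∃ y ∈ ν.support, ∃ y' ∈ ν.support, c - a = |y - y'| :=
    ⟨c, hb, a, ha, (abs_of_pos hD).symm⟩
  rcases le_total (1 / 2) (pr ν {y | y ≤ a + (c - a) / 2}) with hm | hm
  · obtain ⟨v, b, Nr, L, H, q1, q2, q3, q4, q5, q6, q7, q8, q9, q10, q11, q12, q13, q14⟩ :=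
      te_split h (φ := fun y => y) (fun _ _ => rfl) hD
        (fun y hy => ⟨(h1 y hy).1, by linarith [(h1 y hy).2]⟩) hb (by ring) hm
    exact ⟨c - a, v, b, Nr, L, H, q1, q2, q3, hD, q4, q5, hdiam, hex, q6, q7, q8, q9, q10,
      Or.inl ⟨q11, q12⟩, ⟨a, ha, q13⟩, ⟨c, hb, by linarith⟩⟩
  · have hm' : 1 / 2 ≤ pr ν {y | -y ≤ -c + (c - a) / 2} := by
      have h3 := h.pr_compl {y | y ≤ a + (c - a) / 2}
      refine le_trans (by linarith) (h.pr_mono (A := {y | y ≤ a + (c - a) / 2}ᶜ) fun y _ hy => ?_)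
      have h4 : a + (c - a) / 2 < y := not_le.1 hy
      change -y ≤ -c + (c - a) / 2
      linarith
    obtain ⟨v, b, Nr, L, H, q1, q2, q3, q4, q5, q6, q7, q8, q9, q10, q11, q12, q13, q14⟩ :=
      te_split h (φ := fun y => -y) (fun y y' => by rw [neg_sub_neg, abs_sub_comm]) hD
        (fun y hy => ⟨by linarith [(h1 y hy).2], by linarith [(h1 y hy).1]⟩) ha (by ring) hm'
    exact ⟨c - a, v, -b, Nr, L, H, q1, q2, q3, hD, q4, q5, hdiam, hex, q6, q7, q8, q9, q10,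
      Or.inr ⟨fun y hy => by linarith [q11 y hy], fun y hy => by linarith [q12 y hy]⟩,
      ⟨a, ha, by linarith⟩, ⟨c, hb, by linarith⟩⟩

theorem te_tree (n : ℕ) : ∀ ν : ℝ →₀ ℝ, ν.support.card = n → IsP ν → ∃ T : Tr, T.SV ∧ T.law = ν ∧
    ∀ D' : ℝ, (∀ y ∈ ν.support, ∀ y' ∈ ν.support, |y - y'| ≤ D') → T.lab ≤ D' := by
  induction n using Nat.strong_induction_on with
  | _ n ih =>
  intro ν hn h
  rcases lt_or_ge ν.support.card 2 with h2 | h2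
  · have h3 : ν.support.card = 1 := by
      have := h.support_nonempty.card_pos
      omega
    obtain ⟨y, hy⟩ := Finset.card_eq_one.1 h3
    have h4 : ν y = 1 := by
      have := h.mass
      rw [ex_def, hy] at this
      simpa using this
    have h5 : ν = pur y := by
      rw [(Finsupp.support_eq_singleton.1 hy).2, h4]
      rfl
    refine ⟨.leaf y, ⟨trivial, trivial⟩, h5.symm, fun D' hD' => ?_⟩
    have h6 : y ∈ ν.support := by rw [hy]; exact Finset.mem_singleton_self y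
    simpa [Tr.lab] using hD' y h6 y h6
  obtain ⟨D, v, b, Nr, L, H, q1, q2, q3, hD, q4, q5, hdiam, hex, q6, q7, q8, q9, q10, q11, q12, q13⟩ :=
    exists_split h h2
  have hv1 : v < 1 := by linarith
  have hL : L.support ⊆ ν.support := fun y hy => by
    rw [q3]
    exact (mem_support_mix q1 q2 q4 hv1).2 (Or.inl hy)
  have hH : H.support ⊆ ν.support := fun y hy => by
    rw [q3]
    exact (mem_support_mix q1 q2 q4 hv1).2 (Or.inr hy)
  have hdis : ∀ y, y ∈ L.support → y ∈ H.support → False := fun y hy hy' => by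
    rcases q11 with q | q <;> linarith [q.1 y hy, q.2 y hy']
  obtain ⟨yL, hyL⟩ := q1.support_nonempty
  obtain ⟨yH, hyH⟩ := q2.support_nonempty
  have cL : L.support.card < n := hn ▸ Finset.card_lt_card
    ((Finset.ssubset_iff_of_subset hL).2 ⟨yH, hH hyH, fun hy => hdis _ hy hyH⟩)
  have cH : H.support.card < n := hn ▸ Finset.card_lt_card
    ((Finset.ssubset_iff_of_subset hH).2 ⟨yL, hL hyL, fun hy => hdis _ hyL hy⟩)
  obtain ⟨TL, ⟨l1, l2⟩, rfl, l3⟩ := ih _ cL L rfl q1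
  obtain ⟨TH, ⟨r1, r2⟩, rfl, r3⟩ := ih _ cH H rfl q2
  refine ⟨.node D v b Nr TL TH, ⟨⟨⟨hD, q4, q5, l3 _ q6, r3 _ q7,
    fun y hy y' hy' => hdiam y (hL hy) y' (hL hy'), fun y hy y' hy' => hdiam y (hL hy) y' (hH hy'),
    fun y hy y' hy' => hdiam y (hH hy) y' (hH hy'), q8⟩, l1, r1⟩,
    ⟨⟨q9, q10, q11, q3 ▸ q12, q3 ▸ q13, q3 ▸ hex⟩, l2, r2⟩⟩, q3.symm, fun D' hD' => ?_⟩
  obtain ⟨y, hy, y', hy', e⟩ := hex
  exact e.trans_le (hD' y hy y' hy')

theorem exists_tree {ν : ℝ →₀ ℝ} (h : IsP ν) : ∃ T : Tr, T.SV ∧ T.law = ν := by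
  obtain ⟨T, h1, h2, -⟩ := te_tree _ ν rfl h
  exact ⟨T, h1, h2⟩

/-- labels of an adapted tree are distances between atoms -/
theorem Tr.SV.all_dist {T : Tr} (h : T.SV) :
    T.All fun S => ∃ y ∈ T.law.support, ∃ y' ∈ T.law.support, S.lab = |y - y'| := by
  refine Tr.All.mono (fun S hS => ?_) (h.2.and h.1.all_support)
  obtain ⟨h1, h2⟩ := hS
  cases S with
  | leaf y =>
    have h3 := h2 (mem_support_pur.2 rfl)
    exact ⟨y, h3, y, h3, by simp [Tr.lab]⟩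
  | node D v b Nr L H =>
    obtain ⟨-, -, -, -, -, y, hy, y', hy', e⟩ := h1
    exact ⟨y, h2 hy, y', h2 hy', e⟩

end Crest.Agent.R98
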