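import Crest.Agent.R98.Iid
import Crest.Agent.R98.TreeEx

/-!
# R98/ModelA: basic facts about models (list inductions)
-/

set_option autoImplicit false

namespace Crest.Agent.R98

variable {Ω ι : Type*} (M : Mod Ω ι) (σ : Sys Ω ι)

theorem isP_Om (n : ℕ) : IsP (M.Om n) := by
  exact M.hP.iid n

theorem isP_Cw (ω : List Ω) : IsP (M.Cw ω) := by
  induction ω with
  | nil => exact isP_pur _
  | cons o ω ih => exact (M.hτ o).bnd fun i _ => ih.push _

theorem isP_nu (ω : List Ω) : IsP (nu M σ ω) := by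
  exact (isP_Cw M ω).push _

theorem mem_support_Om {n : ℕ} {ω : List Ω} : ω ∈ (M.Om n).support ↔ ω.length = n := by
  unfold Mod.Om
  rw [M.hP.mem_support_iid]
  exact ⟨fun h => h.1, fun h => ⟨h, fun a _ => Finsupp.mem_support_iff.2 (M.hpos a).ne'⟩⟩

theorem ex_Om_zero (F : List Ω → ℝ) : ex (M.Om 0) F = F [] := by
  exact ex_iid_zero _ _

theorem ex_Om_succ (n : ℕ) (F : List Ω → ℝ) :
    ex (M.Om (n + 1)) F = ex M.P fun o => ex (M.Om n) fun ω => F (o :: ω) := by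
  exact ex_iid_succ _ _ _

theorem ex_Om_append (n n' : ℕ) (F : List Ω → ℝ) :
    ex (M.Om (n + n')) F = ex (M.Om n) fun ω => ex (M.Om n') fun ω' => F (ω ++ ω') := by
  exact ex_iid_append _ _ _ _

theorem ex_Cw_cons (o : Ω) (ω : List Ω) (F : List ι → ℝ) :
    ex (M.Cw (o :: ω)) F = ex (M.τ o) fun i => ex (M.Cw ω) fun u => F (i :: u) := by
  rw [Mod.Cw, ex_bnd]
  simp only [ex_push]

theorem mem_Cw_nil {u : List ι} : u ∈ (M.Cw []).support ↔ u = [] := by
  rw [Mod.Cw, mem_support_pur]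

theorem mem_Cw_cons {o : Ω} {ω : List Ω} {u : List ι} :
    u ∈ (M.Cw (o :: ω)).support ↔ ∃ i ∈ (M.τ o).support, ∃ w ∈ (M.Cw ω).support, i :: w = u := by
  rw [Mod.Cw, (M.hτ o).mem_support_bnd fun i _ => (isP_Cw M ω).push _]
  simp only [(isP_Cw M ω).mem_support_push]

theorem ex_Cw_append (ω ω' : List Ω) (F : List ι → ℝ) :
    ex (M.Cw (ω ++ ω')) F = ex (M.Cw ω) fun u => ex (M.Cw ω') fun v => F (u ++ v) := by
  induction ω generalizing F with
  | nil => simp [Mod.Cw]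
  | cons o ω ih =>
    rw [List.cons_append, ex_Cw_cons, ex_Cw_cons]
    simp only [ih, List.cons_append]

theorem Cw_append (ω ω' : List Ω) :
    M.Cw (ω ++ ω') = push (fun p : List ι × List ι => p.1 ++ p.2) (joint (M.Cw ω) fun _ => M.Cw ω') := by
  refine ext_ex fun F => ?_
  rw [ex_Cw_append, ex_push, ex_joint]

theorem length_of_mem_Cw {ω : List Ω} {u : List ι} (h : u ∈ (M.Cw ω).support) : u.length = ω.length := by
  induction ω generalizing u with
  | nil => rw [(mem_Cw_nil M).1 h]; rfl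
  | cons o ω ih =>
    obtain ⟨i, -, w, hw, rfl⟩ := (mem_Cw_cons M).1 h
    simp [ih hw]

theorem append_mem_Cw {ω ω' : List Ω} {u v : List ι} (h : u ∈ (M.Cw ω).support)
    (h' : v ∈ (M.Cw ω').support) : u ++ v ∈ (M.Cw (ω ++ ω')).support := by
  induction ω generalizing u with
  | nil => rw [(mem_Cw_nil M).1 h]; exact h'
  | cons o ω ih =>
    obtain ⟨i, hi, w, hw, rfl⟩ := (mem_Cw_cons M).1 h
    exact (mem_Cw_cons M).2 ⟨i, hi, w ++ v, ih hw, rfl⟩

theorem take_mem_Cw {ω : List Ω} {u : List ι} (h : u ∈ (M.Cw ω).support) (a : ℕ) :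
    u.take a ∈ (M.Cw (ω.take a)).support := by
  induction ω generalizing u a with
  | nil => rw [(mem_Cw_nil M).1 h]; simp only [List.take_nil, List.drop_nil, mem_Cw_nil]
  | cons o ω ih =>
    obtain ⟨i, hi, w, hw, rfl⟩ := (mem_Cw_cons M).1 h
    cases a with
    | zero => simp only [List.take_zero, mem_Cw_nil]
    | succ a => exact (mem_Cw_cons M).2 ⟨i, hi, w.take a, ih hw a, rfl⟩

theorem drop_mem_Cw {ω : List Ω} {u : List ι} (h : u ∈ (M.Cw ω).support) (a : ℕ) :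
    u.drop a ∈ (M.Cw (ω.drop a)).support := by
  induction ω generalizing u a with
  | nil => rw [(mem_Cw_nil M).1 h]; simp only [List.take_nil, List.drop_nil, mem_Cw_nil]
  | cons o ω ih =>
    cases a with
    | zero => exact h
    | succ a =>
      obtain ⟨i, hi, w, hw, rfl⟩ := (mem_Cw_cons M).1 h
      exact ih hw a

theorem mem_support_nu {ω : List Ω} {y : ℝ} :
    y ∈ (nu M σ ω).support ↔ ∃ u ∈ (M.Cw ω).support, σ.X ω u = y := by
  exact (isP_Cw M ω).mem_support_push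

@[simp] theorem cc_nil : σ.cc [] = 1 := by
  simp [Sys.cc]

theorem cc_cons (o : Ω) (ω : List Ω) : σ.cc (o :: ω) = σ.ρ o * σ.cc ω := by
  simp [Sys.cc]

theorem cc_append (ω ω' : List Ω) : σ.cc (ω ++ ω') = σ.cc ω * σ.cc ω' := by
  simp [Sys.cc]

theorem cc_ne_zero (ω : List Ω) : σ.cc ω ≠ 0 := by
  induction ω with
  | nil => simp
  | cons o ω ih => rw [cc_cons]; exact mul_ne_zero (σ.hρ o).1 ih

theorem abs_cc_pos (ω : List Ω) : 0 < |σ.cc ω| := by
  exact abs_pos.2 (cc_ne_zero σ ω)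

theorem abs_cc_le_one (ω : List Ω) : |σ.cc ω| ≤ 1 := by
  induction ω with
  | nil => simp
  | cons o ω ih =>
    rw [cc_cons, abs_mul]
    exact mul_le_one₀ (σ.hρ o).2.le (abs_nonneg _) ih

theorem neg_log_cc (ω : List Ω) :
    -Real.log |σ.cc ω| = (ω.map fun o => -Real.log |σ.ρ o|).sum := by
  induction ω with
  | nil => simp
  | cons o ω ih =>
    rw [cc_cons, abs_mul, Real.log_mul (abs_pos.2 (σ.hρ o).1).ne' (abs_cc_pos σ ω).ne',
      List.map_cons, List.sum_cons, ← ih]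
    ring

theorem X_append {ω : List Ω} {u : List ι} (h : u.length = ω.length) (ω' : List Ω) (v : List ι) :
    σ.X (ω ++ ω') (u ++ v) = σ.X ω u + σ.cc ω * σ.X ω' v := by
  induction ω generalizing u with
  | nil =>
    have : u = [] := List.length_eq_zero_iff.1 h
    subst this
    simp [Sys.X]
  | cons o ω ih =>
    cases u with
    | nil => simp at h
    | cons i w =>
      have h' : w.length = ω.length := by simpa using h
      simp only [List.cons_append, Sys.X, ih h', cc_cons]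
      ring

theorem X_take_drop {ω : List Ω} {u : List ι} (h : u.length = ω.length) (a : ℕ) :
    σ.X ω u = σ.X (ω.take a) (u.take a) + σ.cc (ω.take a) * σ.X (ω.drop a) (u.drop a) := by
  rw [← X_append σ (by simp [h]), List.take_append_drop, List.take_append_drop]

theorem nu_nil : nu M σ [] = pur 0 := by
  unfold nu
  rw [Mod.Cw, push_pur]
  rfl

theorem nu_append (ω ω' : List Ω) :
    nu M σ (ω ++ ω') = conv (nu M σ ω) (dil (σ.cc ω) (nu M σ ω')) := by
  refine ext_ex fun F => ?_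
  unfold nu
  rw [ex_push, ex_Cw_append, ex_conv, ex_push]
  refine ex_congr fun u hu => ?_
  rw [ex_dil, ex_push]
  refine ex_congr fun v _ => ?_
  rw [X_append σ (length_of_mem_Cw M hu)]

theorem Dist_mono {n n' : ℕ} (h : n ≤ n') : Dist M σ n ⊆ Dist M σ n' := by
  rintro d ⟨hd, ω, hω, y, hy, y', hy', rfl⟩
  obtain ⟨ω', hω'⟩ := (isP_Om M (n' - n)).support_nonempty
  obtain ⟨v, hv⟩ := (isP_Cw M ω').support_nonempty
  obtain ⟨u, hu, rfl⟩ := (mem_support_nu M σ).1 hy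
  obtain ⟨u', hu', rfl⟩ := (mem_support_nu M σ).1 hy'
  refine ⟨hd, ω ++ ω', ?_, _, (mem_support_nu M σ).2 ⟨u ++ v, append_mem_Cw M hu hv, rfl⟩, _,
    (mem_support_nu M σ).2 ⟨u' ++ v, append_mem_Cw M hu' hv, rfl⟩, ?_⟩
  · rw [mem_support_Om] at hω hω' ⊢
    rw [List.length_append, hω, hω']
    omega
  · rw [X_append σ (length_of_mem_Cw M hu), X_append σ (length_of_mem_Cw M hu')]
    congr 1
    ring

theorem Dist_finite (n : ℕ) : (Dist M σ n).Finite := by
  refine ((M.Om n).support.finite_toSet.biUnion fun ω _ =>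
    Set.Finite.image2 (fun y y' : ℝ => |y - y'|) (nu M σ ω).support.finite_toSet
      (nu M σ ω).support.finite_toSet).subset ?_
  rintro d ⟨-, ω, hω, y, hy, y', hy', rfl⟩
  simp only [Set.mem_iUnion]
  exact ⟨ω, hω, y, hy, y', hy', rfl⟩

theorem exists_trees (n : ℕ) : ∃ T, Trees M σ n T := by
  choose T hT using fun ω => exists_tree (isP_nu M σ ω)
  exact ⟨T, fun ω _ => hT ω⟩

theorem Trees.all_dist {M : Mod Ω ι} {σ : Sys Ω ι} {n : ℕ} {T : List Ω → Tr} (h : Trees M σ n T) :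
    ∀ ω ∈ (M.Om n).support, (T ω).All fun S => S.lab ∈ Dist M σ n := by
  intro ω hω
  obtain ⟨h1, h2⟩ := h ω hω
  refine Tr.All.mono ?_ (h1.all_dist.and h1.1.all_lab)
  rintro S ⟨⟨y, hy, y', hy', e⟩, hS⟩
  rw [h2] at hy hy'
  exact ⟨hS.1, ω, hω, y, hy, y', hy', e⟩

variable [Fintype Ω] [Fintype ι]

/-- uniform bounds on the ratios -/
theorem exists_xi : ∃ ξ ξ' : ℝ, 0 < ξ' ∧ (∀ o, ξ' ≤ -Real.log |σ.ρ o| ∧ -Real.log |σ.ρ o| ≤ ξ) ∧
    ∀ ω : List Ω, Real.exp (-(ξ * ω.length)) ≤ |σ.cc ω| ∧ |σ.cc ω| ≤ Real.exp (-(ξ' * ω.length)) := by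
  have hpos : ∀ o, 0 < -Real.log |σ.ρ o| := fun o =>
    neg_pos.2 (Real.log_neg (abs_pos.2 (σ.hρ o).1) (σ.hρ o).2)
  obtain ⟨ξ, ξ', h0, hξ⟩ : ∃ ξ ξ' : ℝ, 0 < ξ' ∧
      ∀ o, ξ' ≤ -Real.log |σ.ρ o| ∧ -Real.log |σ.ρ o| ≤ ξ := by
    rcases isEmpty_or_nonempty Ω with hΩ | hΩ
    · exact ⟨1, 1, one_pos, fun o => isEmptyElim o⟩
    · obtain ⟨o₁, h₁⟩ := Finite.exists_min fun o => -Real.log |σ.ρ o|
      obtain ⟨o₂, h₂⟩ := Finite.exists_max fun o => -Real.log |σ.ρ o|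
      exact ⟨_, _, hpos o₁, fun o => ⟨h₁ o, h₂ o⟩⟩
  refine ⟨ξ, ξ', h0, hξ, fun ω => ?_⟩
  have e := neg_log_cc σ ω
  have h1 := List.sum_le_card_nsmul (ω.map fun o => -Real.log |σ.ρ o|) ξ (by
    intro x hx
    obtain ⟨o, -, rfl⟩ := List.mem_map.1 hx
    exact (hξ o).2)
  have h2 := List.card_nsmul_le_sum (ω.map fun o => -Real.log |σ.ρ o|) ξ' (by
    intro x hx
    obtain ⟨o, -, rfl⟩ := List.mem_map.1 hx
    exact (hξ o).1)
  rw [List.length_map, nsmul_eq_mul] at h1 h2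
  rw [← Real.exp_log (abs_cc_pos σ ω)]
  constructor <;> apply Real.exp_le_exp.2 <;> linarith

theorem chi_pos : 0 < chi M σ := by
  obtain ⟨ξ, ξ', h0, hξ, -⟩ := exists_xi σ
  exact h0.trans_le (M.hP.le_ex fun o _ => (hξ o).1)

/-- uniform bound on the translation parts -/
theorem exists_R0 : ∃ R₀ : ℝ, 1 ≤ R₀ ∧ ∀ (ω : List Ω) (u : List ι), |σ.X ω u| ≤ R₀ := by
  obtain ⟨ξ, ξ', h0, hξ, -⟩ := exists_xi σ
  set r := Real.exp (-ξ') with hr
  have hr1 : r < 1 := Real.exp_lt_one_iff.2 (by linarith)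
  have hρ : ∀ o, |σ.ρ o| ≤ r := by
    intro o
    rw [← Real.exp_log (abs_pos.2 (σ.hρ o).1)]
    exact Real.exp_le_exp.2 (by linarith [(hξ o).1])
  set τ := ∑ i, |σ.t i| with hτ
  have hτ0 : 0 ≤ τ := Finset.sum_nonneg fun i _ => abs_nonneg _
  have ht : ∀ i, |σ.t i| ≤ τ := fun i =>
    Finset.single_le_sum (f := fun i => |σ.t i|) (fun i _ => abs_nonneg _) (Finset.mem_univ i)
  have h1r : 0 < 1 - r := by linarith
  have hq : 0 ≤ τ / (1 - r) := by positivity
  have hq' : τ / (1 - r) * (1 - r) = τ := div_mul_cancel₀ _ h1r.ne'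
  refine ⟨τ / (1 - r) + 1, by linarith, fun ω => ?_⟩
  induction ω with
  | nil => intro u; simp only [Sys.X, abs_zero]; linarith
  | cons o ω ih =>
    intro u
    cases u with
    | nil => simp only [Sys.X, abs_zero]; linarith
    | cons i w =>
      simp only [Sys.X]
      have h2 : |σ.ρ o * σ.X ω w| ≤ r * (τ / (1 - r) + 1) := by
        rw [abs_mul]
        exact mul_le_mul (hρ o) (ih w) (abs_nonneg _) (Real.exp_pos _).le
      have h3 := abs_add_le (σ.t i) (σ.ρ o * σ.X ω w)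
      nlinarith [ht i]

theorem ent_Cw_le (ω : List Ω) : ent (M.Cw ω) ≤ ω.length * Real.log (Fintype.card ι) := by
  induction ω with
  | nil => simp [Mod.Cw]
  | cons o ω ih =>
    have h1 := (M.hτ o).ent_bnd_le (k := fun i => push (List.cons i) (M.Cw ω))
      fun i _ => (isP_Cw M ω).push _
    have h2 : ent (M.τ o) ≤ Real.log (Fintype.card ι) :=
      (M.hτ o).ent_le_log_card (by exact_mod_cast Finset.card_le_univ _)
    have h3 : (ex (M.τ o) fun i => ent (push (List.cons i) (M.Cw ω))) ≤ ent (M.Cw ω) :=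
      (M.hτ o).ex_le fun i _ => (isP_Cw M ω).ent_push_le _
    rw [Mod.Cw, List.length_cons]
    push_cast
    linarith

theorem ent_nu_le (ω : List Ω) : ent (nu M σ ω) ≤ ω.length * Real.log (Fintype.card ι) := by
  exact ((isP_Cw M ω).ent_push_le _).trans (ent_Cw_le M ω)

/-- fluctuations of the contraction ratio -/
theorem exists_dev : ∃ V : ℝ, 0 < V ∧ ∀ n : ℕ,
    ((ex (M.Om n) fun ω => |Real.log |σ.cc ω| + chi M σ * n|) ≤ V * Real.sqrt n) ∧
    ∀ θ : ℝ, 0 < θ → pr (M.Om n) {ω | θ ≤ |Real.log |σ.cc ω| + chi M σ * n|} ≤ V * n / θ ^ 2 := by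
  set g : Ω → ℝ := fun o => -Real.log |σ.ρ o| with hg
  set V₀ := ex M.P fun a => (g a - ex M.P g) ^ 2 with hV
  have hV0 : 0 ≤ V₀ := M.hP.ex_nonneg fun a _ => sq_nonneg _
  have e : ∀ (n : ℕ) (ω : List Ω),
      |Real.log |σ.cc ω| + chi M σ * n| = |(ω.map g).sum - n * ex M.P g| := by
    intro n ω
    rw [← neg_log_cc σ ω, ← abs_neg]
    congr 1
    unfold chi
    ring
  refine ⟨V₀ + 1, by linarith, fun n => ⟨?_, fun θ hθ => ?_⟩⟩
  · simp only [e]
    refine ((isP_Om M n).ex_abs_le_sqrt _).trans ?_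
    unfold Mod.Om
    rw [M.hP.ex_iid_sq n g, Real.sqrt_mul (Nat.cast_nonneg n), mul_comm]
    refine mul_le_mul_of_nonneg_right ?_ (Real.sqrt_nonneg _)
    rw [Real.sqrt_le_iff]
    exact ⟨by linarith, by nlinarith⟩
  · simp only [e]
    refine (M.hP.iid_cheb n g hθ).trans ?_
    refine div_le_div_of_nonneg_right ?_ (by positivity)
    have : (0 : ℝ) ≤ n := Nat.cast_nonneg n
    nlinarith

end Crest.Agent.R98
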