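import Crest.Agent.R98.Single

/-!
# R98/Multi: gains of different levels add up
Let `n j = n₀ Λ^j`, `N = n I`, `s τ = ℓ e^{-τ}`. For `ω` of length `N` and `a ≤ N` put
`Ψ ω a τ = Dsc (s τ) M' (dil (cc (take a ω)) (nu (drop a ω)))`; it is non-increasing in `a` (`nu_append`, `dil_conv`, `Dsc_le_conv`),
`Ψ ω N = 0`. `sel j D₀ := ∃ D ∈ G j, 7/8 D₀ < D ≤ D₀`. (1) `multi_path`: for fixed `ω, τ`,
`∑_{j ≤ I} ∑_{i < N / n j} 1[sel j (e^{-τ}/|cc (take (i n j) ω)|)] (Ψ (i n j) - Ψ ((i+1) n j)) ≤ Ψ 0`: write the increments as sums of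
`Ψ b - Ψ (b+1) ≥ 0`; each `b` is covered by at most one selected pair `(j, b / n j)` (separation hypothesis, `exists_xi`).
(2) for one block (`a = i n j`, `ω = ω₁ ++ ω₂ ++ ω₃`): `gain_exp` with `D₀ = e^{-τ}/|cc ω₁|`, `c = cc ω₂` and `Dsc_dil` give
`gsum (vOn (G j ∩ window)) (T j ω₂) ≤ k 1[sel] E_{ω₃} (Ψ a - Ψ (a + n j))` (the left side vanishes if `¬ sel`);
`vOn_le_integral` with `c = |cc ω₁|` on a range `[τ₋, τ₊]` that works for all blocks (finitely many labels). (3) sum, and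
`∫ Ψ ω 0 ≤ log M' * N log (card ι)` (`integral_incr_le`).
-/

set_option autoImplicit false

namespace Crest.Agent.R98

variable {Ω ι : Type*} [Fintype Ω] [Fintype ι] (M : Mod Ω ι) (σ : Sys Ω ι)

open Classical in
theorem mu_blocks {n : ℕ} (hn : 1 ≤ n) (Ψ : ℕ → ℝ) (p : ℕ → Prop) (m : ℕ) :
    ∑ i ∈ Finset.range m, (if p (i * n) then Ψ (i * n) - Ψ ((i + 1) * n) else 0) =
      ∑ b ∈ Finset.range (m * n), (if p (b / n * n) then Ψ b - Ψ (b + 1) else 0) := by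
  induction m with
  | zero => simp
  | succ m ih =>
    rw [Finset.sum_range_succ, ih, Nat.succ_mul m n, Finset.sum_range_add]
    congr 1
    have h1 : ∀ x ∈ Finset.range n, (m * n + x) / n * n = m * n := by
      intro x hx
      have hx' := Finset.mem_range.1 hx
      rw [mul_comm m n, Nat.mul_add_div (by omega), Nat.div_eq_of_lt hx', add_zero, mul_comm]
    rw [Finset.sum_congr rfl fun x hx => by rw [h1 x hx]]
    split_ifs with hp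
    · have := Finset.sum_range_sub' (fun x => Ψ (m * n + x)) n
      simp only [add_zero] at this
      rw [← this]
      exact Finset.sum_congr rfl fun x _ => by rw [add_assoc]
    · simp

open Classical in
/-- the combinatorial core: selected blocks are disjoint -/
theorem multi_path {n₀ Λ I : ℕ} (hn : 1 ≤ n₀) (hΛ : 1 ≤ Λ) (Ψ : ℕ → ℝ) (hΨ : ∀ b, Ψ (b + 1) ≤ Ψ b)
    (sel : ℕ → ℕ → Prop)
    (hsel : ∀ j ≤ I, ∀ j' < j, ∀ a a', sel j a → sel j' a' → ¬ (a ≤ a' ∧ a' < a + n₀ * Λ ^ j)) :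
    ∑ j ∈ Finset.range (I + 1), ∑ i ∈ Finset.range (Λ ^ (I - j)),
        (if sel j (i * (n₀ * Λ ^ j)) then Ψ (i * (n₀ * Λ ^ j)) - Ψ ((i + 1) * (n₀ * Λ ^ j)) else 0) ≤
      Ψ 0 - Ψ (n₀ * Λ ^ I) := by
  have hnj : ∀ j, 1 ≤ n₀ * Λ ^ j := fun j => Nat.mul_pos hn (Nat.pow_pos hΛ)
  have h1 : ∀ j ∈ Finset.range (I + 1), ∑ i ∈ Finset.range (Λ ^ (I - j)),
      (if sel j (i * (n₀ * Λ ^ j)) then Ψ (i * (n₀ * Λ ^ j)) - Ψ ((i + 1) * (n₀ * Λ ^ j)) else 0) =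
      ∑ b ∈ Finset.range (n₀ * Λ ^ I),
        (if sel j (b / (n₀ * Λ ^ j) * (n₀ * Λ ^ j)) then Ψ b - Ψ (b + 1) else 0) := by
    intro j hj
    have hj' : j ≤ I := Nat.lt_succ_iff.1 (Finset.mem_range.1 hj)
    rw [mu_blocks (hnj j) Ψ (sel j)]
    have : Λ ^ (I - j) * (n₀ * Λ ^ j) = n₀ * Λ ^ I := by
      rw [mul_left_comm, ← pow_add, Nat.sub_add_cancel hj']
    rw [this]
  rw [Finset.sum_congr rfl h1, Finset.sum_comm, ← Finset.sum_range_sub' Ψ]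
  refine Finset.sum_le_sum fun b _ => ?_
  have hd : 0 ≤ Ψ b - Ψ (b + 1) := sub_nonneg.2 (hΨ b)
  have key : ∀ j ≤ I, ∀ j' < j, sel j (b / (n₀ * Λ ^ j) * (n₀ * Λ ^ j)) →
      ¬ sel j' (b / (n₀ * Λ ^ j') * (n₀ * Λ ^ j')) := by
    intro j hj j' hj' hs hs'
    refine hsel j hj j' hj' _ _ hs hs' ⟨?_, ?_⟩
    · have e : n₀ * Λ ^ j = Λ ^ (j - j') * (n₀ * Λ ^ j') := by
        rw [mul_left_comm, ← pow_add, Nat.sub_add_cancel hj'.le]
      have h2 : b / (n₀ * Λ ^ j) * Λ ^ (j - j') ≤ b / (n₀ * Λ ^ j') := by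
        rw [Nat.le_div_iff_mul_le (hnj j'), mul_assoc, ← e]
        exact Nat.div_mul_le_self _ _
      calc b / (n₀ * Λ ^ j) * (n₀ * Λ ^ j)
          = b / (n₀ * Λ ^ j) * Λ ^ (j - j') * (n₀ * Λ ^ j') := by rw [mul_assoc, ← e]
        _ ≤ _ := Nat.mul_le_mul_right _ h2
    · exact lt_of_le_of_lt (Nat.div_mul_le_self _ _) (Nat.lt_div_mul_add (hnj j))
  rw [← Finset.sum_filter, Finset.sum_const, nsmul_eq_mul]
  have hcard : ((Finset.range (I + 1)).filter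
      fun j => sel j (b / (n₀ * Λ ^ j) * (n₀ * Λ ^ j))).card ≤ 1 := by
    refine Finset.card_le_one.2 fun j hj j' hj' => ?_
    obtain ⟨hj1, hj2⟩ := Finset.mem_filter.1 hj
    obtain ⟨hj1', hj2'⟩ := Finset.mem_filter.1 hj'
    rcases lt_trichotomy j j' with h | h | h
    · exact absurd hj2 (key j' (Nat.lt_succ_iff.1 (Finset.mem_range.1 hj1')) j h hj2')
    · exact h
    · exact absurd hj2' (key j (Nat.lt_succ_iff.1 (Finset.mem_range.1 hj1)) j' h hj2)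
  have hcard' : (((Finset.range (I + 1)).filter
      fun j => sel j (b / (n₀ * Λ ^ j) * (n₀ * Λ ^ j))).card : ℝ) ≤ 1 := by exact_mod_cast hcard
  nlinarith

section aux
omit [Fintype Ω] [Fintype ι]

/-- entropy between the scales of the tail after `a` letters -/
noncomputable def muPsi (s : ℝ) (M' : ℕ) (ω : List Ω) (a : ℕ) : ℝ :=
  Dsc s M' (dil (σ.cc (ω.take a)) (nu M σ (ω.drop a)))

/-- the window of the prefix `u` contains a label of `G` -/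
def muSel (G : Set ℝ) (x : ℝ) (u : List Ω) : Prop :=
  ∃ D ∈ G, 7 / 8 * (x / |σ.cc u|) < D ∧ D ≤ x / |σ.cc u|

/-- light mass in the window of the prefix `u` -/
noncomputable def muW (G : Set ℝ) (x : ℝ) (u : List Ω) (T : Tr) : ℝ :=
  T.gsum (vOn (G ∩ Set.Ioc (7 / 8 * (x / |σ.cc u|)) (x / |σ.cc u|)))

/-- the conclusion of `gain_exp` -/
def muGain (k ℓ : ℝ) (M' : ℕ) : Prop :=
  ∀ (T : Tr) (G : Set ℝ) (D₀ c : ℝ) (n' : ℕ), T.SV → 0 < D₀ → c ≠ 0 →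
    T.gsum (vOn (G ∩ Set.Ioc (7 / 8 * D₀) D₀)) ≤ k * ex (M.Om n') fun ω' =>
      Dsc (ℓ * D₀) M' (conv T.law (dil c (nu M σ ω'))) - Dsc (ℓ * D₀) M' (dil c (nu M σ ω'))

theorem muPsi_succ {s : ℝ} (hs : 0 < s) {M' : ℕ} (hM : 1 ≤ M') (ω : List Ω) (a : ℕ) :
    muPsi M σ s M' ω (a + 1) ≤ muPsi M σ s M' ω a := by
  unfold muPsi
  have h1 : ω.drop a = (ω.drop a).take 1 ++ ω.drop (a + 1) := by
    rw [← List.drop_drop, List.take_append_drop]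
  conv_rhs => rw [h1, nu_append, dil_conv, dil_dil, ← cc_append, ← List.take_add]
  exact Dsc_le_conv ((isP_nu M σ _).dil _) ((isP_nu M σ _).dil _) hs hM

theorem muPsi_nonneg {s : ℝ} (hs : 0 < s) {M' : ℕ} (hM : 1 ≤ M') (ω : List Ω) (a : ℕ) :
    0 ≤ muPsi M σ s M' ω a :=
  Dsc_nonneg ((isP_nu M σ _).dil _) hs hM

theorem muPsi_zero (s : ℝ) (M' : ℕ) (ω : List Ω) : muPsi M σ s M' ω 0 = Dsc s M' (nu M σ ω) := by
  unfold muPsi
  rw [List.take_zero, List.drop_zero, cc_nil, dil_one]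

theorem muSel_sep {ξ : ℝ} (hξ0 : 0 ≤ ξ) (hξ : ∀ ω : List Ω, Real.exp (-(ξ * ω.length)) ≤ |σ.cc ω|)
    {G G' : Set ℝ} {n : ℕ}
    (hG : ∀ D ∈ G, ∀ D' ∈ G', D' < 7 / 8 * D ∨ 8 / 7 * Real.exp (ξ * (n : ℕ)) * D < D')
    {x : ℝ} (hx : 0 < x) (ω : List Ω) {a a' : ℕ} (h : muSel σ G x (ω.take a))
    (h' : muSel σ G' x (ω.take a')) : ¬ (a ≤ a' ∧ a' < a + n) := by
  rintro ⟨h1, h2⟩
  obtain ⟨D, hD, hD1, hD2⟩ := h
  obtain ⟨D', hD', hD1', hD2'⟩ := h'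
  obtain ⟨d, rfl⟩ := Nat.exists_eq_add_of_le h1
  rw [List.take_add, cc_append, abs_mul] at hD1' hD2'
  have hc := abs_cc_pos σ (ω.take a)
  have hc' := abs_cc_pos σ ((ω.drop a).take d)
  have hc1 := abs_cc_le_one σ ((ω.drop a).take d)
  have hc2 : Real.exp (-(ξ * n)) ≤ |σ.cc ((ω.drop a).take d)| := by
    refine le_trans (Real.exp_le_exp.2 ?_) (hξ _)
    have h3 : ((ω.drop a).take d).length ≤ n := (List.length_take_le _ _).trans (by omega)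
    have h4 : ((((ω.drop a).take d).length : ℕ) : ℝ) ≤ n := by exact_mod_cast h3
    nlinarith
  rw [← div_div] at hD1' hD2'
  set D₀ := x / |σ.cc (ω.take a)| with hD₀
  have hD0 : 0 < D₀ := div_pos hx hc
  set c' := |σ.cc ((ω.drop a).take d)| with hc'def
  have e1 : D₀ ≤ D₀ / c' := by
    rw [le_div_iff₀ hc']
    nlinarith
  have e2 : D₀ / c' ≤ Real.exp (ξ * n) * D₀ := by
    rw [div_le_iff₀ hc']
    have h5 : Real.exp (ξ * n) * Real.exp (-(ξ * n)) = 1 := by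
      rw [← Real.exp_add, add_neg_cancel, Real.exp_zero]
    have h6 : 1 ≤ Real.exp (ξ * n) * c' := by
      rw [← h5]
      exact mul_le_mul_of_nonneg_left hc2 (Real.exp_pos _).le
    nlinarith
  rcases hG D hD D' hD' with h3 | h3
  · linarith
  · have h4 : Real.exp (ξ * n) * (7 / 8 * D₀) ≤ Real.exp (ξ * n) * D :=
      mul_le_mul_of_nonneg_left hD1.le (Real.exp_pos _).le
    linarith

open Classical in
theorem mu_block {k ℓ : ℝ} {M' : ℕ} (hℓ : 0 < ℓ) (hM : 1 ≤ M') (hg : muGain M σ k ℓ M')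
    (G : Set ℝ) {x : ℝ} (hx : 0 < x) {a n : ℕ} (r : ℕ) {ω₁ ω₂ : List Ω} (h₁ : ω₁.length = a)
    (h₂ : ω₂.length = n) {T : Tr} (hT : T.SV) (hl : T.law = nu M σ ω₂) :
    muW σ G x ω₁ T ≤ k * ex (M.Om r) fun ω₃ =>
      if muSel σ G x ((ω₁ ++ ω₂ ++ ω₃).take a) then
        muPsi M σ (ℓ * x) M' (ω₁ ++ ω₂ ++ ω₃) a - muPsi M σ (ℓ * x) M' (ω₁ ++ ω₂ ++ ω₃) (a + n)
      else 0 := by
  have e1 : ∀ ω₃ : List Ω, (ω₁ ++ ω₂ ++ ω₃).take a = ω₁ := fun ω₃ => by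
    rw [List.append_assoc, List.take_left' h₁]
  have e2 : ∀ ω₃ : List Ω, (ω₁ ++ ω₂ ++ ω₃).drop a = ω₂ ++ ω₃ := fun ω₃ => by
    rw [List.append_assoc, List.drop_left' h₁]
  have hlen : (ω₁ ++ ω₂).length = a + n := by rw [List.length_append, h₁, h₂]
  have e3 : ∀ ω₃ : List Ω, (ω₁ ++ ω₂ ++ ω₃).take (a + n) = ω₁ ++ ω₂ := fun ω₃ =>
    List.take_left' hlen
  have e4 : ∀ ω₃ : List Ω, (ω₁ ++ ω₂ ++ ω₃).drop (a + n) = ω₃ := fun ω₃ => List.drop_left' hlen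
  simp only [e1]
  by_cases hs : muSel σ G x ω₁
  · simp only [if_pos hs]
    have hc := abs_cc_pos σ ω₁
    refine (hg T G (x / |σ.cc ω₁|) (σ.cc ω₂) r hT (div_pos hx hc) (cc_ne_zero σ ω₂)).trans (le_of_eq ?_)
    congr 1
    refine ex_congr fun ω₃ _ => ?_
    unfold muPsi
    rw [e1, e2, e3, e4, cc_append, ← dil_dil,
      Dsc_dil (isP_nu M σ _) (cc_ne_zero σ ω₁) (mul_pos hℓ hx) hM,
      Dsc_dil ((isP_nu M σ _).dil _) (cc_ne_zero σ ω₁) (mul_pos hℓ hx) hM, nu_append, hl, mul_div_assoc]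
  · simp only [if_neg hs, ex_zero, mul_zero]
    unfold muW
    rw [Tr.gsum_congr (Ψ := fun _ => 0) (Tr.all_of_forall (fun S => ?_) T), Tr.gsum_zero]
    unfold vOn
    rw [if_neg]
    intro hS
    exact hs ⟨S.lab, hS.1, hS.2.1, hS.2.2⟩

open Classical in
theorem mu_block_ex {k ℓ : ℝ} {M' : ℕ} (hℓ : 0 < ℓ) (hM : 1 ≤ M') (hg : muGain M σ k ℓ M')
    (G : Set ℝ) {x : ℝ} (hx : 0 < x) (a n r : ℕ) {T : List Ω → Tr} (hT : Trees M σ n T) :
    (ex (M.Om a) fun ω₁ => ex (M.Om n) fun ω₂ => muW σ G x ω₁ (T ω₂)) ≤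
      k * ex (M.Om (a + n + r)) fun ω =>
        if muSel σ G x (ω.take a) then muPsi M σ (ℓ * x) M' ω a - muPsi M σ (ℓ * x) M' ω (a + n)
        else 0 := by
  rw [ex_Om_append, ex_Om_append, ← ex_mul_left]
  refine (isP_Om M a).ex_mono fun ω₁ h₁ => ?_
  rw [← ex_mul_left]
  refine (isP_Om M n).ex_mono fun ω₂ h₂ => ?_
  exact mu_block M σ hℓ hM hg G hx r ((mem_support_Om M).1 h₁) ((mem_support_Om M).1 h₂)
    (hT ω₂ h₂).1 (hT ω₂ h₂).2

theorem mu_tau {k ℓ ξ : ℝ} {M' : ℕ} (hk : 0 < k) (hℓ : 0 < ℓ) (hM : 1 ≤ M') (hg : muGain M σ k ℓ M')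
    (hξ0 : 0 ≤ ξ) (hξ : ∀ ω : List Ω, Real.exp (-(ξ * ω.length)) ≤ |σ.cc ω|)
    {n₀ Λ I : ℕ} {T : ℕ → List Ω → Tr} {G : ℕ → Set ℝ} (hn : 1 ≤ n₀) (hΛ : 1 ≤ Λ)
    (hT : ∀ j ≤ I, Trees M σ (n₀ * Λ ^ j) (T j))
    (hG : ∀ j ≤ I, ∀ j' < j, ∀ D ∈ G j, ∀ D' ∈ G j',
        D' < 7 / 8 * D ∨ 8 / 7 * Real.exp (ξ * (n₀ * Λ ^ j : ℕ)) * D < D')
    {x : ℝ} (hx : 0 < x) :
    ∑ j ∈ Finset.range (I + 1), ∑ i ∈ Finset.range (Λ ^ (I - j)),
        (ex (M.Om (i * (n₀ * Λ ^ j))) fun ω₁ => ex (M.Om (n₀ * Λ ^ j)) fun ω₂ =>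
          muW σ (G j) x ω₁ (T j ω₂)) ≤
      k * ex (M.Om (n₀ * Λ ^ I)) fun ω => Dsc (ℓ * x) M' (nu M σ ω) := by
  classical
  have hs : 0 < ℓ * x := mul_pos hℓ hx
  have h1 : ∀ j ∈ Finset.range (I + 1), ∀ i ∈ Finset.range (Λ ^ (I - j)),
      (ex (M.Om (i * (n₀ * Λ ^ j))) fun ω₁ => ex (M.Om (n₀ * Λ ^ j)) fun ω₂ =>
          muW σ (G j) x ω₁ (T j ω₂)) ≤
        k * ex (M.Om (n₀ * Λ ^ I)) fun ω =>
          if muSel σ (G j) x (ω.take (i * (n₀ * Λ ^ j))) then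
            muPsi M σ (ℓ * x) M' ω (i * (n₀ * Λ ^ j)) - muPsi M σ (ℓ * x) M' ω ((i + 1) * (n₀ * Λ ^ j))
          else 0 := by
    intro j hj i hi
    have hj' : j ≤ I := Nat.lt_succ_iff.1 (Finset.mem_range.1 hj)
    have hi' : i + 1 ≤ Λ ^ (I - j) := Finset.mem_range.1 hi
    have e : Λ ^ (I - j) * (n₀ * Λ ^ j) = n₀ * Λ ^ I := by
      rw [mul_left_comm, ← pow_add, Nat.sub_add_cancel hj']
    have hle : i * (n₀ * Λ ^ j) + n₀ * Λ ^ j ≤ n₀ * Λ ^ I := by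
      rw [← e, ← Nat.succ_mul]
      exact Nat.mul_le_mul_right _ hi'
    obtain ⟨r, hr⟩ := Nat.exists_eq_add_of_le hle
    have := mu_block_ex M σ hℓ hM hg (G j) hx (i * (n₀ * Λ ^ j)) (n₀ * Λ ^ j) r (hT j hj')
    rw [← hr, ← Nat.succ_mul] at this
    convert this using 5
  refine (Finset.sum_le_sum fun j hj => Finset.sum_le_sum (h1 j hj)).trans ?_
  simp only [← Finset.mul_sum, ← ex_sum]
  refine mul_le_mul_of_nonneg_left ((isP_Om M _).ex_mono fun ω _ => ?_) hk.le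
  have h2 := multi_path (I := I) hn hΛ (muPsi M σ (ℓ * x) M' ω) (muPsi_succ M σ hs hM ω)
    (fun j a => muSel σ (G j) x (ω.take a))
    (fun j hj j' hj' a a' h h' => muSel_sep σ hξ0 hξ (hG j hj j' hj') hx ω h h')
  have h3 := muPsi_nonneg M σ hs hM ω (n₀ * Λ ^ I)
  rw [muPsi_zero] at h2
  refine le_trans (le_of_eq ?_) (h2.trans (by linarith))
  congr

theorem mu_bounds {U : Set ℝ} (hU : U.Finite) :
    ∃ δ Δ : ℝ, 0 < δ ∧ 0 < Δ ∧ ∀ D ∈ U, 0 < D → δ ≤ D ∧ D ≤ Δ := by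
  induction U, hU using Set.Finite.induction_on with
  | empty => exact ⟨1, 1, one_pos, one_pos, fun D hD => absurd hD (Set.notMem_empty D)⟩
  | @insert a s _ _ ih =>
    obtain ⟨δ, Δ, hδ, hΔ, h⟩ := ih
    by_cases ha : 0 < a
    · refine ⟨min δ a, max Δ a, lt_min hδ ha, lt_max_of_lt_left hΔ, fun D hD hD0 => ?_⟩
      rcases Set.mem_insert_iff.1 hD with rfl | hD
      · exact ⟨min_le_right _ _, le_max_right _ _⟩
      · exact ⟨(min_le_left _ _).trans (h D hD hD0).1, (h D hD hD0).2.trans (le_max_left _ _)⟩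
    · refine ⟨δ, Δ, hδ, hΔ, fun D hD hD0 => ?_⟩
      rcases Set.mem_insert_iff.1 hD with rfl | hD
      · exact absurd hD0 ha
      · exact h D hD hD0

theorem mu_intInt {g : ℝ → ℝ} (hg : Measurable g) {B : ℝ} (hB : ∀ τ, |g τ| ≤ B) (a b : ℝ) :
    IntervalIntegrable g MeasureTheory.volume a b :=
  (intervalIntegrable_const (c := B)).mono_fun' hg.aestronglyMeasurable
    (Filter.Eventually.of_forall fun τ => by simpa using hB τ)

end aux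

/-- the integral of the entropy between two scales over all scales -/
theorem mu_total {ℓ : ℝ} {M' : ℕ} (hM : 1 ≤ M') (N : ℕ) (a b : ℝ) :
    IntervalIntegrable (fun τ => ex (M.Om N) fun ω => Dsc (ℓ * Real.exp (-τ)) M' (nu M σ ω))
        MeasureTheory.volume a b ∧
      ∫ τ in a..b, (ex (M.Om N) fun ω => Dsc (ℓ * Real.exp (-τ)) M' (nu M σ ω)) ≤
        Real.log M' * (N * Real.log (Fintype.card ι)) := by
  have hM0 : (0 : ℝ) < M' := by exact_mod_cast hM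
  have hL : 0 ≤ Real.log M' := Real.log_natCast_nonneg _
  let f : ℝ → ℝ := fun τ => ex (M.Om N) fun ω => Hs (ℓ * Real.exp (-τ)) (nu M σ ω)
  have hf : Measurable f := by
    refine measurable_ex _ _ fun ω _ => ?_
    exact (measurable_Hs (isP_nu M σ ω)).comp (by fun_prop)
  have hf0 : ∀ τ, 0 ≤ f τ := fun τ =>
    (isP_Om M N).ex_nonneg fun ω _ => Hs_nonneg (isP_nu M σ ω) _
  have hf1 : ∀ τ, f τ ≤ N * Real.log (Fintype.card ι) := fun τ =>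
    (isP_Om M N).ex_le fun ω hω => by
      have := ent_nu_le M σ ω
      rw [(mem_support_Om M).1 hω] at this
      exact (Hs_le_ent (isP_nu M σ ω) _).trans this
  have e : (fun τ => ex (M.Om N) fun ω => Dsc (ℓ * Real.exp (-τ)) M' (nu M σ ω)) =
      fun τ => f τ - f (τ - Real.log M') := by
    funext τ
    have e1 : ℓ * Real.exp (-(τ - Real.log M')) = M' * (ℓ * Real.exp (-τ)) := by
      rw [neg_sub, sub_eq_add_neg, Real.exp_add, Real.exp_log hM0]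
      ring
    simp only [f, e1, ← ex_sub]
    rfl
  rw [e]
  constructor
  · refine mu_intInt (g := fun τ => f τ - f (τ - Real.log M')) (B := N * Real.log (Fintype.card ι))
      (hf.sub (hf.comp (by fun_prop))) (fun τ => ?_) a b
    have := hf0 τ
    have := hf1 τ
    have := hf0 (τ - Real.log M')
    have := hf1 (τ - Real.log M')
    exact abs_le.2 ⟨by linarith, by linarith⟩
  · have := integral_incr_le hf (B := N * Real.log (Fintype.card ι))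
      (fun τ => by rw [abs_of_nonneg (hf0 τ)]; exact hf1 τ) (a := a) (b := b) hL
      (fun τ _ => hf1 τ) (fun τ _ => hf0 τ)
    rwa [sub_zero] at this

theorem multi (h : eR M σ < chi M σ) : ∃ C ξ : ℝ, 0 < C ∧ 0 < ξ ∧
    ∀ (n₀ Λ I : ℕ) (T : ℕ → List Ω → Tr) (G : ℕ → Set ℝ), 1 ≤ n₀ → 1 ≤ Λ →
      (∀ j ≤ I, Trees M σ (n₀ * Λ ^ j) (T j)) → (∀ j ≤ I, (G j).Finite) →
      (∀ j ≤ I, ∀ j' < j, ∀ D ∈ G j, ∀ D' ∈ G j',
        D' < 7 / 8 * D ∨ 8 / 7 * Real.exp (ξ * (n₀ * Λ ^ j : ℕ)) * D < D') →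
      ∑ j ∈ Finset.range (I + 1),
        (ex (M.Om (n₀ * Λ ^ j)) fun ω => (T j ω).gsum (vOn (G j))) / (n₀ * Λ ^ j : ℕ) ≤ C := by
  obtain ⟨k, ℓ, M', hk, hℓ, hM2, hg⟩ := gain_exp M σ h
  have hM : 1 ≤ M' := by omega
  obtain ⟨ξ₀, ξ', -, -, hξ₀⟩ := exists_xi σ
  have hξ : ∀ ω : List Ω, Real.exp (-(max ξ₀ 1 * ω.length)) ≤ |σ.cc ω| := fun ω => by
    refine le_trans (Real.exp_le_exp.2 ?_) (hξ₀ ω).1
    have := mul_le_mul_of_nonneg_right (le_max_left ξ₀ 1) (Nat.cast_nonneg (α := ℝ) ω.length)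
    linarith
  have hξ1 : 0 < max ξ₀ 1 := lt_max_of_lt_right one_pos
  generalize max ξ₀ 1 = ξ at hξ hξ1
  have hL : 0 ≤ Real.log M' := Real.log_natCast_nonneg _
  have hι : 0 ≤ Real.log (Fintype.card ι) := Real.log_natCast_nonneg _
  refine ⟨8 * k * (Real.log M' * Real.log (Fintype.card ι)) + 1, ξ, by positivity, hξ1, ?_⟩
  intro n₀ Λ I T G hn hΛ hT hfin hG
  have hU : (⋃ j ∈ Set.Iic I, G j).Finite := (Set.finite_Iic I).biUnion fun j hj => hfin j hj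
  obtain ⟨δ, Δ, hδ, hΔ, hb⟩ := mu_bounds hU
  set N := n₀ * Λ ^ I with hN
  have hN0 : (0 : ℝ) < N := by exact_mod_cast Nat.mul_pos hn (Nat.pow_pos hΛ)
  obtain ⟨a, b, hab, ha, hb'⟩ : ∃ a b : ℝ, a ≤ b ∧ Δ ≤ 7 / 8 * Real.exp (-a) ∧
      Real.exp (-b) ≤ Real.exp (-(ξ * N)) * δ := by
    refine ⟨-Real.log (8 / 7 * Δ), max (-Real.log (8 / 7 * Δ)) (ξ * N - Real.log δ), le_max_left _ _,
      ?_, ?_⟩
    · rw [neg_neg, Real.exp_log (by positivity)]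
      linarith
    · rw [← Real.exp_log hδ, ← Real.exp_add, Real.log_exp]
      refine Real.exp_le_exp.2 ?_
      have := le_max_right (-Real.log (8 / 7 * Δ)) (ξ * N - Real.log δ)
      linarith
  have hblock : ∀ j ∈ Finset.range (I + 1), ∀ i ∈ Finset.range (Λ ^ (I - j)),
      ∀ ω₁ ∈ (M.Om (i * (n₀ * Λ ^ j))).support, ∀ ω₂ ∈ (M.Om (n₀ * Λ ^ j)).support,
      (T j ω₂).gsum (vOn (G j)) / 8 ≤ ∫ τ in a..b, muW σ (G j) (Real.exp (-τ)) ω₁ (T j ω₂) ∧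
        IntervalIntegrable (fun τ => muW σ (G j) (Real.exp (-τ)) ω₁ (T j ω₂))
          MeasureTheory.volume a b := by
    intro j hj i hi ω₁ h₁ ω₂ h₂
    have hj' : j ≤ I := Nat.lt_succ_iff.1 (Finset.mem_range.1 hj)
    have hi' : i ≤ Λ ^ (I - j) := (Finset.mem_range.1 hi).le
    have e : Λ ^ (I - j) * (n₀ * Λ ^ j) = N := by
      rw [hN, mul_left_comm, ← pow_add, Nat.sub_add_cancel hj']
    have hlen : ω₁.length ≤ N := by
      rw [(mem_support_Om M).1 h₁, ← e]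
      exact Nat.mul_le_mul_right _ hi'
    have hlen' : (ω₁.length : ℝ) ≤ N := by exact_mod_cast hlen
    have hc0 : Real.exp (-(ξ * N)) ≤ |σ.cc ω₁| :=
      le_trans (Real.exp_le_exp.2 (by nlinarith)) (hξ ω₁)
    have hc1 := abs_cc_le_one σ ω₁
    have hWV : (T j ω₂).WV := (hT j hj' ω₂ h₂).1.1
    refine vOn_le_integral hWV (G j) (abs_cc_pos σ ω₁) hab (hWV.all_lab.mono fun S hS hSG => ?_)
    obtain ⟨h3, h4⟩ := hb S.lab (Set.mem_biUnion (Set.mem_Iic.2 hj') hSG) hS.1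
    constructor
    · exact hb'.trans (mul_le_mul hc0 h3 hδ.le (abs_nonneg _))
    · have := mul_le_mul_of_nonneg_right hc1 hS.1.le
      linarith
  have hint : ∀ j ∈ Finset.range (I + 1), ∀ i ∈ Finset.range (Λ ^ (I - j)),
      IntervalIntegrable (fun τ => ex (M.Om (i * (n₀ * Λ ^ j))) fun ω₁ => ex (M.Om (n₀ * Λ ^ j)) fun ω₂ =>
        muW σ (G j) (Real.exp (-τ)) ω₁ (T j ω₂)) MeasureTheory.volume a b := fun j hj i hi =>
    intervalIntegrable_ex _ _ a b fun ω₁ h₁ =>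
      intervalIntegrable_ex _ _ a b fun ω₂ h₂ => (hblock j hj i hi ω₁ h₁ ω₂ h₂).2
  have hlow : ∀ j ∈ Finset.range (I + 1), ∀ i ∈ Finset.range (Λ ^ (I - j)),
      (ex (M.Om (n₀ * Λ ^ j)) fun ω => (T j ω).gsum (vOn (G j))) / 8 ≤
        ∫ τ in a..b, ex (M.Om (i * (n₀ * Λ ^ j))) fun ω₁ => ex (M.Om (n₀ * Λ ^ j)) fun ω₂ =>
          muW σ (G j) (Real.exp (-τ)) ω₁ (T j ω₂) := by
    intro j hj i hi
    rw [← ex_intervalIntegral _ (fun ω₁ τ => ex (M.Om (n₀ * Λ ^ j)) fun ω₂ =>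
      muW σ (G j) (Real.exp (-τ)) ω₁ (T j ω₂)) a b fun ω₁ h₁ =>
        intervalIntegrable_ex _ _ a b fun ω₂ h₂ => (hblock j hj i hi ω₁ h₁ ω₂ h₂).2]
    refine (isP_Om M _).le_ex fun ω₁ h₁ => ?_
    rw [← ex_intervalIntegral _ (fun ω₂ τ => muW σ (G j) (Real.exp (-τ)) ω₁ (T j ω₂)) a b
      fun ω₂ h₂ => (hblock j hj i hi ω₁ h₁ ω₂ h₂).2, ← ex_div]
    exact (isP_Om M _).ex_mono fun ω₂ h₂ => (hblock j hj i hi ω₁ h₁ ω₂ h₂).1
  obtain ⟨ht1, ht2⟩ := mu_total M σ (ℓ := ℓ) hM N a b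
  have hint2 : ∀ j ∈ Finset.range (I + 1), IntervalIntegrable (fun τ =>
      ∑ i ∈ Finset.range (Λ ^ (I - j)), ex (M.Om (i * (n₀ * Λ ^ j))) fun ω₁ =>
        ex (M.Om (n₀ * Λ ^ j)) fun ω₂ => muW σ (G j) (Real.exp (-τ)) ω₁ (T j ω₂))
      MeasureTheory.volume a b := fun j hj => by
    have := IntervalIntegrable.sum _ (hint j hj)
    rwa [Finset.sum_fn] at this
  have hint3 : IntervalIntegrable (fun τ => ∑ j ∈ Finset.range (I + 1),
      ∑ i ∈ Finset.range (Λ ^ (I - j)), ex (M.Om (i * (n₀ * Λ ^ j))) fun ω₁ =>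
        ex (M.Om (n₀ * Λ ^ j)) fun ω₂ => muW σ (G j) (Real.exp (-τ)) ω₁ (T j ω₂))
      MeasureTheory.volume a b := by
    have := IntervalIntegrable.sum _ hint2
    rwa [Finset.sum_fn] at this
  have hup := intervalIntegral.integral_mono_on hab hint3 (ht1.const_mul k) fun τ _ =>
    mu_tau M σ hk hℓ hM hg hξ1.le hξ hn hΛ hT hG (Real.exp_pos (-τ))
  rw [intervalIntegral.integral_const_mul, intervalIntegral.integral_finsetSum hint2] at hup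
  have hsum : ∑ j ∈ Finset.range (I + 1),
      (ex (M.Om (n₀ * Λ ^ j)) fun ω => (T j ω).gsum (vOn (G j))) / (n₀ * Λ ^ j : ℕ) * (N / 8) ≤
      k * (Real.log M' * (N * Real.log (Fintype.card ι))) := by
    refine le_trans (Finset.sum_le_sum fun j hj => ?_)
      (hup.trans (mul_le_mul_of_nonneg_left ht2 hk.le))
    rw [intervalIntegral.integral_finsetSum (hint j hj)]
    refine le_trans (le_of_eq ?_) (Finset.sum_le_sum (hlow j hj))
    have hj' : j ≤ I := Nat.lt_succ_iff.1 (Finset.mem_range.1 hj)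
    have e : Λ ^ (I - j) * (n₀ * Λ ^ j) = N := by
      rw [hN, mul_left_comm, ← pow_add, Nat.sub_add_cancel hj']
    have hnj : (0 : ℝ) < (n₀ * Λ ^ j : ℕ) := by exact_mod_cast Nat.mul_pos hn (Nat.pow_pos hΛ)
    rw [Finset.sum_const, Finset.card_range, nsmul_eq_mul, ← e, Nat.cast_mul (Λ ^ (I - j))]
    field_simp
  rw [← Finset.sum_mul] at hsum
  have h2 : ∑ j ∈ Finset.range (I + 1),
      (ex (M.Om (n₀ * Λ ^ j)) fun ω => (T j ω).gsum (vOn (G j))) / (n₀ * Λ ^ j : ℕ) ≤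
      8 * k * (Real.log M' * Real.log (Fintype.card ι)) := by
    refine le_of_mul_le_mul_right (hsum.trans (le_of_eq ?_)) (by positivity : 0 < (N : ℝ) / 8)
    ring
  linarith

end Crest.Agent.R98
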