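import Crest.Agent.R98.PiLow
import Crest.Agent.R98.Defic

/-!
# R98/NodeLow: the estimate at one rare node
Let `α = e/χ < 1`, `α' = (1+α)/2`, `lv = log (1/v)`, `c₃ = (1 - α/α')/2`, `c₁ = c₃/8`, `η = c₁/4`, `Θ = v^{-α'κ}`,
`θ₃ = v^{κ(1+α')/2} ≥ v^κ`, `θ₂ = v^{κ(1-α')/4}`, `κ₁ = κ(1-α')/8`, `d₀ = D/(24 lv)`. Apply `piL_avg_ge` for each `m = nu ω'` and average.
`ball_prob`: by `ex_log_ball`, `Hs_le_add`, `defic` (with `N = ⌈R₁/R₂⌉`) `E log (B₁/B₂) ≤ α log (R₁/R₂) + C`, and `log (B₁/B₂) ≥ 0`; Markov.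
Here `R₁/R₂ = 6D/(ηs) ≤ 6/(η v^κ)`, so `P(¬G3) ≤ (ακ lv + C')/(α'κ lv) ≤ 1 - c₃` for small `v`. G2 fails with probability
`≤ h(v₀)(8(κ lv + log (1/η)) + 1)/(κ(1-α')/4 lv) ≤ c₁` (`WV.ex_neg_log_ball`, Markov); `8s/(d₀θ₃) ≤ 384 lv v^{κ(1-α')/2} ≤ c₁`;
`2θ₃Θ/θ₂ = 2 v^{κ(1-α')/4} ≤ v^{κ₁}` (`piL_mono`). All smallness conditions hold for `v ≤ v₀`.
-/

set_option autoImplicit false

namespace Crest.Agent.R98

variable {Ω ι : Type*} [Fintype Ω] [Fintype ι] (M : Mod Ω ι) (σ : Sys Ω ι)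

theorem nl_ball {m : ℝ →₀ ℝ} (hm : IsP m) {R₁ R₂ a : ℝ} (hR₂ : 0 < R₂) (hR : R₂ ≤ R₁) (ha : 0 < a) :
    1 - (Hs R₂ m - Hs R₁ m + Real.log 3) / a ≤
      pr m {x | pr m (Metric.closedBall x R₁) ≤ Real.exp a * pr m (Metric.closedBall x R₂)} := by
  have hpos : ∀ x ∈ m.support, 0 < pr m (Metric.closedBall x R₂) := fun x hx =>
    hm.pr_pos hx (Metric.mem_closedBall_self hR₂.le)
  have hle : ∀ x, pr m (Metric.closedBall x R₂) ≤ pr m (Metric.closedBall x R₁) := fun x =>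
    hm.pr_mono fun y _ hy => Metric.closedBall_subset_closedBall hR hy
  have h1 := hm.markov (F := fun x => Real.log (pr m (Metric.closedBall x R₁) /
    pr m (Metric.closedBall x R₂))) (fun x hx => Real.log_nonneg ((one_le_div (hpos x hx)).2 (hle x))) ha
  have h2 := ex_log_ball hm (hR₂.trans_le hR) hR₂
  have h3 := hm.pr_compl
    {x | pr m (Metric.closedBall x R₁) ≤ Real.exp a * pr m (Metric.closedBall x R₂)}
  have h4 : pr m {x | pr m (Metric.closedBall x R₁) ≤ Real.exp a * pr m (Metric.closedBall x R₂)}ᶜ ≤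
      pr m {x | a ≤ Real.log (pr m (Metric.closedBall x R₁) / pr m (Metric.closedBall x R₂))} := by
    refine hm.pr_mono fun x hx hx' => ?_
    have h5 : Real.exp a * pr m (Metric.closedBall x R₂) < pr m (Metric.closedBall x R₁) :=
      not_le.1 hx'
    exact (Real.le_log_iff_exp_le (div_pos ((hpos x hx).trans_le (hle x)) (hpos x hx))).2
      ((le_div_iff₀ (hpos x hx)).2 h5.le)
  have h5 := div_le_div_of_nonneg_right h2 ha.le
  linarith

theorem nl_small {m : ℝ →₀ ℝ} (hm : IsP m) {r a B : ℝ} (hr : 0 < r) (ha : 0 < a)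
    (hB : (ex m fun y => -Real.log (pr m (Metric.closedBall y r))) ≤ B) :
    pr m {y | pr m (Metric.closedBall y r) < Real.exp (-a)} ≤ B / a := by
  have hpos : ∀ x ∈ m.support, 0 < pr m (Metric.closedBall x r) := fun x hx =>
    hm.pr_pos hx (Metric.mem_closedBall_self hr.le)
  have h1 := hm.markov (F := fun y => -Real.log (pr m (Metric.closedBall y r)))
    (fun x hx => neg_nonneg.2 (Real.log_nonpos (hpos x hx).le (hm.pr_le_one _))) ha
  refine le_trans (hm.pr_mono fun x hx hx' => ?_) (h1.trans (div_le_div_of_nonneg_right hB ha.le))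
  have h2 : Real.log (pr m (Metric.closedBall x r)) ≤ -a :=
    (Real.log_le_iff_le_exp (hpos x hx)).2 (le_of_lt hx')
  exact le_neg.1 h2

theorem nl_exists_v0 {c : ℝ} (hc : 0 < c) (T : ℝ) :
    ∃ v₀ : ℝ, 0 < v₀ ∧ v₀ ≤ 1 / 2 ∧ Real.binEntropy v₀ ≤ c ∧ v₀ ≤ Real.exp (-T) := by
  have h1 : ∀ᶠ v in nhds (0 : ℝ), Real.binEntropy v < c :=
    Real.binEntropy_continuous.continuousAt.eventually (gt_mem_nhds (by simpa using hc))
  have h2 : ∀ᶠ v in nhds (0 : ℝ), v < 1 / 2 := gt_mem_nhds (by norm_num)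
  have h3 : ∀ᶠ v in nhds (0 : ℝ), v < Real.exp (-T) := gt_mem_nhds (Real.exp_pos _)
  obtain ⟨v, ⟨a1, a2, a3⟩, a0⟩ := (((h1.and (h2.and h3)).filter_mono
    (nhdsWithin_le_nhds (s := Set.Ioi 0))).and self_mem_nhdsWithin).exists
  exact ⟨v, a0, a2.le, a1.le, a3.le⟩

theorem ball_prob : ∃ C : ℝ, 0 < C ∧ ∀ (n' : ℕ) (R₁ R₂ a : ℝ), 0 < R₂ → R₂ ≤ R₁ → 0 < a →
    1 - (eR M σ / chi M σ * Real.log (R₁ / R₂) + C) / a ≤
      ex (M.Om n') fun ω => pr (nu M σ ω) {x | pr (nu M σ ω) (Metric.closedBall x R₁) ≤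
        Real.exp a * pr (nu M σ ω) (Metric.closedBall x R₂)} := by
  obtain ⟨C, hC, hdef⟩ := defic M σ
  have hα : 0 ≤ eR M σ / chi M σ := div_nonneg (eR_nonneg M σ) (chi_pos M σ).le
  have h2 : 0 < Real.log 2 := Real.log_pos (by norm_num)
  have h3 : 0 < Real.log 3 := Real.log_pos (by norm_num)
  refine ⟨eR M σ / chi M σ * Real.log 2 + C + 2 * Real.log 3, by positivity,
    fun n' R₁ R₂ a hR₂ hR ha => ?_⟩
  have hR₁ : 0 < R₁ := hR₂.trans_le hR
  have hq : 1 ≤ R₁ / R₂ := (one_le_div hR₂).2 hR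
  have hN1 : R₁ / R₂ ≤ ⌈R₁ / R₂⌉₊ := Nat.le_ceil _
  have hN2 : (⌈R₁ / R₂⌉₊ : ℝ) < R₁ / R₂ + 1 := Nat.ceil_lt_add_one (by linarith)
  have hN0 : 1 ≤ ⌈R₁ / R₂⌉₊ := by exact_mod_cast hq.trans hN1
  have hd := hdef ⌈R₁ / R₂⌉₊ n' R₂ hN0 hR₂
  generalize ⌈R₁ / R₂⌉₊ = N at *
  have hNr : (0 : ℝ) < N := by linarith
  have hlog : Real.log N ≤ Real.log (R₁ / R₂) + Real.log 2 := by
    rw [← Real.log_mul (by positivity) (by norm_num)]
    exact Real.log_le_log hNr (by linarith)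
  have key : ∀ ω, 1 - (Dsc R₂ N (nu M σ ω) + 2 * Real.log 3) / a ≤
      pr (nu M σ ω) {x | pr (nu M σ ω) (Metric.closedBall x R₁) ≤
        Real.exp a * pr (nu M σ ω) (Metric.closedBall x R₂)} := fun ω => by
    have hm := isP_nu M σ ω
    have h4 := nl_ball hm hR₂ hR ha
    have h5 := Hs_le_add hm (s := N * R₂) (s' := R₁) (by positivity) hR₁
    have h6 : Real.log (R₁ / (N * R₂) + 2) ≤ Real.log 3 := by
      refine Real.log_le_log (by positivity) ?_
      have : R₁ / (N * R₂) ≤ 1 := by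
        rw [div_le_one (by positivity)]
        exact (div_le_iff₀ hR₂).1 hN1
      linarith
    refine le_trans (sub_le_sub_left (div_le_div_of_nonneg_right ?_ ha.le) _) h4
    unfold Dsc
    linarith
  refine le_trans ?_ ((isP_Om M n').ex_mono fun ω _ => key ω)
  rw [ex_sub, ex_div, ex_add, (isP_Om M n').ex_const, (isP_Om M n').ex_const]
  refine sub_le_sub_left (div_le_div_of_nonneg_right ?_ ha.le) _
  have := mul_le_mul_of_nonneg_left hlog hα
  linarith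

theorem node_low (h : eR M σ < chi M σ) {κ : ℝ} (hκ : 0 < κ) (hκ' : κ ≤ 1 / 4) :
    ∃ v₀ κ₁ c₁ : ℝ, 0 < v₀ ∧ v₀ ≤ 1 / 2 ∧ 0 < κ₁ ∧ κ₁ ≤ 1 ∧ 0 < c₁ ∧ c₁ ≤ 1 ∧
    ∀ (D v b : ℝ) (Nr : Set ℝ) (L H : Tr) (s c γ : ℝ) (X n' : ℕ),
      (Tr.node D v b Nr L H).WV → (Tr.node D v b Nr L H).All (fun S => S.vv ≤ v₀) →
      pr H.law Nr ≤ v ^ κ → D * v ^ κ ≤ s → s ≤ 2 * (D * v ^ κ) → c ≠ 0 → 1 ≤ X →
      1 / 2 ≤ X * γ → X * γ ≤ 1 → 1 / (X * v ^ κ) ≤ c₁ →
      2 * c₁ ≤ (∑ x ∈ Finset.range X, ex (M.Om n') fun ω' =>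
        piL (v ^ κ₁) s L.law H.law (dil (c * Real.exp (x * γ)) (nu M σ ω'))) / X := by
  obtain ⟨C, hC, hball⟩ := ball_prob M σ
  have hα0 : 0 ≤ eR M σ / chi M σ := div_nonneg (eR_nonneg M σ) (chi_pos M σ).le
  have hα1 : eR M σ / chi M σ < 1 := (div_lt_one (chi_pos M σ)).2 h
  generalize eR M σ / chi M σ = α at hball hα0 hα1
  -- `β = κ (1 - α) / 16`, `κ - 8 β = κ (1 + α) / 2`, `c₁ = (1 - α) / 32`
  obtain ⟨β, hβ⟩ : ∃ β : ℝ, β = κ * (1 - α) / 16 := ⟨_, rfl⟩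
  obtain ⟨c₁, hc₁⟩ : ∃ c₁ : ℝ, c₁ = (1 - α) / 32 := ⟨_, rfl⟩
  have h1α : 0 < 1 - α := by linarith
  have hβ0 : 0 < β := by rw [hβ]; positivity
  have hβκ : 16 * β ≤ κ := by rw [hβ]; nlinarith
  have hc0 : 0 < c₁ := by rw [hc₁]; positivity
  have hc1 : c₁ ≤ 1 / 32 := by rw [hc₁]; linarith
  obtain ⟨η, hη⟩ : ∃ η : ℝ, η = c₁ / 4 := ⟨_, rfl⟩
  have hη0 : 0 < η := by rw [hη]; positivity
  have hη1 : η ≤ 1 / 128 := by rw [hη]; linarith
  have hl1 : 0 ≤ Real.log (1 / η) := Real.log_nonneg ((one_le_div hη0).2 (by linarith))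
  have hl6 : 0 ≤ Real.log (6 / η) := Real.log_nonneg ((one_le_div hη0).2 (by linarith))
  obtain ⟨v₀, hv0, hv1, hv2, hv3⟩ := nl_exists_v0 (c := c₁ * (2 * β) / (9 * κ)) (by positivity)
    (1 + (Real.log (6 / η) + C) / (κ * c₁) + (8 * Real.log (1 / η) + 1) / κ + 1 / β +
      96 / (β ^ 2 * c₁))
  refine ⟨v₀, β, c₁, hv0, hv1, hβ0, by linarith, hc0, by linarith,
    fun D v b Nr L H s c γ X n' hW hA hnear hs1 hs2 hc hX hγ1 hγ2 hXv => ?_⟩
  obtain ⟨⟨hD, hv, -, hL7, -, -, hLH, -, hsep⟩, hWL, hWH⟩ := hW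
  obtain ⟨hvv, hAL, -⟩ := hA
  have hvv' : v ≤ v₀ := hvv
  have hL : IsP L.law := Tr.WV.isP hWL
  have hH : IsP H.law := Tr.WV.isP hWH
  obtain ⟨t, ht⟩ : ∃ t : ℝ, t = Real.log (1 / v) := ⟨_, rfl⟩
  rw [← ht] at hsep
  have hlv : Real.log v = -t := by rw [ht, one_div, Real.log_inv, neg_neg]
  have hvp : ∀ x : ℝ, v ^ x = Real.exp (-(x * t)) := fun x => by
    rw [Real.rpow_def_of_pos hv, hlv]; congr 1; ring
  have hT : 1 + (Real.log (6 / η) + C) / (κ * c₁) + (8 * Real.log (1 / η) + 1) / κ + 1 / β +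
      96 / (β ^ 2 * c₁) ≤ t := by
    have := (Real.log_le_iff_le_exp hv).2 (hvv'.trans hv3)
    linarith
  have p1 : 0 ≤ (Real.log (6 / η) + C) / (κ * c₁) := by positivity
  have p2 : 0 ≤ (8 * Real.log (1 / η) + 1) / κ := by positivity
  have p3 : 0 ≤ 1 / β := by positivity
  have p4 : 0 ≤ 96 / (β ^ 2 * c₁) := by positivity
  have t0 : 1 ≤ t := by linarith
  have t1 : Real.log (6 / η) + C ≤ t * (κ * c₁) := (div_le_iff₀ (by positivity)).1 (by linarith)
  have t2 : 8 * Real.log (1 / η) + 1 ≤ t * κ := (div_le_iff₀ hκ).1 (by linarith)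
  have t3 : 1 ≤ t * β := (div_le_iff₀ hβ0).1 (by linarith)
  have t4 : 96 ≤ t * (β ^ 2 * c₁) := (div_le_iff₀ (by positivity)).1 (by linarith)
  have tpos : 0 < t := by linarith
  rw [hvp] at hnear hs1 hs2 hXv
  rw [hvp]
  have hE1 : Real.exp (-(κ * t)) ≤ 1 := Real.exp_le_one_iff.2 (neg_nonpos.2 (by positivity))
  have hE0 := Real.exp_pos (-(κ * t))
  have hs : 0 < s := lt_of_lt_of_le (by positivity) hs1
  have hsD : s ≤ 2 * D := hs2.trans
    (mul_le_mul_of_nonneg_left (mul_le_of_le_one_right hD.le hE1) zero_le_two)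
  have hDs : Real.log (D / s) ≤ κ * t := by
    rw [Real.log_le_iff_le_exp (by positivity), div_le_iff₀ hs]
    have := mul_le_mul_of_nonneg_left hs1 (Real.exp_pos (κ * t)).le
    rwa [mul_left_comm, ← Real.exp_add, add_neg_cancel, Real.exp_zero, mul_one] at this
  have hXr : (0 : ℝ) < X := by exact_mod_cast hX
  have hc' : 0 < |c| := abs_pos.2 hc
  have hθ : Real.exp (-(κ * t)) ≤ Real.exp (-((κ - 4 * β) * t)) :=
    Real.exp_le_exp.2 (neg_le_neg (mul_le_mul_of_nonneg_right (by linarith only [hβ0]) tpos.le))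
  have hθ1 : Real.exp (-((κ - 4 * β) * t)) ≤ 1 := Real.exp_le_one_iff.2
    (neg_nonpos.2 (mul_nonneg (by linarith only [hβ0, hβκ]) tpos.le))
  have hθ0 := Real.exp_pos (-((κ - 4 * β) * t))
  -- the far term
  have hfar : 8 * s / (D / (24 * t)) ≤ c₁ * Real.exp (-((κ - 4 * β) * t)) := by
    have a1 : 2 * β * t ≤ Real.exp (2 * β * t) := by linarith [Real.add_one_le_exp (2 * β * t)]
    have a2 : (2 * β * t) ^ 2 ≤ Real.exp (4 * β * t) := by
      rw [show 4 * β * t = 2 * β * t + 2 * β * t by ring, Real.exp_add, sq]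
      exact mul_le_mul a1 a1 (by positivity) (Real.exp_pos _).le
    have a3 : Real.exp (-((κ - 4 * β) * t)) = Real.exp (4 * β * t) * Real.exp (-(κ * t)) := by
      rw [← Real.exp_add]; congr 1; ring
    have a4 : 384 * t ≤ c₁ * Real.exp (4 * β * t) :=
      calc 384 * t = 96 * (4 * t) := by ring
        _ ≤ t * (β ^ 2 * c₁) * (4 * t) := by gcongr
        _ = c₁ * (2 * β * t) ^ 2 := by ring
        _ ≤ _ := by gcongr
    rw [div_div_eq_mul_div, div_le_iff₀ hD, a3]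
    calc 8 * s * (24 * t) ≤ 8 * (2 * (D * Real.exp (-(κ * t)))) * (24 * t) := by gcongr
      _ = 384 * t * Real.exp (-(κ * t)) * D := by ring
      _ ≤ c₁ * Real.exp (4 * β * t) * Real.exp (-(κ * t)) * D := by gcongr
      _ = _ := by ring
  have hd0 : 0 < D / (24 * t) := by positivity
  have hsd : 2 * s ≤ D / (24 * t) := by
    have a1 : 8 * s / (D / (24 * t)) ≤ 1 := hfar.trans
      (mul_le_one₀ (by linarith only [hc1]) hθ0.le hθ1)
    rw [div_le_one hd0] at a1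
    linarith
  have hdD : D / (24 * t) ≤ D := div_le_self hD.le (by linarith)
  have hfar2 : (8 * s / (D / (24 * t)) + 1 / X) / Real.exp (-((κ - 4 * β) * t)) ≤ 2 * c₁ := by
    have a1 : 1 / (X : ℝ) ≤ c₁ * Real.exp (-(κ * t)) := by
      rw [← div_div, div_le_iff₀ hE0] at hXv; exact hXv
    have a2 := mul_le_mul_of_nonneg_left hθ hc0.le
    rw [div_le_iff₀ hθ0]
    linarith
  -- the light child is concentrated
  have hG2 : pr L.law {y | pr L.law (Metric.closedBall y (η * s)) < Real.exp (-(2 * β * t))} ≤ c₁ := by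
    have a1 := Tr.WV.ex_neg_log_ball hWL hAL hv0.le hv1 (r := η * s) (D := D) (by positivity)
      (by linarith only [hL7, hD]) (by nlinarith only [hsD, hη1, hs, hD])
    refine (nl_small hL (by positivity) (by positivity) a1).trans ?_
    have a2 : Real.log (D / (η * s)) = Real.log (1 / η) + Real.log (D / s) := by
      rw [← Real.log_mul (by positivity) (by positivity)]; congr 1; field_simp
    have a3 : 8 * Real.log (D / (η * s)) + 1 ≤ 9 * κ * t := by rw [a2]; linarith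
    have a4 : 0 ≤ Real.binEntropy v₀ := Real.binEntropy_nonneg hv0.le (by linarith)
    rw [div_le_iff₀ (by positivity)]
    calc Real.binEntropy v₀ * (8 * Real.log (D / (η * s)) + 1)
        ≤ Real.binEntropy v₀ * (9 * κ * t) := by gcongr
      _ ≤ c₁ * (2 * β) / (9 * κ) * (9 * κ * t) := by gcongr
      _ = c₁ * (2 * β * t) := by field_simp
  -- the doubling condition
  have hκβ : 0 < κ - 8 * β := by linarith
  have hG3 := hball n' (2 * D / |c|) (η * s / (3 * |c|)) ((κ - 8 * β) * t) (by positivity)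
    (by rw [div_le_div_iff₀ (by positivity) hc']; 
        have a1 : η * s ≤ 6 * D := by nlinarith only [hsD, hη1, hs, hD]
        nlinarith only [mul_le_mul_of_nonneg_right a1 hc'.le])
    (by positivity)
  have hG3' : (α * Real.log (2 * D / |c| / (η * s / (3 * |c|))) + C) / ((κ - 8 * β) * t) ≤
      1 - 6 * c₁ := by
    have a2 : Real.log (2 * D / |c| / (η * s / (3 * |c|))) = Real.log (6 / η) + Real.log (D / s) := by
      rw [← Real.log_mul (by positivity) (by positivity)]; congr 1; field_simp; ring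
    have a3 : α * Real.log (6 / η) ≤ Real.log (6 / η) := mul_le_of_le_one_left hl6 hα1.le
    have a4 : α * Real.log (D / s) ≤ α * (κ * t) := mul_le_mul_of_nonneg_left hDs hα0
    have a5 : α + c₁ ≤ (1 - 6 * c₁) * ((1 + α) / 2) := by
      rw [hc₁]; nlinarith only [h1α, sq_nonneg (1 - α)]
    have a6 : κ - 8 * β = κ * ((1 + α) / 2) := by rw [hβ]; ring
    have a7 := mul_le_mul_of_nonneg_right a5 (mul_pos hκ tpos).le
    rw [div_le_iff₀ (by positivity), a2, a6]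
    linarith only [a3, a4, a7, t1]
  have hth : 2 * Real.exp (-((κ - 4 * β) * t)) * Real.exp ((κ - 8 * β) * t) /
      Real.exp (-(2 * β * t)) ≤ Real.exp (-(β * t)) := by
    rw [div_le_iff₀ (Real.exp_pos _), mul_assoc, ← Real.exp_add, ← Real.exp_add,
      show -(β * t) + -(2 * β * t) = β * t + (-((κ - 4 * β) * t) + (κ - 8 * β) * t) by ring,
      Real.exp_add (β * t)]
    refine mul_le_mul_of_nonneg_right ?_ (Real.exp_pos _).le
    linarith [Real.add_one_le_exp (β * t)]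
  have key : ∀ ω', pr (nu M σ ω') {a | pr (nu M σ ω') (Metric.closedBall a (2 * D / |c|)) ≤
      Real.exp ((κ - 8 * β) * t) * pr (nu M σ ω') (Metric.closedBall a (η * s / (3 * |c|)))} -
        4 * c₁ ≤ (∑ x ∈ Finset.range X, piL (Real.exp (-(β * t))) s L.law H.law
          (dil (c * Real.exp (x * γ)) (nu M σ ω'))) / X := fun ω' => by
    have a1 := piL_avg_ge hL hH (isP_nu M σ ω') Nr hc hs hsd hdD hη0 (Real.exp_pos (-(2 * β * t)))
      hθ0 (Real.exp_pos ((κ - 8 * β) * t)) hX hγ1 hγ2 hLH hsep (hnear.trans hθ)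
    refine le_trans (by linarith only [hη, hG2, hfar2]) (a1.trans (div_le_div_of_nonneg_right
      (Finset.sum_le_sum fun x _ => piL_mono hL ((isP_nu M σ ω').dil _) hth s) hXr.le))
  have fin := (isP_Om M n').ex_mono fun ω' (_ : ω' ∈ (M.Om n').support) => key ω'
  rw [ex_sub, (isP_Om M n').ex_const, ex_div, ex_sum] at fin
  linarith only [fin, hG3, hG3']

end Crest.Agent.R98
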