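import Crest.Agent.R98.Rate

/-!
# R98/Peel: a class function that nearly determines the blocks has large entropy
`peel_blocks`: induction on `k` generalizing `n, F`; `n = ℓ + n'`, `ex_Om_append`, `Cw_append`, `IsP.peel` with
`g (u, w) = F (ω ++ ω') (u ++ w)`, and the induction hypothesis for `F' ω' w = F (ω ++ ω') (u ++ w)` (`ex_comm`).
`det_cells`: if `Det σ n F θ` and `θ ≤ e^{-ξ ℓ} ≤ |c|`, two admissible words have block values `X_block = X_{≥a} - c X_{≥a+ℓ}` (`X_take_drop`) within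
`(2R₀ + 1)|c|`, hence the cell of mesh `|c|` takes at most `4R₀ + 4` values.
`final2`: (1) `peel_blocks` with `g = cell |c'| 0 ∘ X'` and `Hs_le_ent_cell`: `⌊n/ℓ⌋ (An' ℓ - C) ≤ a n`, `n → ∞`, `ℓ → ∞`: `eR' ≤ a < chi'`, so `hR' ≤ eR'`;
same for `σ''`. (2) `g = (cell', cell'')`: `ent g ≥ ent (X', X'') - (ent X' - ent cell') - (ent X'' - ent cell'')` (`ent_pair_sub_le`),
`ent (X', X'') ≥ ent X⁰` (`ent_push_le_of_det`); `Hn' ℓ - An' ℓ = o(ℓ)` (`tendsto_An`, `tendsto_Hn`, `An_le_Hn`), `hR_le`.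
-/

set_option autoImplicit false

namespace Crest.Agent.R98

variable {Ω ι : Type*} [Fintype Ω] [Fintype ι] (M : Mod Ω ι)

theorem peel_mem_joint_const {α β : Type*} {m : α →₀ ℝ} {m' : β →₀ ℝ} (h : IsP m) (h' : IsP m')
    {p : α × β} (hp : p ∈ (joint m fun _ => m').support) : p.1 ∈ m.support ∧ p.2 ∈ m'.support := by
  unfold joint at hp
  rw [h.mem_support_bnd (fun a _ => h'.push _)] at hp
  obtain ⟨a, ha, hp⟩ := hp
  rw [h'.mem_support_push] at hp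
  obtain ⟨b, hb, rfl⟩ := hp
  exact ⟨ha, hb⟩

theorem peel_blocks {γ : Type*} (ℓ : ℕ) (g : List Ω → List ι → γ) {K : ℝ} (hK1 : 1 ≤ K) (k n : ℕ)
    (hn : k * ℓ ≤ n) (F : List Ω → List ι → List Bool)
    (hK : ∀ ω ∈ (M.Om n).support, ∀ a : ℕ, a + ℓ ≤ n → ∀ (u₀ : List ι) (cl : List Bool),
      ∃ S : Finset γ, (S.card : ℝ) ≤ K ∧ ∀ u ∈ (M.Cw ω).support, u.take a = u₀ → F ω u = cl →
        g ((ω.drop a).take ℓ) ((u.drop a).take ℓ) ∈ S) :
    k * ((ex (M.Om ℓ) fun ω => ent (push (g ω) (M.Cw ω))) - Real.log K) ≤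
      ex (M.Om n) fun ω => ent (push (F ω) (M.Cw ω)) := by
  classical
  induction k generalizing n F with
  | zero =>
    simp only [Nat.cast_zero, zero_mul]
    exact (isP_Om M n).ex_nonneg fun ω _ => ((isP_Cw M ω).push _).ent_nonneg
  | succ k ih =>
    have hℓn : ℓ ≤ n := le_trans (by rw [Nat.succ_mul]; omega) hn
    obtain ⟨n', rfl⟩ := Nat.exists_eq_add_of_le hℓn
    have hn' : k * ℓ ≤ n' := by rw [Nat.succ_mul] at hn; omega
    set E := (ex (M.Om ℓ) fun ω => ent (push (g ω) (M.Cw ω))) with hE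
    rw [ex_Om_append]
    have key : ∀ ω ∈ (M.Om ℓ).support,
        ent (push (g ω) (M.Cw ω)) + (k * (E - Real.log K) - Real.log K) ≤
          ex (M.Om n') fun ω' => ent (push (F (ω ++ ω')) (M.Cw (ω ++ ω'))) := by
      intro ω hω
      have hωl : ω.length = ℓ := (mem_support_Om M).1 hω
      have h1 : ∀ ω' ∈ (M.Om n').support,
          (ent (push (g ω) (M.Cw ω)) - Real.log K) +
            (ex (M.Cw ω) fun u => ent (push (fun w => F (ω ++ ω') (u ++ w)) (M.Cw ω'))) ≤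
            ent (push (F (ω ++ ω')) (M.Cw (ω ++ ω'))) := by
        intro ω' hω'
        have hω'l : ω'.length = n' := (mem_support_Om M).1 hω'
        rw [Cw_append, push_push]
        refine (isP_Cw M ω).peel (fun _ _ => isP_Cw M ω')
          (fun p : List ι × List ι => F (ω ++ ω') (p.1 ++ p.2)) (g ω) ?_
        intro cl
        obtain ⟨S, hS, hS'⟩ := hK (ω ++ ω') ((mem_support_Om M).2 (by simp [hωl, hω'l])) 0
          (by omega) [] cl
        refine le_trans ?_ hS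
        refine Nat.cast_le.2 (Finset.card_le_card ?_)
        intro y hy
        simp only [Finset.mem_image, Finset.mem_filter] at hy
        obtain ⟨p, ⟨hp, hcl⟩, rfl⟩ := hy
        obtain ⟨hp1, hp2⟩ := peel_mem_joint_const (isP_Cw M ω) (isP_Cw M ω') hp
        have hl : p.1.length = ℓ := by rw [length_of_mem_Cw M hp1, hωl]
        have := hS' (p.1 ++ p.2) (append_mem_Cw M hp1 hp2) (by simp) hcl
        simp only [List.drop_zero] at this
        rwa [← hωl, List.take_left, hωl, ← hl, List.take_left] at this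
      refine le_trans ?_ ((isP_Om M n').ex_mono h1)
      rw [ex_add, (isP_Om M n').ex_const, ex_comm]
      have h2 : (k : ℝ) * (E - Real.log K) ≤ ex (M.Cw ω) fun u => ex (M.Om n') fun ω' =>
          ent (push (fun w => F (ω ++ ω') (u ++ w)) (M.Cw ω')) := by
        refine (isP_Cw M ω).le_ex fun u hu => ?_
        have hul : u.length = ℓ := by rw [length_of_mem_Cw M hu, hωl]
        refine ih n' hn' (fun ω' w => F (ω ++ ω') (u ++ w)) ?_
        intro ω' hω' a ha u₀ cl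
        have hω'l : ω'.length = n' := (mem_support_Om M).1 hω'
        obtain ⟨S, hS, hS'⟩ := hK (ω ++ ω') ((mem_support_Om M).2 (by simp [hωl, hω'l])) (ℓ + a)
          (by omega) (u ++ u₀) cl
        refine ⟨S, hS, fun w hw hwa hcl => ?_⟩
        have e1 : (u ++ w).take (ℓ + a) = u ++ u₀ := by
          rw [← hul, List.take_length_add_append, hwa]
        have := hS' (u ++ w) (append_mem_Cw M hu hw) e1 hcl
        have e2 : (ω ++ ω').drop (ℓ + a) = ω'.drop a := by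
          rw [← hωl, List.drop_length_add_append]
        have e3 : (u ++ w).drop (ℓ + a) = w.drop a := by
          rw [← hul, List.drop_length_add_append]
        rwa [e2, e3] at this
      linarith
    refine le_trans ?_ ((isP_Om M ℓ).ex_mono key)
    rw [ex_add, (isP_Om M ℓ).ex_const, ← hE]
    push_cast
    linarith

theorem det_cells (σ : Sys Ω ι) : ∃ K : ℝ, 1 ≤ K ∧ ∀ ℓ : ℕ, ∃ θ : ℝ, 0 < θ ∧
    ∀ (n : ℕ) (F : List Ω → List ι → List Bool), Det M σ n F θ →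
      ∀ ω ∈ (M.Om n).support, ∀ a : ℕ, a + ℓ ≤ n → ∀ (u₀ : List ι) (cl : List Bool),
        ∃ S : Finset ℤ, (S.card : ℝ) ≤ K ∧ ∀ u ∈ (M.Cw ω).support, u.take a = u₀ → F ω u = cl →
          cell |σ.cc ((ω.drop a).take ℓ)| 0 (σ.X ((ω.drop a).take ℓ) ((u.drop a).take ℓ)) ∈ S := by
  classical
  obtain ⟨R₀, hR₀, hX⟩ := exists_R0 σ
  obtain ⟨ξ, ξ', -, -, hξ⟩ := exists_xi σ
  set N : ℕ := ⌈2 * R₀ + 1⌉₊ with hN
  have hN' : 2 * R₀ + 1 ≤ (N : ℝ) := Nat.le_ceil _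
  refine ⟨2 * N + 1, by have : (0 : ℝ) ≤ N := Nat.cast_nonneg _; linarith, fun ℓ =>
    ⟨Real.exp (-(ξ * ℓ)), Real.exp_pos _, ?_⟩⟩
  intro n F hD ω hω a ha u₀ cl
  have hωl : ω.length = n := (mem_support_Om M).1 hω
  by_cases hex : ∃ u ∈ (M.Cw ω).support, u.take a = u₀ ∧ F ω u = cl
  swap
  · refine ⟨∅, by simp; positivity, fun u hu h1 h2 => (hex ⟨u, hu, h1, h2⟩).elim⟩
  obtain ⟨u₁, hu₁, h11, h12⟩ := hex
  set c := σ.cc ((ω.drop a).take ℓ) with hc
  have hcpos : 0 < |c| := abs_cc_pos σ _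
  have hθ : Real.exp (-(ξ * ℓ)) ≤ |c| := by
    have := (hξ ((ω.drop a).take ℓ)).1
    have hl : ((ω.drop a).take ℓ).length = ℓ := by simp; omega
    rwa [hl] at this
  set z₁ := cell |c| 0 (σ.X ((ω.drop a).take ℓ) ((u₁.drop a).take ℓ)) with hz₁
  refine ⟨Finset.Icc (z₁ - N) (z₁ + N), ?_, fun u hu h1 h2 => ?_⟩
  · rw [Int.card_Icc]
    have : (z₁ + N + 1 - (z₁ - N)).toNat = 2 * N + 1 := by omega
    rw [this]; push_cast; exact le_rfl
  · have hd := hD ω hω u hu u₁ hu₁ a (by rw [h1, h11]) (by rw [h2, h12])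
    have e : ∀ w ∈ (M.Cw ω).support, σ.X (ω.drop a) (w.drop a) =
        σ.X ((ω.drop a).take ℓ) ((w.drop a).take ℓ) +
          c * σ.X ((ω.drop a).drop ℓ) ((w.drop a).drop ℓ) := by
      intro w hw
      exact X_take_drop σ (by simp [length_of_mem_Cw M hw]) ℓ
    rw [e u hu, e u₁ hu₁] at hd
    set x := σ.X ((ω.drop a).take ℓ) ((u.drop a).take ℓ)
    set x₁ := σ.X ((ω.drop a).take ℓ) ((u₁.drop a).take ℓ)
    set y := σ.X ((ω.drop a).drop ℓ) ((u.drop a).drop ℓ)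
    set y₁ := σ.X ((ω.drop a).drop ℓ) ((u₁.drop a).drop ℓ)
    have hy : |y| ≤ R₀ := hX _ _
    have hy₁ : |y₁| ≤ R₀ := hX _ _
    have hxx : |x - x₁| ≤ N * |c| := by
      have e1 : x - x₁ = (x + c * y - (x₁ + c * y₁)) - c * y + c * y₁ := by ring
      have e2 : |c * y| ≤ |c| * R₀ := by rw [abs_mul]; gcongr
      have e3 : |c * y₁| ≤ |c| * R₀ := by rw [abs_mul]; gcongr
      have e4 : |x - x₁| ≤ |x + c * y - (x₁ + c * y₁)| + |c * y| + |c * y₁| := by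
        rw [e1]
        refine le_trans (abs_add_le _ _) ?_
        gcongr
        exact abs_sub _ _
      have e5 : (2 * R₀ + 1) * |c| ≤ N * |c| := by gcongr
      nlinarith
    have hq : abs (x / |c| - x₁ / |c|) ≤ N := by
      rw [← sub_div, abs_div, abs_abs, div_le_iff₀ hcpos]; exact hxx
    rw [abs_le] at hq
    simp only [Finset.mem_Icc, hz₁, cell, add_zero]
    constructor
    · rw [← Int.floor_sub_natCast]
      exact Int.floor_mono (by linarith)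
    · rw [← Int.floor_add_natCast]
      exact Int.floor_mono (by linarith)

theorem peel_det_mono {σ : Sys Ω ι} {n : ℕ} {F : List Ω → List ι → List Bool} {θ θ' : ℝ}
    (h : Det M σ n F θ) (hθ : θ ≤ θ') : Det M σ n F θ' :=
  fun ω hω u hu v hv a h1 h2 => (h ω hω u hu v hv a h1 h2).trans hθ

/-- `n → ∞` in `peel_blocks` -/
theorem peel_limit {γ : Type*} {ℓ : ℕ} (hℓ : 1 ≤ ℓ) (g : List Ω → List ι → γ) {K a : ℝ} (hK1 : 1 ≤ K)
    (H : ∀ N₀ : ℕ, ∃ n ≥ N₀, ∃ F : List Ω → List ι → List Bool,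
      (ex (M.Om n) fun ω => ent (push (F ω) (M.Cw ω))) ≤ a * n ∧
      ∀ ω ∈ (M.Om n).support, ∀ a : ℕ, a + ℓ ≤ n → ∀ (u₀ : List ι) (cl : List Bool),
        ∃ S : Finset γ, (S.card : ℝ) ≤ K ∧ ∀ u ∈ (M.Cw ω).support, u.take a = u₀ → F ω u = cl →
          g ((ω.drop a).take ℓ) ((u.drop a).take ℓ) ∈ S) :
    (ex (M.Om ℓ) fun ω => ent (push (g ω) (M.Cw ω))) ≤ a * ℓ + Real.log K := by
  set G := (ex (M.Om ℓ) fun ω => ent (push (g ω) (M.Cw ω))) - Real.log K with hG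
  have ha : 0 ≤ a := by
    obtain ⟨n, hn, F, hF, -⟩ := H 1
    have h0 : 0 ≤ ex (M.Om n) fun ω => ent (push (F ω) (M.Cw ω)) :=
      (isP_Om M n).ex_nonneg fun ω _ => ((isP_Cw M ω).push _).ent_nonneg
    have hn' : (0 : ℝ) < n := by exact_mod_cast hn
    exact nonneg_of_mul_nonneg_left (h0.trans hF) hn'
  suffices h : G ≤ a * ℓ by rw [hG] at h; linarith
  by_contra hlt
  push Not at hlt
  obtain ⟨N, hN⟩ := exists_nat_gt (a * ℓ / (G - a * ℓ))
  rw [div_lt_iff₀ (by linarith)] at hN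
  obtain ⟨n, hn, F, hF, hK⟩ := H (N * ℓ)
  have h1 := peel_blocks M ℓ g hK1 (n / ℓ) n (Nat.div_mul_le_self n ℓ) F hK
  rw [← hG] at h1
  have h2 : N ≤ n / ℓ := (Nat.le_div_iff_mul_le (by omega)).2 hn
  have h3 : n ≤ (n / ℓ + 1) * ℓ := by
    have := Nat.lt_div_mul_add (a := n) (b := ℓ) (by omega)
    rw [Nat.add_mul]; omega
  have h2' : (N : ℝ) ≤ (n / ℓ : ℕ) := by exact_mod_cast h2
  have h3' : (n : ℝ) ≤ ((n / ℓ : ℕ) + 1) * ℓ := by exact_mod_cast h3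
  set k : ℝ := ((n / ℓ : ℕ) : ℝ)
  have h4 : a * n ≤ a * ((k + 1) * ℓ) := by gcongr
  have h5 : N * (G - a * ℓ) ≤ k * (G - a * ℓ) := by gcongr
  nlinarith

/-- `ℓ → ∞` -/
theorem peel_le_of_tendsto {u : ℕ → ℝ} {L a C : ℝ}
    (hu : Filter.Tendsto (fun n : ℕ => u n / n) Filter.atTop (nhds L))
    (h : ∀ ℓ : ℕ, 1 ≤ ℓ → u ℓ ≤ a * ℓ + C) : L ≤ a := by
  have h1 : Filter.Tendsto (fun n : ℕ => a + C / (n : ℝ)) Filter.atTop (nhds (a + 0)) :=
    tendsto_const_nhds.add (tendsto_const_div_atTop_nhds_zero_nat C)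
  rw [add_zero] at h1
  refine le_of_tendsto_of_tendsto hu h1 ?_
  filter_upwards [Filter.eventually_ge_atTop 1] with ℓ hℓ
  have hℓ' : (0 : ℝ) < ℓ := by exact_mod_cast hℓ
  rw [div_le_iff₀ hℓ', add_mul, div_mul_cancel₀ _ hℓ'.ne']
  exact h ℓ hℓ

theorem peel_An_le_cell (σ : Sys Ω ι) (ℓ : ℕ) :
    An M σ ℓ ≤ (ex (M.Om ℓ) fun ω =>
      ent (push (fun u => cell |σ.cc ω| 0 (σ.X ω u)) (M.Cw ω))) + Real.log 3 := by
  rw [← (isP_Om M ℓ).ex_const (Real.log 3), ← ex_add]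
  refine (isP_Om M ℓ).ex_mono fun ω _ => ?_
  have := Hs_le_ent_cell (isP_nu M σ ω) (abs_cc_pos σ ω) 0
  rwa [nu, push_push] at this

theorem peel_eR_le (σ : Sys Ω ι) {a : ℝ}
    (H : ∀ ϑ : ℝ, 0 < ϑ → ∀ N₀ : ℕ, ∃ n ≥ N₀, ∃ F : List Ω → List ι → List Bool,
      (ex (M.Om n) fun ω => ent (push (F ω) (M.Cw ω))) ≤ a * n ∧ Det M σ n F ϑ) :
    eR M σ ≤ a := by
  obtain ⟨K, hK1, hK⟩ := det_cells M σ
  refine peel_le_of_tendsto (C := Real.log K + Real.log 3) (tendsto_An M σ) fun ℓ hℓ => ?_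
  obtain ⟨θ, hθ, hc⟩ := hK ℓ
  have h1 := peel_limit M hℓ (fun ω u => cell |σ.cc ω| 0 (σ.X ω u)) (a := a) hK1 fun N₀ => by
    obtain ⟨n, hn, F, hF, hD⟩ := H θ hθ N₀
    exact ⟨n, hn, F, hF, hc n F hD⟩
  have h2 := peel_An_le_cell M σ ℓ
  linarith

theorem final2 (σ₀ σ' σ'' : Sys Ω ι) {a : ℝ}
    (hdet : ∀ (ω : List Ω) (u v : List ι), σ'.X ω u = σ'.X ω v → σ''.X ω u = σ''.X ω v →
      σ₀.X ω u = σ₀.X ω v)
    (c' : Core M σ') (c'' : Core M σ'') (h' : a < chi M σ') (h'' : a < chi M σ'')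
    (H : ∀ ϑ : ℝ, 0 < ϑ → ∀ N₀ : ℕ, ∃ n ≥ N₀, ∃ F : List Ω → List ι → List Bool,
      (ex (M.Om n) fun ω => ent (push (F ω) (M.Cw ω))) ≤ a * n ∧ Det M σ' n F ϑ ∧ Det M σ'' n F ϑ) :
    hR M σ₀ ≤ a := by
  classical
  have e' : eR M σ' ≤ a := peel_eR_le M σ' fun ϑ hϑ N₀ => by
    obtain ⟨n, hn, F, hF, hD, -⟩ := H ϑ hϑ N₀
    exact ⟨n, hn, F, hF, hD⟩
  have e'' : eR M σ'' ≤ a := peel_eR_le M σ'' fun ϑ hϑ N₀ => by
    obtain ⟨n, hn, F, hF, -, hD⟩ := H ϑ hϑ N₀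
    exact ⟨n, hn, F, hF, hD⟩
  have d' : hR M σ' ≤ eR M σ' := c' (e'.trans_lt h')
  have d'' : hR M σ'' ≤ eR M σ'' := c'' (e''.trans_lt h'')
  obtain ⟨K', hK1', hK'⟩ := det_cells M σ'
  obtain ⟨K'', hK1'', hK''⟩ := det_cells M σ''
  have ht : Filter.Tendsto (fun n : ℕ => (Hn M σ₀ n - (Hn M σ' n - An M σ' n) -
      (Hn M σ'' n - An M σ'' n)) / n) Filter.atTop
      (nhds (hR M σ₀ - (hR M σ' - eR M σ') - (hR M σ'' - eR M σ''))) := by
    have := ((tendsto_Hn M σ₀).sub ((tendsto_Hn M σ').sub (tendsto_An M σ'))).sub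
      ((tendsto_Hn M σ'').sub (tendsto_An M σ''))
    refine this.congr fun n => ?_
    ring
  have main := peel_le_of_tendsto (a := a) (C := Real.log (K' * K'') + 2 * Real.log 3) ht
    fun ℓ hℓ => by
      obtain ⟨θ', hθ', hc'⟩ := hK' ℓ
      obtain ⟨θ'', hθ'', hc''⟩ := hK'' ℓ
      have h1 := peel_limit M hℓ
        (fun ω u => (cell |σ'.cc ω| 0 (σ'.X ω u), cell |σ''.cc ω| 0 (σ''.X ω u))) (a := a)
        (one_le_mul_of_one_le_of_one_le hK1' hK1'') fun N₀ => by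
          obtain ⟨n, hn, F, hF, hD', hD''⟩ := H (min θ' θ'') (lt_min hθ' hθ'') N₀
          refine ⟨n, hn, F, hF, fun ω hω b hb u₀ cl => ?_⟩
          obtain ⟨S', hS', hm'⟩ := hc' n F (peel_det_mono M hD' (min_le_left _ _)) ω hω b hb u₀ cl
          obtain ⟨S'', hS'', hm''⟩ :=
            hc'' n F (peel_det_mono M hD'' (min_le_right _ _)) ω hω b hb u₀ cl
          refine ⟨S' ×ˢ S'', ?_, fun u hu h1 h2 => ?_⟩
          · rw [Finset.card_product]; push_cast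
            exact mul_le_mul hS' hS'' (Nat.cast_nonneg _) (by linarith)
          · exact Finset.mem_product.2 ⟨hm' u hu h1 h2, hm'' u hu h1 h2⟩
      have h2 := peel_An_le_cell M σ' ℓ
      have h3 := peel_An_le_cell M σ'' ℓ
      have h4 : Hn M σ₀ ℓ - (Hn M σ' ℓ - ex (M.Om ℓ) fun ω =>
            ent (push (fun u => cell |σ'.cc ω| 0 (σ'.X ω u)) (M.Cw ω))) -
          (Hn M σ'' ℓ - ex (M.Om ℓ) fun ω =>
            ent (push (fun u => cell |σ''.cc ω| 0 (σ''.X ω u)) (M.Cw ω))) ≤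
          ex (M.Om ℓ) fun ω => ent (push (fun u =>
            (cell |σ'.cc ω| 0 (σ'.X ω u), cell |σ''.cc ω| 0 (σ''.X ω u))) (M.Cw ω)) := by
        simp only [Hn]
        rw [← ex_sub, ← ex_sub, ← ex_sub, ← ex_sub]
        refine (isP_Om M ℓ).ex_mono fun ω _ => ?_
        have a1 := (isP_Cw M ω).ent_pair_sub_le (σ'.X ω) (cell |σ'.cc ω| 0) (σ''.X ω)
          (cell |σ''.cc ω| 0)
        have a2 := (isP_Cw M ω).ent_push_le_of_det (f := σ₀.X ω)
          (g := fun u => (σ'.X ω u, σ''.X ω u)) fun u _ v _ huv => by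
            simp only [Prod.mk.injEq] at huv
            exact hdet ω u v huv.1 huv.2
        simp only [nu]
        linarith
      linarith
  linarith

end Crest.Agent.R98
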