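import Crest.Agent.R98.JLow

/-!
# R98/PiLow: a random dilation of the tail separates the two children (Marstrand-type estimate)
Write `c' = c e^{xγ}` (`|c| ≤ |c'| ≤ 3|c|`), `z = y + c' a` (`y ∼ L`, `a ∼ m`), `B₁ a = pr m (closedBall a (2D/|c|))`,
`B₂ a = pr m (closedBall a (η s/(3|c|)))`. Good events: (G1) every `z'` with `|z' - z| ≤ 2ηs` is in the cell of `z`
(`integral_near_boundary`, fails with probability `≤ 4η`); (G2) `pr L (closedBall y (ηs)) ≥ θ₂`; (G3) `B₁ a ≤ Θ B₂ a`;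
(G4) `far := E_{y' ∼ H} 1[y' ∉ Nr] pr m {a' | |c'(a' - a) - (y - y')| < s} ≤ θ₃ B₁ a`. On G1-G4: the cell has `L * m`-mass
`≥ θ₂ B₂ a` and `H * m`-mass `≤ (pr H Nr + θ₃) B₁ a ≤ 2 θ₃ Θ B₂ a`. So the indicator in `piL` is
`≥ 1[G3] - 1[¬G1] - 1[¬G2] - far/(θ₃ B₁ a)`. `count_dil` bounds the average of `far` over `x < X` by `(8s/d₀ + 1/X) B₁ a`.
-/

set_option autoImplicit false

namespace Crest.Agent.R98

open Classical in
/-- covering count: `|A e^{xγ} - d| < s` forces `xγ` into an interval of length `≤ 4 s/d₀` -/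
theorem count_dil {A d d₀ s γ : ℝ} {X : ℕ} (hs : 0 < s) (hsd : 2 * s ≤ d₀) (hd : d₀ ≤ |d|) (hX : 1 ≤ X)
    (hγ : 1 / 2 ≤ X * γ) :
    (((Finset.range X).filter fun x : ℕ => |A * Real.exp (x * γ) - d| < s).card : ℝ) ≤
      (8 * s / d₀ + 1 / X) * X := by
  have hX0 : (0 : ℝ) < X := by exact_mod_cast hX
  have hd0 : 0 < d₀ := by linarith
  have hγ0 : 0 < γ := by
    by_contra h
    push Not at h
    have : (X : ℝ) * γ ≤ 0 := mul_nonpos_of_nonneg_of_nonpos hX0.le h
    linarith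
  have hR : (8 * s / d₀ + 1 / X) * X = 8 * s * X / d₀ + 1 := by field_simp
  rw [hR]
  set S := (Finset.range X).filter fun x : ℕ => |A * Real.exp (x * γ) - d| < s with hS
  rcases S.eq_empty_or_nonempty with h | h
  · rw [h]; simp only [Finset.card_empty, Nat.cast_zero]; positivity
  have h0 := S.min'_mem h
  have h1 := S.max'_mem h
  set x₀ := S.min' h
  set x₁ := S.max' h
  have hle : x₀ ≤ x₁ := S.min'_le_max' h
  have hsub : S ⊆ Finset.Icc x₀ x₁ := fun x hx =>
    Finset.mem_Icc.2 ⟨S.min'_le x hx, S.le_max' x hx⟩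
  have hcard : (S.card : ℝ) ≤ (x₁ : ℝ) - x₀ + 1 := by
    have := Finset.card_le_card hsub
    rw [Nat.card_Icc] at this
    have h2 : S.card + x₀ ≤ x₁ + 1 := by omega
    have h3 : (S.card : ℝ) + x₀ ≤ x₁ + 1 := by exact_mod_cast h2
    linarith
  have e0 := (Finset.mem_filter.1 h0).2
  have e1 := (Finset.mem_filter.1 h1).2
  have a0 : |d| - s < |A| * Real.exp (x₀ * γ) := by
    have := abs_sub_abs_le_abs_sub d (A * Real.exp (x₀ * γ))
    rw [abs_sub_comm d, abs_mul, abs_of_pos (Real.exp_pos _)] at this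
    linarith
  have a1 : |A| * Real.exp (x₁ * γ) < |d| + s := by
    have := abs_sub_abs_le_abs_sub (A * Real.exp (x₁ * γ)) d
    rw [abs_mul, abs_of_pos (Real.exp_pos _)] at this
    linarith
  set t : ℝ := (x₁ : ℝ) - x₀ with ht
  have ht0 : 0 ≤ t := by
    have : (x₀ : ℝ) ≤ x₁ := by exact_mod_cast hle
    linarith
  have hexp : Real.exp (x₁ * γ) = Real.exp (x₀ * γ) * Real.exp (t * γ) := by
    rw [← Real.exp_add]; congr 1; rw [ht]; ring
  have hE : t * γ + 1 ≤ Real.exp (t * γ) := Real.add_one_le_exp _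
  have htγ : 0 ≤ t * γ := mul_nonneg ht0 hγ0.le
  have b1 : (|d| - s) * (t * γ + 1) ≤ |A| * Real.exp (x₁ * γ) := by
    rw [hexp, ← mul_assoc]
    exact mul_le_mul a0.le hE (by linarith) (by positivity)
  have b2 : d₀ / 2 * (t * γ) ≤ 2 * s := by
    have : d₀ / 2 * (t * γ) ≤ (|d| - s) * (t * γ) := mul_le_mul_of_nonneg_right (by linarith) htγ
    nlinarith
  have b3 : t ≤ 8 * s * X / d₀ := by
    rw [le_div_iff₀ hd0]
    have c1 : t * d₀ * 1 ≤ t * d₀ * (2 * (X * γ)) :=
      mul_le_mul_of_nonneg_left (by linarith) (by positivity)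
    have c2 : d₀ / 2 * (t * γ) * (4 * X) ≤ 2 * s * (4 * X) :=
      mul_le_mul_of_nonneg_right b2 (by positivity)
    nlinarith
  linarith

namespace PiLow

theorem meas_cell (s z : ℝ) : Measurable fun u => cell s u z := by
  unfold cell
  exact Int.measurable_floor.comp (measurable_const.add measurable_id)

theorem meas_pr (M : ℝ →₀ ℝ) (s z : ℝ) :
    Measurable fun u => pr M {z' | cell s u z' = cell s u z} := by
  unfold pr
  refine measurable_ex M
    (fun z' u => Set.indicator {z' | cell s u z' = cell s u z} (fun _ => (1 : ℝ)) z') fun z' _ => ?_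
  have h : MeasurableSet {u : ℝ | cell s u z' = cell s u z} :=
    measurableSet_eq_fun (meas_cell s z') (meas_cell s z)
  have : (fun u => Set.indicator {z' | cell s u z' = cell s u z} (fun _ => (1 : ℝ)) z') =
      Set.indicator {u : ℝ | cell s u z' = cell s u z} fun _ => (1 : ℝ) := by
    funext u
    by_cases hu : cell s u z' = cell s u z
    · rw [Set.indicator_of_mem (by exact hu), Set.indicator_of_mem (by exact hu)]
    · rw [Set.indicator_of_notMem (by exact hu), Set.indicator_of_notMem (by exact hu)]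
  rw [this]
  exact measurable_const.indicator h

theorem ii_of_bdd {f : ℝ → ℝ} (hf : Measurable f) (hb : ∀ u, |f u| ≤ 1) :
    IntervalIntegrable f MeasureTheory.volume 0 1 := by
  refine (intervalIntegrable_const (c := (1 : ℝ))).mono_fun hf.aestronglyMeasurable ?_
  refine Filter.Eventually.of_forall fun u => ?_
  simpa using hb u

theorem same_cell {s u z z' : ℝ} (hs : 0 < s) (h : cell s u z' = cell s u z) : |z' - z| < s := by
  unfold cell at h
  have := Int.abs_sub_lt_one_of_floor_eq_floor h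
  have e : z' / s + u - (z / s + u) = (z' - z) / s := by ring
  rw [e, abs_div, abs_of_pos hs, div_lt_one hs] at this
  exact this

theorem pr_conv_dil (L m : ℝ →₀ ℝ) (c' : ℝ) (C : Set ℝ) :
    pr (conv L (dil c' m)) C = ex L fun y => pr m {a | y + c' * a ∈ C} := by
  unfold pr
  rw [ex_conv]
  refine ex_congr fun y _ => ?_
  rw [ex_dil]
  refine ex_congr fun a _ => ?_
  by_cases h : y + c' * a ∈ C
  · rw [Set.indicator_of_mem h, Set.indicator_of_mem (by exact h)]
  · rw [Set.indicator_of_notMem h, Set.indicator_of_notMem (by exact h)]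

/-- mass of the "far" coincidences -/
noncomputable def far (H m : ℝ →₀ ℝ) (Nr : Set ℝ) (s c' y a : ℝ) : ℝ :=
  ex H fun y' => Nrᶜ.indicator (fun _ => (1 : ℝ)) y' * pr m {a' | |c' * (a' - a) - (y - y')| < s}

theorem ind_nonneg {α : Type*} (A : Set α) (a : α) : 0 ≤ A.indicator (fun _ => (1 : ℝ)) a :=
  Set.indicator_nonneg (fun _ _ => zero_le_one) a

theorem ind_le {α : Type*} (A : Set α) (a : α) : A.indicator (fun _ => (1 : ℝ)) a ≤ 1 :=
  Set.indicator_le_self' (fun _ _ => zero_le_one) a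

theorem far_nonneg {H m : ℝ →₀ ℝ} (hH : IsP H) (hm : IsP m) (Nr : Set ℝ) (s c' y a : ℝ) :
    0 ≤ far H m Nr s c' y a :=
  hH.ex_nonneg fun _ _ => mul_nonneg (ind_nonneg _ _) (hm.pr_nonneg _)

theorem mem_ball {D s c c' y y' a a' : ℝ} (hc : c ≠ 0) (hcc : |c| ≤ |c'|) (hsD : s ≤ D)
    (hy : |y - y'| ≤ D) (h : |c' * (a' - a) - (y - y')| < s) :
    a' ∈ Metric.closedBall a (2 * D / |c|) := by
  have hc0 : 0 < |c| := abs_pos.2 hc
  rw [Metric.mem_closedBall, Real.dist_eq, le_div_iff₀ hc0]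
  have h1 := abs_sub_abs_le_abs_sub (c' * (a' - a)) (y - y')
  rw [abs_mul] at h1
  have h2 : |a' - a| * |c| ≤ |c'| * |a' - a| := by
    rw [mul_comm]; exact mul_le_mul_of_nonneg_right hcc (abs_nonneg _)
  linarith

/-- lower bound for the `L * m` mass of the cell -/
theorem low_mass {L m : ℝ →₀ ℝ} (hL : IsP L) (hm : IsP m) {s η c c' u y a : ℝ} (hc : c ≠ 0)
    (hcc : |c'| ≤ 3 * |c|)
    (hG : ∀ z', |z' - (y + c' * a)| ≤ 2 * η * s → cell s u z' = cell s u (y + c' * a)) :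
    pr L (Metric.closedBall y (η * s)) * pr m (Metric.closedBall a (η * s / (3 * |c|))) ≤
      pr (conv L (dil c' m)) {z' | cell s u z' = cell s u (y + c' * a)} := by
  have hc0 : 0 < |c| := abs_pos.2 hc
  rw [pr_conv_dil]
  conv_lhs => rw [pr, ← ex_mul_right]
  refine hL.ex_mono fun y' _ => ?_
  by_cases hy : y' ∈ Metric.closedBall y (η * s)
  · rw [Set.indicator_of_mem hy, one_mul]
    refine hm.pr_mono fun a' _ ha => ?_
    refine hG _ ?_
    rw [Metric.mem_closedBall, Real.dist_eq] at hy ha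
    rw [le_div_iff₀ (by positivity)] at ha
    have e : y' + c' * a' - (y + c' * a) = (y' - y) + c' * (a' - a) := by ring
    rw [e]
    have h1 := abs_add_le (y' - y) (c' * (a' - a))
    rw [abs_mul] at h1
    have h2 : |c'| * |a' - a| ≤ |a' - a| * (3 * |c|) := by
      rw [mul_comm]; exact mul_le_mul_of_nonneg_left hcc (abs_nonneg _)
    linarith
  · rw [Set.indicator_of_notMem hy, zero_mul]
    exact hm.pr_nonneg _

/-- upper bound for the `H * m` mass of the cell -/
theorem up_mass {H m : ℝ →₀ ℝ} (hH : IsP H) (hm : IsP m) (Nr : Set ℝ) {D s c c' u y a : ℝ}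
    (hc : c ≠ 0) (hcc : |c| ≤ |c'|) (hs : 0 < s) (hsD : s ≤ D)
    (hLH : ∀ y' ∈ H.support, |y - y'| ≤ D) :
    pr (conv H (dil c' m)) {z' | cell s u z' = cell s u (y + c' * a)} ≤
      pr H Nr * pr m (Metric.closedBall a (2 * D / |c|)) + far H m Nr s c' y a := by
  rw [pr_conv_dil]
  conv_rhs => rw [pr, ← ex_mul_right, far, ← ex_add]
  refine hH.ex_mono fun y' hy' => ?_
  have key : ∀ a', y' + c' * a' ∈ {z' | cell s u z' = cell s u (y + c' * a)} →
      |c' * (a' - a) - (y - y')| < s := fun a' h => by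
    have := same_cell hs h
    have e : y' + c' * a' - (y + c' * a) = c' * (a' - a) - (y - y') := by ring
    rwa [e] at this
  by_cases hN : y' ∈ Nr
  · rw [Set.indicator_of_mem hN, Set.indicator_of_notMem (by simpa using hN), one_mul, zero_mul,
      add_zero]
    exact hm.pr_mono fun a' _ h => mem_ball hc hcc hsD (hLH y' hy') (key a' h)
  · rw [Set.indicator_of_notMem hN, Set.indicator_of_mem (by simpa using hN), one_mul, zero_mul,
      zero_add]
    exact hm.pr_mono fun a' _ h => key a' h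

open Classical in
/-- the pointwise inequality -/
theorem point {L H m : ℝ →₀ ℝ} (hL : IsP L) (hH : IsP H) (hm : IsP m) (Nr : Set ℝ)
    {D s η θ₂ θ₃ Θ c c' u y a : ℝ} (hc : c ≠ 0) (hcc : |c| ≤ |c'|) (hcc' : |c'| ≤ 3 * |c|)
    (hs : 0 < s) (hsD : s ≤ D) (h₂ : 0 < θ₂) (h₃ : 0 < θ₃) (hΘ : 0 < Θ)
    (hLH : ∀ y' ∈ H.support, |y - y'| ≤ D) (hnear : pr H Nr ≤ θ₃) (ha : a ∈ m.support) :
    Set.indicator {a | pr m (Metric.closedBall a (2 * D / |c|)) ≤
          Θ * pr m (Metric.closedBall a (η * s / (3 * |c|)))} (fun _ => (1 : ℝ)) a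
        - Set.indicator {y | pr L (Metric.closedBall y (η * s)) < θ₂} (fun _ => (1 : ℝ)) y
        - far H m Nr s c' y a / (θ₃ * pr m (Metric.closedBall a (2 * D / |c|)))
        - Set.indicator {u : ℝ | ∃ z', |z' - (y + c' * a)| ≤ (2 * η) * s ∧
            cell s u z' ≠ cell s u (y + c' * a)} (fun _ => (1 : ℝ)) u ≤
      if pr (conv H (dil c' m)) {z' | cell s u z' = cell s u (y + c' * a)} ≤
          2 * θ₃ * Θ / θ₂ * pr (conv L (dil c' m)) {z' | cell s u z' = cell s u (y + c' * a)}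
        then 1 else 0 := by
  have hc0 : 0 < |c| := abs_pos.2 hc
  have hD : 0 < D := by linarith
  set B₁ := pr m (Metric.closedBall a (2 * D / |c|)) with hB₁
  set B₂ := pr m (Metric.closedBall a (η * s / (3 * |c|))) with hB₂
  have hB0 : 0 < B₁ := hm.pr_pos ha (Metric.mem_closedBall_self (by positivity))
  have hB2 : 0 ≤ B₂ := hm.pr_nonneg _
  have hf0 := far_nonneg hH hm Nr s c' y a
  have hq0 : 0 ≤ far H m Nr s c' y a / (θ₃ * B₁) := by positivity
  have i1 := ind_le {a | pr m (Metric.closedBall a (2 * D / |c|)) ≤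
    Θ * pr m (Metric.closedBall a (η * s / (3 * |c|)))} a
  have i2 := ind_nonneg {y | pr L (Metric.closedBall y (η * s)) < θ₂} y
  have i3 := ind_nonneg {u : ℝ | ∃ z', |z' - (y + c' * a)| ≤ (2 * η) * s ∧
    cell s u z' ≠ cell s u (y + c' * a)} u
  split_ifs with hI
  · linarith
  by_cases g3 : B₁ ≤ Θ * B₂
  swap
  · rw [Set.indicator_of_notMem (by exact g3)]; linarith
  by_cases g2 : pr L (Metric.closedBall y (η * s)) < θ₂
  · rw [Set.indicator_of_mem (s := {y | pr L (Metric.closedBall y (η * s)) < θ₂}) (by exact g2)]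
    linarith
  by_cases g1 : ∃ z', |z' - (y + c' * a)| ≤ (2 * η) * s ∧ cell s u z' ≠ cell s u (y + c' * a)
  · rw [Set.indicator_of_mem (s := {u : ℝ | ∃ z', |z' - (y + c' * a)| ≤ (2 * η) * s ∧
      cell s u z' ≠ cell s u (y + c' * a)}) (by exact g1)]
    linarith
  by_cases g4 : θ₃ * B₁ ≤ far H m Nr s c' y a
  · have : 1 ≤ far H m Nr s c' y a / (θ₃ * B₁) := by
      rw [le_div_iff₀ (by positivity)]; linarith
    linarith
  exfalso
  apply hI
  push Not at g1 g2 g4
  have u1 := up_mass hH hm Nr (u := u) (a := a) hc hcc hs hsD hLH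
  have u2 := low_mass hL hm (η := η) (u := u) (y := y) (a := a) hc hcc' g1
  rw [← hB₁] at u1
  rw [← hB₂] at u2
  have u3 : pr H Nr * B₁ ≤ θ₃ * B₁ := mul_le_mul_of_nonneg_right hnear hB0.le
  have u4 : θ₂ * B₂ ≤ pr L (Metric.closedBall y (η * s)) * B₂ := mul_le_mul_of_nonneg_right g2 hB2
  have u5 : θ₃ * B₁ ≤ θ₃ * (Θ * B₂) := mul_le_mul_of_nonneg_left g3 h₃.le
  have u6 : 2 * θ₃ * Θ / θ₂ * (θ₂ * B₂) ≤ 2 * θ₃ * Θ / θ₂ *
      pr (conv L (dil c' m)) {z' | cell s u z' = cell s u (y + c' * a)} :=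
    mul_le_mul_of_nonneg_left (u4.trans u2) (by positivity)
  have u7 : 2 * θ₃ * Θ / θ₂ * (θ₂ * B₂) = 2 * (θ₃ * (Θ * B₂)) := by field_simp
  linarith

open Classical in
/-- one dilation -/
theorem one_dil {L H m : ℝ →₀ ℝ} (hL : IsP L) (hH : IsP H) (hm : IsP m) (Nr : Set ℝ)
    {D s η θ₂ θ₃ Θ c c' : ℝ} (hc : c ≠ 0) (hcc : |c| ≤ |c'|) (hcc' : |c'| ≤ 3 * |c|)
    (hs : 0 < s) (hsD : s ≤ D) (hη : 0 < η) (h₂ : 0 < θ₂) (h₃ : 0 < θ₃) (hΘ : 0 < Θ)
    (hLH : ∀ y ∈ L.support, ∀ y' ∈ H.support, |y - y'| ≤ D) (hnear : pr H Nr ≤ θ₃) :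
    pr m {a | pr m (Metric.closedBall a (2 * D / |c|)) ≤
          Θ * pr m (Metric.closedBall a (η * s / (3 * |c|)))} - 4 * η
        - pr L {y | pr L (Metric.closedBall y (η * s)) < θ₂}
        - (ex L fun y => ex m fun a =>
            far H m Nr s c' y a / (θ₃ * pr m (Metric.closedBall a (2 * D / |c|)))) ≤
      piL (2 * θ₃ * Θ / θ₂) s L H (dil c' m) := by
  set G := {a | pr m (Metric.closedBall a (2 * D / |c|)) ≤
    Θ * pr m (Metric.closedBall a (η * s / (3 * |c|)))} with hG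
  set G' := {y | pr L (Metric.closedBall y (η * s)) < θ₂} with hG'
  set I : ℝ → ℝ → ℝ := fun z u =>
    if pr (conv H (dil c' m)) {z' | cell s u z' = cell s u z} ≤
      2 * θ₃ * Θ / θ₂ * pr (conv L (dil c' m)) {z' | cell s u z' = cell s u z} then 1 else 0 with hI
  have hIi : ∀ z, IntervalIntegrable (I z) MeasureTheory.volume 0 1 := fun z => by
    refine ii_of_bdd ?_ fun u => ?_
    · exact Measurable.ite (measurableSet_le (meas_pr _ s z) ((meas_pr _ s z).const_mul _))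
        measurable_const measurable_const
    · simp only [hI]; split_ifs <;> simp
  have e1 : piL (2 * θ₃ * Θ / θ₂) s L H (dil c' m) =
      ex L fun y => ex m fun a => ∫ u in (0 : ℝ)..1, I (y + c' * a) u := by
    have : piL (2 * θ₃ * Θ / θ₂) s L H (dil c' m) =
        ex (conv L (dil c' m)) fun z => ∫ u in (0 : ℝ)..1, I z u := by
      rw [ex_intervalIntegral _ I 0 1 fun z _ => hIi z]; rfl
    rw [this, ex_conv]
    exact ex_congr fun y _ => ex_dil _ _ _
  have e2 : pr m G - 4 * η - pr L G' - (ex L fun y => ex m fun a =>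
        far H m Nr s c' y a / (θ₃ * pr m (Metric.closedBall a (2 * D / |c|)))) =
      ex L fun y => ex m fun a => G.indicator (fun _ => (1 : ℝ)) a - G'.indicator (fun _ => (1 : ℝ)) y
        - far H m Nr s c' y a / (θ₃ * pr m (Metric.closedBall a (2 * D / |c|))) - 4 * η := by
    simp only [ex_sub, hm.ex_const, hL.ex_const]
    unfold pr
    ring
  rw [e1, e2]
  refine hL.ex_mono fun y hy => hm.ex_mono fun a ha => ?_
  obtain ⟨n1, n2⟩ := integral_near_boundary hs (η := 2 * η) (by positivity) (y + c' * a)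
  set N := {u : ℝ | ∃ z', |z' - (y + c' * a)| ≤ (2 * η) * s ∧ cell s u z' ≠ cell s u (y + c' * a)}
    with hN
  set K := G.indicator (fun _ => (1 : ℝ)) a - G'.indicator (fun _ => (1 : ℝ)) y
    - far H m Nr s c' y a / (θ₃ * pr m (Metric.closedBall a (2 * D / |c|))) with hK
  have hNi : IntervalIntegrable (fun u => N.indicator (fun _ => (1 : ℝ)) u) MeasureTheory.volume 0 1 :=
    ii_of_bdd (measurable_const.indicator n2) fun u => by
      rw [abs_of_nonneg (ind_nonneg _ _)]; exact ind_le _ _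
  have m1 : (∫ u in (0 : ℝ)..1, (K - N.indicator (fun _ => (1 : ℝ)) u)) ≤
      ∫ u in (0 : ℝ)..1, I (y + c' * a) u :=
    intervalIntegral.integral_mono_on zero_le_one (intervalIntegrable_const.sub hNi) (hIi _)
      fun u _ => point hL hH hm Nr hc hcc hcc' hs hsD h₂ h₃ hΘ (hLH y hy) hnear ha
  rw [intervalIntegral.integral_sub intervalIntegrable_const hNi] at m1
  simp only [intervalIntegral.integral_const, sub_zero, smul_eq_mul, one_mul] at m1
  linarith

/-- the sum of the far masses over the dilations -/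
theorem sum_far {H m : ℝ →₀ ℝ} (hH : IsP H) (hm : IsP m) (Nr : Set ℝ) {D d₀ s c γ y a : ℝ} {X : ℕ}
    (hc : c ≠ 0) (hs : 0 < s) (hsd : 2 * s ≤ d₀) (hdD : d₀ ≤ D) (hX : 1 ≤ X) (hγ : 1 / 2 ≤ X * γ)
    (hcc : ∀ x ∈ Finset.range X, |c| ≤ |c * Real.exp (x * γ)|)
    (hLH : ∀ y' ∈ H.support, |y - y'| ≤ D) (hsep : ∀ y' ∈ H.support, y' ∉ Nr → d₀ ≤ |y - y'|) :
    ∑ x ∈ Finset.range X, far H m Nr s (c * Real.exp (x * γ)) y a ≤
      (8 * s / d₀ + 1 / X) * X * pr m (Metric.closedBall a (2 * D / |c|)) := by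
  classical
  have hd0 : 0 < d₀ := by linarith
  have hR : 0 ≤ (8 * s / d₀ + 1 / X) * X := by positivity
  unfold far
  rw [← ex_sum]
  refine hH.ex_le fun y' hy' => ?_
  by_cases hN : y' ∈ Nr
  · rw [Set.indicator_of_notMem (by simpa using hN)]
    simp only [zero_mul, Finset.sum_const_zero]
    exact mul_nonneg hR (hm.pr_nonneg _)
  rw [Set.indicator_of_mem (by simpa using hN)]
  simp only [one_mul]
  unfold pr
  rw [← ex_sum, ← ex_mul_left]
  refine hm.ex_mono fun a' _ => ?_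
  by_cases hb : a' ∈ Metric.closedBall a (2 * D / |c|)
  · rw [Set.indicator_of_mem hb, mul_one]
    refine le_trans (le_of_eq ?_) (count_dil (A := c * (a' - a)) hs hsd (hsep y' hy' hN) hX hγ)
    rw [Finset.card_filter, Nat.cast_sum]
    refine Finset.sum_congr rfl fun x _ => ?_
    have e : c * Real.exp (x * γ) * (a' - a) = c * (a' - a) * Real.exp (x * γ) := by ring
    by_cases h : |c * (a' - a) * Real.exp (x * γ) - (y - y')| < s
    · rw [Set.indicator_of_mem (by simpa only [Set.mem_ofPred_eq, e] using h), if_pos h, Nat.cast_one]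
    · rw [Set.indicator_of_notMem (by simpa only [Set.mem_ofPred_eq, e] using h), if_neg h,
        Nat.cast_zero]
  · rw [Set.indicator_of_notMem hb, mul_zero]
    refine le_of_eq (Finset.sum_eq_zero fun x hx => Set.indicator_of_notMem (fun h => hb ?_) _)
    exact mem_ball hc (hcc x hx) (by linarith) (hLH y' hy') h

end PiLow

theorem piL_avg_ge {L H m : ℝ →₀ ℝ} (hL : IsP L) (hH : IsP H) (hm : IsP m) (Nr : Set ℝ)
    {D d₀ s η θ₂ θ₃ Θ c γ : ℝ} {X : ℕ} (hc : c ≠ 0) (hs : 0 < s) (hsd : 2 * s ≤ d₀) (hdD : d₀ ≤ D)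
    (hη : 0 < η) (h₂ : 0 < θ₂) (h₃ : 0 < θ₃) (hΘ : 0 < Θ) (hX : 1 ≤ X) (hγ : 1 / 2 ≤ X * γ)
    (hγ' : X * γ ≤ 1) (hLH : ∀ y ∈ L.support, ∀ y' ∈ H.support, |y - y'| ≤ D)
    (hsep : ∀ y ∈ L.support, ∀ y' ∈ H.support, y' ∉ Nr → d₀ ≤ |y - y'|) (hnear : pr H Nr ≤ θ₃) :
    pr m {a | pr m (Metric.closedBall a (2 * D / |c|)) ≤ Θ * pr m (Metric.closedBall a (η * s / (3 * |c|)))}
        - 4 * η - pr L {y | pr L (Metric.closedBall y (η * s)) < θ₂} - (8 * s / d₀ + 1 / X) / θ₃ ≤
      (∑ x ∈ Finset.range X, piL (2 * θ₃ * Θ / θ₂) s L H (dil (c * Real.exp (x * γ)) m)) / X := by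
  have hX0 : (0 : ℝ) < X := by exact_mod_cast hX
  have hc0 : 0 < |c| := abs_pos.2 hc
  have hD : 0 < D := by linarith
  have hγ0 : 0 < γ := by
    by_contra h
    push Not at h
    have : (X : ℝ) * γ ≤ 0 := mul_nonpos_of_nonneg_of_nonpos hX0.le h
    linarith
  have hcc : ∀ x ∈ Finset.range X, |c| ≤ |c * Real.exp (x * γ)| := fun x _ => by
    rw [abs_mul, abs_of_pos (Real.exp_pos _)]
    exact le_mul_of_one_le_right hc0.le (Real.one_le_exp (by positivity))
  have hcc' : ∀ x ∈ Finset.range X, |c * Real.exp (x * γ)| ≤ 3 * |c| := fun x hx => by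
    rw [abs_mul, abs_of_pos (Real.exp_pos _), mul_comm]
    refine mul_le_mul_of_nonneg_right ?_ hc0.le
    have h1 : (x : ℝ) ≤ X := by exact_mod_cast (Finset.mem_range.1 hx).le
    have h2 : (x : ℝ) * γ ≤ 1 := (mul_le_mul_of_nonneg_right h1 hγ0.le).trans hγ'
    exact (Real.exp_le_exp.2 h2).trans (Real.exp_one_lt_d9.le.trans (by norm_num))
  have h1 := Finset.sum_le_sum fun x (hx : x ∈ Finset.range X) =>
    PiLow.one_dil hL hH hm Nr hc (hcc x hx) (hcc' x hx) hs (by linarith : s ≤ D) hη h₂ h₃ hΘ hLH hnear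
  rw [Finset.sum_sub_distrib, Finset.sum_const, Finset.card_range, nsmul_eq_mul] at h1
  have h2 : (∑ x ∈ Finset.range X, ex L fun y => ex m fun a =>
      PiLow.far H m Nr s (c * Real.exp (x * γ)) y a / (θ₃ * pr m (Metric.closedBall a (2 * D / |c|)))) ≤
      X * ((8 * s / d₀ + 1 / X) / θ₃) := by
    rw [← ex_sum]
    refine hL.ex_le fun y hy => ?_
    rw [← ex_sum]
    refine hm.ex_le fun a ha => ?_
    have hB0 : 0 < pr m (Metric.closedBall a (2 * D / |c|)) :=
      hm.pr_pos ha (Metric.mem_closedBall_self (by positivity))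
    rw [← Finset.sum_div, div_le_iff₀ (by positivity)]
    refine (PiLow.sum_far hH hm Nr hc hs hsd hdD hX hγ hcc (hLH y hy) (hsep y hy)).trans (le_of_eq ?_)
    field_simp
  rw [le_div_iff₀ hX0]
  linarith

end Crest.Agent.R98
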