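import Crest.Agent.R98.Window
import Crest.Agent.R98.ModelA

/-!
# R98/Poly: polynomially many scales
Index `J = ι × (Ω → Fin (n+1))`, `y (i, a) = t i * ∏ o, ρ o ^ a o`. By induction on the word, `X ω u = q ⬝ᵥ y` for an integer vector
`q` with entries in `[0, n]` (`q = ∑_j single (u j, counts of ω<j)`). Differences have entries in `[-n, n]`; integer determinants are `0` or
of size in `[1, D! n^D]`, `D = card J = card ι * (n+1)^(card Ω)`. `cov_of_det`; `Λ = log (D * D! * n^D) ≤ (D+1) log D + D log n ≤ 3 D²`.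
-/

set_option autoImplicit false

namespace Crest.Agent.R98

variable {Ω ι : Type*} [Fintype Ω] [Fintype ι] (M : Mod Ω ι) (σ : Sys Ω ι)

omit [Fintype ι] in
theorem Poly.exists_list (ω : List Ω) (u : List ι) : ∃ L : List (ι × (Ω → ℕ)),
    L.length ≤ ω.length ∧ (∀ p ∈ L, ∀ o, p.2 o ≤ ω.length) ∧
      σ.X ω u = (L.map fun p => σ.t p.1 * ∏ o, σ.ρ o ^ p.2 o).sum := by
  classical
  induction ω generalizing u with
  | nil => exact ⟨[], by simp, by simp, by simp [Sys.X]⟩
  | cons o ω ih =>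
    cases u with
    | nil => exact ⟨[], by simp, by simp, by simp [Sys.X]⟩
    | cons i w =>
      obtain ⟨L, h1, h2, h3⟩ := ih w
      refine ⟨(i, 0) :: L.map fun p => (p.1, p.2 + Pi.single o 1), by simpa using h1, ?_, ?_⟩
      · intro p hp o'
        rcases List.mem_cons.1 hp with rfl | hp
        · simp
        · obtain ⟨p', hp', rfl⟩ := List.mem_map.1 hp
          have := h2 p' hp' o'
          simp only [Pi.add_apply, List.length_cons, Pi.single_apply]
          split_ifs <;> omega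
      · simp only [Sys.X, List.map_cons, List.sum_cons, List.map_map, Pi.zero_apply, pow_zero,
          Finset.prod_const_one, mul_one]
        rw [h3, ← List.sum_map_mul_left]
        congr 2
        refine List.map_congr_left fun p _ => ?_
        simp only [Function.comp, Pi.add_apply, pow_add, Finset.prod_mul_distrib, Pi.single_apply,
          pow_ite, pow_one, pow_zero, Finset.prod_ite_eq', Finset.mem_univ, if_true]
        ring

theorem Poly.cnt_le {α : Type*} (w : List α) (a : α) : cnt w a ≤ w.length := by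
  classical
  unfold cnt
  exact Int.ofNat_le.2 (by convert List.count_le_length)

theorem Poly.exists_vec [DecidableEq Ω] {n : ℕ} (ω : List Ω) (hω : ω.length = n) (u : List ι) :
    ∃ q : ι × (Ω → Fin (n + 1)) → ℤ, (∀ j, 0 ≤ q j ∧ q j ≤ n) ∧
      σ.X ω u = ∑ j, (q j : ℝ) * (σ.t j.1 * ∏ o, σ.ρ o ^ (j.2 o : ℕ)) := by
  classical
  obtain ⟨L, h1, h2, h3⟩ := Poly.exists_list σ ω u
  let φ : ι × (Ω → ℕ) → ι × (Ω → Fin (n + 1)) := fun p =>
    (p.1, fun o => ⟨min (p.2 o) n, Nat.lt_succ_of_le (min_le_right _ _)⟩)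
  refine ⟨cnt (L.map φ), fun j => ⟨?_, ?_⟩, ?_⟩
  · unfold cnt; positivity
  · refine (Poly.cnt_le _ _).trans ?_
    have : (L.map φ).length ≤ n := by simpa [hω] using h1
    exact_mod_cast this
  · have h4 := sum_map_eq_cnt
      (fun j : ι × (Ω → Fin (n + 1)) => σ.t j.1 * ∏ o, σ.ρ o ^ (j.2 o : ℕ)) (L.map φ)
    simp only [mul_comm _ ((cnt (L.map φ) _ : ℤ) : ℝ)] at h4
    rw [← h4, h3, List.map_map]
    congr 1
    refine List.map_congr_left fun p hp => ?_
    simp only [Function.comp, φ]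
    congr 1
    refine Finset.prod_congr rfl fun o _ => ?_
    rw [min_eq_left (hω ▸ h2 p hp o)]

theorem Poly.det_bd {J : Type*} [Fintype J] [DecidableEq J] {n : ℕ} (hn : 1 ≤ n) (A : Matrix J J ℂ)
    (hA : ∀ i, A i ∈ (fun (q : J → ℤ) (j : J) => (q j : ℂ)) '' {q | ∀ j, |q j| ≤ n} ∨
      ∃ j, A i = Pi.single j 1) (h0 : A.det ≠ 0) :
    1 ≤ ‖A.det‖ ∧ ‖A.det‖ ≤ (Fintype.card J).factorial * (n : ℝ) ^ Fintype.card J := by
  have h1 : ∀ i, ∃ q : J → ℤ, (∀ j, |q j| ≤ n) ∧ A i = fun j => (q j : ℂ) := by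
    intro i
    rcases hA i with ⟨q, hq, h⟩ | ⟨j, h⟩
    · exact ⟨q, hq, h.symm⟩
    · refine ⟨Pi.single j 1, fun j' => ?_, ?_⟩
      · rw [Pi.single_apply]
        split_ifs
        · simpa using hn
        · simp
      · rw [h]
        funext j'
        simp only [Pi.single_apply]
        split_ifs <;> simp
  choose B hB hAB using h1
  have h2 : A = (Matrix.of B).map fun x : ℤ => (x : ℂ) := by
    ext i j
    simp [hAB i]
  have h3 : A.det = ((Matrix.of B).det : ℤ) := by rw [h2, Int.cast_det]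
  rw [h3] at h0 ⊢
  rw [Complex.norm_intCast]
  constructor
  · have : (Matrix.of B).det ≠ 0 := fun h => h0 (by rw [h]; simp)
    exact_mod_cast Int.one_le_abs this
  · have := Matrix.det_le (A := Matrix.of B) (abv := AbsoluteValue.abs) (x := (n : ℤ))
      (fun i j => hB i j)
    rw [nsmul_eq_mul, AbsoluteValue.abs_apply] at this
    exact_mod_cast this

theorem cov_poly : ∃ K : ℕ, ∀ n : ℕ, 2 ≤ n → ∃ (R : ℕ) (Λ : ℝ), 0 ≤ Λ ∧ Cov (Dist M σ n) R Λ ∧
    R * (8 * Λ + 1) ≤ (n : ℝ) ^ K := by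
  classical
  refine ⟨5 + 3 * (Fintype.card ι + 2 * Fintype.card Ω + 1), fun n hn => ?_⟩
  set D := Fintype.card (ι × (Ω → Fin (n + 1))) with hD
  have hn2 : (2 : ℝ) ≤ n := by exact_mod_cast hn
  have hfin : ((fun (q : ι × (Ω → Fin (n + 1)) → ℤ) j => (q j : ℂ)) '' {q | ∀ j, |q j| ≤ n}).Finite := by
    refine Set.Finite.image _ ?_
    refine (Set.Finite.pi' fun _ => Set.finite_Icc (-(n : ℤ)) n).subset fun q hq j => ?_
    exact abs_le.1 (hq j)
  have hb : (1 : ℝ) ≤ D.factorial * (n : ℝ) ^ D :=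
    one_le_mul_of_one_le_of_one_le (by exact_mod_cast Nat.succ_le_of_lt D.factorial_pos)
      (one_le_pow₀ (by linarith))
  have hc := cov_of_det hfin
    (fun j => ((σ.t j.1 * ∏ o, σ.ρ o ^ (j.2 o : ℕ) : ℝ) : ℂ)) one_pos hb
    (fun A hA h0 => Poly.det_bd (by omega) A hA h0)
  refine ⟨D, D + D ^ 2 + D * n, by positivity, hc.mono ?_ ?_, ?_⟩
  · rintro d ⟨hd, ω, hω, y, hy, y', hy', rfl⟩
    have hl := (mem_support_Om M).1 hω
    obtain ⟨u, -, rfl⟩ := (mem_support_nu M σ).1 hy
    obtain ⟨u', -, rfl⟩ := (mem_support_nu M σ).1 hy'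
    obtain ⟨q, hq, h⟩ := Poly.exists_vec σ ω hl u
    obtain ⟨q', hq', h'⟩ := Poly.exists_vec σ ω hl u'
    refine ⟨hd, _, ⟨q - q', fun j => ?_, rfl⟩, ?_⟩
    · rw [Pi.sub_apply, abs_le]
      constructor <;> linarith [(hq j).1, (hq j).2, (hq' j).1, (hq' j).2]
    · rw [h, h', ← Finset.sum_sub_distrib, ← Real.norm_eq_abs, ← Complex.norm_real]
      congr 1
      rw [Complex.ofReal_sum]
      refine Finset.sum_congr rfl fun j _ => ?_
      simp only [Pi.sub_apply]
      push_cast
      ring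
  · rw [← hD, div_one]
    rcases Nat.eq_zero_or_pos D with h0 | h0
    · simp [h0]
    · have hD0 : (0 : ℝ) < D := by exact_mod_cast h0
      have h1 : Real.log D ≤ D := (Real.log_le_sub_one_of_pos hD0).trans (by linarith)
      have h2 : Real.log n ≤ n := (Real.log_le_sub_one_of_pos (by linarith)).trans (by linarith)
      have h3 : Real.log D.factorial ≤ D * Real.log D := by
        rw [← Real.log_pow]
        exact Real.log_le_log (by exact_mod_cast D.factorial_pos)
          (by exact_mod_cast Nat.factorial_le_pow D)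
      rw [Real.log_mul hD0.ne' (by positivity), Real.log_mul (by positivity) (by positivity),
        Real.log_pow]
      nlinarith [mul_le_mul_of_nonneg_left h1 hD0.le, mul_le_mul_of_nonneg_left h2 hD0.le]
  · set k := Fintype.card ι + 2 * Fintype.card Ω + 1 with hk
    have h1 : (D : ℝ) ≤ (n : ℝ) ^ k := by
      have a1 : Fintype.card ι ≤ n ^ Fintype.card ι :=
        Nat.lt_two_pow_self.le.trans (Nat.pow_le_pow_left hn _)
      have a2 : (n + 1) ^ Fintype.card Ω ≤ n ^ (2 * Fintype.card Ω) := by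
        rw [pow_mul]
        exact Nat.pow_le_pow_left (by nlinarith) _
      have a3 : D ≤ n ^ k := by
        rw [hD, Fintype.card_prod, Fintype.card_fun, Fintype.card_fin, hk, pow_succ, pow_add]
        exact (Nat.mul_le_mul a1 a2).trans (Nat.le_mul_of_pos_right _ (by omega))
      exact_mod_cast a3
    have h2 : (n : ℝ) ≤ (n : ℝ) ^ k := le_self_pow₀ (by linarith) (by omega)
    have h3 : (32 : ℝ) ≤ (n : ℝ) ^ 5 := by
      have := pow_le_pow_left₀ (by norm_num) hn2 5
      norm_num at this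
      exact this
    have hD0 : (0 : ℝ) ≤ D := Nat.cast_nonneg _
    set E := (n : ℝ) ^ k with hE
    have h4 : (1 : ℝ) ≤ E := by linarith
    have h5 : 8 * ((D : ℝ) + D ^ 2 + D * n) + 1 ≤ 25 * E ^ 2 := by
      have b1 : (D : ℝ) ^ 2 ≤ E ^ 2 := pow_le_pow_left₀ hD0 h1 2
      have b2 : (D : ℝ) * n ≤ E * E := mul_le_mul h1 h2 (by linarith) (by linarith)
      nlinarith
    rw [pow_add, mul_comm 3 k, pow_mul, ← hE]
    calc (D : ℝ) * (8 * ((D : ℝ) + D ^ 2 + D * n) + 1) ≤ E * (25 * E ^ 2) :=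
          mul_le_mul h1 h5 (by positivity) (by linarith)
      _ = 25 * E ^ 3 := by ring
      _ ≤ (n : ℝ) ^ 5 * E ^ 3 := mul_le_mul_of_nonneg_right (by linarith) (by positivity)

end Crest.Agent.R98
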