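import Crest.Agent.R98.Defic
import Crest.Agent.R98.InfUp
import Crest.Agent.R98.BG

/-!
# R98/Single: single-level bound on the light masses
`gain_exp`: choose `N` with `(1 - e/χ) log N - C - 1 ≥ 1` (`defic`), apply `basic_gain` with `m = dil c (nu ω')`
(`Dsc_dil`) and average over `ω'`.
`single`: `vOn_le_integral` with `c = 1`, `7/8 e^{-a} = e^{-χ n}`, `b ≥ a` so large that `e^{-b} ≤` every element of the finite set
`Dist n`; `gain_exp` with `c = cc ω` (`nu_append`) bounds the integrand by `k (f τ - f (τ - log M'))`,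
`f τ = Inf n n' (ℓ e^{-τ})`; `integral_incr_le`, `Inf_up` (`s₁ = ℓ e^{-b}`), `Inf_low`, `tendsto_An`.
-/

set_option autoImplicit false

namespace Crest.Agent.R98

open Filter

variable {Ω ι : Type*} [Fintype Ω] [Fintype ι] (M : Mod Ω ι) (σ : Sys Ω ι)

theorem single_vOn_nonneg {T : Tr} (h : T.WV) (G : Set ℝ) : 0 ≤ T.gsum (vOn G) := by
  refine h.gsum_nonneg (h.all_lab.mono fun S hS => ?_)
  unfold vOn
  split_ifs
  · exact hS.2.2.1.le
  · exact le_rfl

theorem gain_exp (h : eR M σ < chi M σ) : ∃ (k ℓ : ℝ) (M' : ℕ), 0 < k ∧ 0 < ℓ ∧ 2 ≤ M' ∧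
    ∀ (T : Tr) (G : Set ℝ) (D₀ c : ℝ) (n' : ℕ), T.SV → 0 < D₀ → c ≠ 0 →
      T.gsum (vOn (G ∩ Set.Ioc (7 / 8 * D₀) D₀)) ≤ k * ex (M.Om n') fun ω' =>
        Dsc (ℓ * D₀) M' (conv T.law (dil c (nu M σ ω'))) - Dsc (ℓ * D₀) M' (dil c (nu M σ ω')) := by
  obtain ⟨C, hC, hdef⟩ := defic M σ
  have hχ := chi_pos M σ
  set θ : ℝ := 1 - eR M σ / chi M σ with hθ
  have hθ0 : 0 < θ := by
    rw [hθ, sub_pos, div_lt_one hχ]
    exact h
  set N : ℕ := ⌈Real.exp ((C + 2) / θ)⌉₊ with hN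
  have hNge : Real.exp ((C + 2) / θ) ≤ N := Nat.le_ceil _
  have hN1 : 1 ≤ N := Nat.ceil_pos.2 (Real.exp_pos _)
  have hlog : (C + 2) / θ ≤ Real.log N := by
    rw [Real.le_log_iff_exp_le ((Real.exp_pos _).trans_le hNge)]
    exact hNge
  have hlog' : C + 2 ≤ θ * Real.log N := by
    rw [div_le_iff₀ hθ0] at hlog
    linarith
  obtain ⟨k, ℓ, M', hk, hℓ, hM', hg⟩ := basic_gain hN1
  refine ⟨k, ℓ, M', hk, hℓ, hM', fun T G D₀ c n' hT hD hc => ?_⟩
  set g := T.gsum (vOn (G ∩ Set.Ioc (7 / 8 * D₀) D₀)) with hgdef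
  have hg0 : 0 ≤ g := single_vOn_nonneg hT.1 _
  have hs : 0 < ℓ * D₀ := mul_pos hℓ hD
  have hP := isP_Om M n'
  have h1 := hP.ex_mono (F := fun ω' => g * (Real.log N - Dsc (ℓ * D₀ / |c|) N (nu M σ ω') - 1))
    (G := fun ω' => k * (Dsc (ℓ * D₀) M' (conv T.law (dil c (nu M σ ω'))) -
      Dsc (ℓ * D₀) M' (dil c (nu M σ ω')))) fun ω' _ => by
      have := hg T (dil c (nu M σ ω')) G D₀ hT ((isP_nu M σ ω').push _) hD
      rwa [Dsc_dil (isP_nu M σ ω') hc hs hN1] at this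
  rw [ex_mul_left, ex_mul_left, ex_sub, ex_sub, hP.ex_const, hP.ex_const] at h1
  have h2 := hdef N n' (ℓ * D₀ / |c|) hN1 (div_pos hs (abs_pos.2 hc))
  have h3 : 1 ≤ Real.log N - (ex (M.Om n') fun ω' => Dsc (ℓ * D₀ / |c|) N (nu M σ ω')) - 1 := by
    have : θ * Real.log N = Real.log N - eR M σ / chi M σ * Real.log N := by rw [hθ]; ring
    linarith
  exact (le_mul_of_one_le_right hg0 h3).trans h1

/-- a lower bound for the distances at level `n` -/
theorem single_exists_b (n : ℕ) (a : ℝ) :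
    ∃ b : ℝ, a ≤ b ∧ ∀ d ∈ Dist M σ n, Real.exp (-b) ≤ d := by
  obtain ⟨B, hB⟩ := ((Dist_finite M σ n).image fun d => -Real.log d).bddAbove
  refine ⟨max a B, le_max_left _ _, fun d hd => ?_⟩
  have h1 : -Real.log d ≤ B := hB ⟨d, hd, rfl⟩
  have h2 := le_max_right a B
  rw [← Real.le_log_iff_exp_le hd.1]
  linarith

/-- the averaged gain is an increment of the information -/
theorem single_incr {n n' : ℕ} {T : List Ω → Tr} (hT : Trees M σ n T) (s : ℝ) (M' : ℕ) :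
    (ex (M.Om n) fun ω => ex (M.Om n') fun ω' =>
      Dsc s M' (conv (T ω).law (dil (σ.cc ω) (nu M σ ω'))) - Dsc s M' (dil (σ.cc ω) (nu M σ ω'))) =
      Inf M σ n n' s - Inf M σ n n' (M' * s) := by
  unfold Inf
  rw [← ex_sub]
  refine ex_congr fun ω hω => ?_
  rw [← ex_sub]
  refine ex_congr fun ω' _ => ?_
  rw [(hT ω hω).2, ← nu_append]
  unfold Dsc
  ring

theorem single_bound (h : eR M σ < chi M σ) : ∃ K C : ℝ, 0 < K ∧ ∀ (n : ℕ) (T : List Ω → Tr),
    Trees M σ n T →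
    (ex (M.Om n) fun ω => (T ω).gsum (vOn (Set.Iio (Real.exp (-(chi M σ * n)))))) ≤
      K * (eR M σ * n - An M σ n + C * Real.sqrt n + C) := by
  obtain ⟨k, ℓ, M', hk, hℓ, hM', hg⟩ := gain_exp M σ h
  obtain ⟨C₁, hC₁, hup⟩ := Inf_up M σ
  obtain ⟨C₂, hC₂, hlow⟩ := Inf_low M σ
  have hM1 : (1 : ℝ) < M' := by exact_mod_cast hM'
  set L : ℝ := Real.log M' with hL
  have hL0 : 0 < L := Real.log_pos hM1
  have hl0 : 0 < Real.log (8 / 7) := Real.log_pos (by norm_num)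
  set K₀ : ℝ := |Real.log ℓ| + L + Real.log (8 / 7) with hK₀
  have hK₀0 : 0 ≤ K₀ := by positivity
  refine ⟨8 * k * L, C₁ + C₂ + 2 * K₀, by positivity, fun n T hT => ?_⟩
  set a : ℝ := chi M σ * n - Real.log (8 / 7) with ha
  have hea : 7 / 8 * Real.exp (-a) = Real.exp (-(chi M σ * n)) := by
    rw [ha, neg_sub, Real.exp_sub, Real.exp_log (by norm_num), Real.exp_neg]
    field_simp
  obtain ⟨b, hab, hb⟩ := single_exists_b M σ n a
  obtain ⟨n', hn'⟩ := hup (ℓ * Real.exp (-b)) (mul_pos hℓ (Real.exp_pos _))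
  set G : Set ℝ := Set.Iio (Real.exp (-(chi M σ * n))) with hG
  set f : ℝ → ℝ := fun τ => Inf M σ n n' (ℓ * Real.exp (-τ)) with hf
  have hfm : Measurable f := (measurable_Inf M σ n n').comp (by fun_prop)
  have hfB : ∀ τ, |f τ| ≤ (n + n') * Real.log (Fintype.card ι) := fun τ => by
    rw [abs_of_nonneg (Inf_nonneg M σ n n' _)]
    exact Inf_le M σ n n' _
  have hP := isP_Om M n
  have hv := fun ω (hω : ω ∈ (M.Om n).support) =>
    vOn_le_integral (hT ω hω).1.1 G (c := 1) one_pos hab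
      ((hT.all_dist ω hω).mono fun S hS hSG => by
        rw [one_mul, hea]
        exact ⟨hb _ hS, le_of_lt hSG⟩)
  have h1 := hP.ex_mono fun ω hω => (hv ω hω).1
  rw [ex_div, ex_intervalIntegral _ _ _ _ fun ω hω => (hv ω hω).2] at h1
  have hfi : IntervalIntegrable (fun τ => k * (f τ - f (τ - L))) MeasureTheory.volume a b :=
    ((hsa_ii hfm hfB a b).sub
      (hsa_ii (hfm.comp (measurable_id.sub measurable_const)) (fun τ => hfB _) a b)).const_mul k
  have h2 := intervalIntegral.integral_mono_on hab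
    (intervalIntegrable_ex _ _ _ _ fun ω hω => (hv ω hω).2) hfi fun τ _ => by
      have hD : 0 < Real.exp (-τ) / 1 := by positivity
      refine (hP.ex_mono fun ω hω =>
        hg (T ω) G (Real.exp (-τ) / 1) (σ.cc ω) n' (hT ω hω).1 hD (cc_ne_zero σ ω)).trans ?_
      rw [ex_mul_left, single_incr M σ hT]
      have e : (M' : ℝ) * (ℓ * (Real.exp (-τ) / 1)) = ℓ * Real.exp (-(τ - L)) := by
        rw [neg_sub, Real.exp_sub, hL, Real.exp_log (by linarith), Real.exp_neg]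
        field_simp
      rw [e, div_one]
  rw [intervalIntegral.integral_const_mul] at h2
  have h3 := integral_incr_le hfm hfB (a := a) (b := b) (U := eR M σ * n + C₁)
    (V := An M σ n - 2 * K₀ - C₂ * Real.sqrt n - C₂) hL0.le
    (fun τ hτ => hn' n n' _ le_rfl
      (mul_le_mul_of_nonneg_left (Real.exp_le_exp.2 (neg_le_neg hτ.2)) hℓ.le))
    (fun τ hτ => by
      refine le_trans ?_ (hlow n n' _ (mul_pos hℓ (Real.exp_pos _)))
      rw [Real.log_mul hℓ.ne' (Real.exp_pos _).ne', Real.log_exp]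
      have h4 : |Real.log ℓ + -τ + chi M σ * n| ≤ K₀ := by
        have h5 := le_abs_self (Real.log ℓ)
        have h6 := neg_abs_le (Real.log ℓ)
        have h7 := hτ.1
        have h8 := hτ.2
        rw [abs_le]
        constructor <;> linarith
      linarith)
  have h4 := mul_le_mul_of_nonneg_left h3 hk.le
  have h5 : 0 ≤ (C₁ + 2 * K₀) * Real.sqrt n := by positivity
  have h6 : 0 ≤ 8 * k * L := by positivity
  have h7 : eR M σ * n + C₁ - (An M σ n - 2 * K₀ - C₂ * Real.sqrt n - C₂) ≤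
      eR M σ * n - An M σ n + (C₁ + C₂ + 2 * K₀) * Real.sqrt n + (C₁ + C₂ + 2 * K₀) := by
    linarith
  have h8 := mul_le_mul_of_nonneg_left h7 h6
  linarith

theorem single (h : eR M σ < chi M σ) {δ : ℝ} (hδ : 0 < δ) : ∀ᶠ n : ℕ in atTop, ∀ T, Trees M σ n T →
    (ex (M.Om n) fun ω => (T ω).gsum (vOn (Set.Iio (Real.exp (-(chi M σ * n)))))) ≤ δ * n := by
  obtain ⟨K, C, hK, hb⟩ := single_bound M σ h
  have t1 : Tendsto (fun n : ℕ => (Real.sqrt n)⁻¹) atTop (nhds 0) :=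
    (Real.tendsto_sqrt_atTop.comp tendsto_natCast_atTop_atTop).inv_tendsto_atTop
  have t2 : Tendsto (fun n : ℕ => (n : ℝ)⁻¹) atTop (nhds 0) := tendsto_inv_atTop_nhds_zero_nat
  have t : Tendsto (fun n : ℕ => K * (eR M σ - An M σ n / n + C * (Real.sqrt n)⁻¹ + C * (n : ℝ)⁻¹))
      atTop (nhds (K * (eR M σ - eR M σ + C * 0 + C * 0))) :=
    (((tendsto_const_nhds.sub (tendsto_An M σ)).add (t1.const_mul C)).add (t2.const_mul C)).const_mul K
  have e : K * (eR M σ - eR M σ + C * 0 + C * 0) = 0 := by ring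
  rw [e] at t
  filter_upwards [t.eventually (gt_mem_nhds hδ), eventually_gt_atTop 0] with n hn hn0 T hT
  refine (hb n T hT).trans ?_
  have hn' : (0 : ℝ) < n := by exact_mod_cast hn0
  have hs : 0 < Real.sqrt n := Real.sqrt_pos.2 hn'
  have hss : Real.sqrt n * Real.sqrt n = n := Real.mul_self_sqrt hn'.le
  have e2 : K * (eR M σ * n - An M σ n + C * Real.sqrt n + C) =
      K * (eR M σ - An M σ n / n + C * (Real.sqrt n)⁻¹ + C * (n : ℝ)⁻¹) * n := by
    have : (Real.sqrt n)⁻¹ * n = Real.sqrt n := by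
      field_simp
      linarith
    have h2 : An M σ n / n * n = An M σ n := div_mul_cancel₀ _ hn'.ne'
    have h3 : (n : ℝ)⁻¹ * n = 1 := inv_mul_cancel₀ hn'.ne'
    linear_combination (-K * C) * this + K * h2 - K * C * h3
  rw [e2]
  exact mul_le_mul_of_nonneg_right hn.le hn'.le

end Crest.Agent.R98
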