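import Crest.Agent.R98.NodeLow
import Crest.Agent.R98.Buffer
import Crest.Agent.R98.Single
import Crest.Agent.R98.Poly
import Crest.Agent.R98.TreeCls

/-!
# R98/Rank2: the core statement for multiplicatively independent ratios
`rare_small`: `κ = 1/(100 (K+1))`, `v₀ κ₁ c₁` from `node_low` (shrink `v₀` so that for `v ≤ v₀`:
`2√v ≤ v^κ/2` and `v (κ₁ c₁ log (1/v) - 2)/2 ≥ c₂ h(v)`). For `X` large (`exists_dirichlet`) put `n = X^8`, `ℓ = ⌊δ n/2⌋`, `B = b X`,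
`act D v := D < s₀ ∧ v₁ ≤ v ≤ v₀`, `s₀ = e^{-χ n}`, `v₁ = 1/n^K`. Pick `s > 0` with `s ≤ s₀`, `s ≤ D v₁^κ` for all `D ∈ Dist n`;
`sc D v = ⌈D v^κ/s⌉₊ ⊔ 1`, `N = ⌈s₀/s⌉₊`. For `x < X` use the buffer length `ℓ + (B - x b) + x a ≤ δ n` in `info_bound`,
`prune_info` with `m = dil (cc ω * cc ω₂) (nu ω₃)`, average over `x`; at each node of a pruned tree `buffer_shift` (`g = e^{xγ}`) and
`node_low` (`c = cc ω * cc ω₂`) give an average of `Jn` at least `φ (1 - near/v^κ)`, `φ = v (κ₁ c₁ log (1/v) - 2)`;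
`gsum_prune` and `near ≤ 2√v` give `c₂ E gsum (h on active nodes) ≤ C δ n + log 3`.
`core_rank2` (use `rare_small` with `K = 2 K₀ + 2`, `K₀` from `cov_poly`): `Hn n ≤ E gsum h` (`WV.ent_le`), split the nodes into `D ≥ s₀` (`hOn_Ici_le`, `Hs_nat`, `An_le`), `v > v₀` (`single`,
`h v ≤ v (1 + log (1/v₀))`), `v < v₁` (`path_count`, `cov_poly`, `binEntropy_le_sqrt`: total `≤ 3/n`) and active; `hR_le`.
-/

set_option autoImplicit false

namespace Crest.Agent.R98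

open Filter

theorem r2_small {κ a v₀' : ℝ} (hκ : 0 < κ) (hκ' : κ ≤ 1 / 4) (ha : 0 < a) (hv₀' : 0 < v₀') :
    ∃ v₀ c₂ : ℝ, 0 < v₀ ∧ v₀ ≤ v₀' ∧ 0 < c₂ ∧ ∀ v, 0 < v → v ≤ v₀ →
      2 * Real.sqrt v ≤ v ^ κ / 2 ∧ c₂ * Real.binEntropy v ≤ v * (a * Real.log (1 / v) - 2) / 2 := by
  refine ⟨min v₀' (min (1 / 256) (Real.exp (-(max 1 (4 / a))))), a / 8,
    lt_min hv₀' (lt_min (by norm_num) (Real.exp_pos _)), min_le_left _ _, by positivity, ?_⟩
  intro v hv hle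
  have h1 : v ≤ 1 / 256 := hle.trans ((min_le_right _ _).trans (min_le_left _ _))
  have h2 : v ≤ Real.exp (-(max 1 (4 / a))) := hle.trans ((min_le_right _ _).trans (min_le_right _ _))
  have hv1 : v ≤ 1 := by linarith
  have hl : max 1 (4 / a) ≤ Real.log (1 / v) := by
    have := Real.log_le_log hv h2
    rw [Real.log_exp] at this
    rw [one_div, Real.log_inv]; linarith
  have hl1 : 1 ≤ Real.log (1 / v) := (le_max_left _ _).trans hl
  have hl2 : 4 ≤ a * Real.log (1 / v) := by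
    have := (le_max_right _ _).trans hl
    rw [div_le_iff₀ ha] at this; linarith
  constructor
  · have hw : v ^ (1 / 4 : ℝ) ≤ v ^ κ := Real.rpow_le_rpow_of_exponent_ge hv hv1 hκ'
    have hw0 : 0 < v ^ (1 / 4 : ℝ) := Real.rpow_pos_of_pos hv _
    have hsq : Real.sqrt v = v ^ (1 / 4 : ℝ) * v ^ (1 / 4 : ℝ) := by
      rw [← Real.rpow_add hv, Real.sqrt_eq_rpow]; norm_num
    have hw1 : v ^ (1 / 4 : ℝ) ≤ 1 / 4 := by
      have : v ^ (1 / 4 : ℝ) ≤ (1 / 256 : ℝ) ^ (1 / 4 : ℝ) :=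
        Real.rpow_le_rpow hv.le h1 (by norm_num)
      refine this.trans (le_of_eq ?_)
      rw [show (1 / 256 : ℝ) = (1 / 4) ^ (4 : ℝ) by norm_num, ← Real.rpow_mul (by norm_num)]
      norm_num
    rw [hsq]; nlinarith
  · have hh := binEntropy_le_mul hv.le hv1
    have : Real.binEntropy v ≤ 2 * v * Real.log (1 / v) := by nlinarith
    nlinarith [mul_le_mul_of_nonneg_left this (by positivity : (0 : ℝ) ≤ a / 8),
      mul_le_mul_of_nonneg_left hl2 hv.le]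

theorem Jn_nonneg (κ₁ s : ℝ) (sc : ℝ → ℝ → ℕ) (m : ℝ →₀ ℝ) (S : Tr) : 0 ≤ Jn κ₁ s sc m S := by
  cases S with
  | leaf y => simp [Jn]
  | node D v b Nr L H => simp only [Jn]; exact le_max_left _ _

variable {Ω ι : Type*} [Fintype Ω] [Fintype ι] (M : Mod Ω ι) (σ : Sys Ω ι)

omit [Fintype Ω] [Fintype ι] in
/-- the averaged gain at one node of a pruned tree -/
theorem r2_node {κ κ₁ c₁ v₀ s c γ τ : ℝ} {X n' ℓB : ℕ} (len : ℕ → ℕ) (sc : ℝ → ℝ → ℕ) (hκ₁ : 0 < κ₁)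
    (hX : 1 ≤ X) (hc : c ≠ 0) (hτ : τ ≤ c₁)
    (hshift : ∀ x < X, ∀ F : ℝ → ℝ, (∀ y, 0 ≤ F y ∧ F y ≤ 1) →
      (ex (M.Om ℓB) fun ω => F (σ.cc ω * Real.exp (x * γ))) - τ ≤ ex (M.Om (len x)) fun ω => F (σ.cc ω))
    (S : Tr) (hS : S.WV)
    (hlow : ∀ (D v b : ℝ) (Nr : Set ℝ) (L H : Tr), S = Tr.node D v b Nr L H → pr H.law Nr ≤ v ^ κ →
      ∀ c' : ℝ, c' ≠ 0 → 2 * c₁ ≤ (∑ x ∈ Finset.range X, ex (M.Om n') fun ω' =>
        piL (v ^ κ₁) (sc D v * s) L.law H.law (dil (c' * Real.exp (x * γ)) (nu M σ ω'))) / X)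
    (hφ : 0 ≤ S.vv * (κ₁ * c₁ * Real.log (1 / S.vv) - 2)) (hv₀ : S.vv ≤ v₀) :
    S.vv * (κ₁ * c₁ * Real.log (1 / S.vv) - 2) -
        S.vv * (κ₁ * c₁ * Real.log (1 / S.vv) - 2) / S.vv ^ κ * S.near ≤
      (∑ x ∈ Finset.range X, ex (M.Om (len x)) fun ω₂ => ex (M.Om n') fun ω₃ =>
        Jn κ₁ s sc (dil (c * σ.cc ω₂) (nu M σ ω₃)) S) / X := by
  have hXp : (0 : ℝ) < X := by exact_mod_cast hX
  have hnn : 0 ≤ (∑ x ∈ Finset.range X, ex (M.Om (len x)) fun ω₂ => ex (M.Om n') fun ω₃ =>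
        Jn κ₁ s sc (dil (c * σ.cc ω₂) (nu M σ ω₃)) S) / X := by
    refine div_nonneg (Finset.sum_nonneg fun x _ => ?_) hXp.le
    exact (isP_Om M _).ex_nonneg fun _ _ => (isP_Om M _).ex_nonneg fun _ _ => Jn_nonneg _ _ _ _ _
  cases S with
  | leaf y => simpa [Tr.vv, Tr.near] using hnn
  | node D v b Nr L H =>
    simp only [Tr.vv, Tr.near] at hφ hv₀ ⊢
    have hW := hS.1
    have hv : 0 < v := hW.2.1
    have hv2 : v ≤ 1 / 2 := hW.2.2.1
    have hL : IsP L.law := Tr.WV.isP hS.2.1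
    have hH : IsP H.law := Tr.WV.isP hS.2.2
    have hvκ : 0 < v ^ κ := Real.rpow_pos_of_pos hv _
    have hlv : 0 ≤ Real.log (1 / v) := Real.log_nonneg (by rw [le_div_iff₀ hv]; linarith)
    by_cases hn : pr H.law Nr ≤ v ^ κ
    · have key := hlow D v b Nr L H rfl hn
      set F : ℝ → ℝ := fun c' => ex (M.Om n') fun ω₃ =>
        piL (v ^ κ₁) (sc D v * s) L.law H.law (dil (c * c') (nu M σ ω₃)) with hF
      have hF01 : ∀ y, 0 ≤ F y ∧ F y ≤ 1 := fun y =>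
        ⟨(isP_Om M _).ex_nonneg fun ω _ => (piL_mem hL ((isP_nu M σ ω).dil _) _ _).1,
          (isP_Om M _).ex_le fun ω _ => (piL_mem hL ((isP_nu M σ ω).dil _) _ _).2⟩
      -- average of `F` over the true buffers
      have havg : c₁ * X ≤ ∑ x ∈ Finset.range X, ex (M.Om (len x)) fun ω => F (σ.cc ω) := by
        have h1 : ∑ x ∈ Finset.range X,
            ((ex (M.Om ℓB) fun ω => F (σ.cc ω * Real.exp (x * γ))) - τ) ≤
            ∑ x ∈ Finset.range X, ex (M.Om (len x)) fun ω => F (σ.cc ω) :=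
          Finset.sum_le_sum fun x hx => hshift x (Finset.mem_range.1 hx) F hF01
        rw [Finset.sum_sub_distrib, Finset.sum_const, Finset.card_range, nsmul_eq_mul, ← ex_sum] at h1
        have h2 : 2 * c₁ * X ≤ ex (M.Om ℓB) fun ω =>
            ∑ x ∈ Finset.range X, F (σ.cc ω * Real.exp (x * γ)) := by
          refine (isP_Om M _).le_ex fun ω _ => ?_
          have := key (c * σ.cc ω) (mul_ne_zero hc (cc_ne_zero σ ω))
          rw [le_div_iff₀ hXp] at this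
          refine this.trans (le_of_eq (Finset.sum_congr rfl fun x _ => ?_))
          simp only [hF, mul_assoc]
        nlinarith
      have hterm : ∀ x, v * (κ₁ * Real.log (1 / v) * (ex (M.Om (len x)) fun ω => F (σ.cc ω)) - 2) ≤
          ex (M.Om (len x)) fun ω₂ => ex (M.Om n') fun ω₃ =>
            Jn κ₁ s sc (dil (c * σ.cc ω₂) (nu M σ ω₃)) (Tr.node D v b Nr L H) := by
        intro x
        have e1 : v * (κ₁ * Real.log (1 / v) * (ex (M.Om (len x)) fun ω => F (σ.cc ω)) - 2) =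
            ex (M.Om (len x)) fun ω₂ => ex (M.Om n') fun ω₃ => v * (κ₁ * Real.log (1 / v) *
              piL (v ^ κ₁) (sc D v * s) L.law H.law (dil (c * σ.cc ω₂) (nu M σ ω₃)) - 2) := by
          simp only [ex_mul_left, ex_sub, (isP_Om M _).ex_const, hF]
        rw [e1]
        refine (isP_Om M _).ex_mono fun ω₂ _ => (isP_Om M _).ex_mono fun ω₃ _ => ?_
        simp only [Jn]; exact le_max_right _ _
      have hsum := Finset.sum_le_sum fun x (_ : x ∈ Finset.range X) => hterm x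
      rw [← Finset.mul_sum, Finset.sum_sub_distrib, ← Finset.mul_sum, Finset.sum_const,
        Finset.card_range, nsmul_eq_mul] at hsum
      rw [le_div_iff₀ hXp]
      have hnear : 0 ≤ v * (κ₁ * c₁ * Real.log (1 / v) - 2) / v ^ κ * pr H.law Nr :=
        mul_nonneg (div_nonneg hφ hvκ.le) (hH.pr_nonneg _)
      have h3 : v * (κ₁ * Real.log (1 / v) * (c₁ * X)) ≤ v * (κ₁ * Real.log (1 / v) *
          ∑ x ∈ Finset.range X, ex (M.Om (len x)) fun ω => F (σ.cc ω)) :=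
        mul_le_mul_of_nonneg_left (mul_le_mul_of_nonneg_left havg (mul_nonneg hκ₁.le hlv)) hv.le
      nlinarith
    · refine le_trans ?_ hnn
      push Not at hn
      have : v * (κ₁ * c₁ * Real.log (1 / v) - 2) / v ^ κ * v ^ κ ≤
          v * (κ₁ * c₁ * Real.log (1 / v) - 2) / v ^ κ * pr H.law Nr :=
        mul_le_mul_of_nonneg_left hn.le (div_nonneg hφ hvκ.le)
      rw [div_mul_cancel₀ _ hvκ.ne'] at this
      linarith


omit [Fintype Ω] [Fintype ι] in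
open Classical in
/-- the averaged gain for one adapted tree -/
theorem r2_tree {κ κ₁ c₁ c₂ v₀ s s₀ c γ τ : ℝ} {X n' ℓB N : ℕ} (len : ℕ → ℕ) (sc : ℝ → ℝ → ℕ)
    (act : ℝ → ℝ → Prop) (hκ₁ : 0 < κ₁) (hκ₁' : κ₁ ≤ 1) (hc₂ : 0 < c₂)
    (hX : 1 ≤ X) (hc : c ≠ 0) (hτ : τ ≤ c₁) (hs : 0 < s) (hN : 1 ≤ N) (hs₀ : s₀ ≤ N * s)
    (hsc : ∀ D v, 1 ≤ sc D v) (hact : ∀ D v, act D v → D ≤ s₀ ∧ v ≤ v₀)
    (hshift : ∀ x < X, ∀ F : ℝ → ℝ, (∀ y, 0 ≤ F y ∧ F y ≤ 1) →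
      (ex (M.Om ℓB) fun ω => F (σ.cc ω * Real.exp (x * γ))) - τ ≤ ex (M.Om (len x)) fun ω => F (σ.cc ω))
    (hlow : ∀ (D v b : ℝ) (Nr : Set ℝ) (L H : Tr), (Tr.node D v b Nr L H).WV →
      (Tr.node D v b Nr L H).All (fun S => S.vv ≤ v₀) → act D v → pr H.law Nr ≤ v ^ κ →
      ∀ c' : ℝ, c' ≠ 0 → 2 * c₁ ≤ (∑ x ∈ Finset.range X, ex (M.Om n') fun ω' =>
        piL (v ^ κ₁) (sc D v * s) L.law H.law (dil (c' * Real.exp (x * γ)) (nu M σ ω'))) / X)
    (hsm : ∀ v, 0 < v → v ≤ v₀ → 2 * Real.sqrt v ≤ v ^ κ / 2 ∧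
      c₂ * Real.binEntropy v ≤ v * (κ₁ * c₁ * Real.log (1 / v) - 2) / 2)
    {T : Tr} (hT : T.SV) :
    c₂ * (T.gsum fun S => if act S.lab S.vv then Real.binEntropy S.vv else 0) - Real.log 3 ≤
      (∑ x ∈ Finset.range X, ex (M.Om (len x)) fun ω₂ => ex (M.Om n') fun ω₃ =>
        Dsc s N (conv T.law (dil (c * σ.cc ω₂) (nu M σ ω₃))) -
          Dsc s N (dil (c * σ.cc ω₂) (nu M σ ω₃))) / X := by
  have hXp : (0 : ℝ) < X := by exact_mod_cast hX
  have hW := hT.1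
  have hP := hW.isP_prune act
  set φ : ℝ → ℝ → ℝ := fun _ v => v * (κ₁ * c₁ * Real.log (1 / v) - 2) with hφ
  set ψ : ℝ → ℝ → ℝ := fun _ v => v * (κ₁ * c₁ * Real.log (1 / v) - 2) / v ^ κ with hψ
  have hφ0 : ∀ v, 0 < v → v ≤ 1 / 2 → v ≤ v₀ → 0 ≤ v * (κ₁ * c₁ * Real.log (1 / v) - 2) := by
    intro v h0 h1 h2
    have := (hsm v h0 h2).2
    have hb : 0 ≤ Real.binEntropy v := Real.binEntropy_nonneg h0.le (by linarith)
    nlinarith [mul_nonneg hc₂.le hb]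
  -- step 1: on the original tree
  have h1 : c₂ * (T.gsum fun S => if act S.lab S.vv then Real.binEntropy S.vv else 0) ≤
      T.gsum fun S => if act S.lab S.vv then φ S.lab S.vv - ψ S.lab S.vv * S.near else 0 := by
    rw [← Tr.gsum_mul_left]
    refine hW.gsum_mono ((hW.all_lab.and hT.2).mono fun S hS => ?_)
    split_ifs with ha
    · cases S with
      | leaf y => exact absurd hS.1.1 (by simp [Tr.lab])
      | node D v b Nr L H =>
        simp only [Tr.vv, Tr.near, Tr.lab, hφ, hψ] at ha hS ⊢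
        have hv := hS.1.2.2.1
        have hv₀ := (hact D v ha).2
        have hn : pr H.law Nr ≤ 2 * Real.sqrt v := hS.2.1
        have hvκ : 0 < v ^ κ := Real.rpow_pos_of_pos hv _
        obtain ⟨s1, s2⟩ := hsm v hv hv₀
        have h0 := hφ0 v hv hS.1.2.2.2 hv₀
        have : v * (κ₁ * c₁ * Real.log (1 / v) - 2) / v ^ κ * pr H.law Nr ≤
            v * (κ₁ * c₁ * Real.log (1 / v) - 2) / v ^ κ * (v ^ κ / 2) :=
          mul_le_mul_of_nonneg_left (hn.trans s1) (div_nonneg h0 hvκ.le)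
        have e : v * (κ₁ * c₁ * Real.log (1 / v) - 2) / v ^ κ * (v ^ κ / 2) =
            v * (κ₁ * c₁ * Real.log (1 / v) - 2) / 2 := by field_simp
        linarith
    · simp
  rw [← hW.gsum_prune act φ ψ] at h1
  -- step 2: on the pruned trees
  have h2 : (ex (T.prune act) fun T' => T'.gsum fun S => φ S.lab S.vv - ψ S.lab S.vv * S.near) ≤
      ex (T.prune act) fun T' => T'.gsum fun S =>
        (∑ x ∈ Finset.range X, ex (M.Om (len x)) fun ω₂ => ex (M.Om n') fun ω₃ =>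
          Jn κ₁ s sc (dil (c * σ.cc ω₂) (nu M σ ω₃)) S) / X := by
    refine hP.ex_mono fun T' hT' => ?_
    obtain ⟨hW', -, -, hA'⟩ := hW.prune_spec act T' hT'
    have hA2 : T'.All fun S => S.vv ≤ v₀ := hA'.mono fun S hS => (hact _ _ hS).2
    refine hW'.gsum_mono (((Tr.All.self hW').and (hA2.self.and (hA'.and hW'.all_lab))).mono
      fun S hS => ?_)
    obtain ⟨hS1, hS2, hS3, hS4⟩ := hS
    refine r2_node M σ (v₀ := v₀) len sc hκ₁ hX hc hτ hshift S hS1 ?_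
      (hφ0 _ hS4.2.2.1 hS4.2.2.2 (hact _ _ hS3).2) (hact _ _ hS3).2
    rintro D v b Nr L H rfl hn c' hc'
    exact hlow D v b Nr L H hS1 hS2 hS3 hn c' hc'
  -- step 3: exchange the sums
  have h3 : (ex (T.prune act) fun T' => T'.gsum fun S =>
        (∑ x ∈ Finset.range X, ex (M.Om (len x)) fun ω₂ => ex (M.Om n') fun ω₃ =>
          Jn κ₁ s sc (dil (c * σ.cc ω₂) (nu M σ ω₃)) S) / X) =
      (∑ x ∈ Finset.range X, ex (M.Om (len x)) fun ω₂ => ex (M.Om n') fun ω₃ =>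
        ex (T.prune act) fun T' => T'.gsum (Jn κ₁ s sc (dil (c * σ.cc ω₂) (nu M σ ω₃)))) / X := by
    have e : ∀ T' : Tr, (T'.gsum fun S =>
        (∑ x ∈ Finset.range X, ex (M.Om (len x)) fun ω₂ => ex (M.Om n') fun ω₃ =>
          Jn κ₁ s sc (dil (c * σ.cc ω₂) (nu M σ ω₃)) S) / X) =
        (∑ x ∈ Finset.range X, ex (M.Om (len x)) fun ω₂ => ex (M.Om n') fun ω₃ =>
          T'.gsum (Jn κ₁ s sc (dil (c * σ.cc ω₂) (nu M σ ω₃)))) / X := by
      intro T'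
      simp only [div_eq_inv_mul]
      rw [Tr.gsum_mul_left, Tr.gsum_sum]
      congr 1
      refine Finset.sum_congr rfl fun x _ => ?_
      rw [Tr.gsum_ex]
      refine ex_congr fun ω₂ _ => ?_
      rw [Tr.gsum_ex]
    simp only [e]
    rw [ex_div, ex_sum]
    congr 1
    refine Finset.sum_congr rfl fun x _ => ?_
    rw [ex_comm]
    refine ex_congr fun ω₂ _ => ?_
    rw [ex_comm]
  have h4 : ∀ x ∈ Finset.range X, (ex (M.Om (len x)) fun ω₂ => ex (M.Om n') fun ω₃ =>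
        ex (T.prune act) fun T' => T'.gsum (Jn κ₁ s sc (dil (c * σ.cc ω₂) (nu M σ ω₃)))) - Real.log 3 ≤
      ex (M.Om (len x)) fun ω₂ => ex (M.Om n') fun ω₃ =>
        Dsc s N (conv T.law (dil (c * σ.cc ω₂) (nu M σ ω₃))) -
          Dsc s N (dil (c * σ.cc ω₂) (nu M σ ω₃)) := by
    intro x _
    rw [← (isP_Om M (len x)).ex_const (Real.log 3), ← ex_sub]
    refine (isP_Om M _).ex_mono fun ω₂ _ => ?_
    rw [← (isP_Om M n').ex_const (Real.log 3), ← ex_sub]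
    refine (isP_Om M _).ex_mono fun ω₃ _ => ?_
    exact prune_info hW act (fun D v h => (hact D v h).1) ((isP_nu M σ ω₃).dil _) hs hN hs₀ hκ₁ hκ₁' sc hsc
  have h5 := Finset.sum_le_sum h4
  rw [Finset.sum_sub_distrib, Finset.sum_const, Finset.card_range, nsmul_eq_mul] at h5
  have h6 := h1.trans (h2.trans h3.le)
  rw [le_div_iff₀ hXp] at h6 ⊢
  nlinarith


theorem exists_pos_le_finite {S : Set ℝ} (hS : S.Finite) (h : ∀ d ∈ S, 0 < d) :
    ∃ s > 0, ∀ d ∈ S, s ≤ d := by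
  induction S, hS using Set.Finite.induction_on with
  | empty => exact ⟨1, one_pos, by simp⟩
  | @insert a S _ _ ih =>
    obtain ⟨s, hs, h'⟩ := ih fun d hd => h d (Set.mem_insert_of_mem _ hd)
    refine ⟨min s a, lt_min hs (h a (Set.mem_insert _ _)), fun d hd => ?_⟩
    rcases hd with rfl | hd
    · exact min_le_right _ _
    · exact (min_le_left _ _).trans (h' d hd)

open Classical in
theorem rare_small (h : eR M σ < chi M σ) {o₁ o₂ : Ω}
    (hirr : Irrational (Real.log |σ.ρ o₁| / Real.log |σ.ρ o₂|)) (K : ℕ) :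
    ∃ v₀ : ℝ, 0 < v₀ ∧ v₀ ≤ 1 / 2 ∧ ∀ ε : ℝ, 0 < ε → ∃ᶠ n : ℕ in atTop, ∀ T, Trees M σ n T →
      (ex (M.Om n) fun ω => (T ω).gsum fun S =>
        if S.lab < Real.exp (-(chi M σ * n)) ∧ 1 / (n : ℝ) ^ K ≤ S.vv ∧ S.vv ≤ v₀
        then Real.binEntropy S.vv else 0) ≤ ε * n := by
  set κ : ℝ := 1 / (100 * (K + 1)) with hκdef
  have hK0 : (0 : ℝ) ≤ K := Nat.cast_nonneg K
  have hκ : 0 < κ := by positivity
  have hκ' : κ ≤ 1 / 4 := by
    rw [hκdef, div_le_div_iff₀ (by positivity) (by norm_num)]; nlinarith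
  obtain ⟨v₀', κ₁, c₁, hv₀', hv₀'2, hκ₁, hκ₁', hc₁, hc₁', hnode⟩ := node_low M σ h hκ hκ'
  obtain ⟨v₀, c₂, hv₀, hv₀le, hc₂, hsm⟩ := r2_small hκ hκ' (mul_pos hκ₁ hc₁) hv₀'
  obtain ⟨CI, hCI, hinfo⟩ := info_bound M σ
  obtain ⟨CB, hCB, hbuf⟩ := buffer_shift M σ
  obtain ⟨CD, hdir⟩ := exists_dirichlet σ hirr
  refine ⟨v₀, hv₀, hv₀le.trans hv₀'2, fun ε hε => ?_⟩
  set δ : ℝ := ε * c₂ / (2 * CI) with hδdef
  have hδ : 0 < δ := by positivity
  obtain ⟨n₀, hn₀⟩ := eventually_atTop.1 (hinfo δ hδ)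
  rw [frequently_atTop]
  intro N₀
  obtain ⟨X₀, hX₀⟩ := exists_nat_ge (max (max (4 * CD / δ) (2 * CB * CD / (c₁ * Real.sqrt (δ / 2))))
    (max (1 / c₁ ^ 2) (2 * Real.log 3 / (ε * c₂))))
  obtain ⟨X, a, b, oa, ob, γ, hXge, ha, hb, hγ, hγ', hρ⟩ := hdir (max (max X₀ 1) (max n₀ N₀))
  have hX1 : 1 ≤ X := le_trans (le_trans (le_max_right _ _) (le_max_left _ _)) hXge
  have hXX₀ : (X₀ : ℝ) ≤ X := by
    exact_mod_cast le_trans (le_trans (le_max_left _ _) (le_max_left _ _)) hXge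
  have hXr : (1 : ℝ) ≤ X := by exact_mod_cast hX1
  have hXp : (0 : ℝ) < X := by linarith
  have hA1 : 4 * CD / δ ≤ X := le_trans (le_trans (le_max_left _ _) (le_max_left _ _)) (hX₀.trans hXX₀)
  have hA2 : 2 * CB * CD / (c₁ * Real.sqrt (δ / 2)) ≤ X :=
    le_trans (le_trans (le_max_right _ _) (le_max_left _ _)) (hX₀.trans hXX₀)
  have hA3 : 1 / c₁ ^ 2 ≤ X := le_trans (le_trans (le_max_left _ _) (le_max_right _ _)) (hX₀.trans hXX₀)
  have hA4 : 2 * Real.log 3 / (ε * c₂) ≤ X :=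
    le_trans (le_trans (le_max_right _ _) (le_max_right _ _)) (hX₀.trans hXX₀)
  have hXn : X ≤ X ^ 8 := Nat.le_self_pow (by norm_num) X
  set n : ℕ := X ^ 8 with hn
  have hnr : (n : ℝ) = (X : ℝ) ^ 8 := by rw [hn]; push_cast; ring
  have hpow : ∀ i j : ℕ, i ≤ j → (X : ℝ) ^ i ≤ (X : ℝ) ^ j := fun i j hij => pow_le_pow_right₀ hXr hij
  refine ⟨n, le_trans (le_trans (le_trans (le_max_right _ _) (le_max_right _ _)) hXge) hXn, fun T hT => ?_⟩
  have hinf := hn₀ n (le_trans (le_trans (le_trans (le_max_left _ _) (le_max_right _ _)) hXge) hXn)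
  set s₀ : ℝ := Real.exp (-(chi M σ * n)) with hs₀
  have hs₀p : 0 < s₀ := Real.exp_pos _
  set v₁ : ℝ := 1 / (n : ℝ) ^ K with hv₁
  have hnp : (0 : ℝ) < n := by rw [hnr]; positivity
  have hv₁p : 0 < v₁ := by positivity
  have hv₁κ : 0 < v₁ ^ κ := Real.rpow_pos_of_pos hv₁p _
  obtain ⟨d₀, hd₀, hd₀'⟩ := exists_pos_le_finite (Dist_finite M σ n) fun d hd => hd.1
  set s : ℝ := min s₀ (d₀ * v₁ ^ κ) with hsdef
  have hs : 0 < s := lt_min hs₀p (mul_pos hd₀ hv₁κ)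
  obtain ⟨n', hn'⟩ := hinf s hs
  set N : ℕ := ⌈s₀ / s⌉₊ with hN
  have hss₀ : s ≤ s₀ := min_le_left _ _
  have hN1 : 1 ≤ N := Nat.one_le_iff_ne_zero.2 (Nat.pos_iff_ne_zero.1 (Nat.ceil_pos.2 (by positivity)))
  have hNs : s₀ ≤ N * s := by
    have := Nat.le_ceil (s₀ / s); rwa [div_le_iff₀ hs] at this
  have hNs' : N * s ≤ 2 * s₀ := by
    have := Nat.ceil_lt_add_one (show 0 ≤ s₀ / s by positivity)
    have h2 : (N : ℝ) * s ≤ (s₀ / s + 1) * s := mul_le_mul_of_nonneg_right this.le hs.le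
    rw [add_mul, div_mul_cancel₀ _ hs.ne'] at h2; linarith
  set ℓ : ℕ := ⌊δ * n / 2⌋₊ with hℓ
  have hℓ1 : (ℓ : ℝ) ≤ δ * n / 2 := Nat.floor_le (by positivity)
  have hℓ2 : δ * n / 2 ≤ ℓ + 1 := (Nat.lt_floor_add_one _).le
  set len : ℕ → ℕ := fun x => ℓ + (b * X - x * b) + x * a with hlen
  have har : (a : ℝ) ≤ CD * X := by exact_mod_cast ha
  have hbr : (b : ℝ) ≤ CD * X := by exact_mod_cast hb
  have hCD : (0 : ℝ) ≤ CD := Nat.cast_nonneg _
  have hlenle : ∀ x < X, (len x : ℝ) ≤ δ * n := by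
    intro x hx
    have hxr : (x : ℝ) ≤ X := by exact_mod_cast hx.le
    have e1 : len x ≤ ℓ + b * X + x * a := by simp only [hlen]; omega
    have e2 : (len x : ℝ) ≤ ℓ + b * X + x * a := by exact_mod_cast e1
    have e3 : (x : ℝ) * a ≤ X * (CD * X) := mul_le_mul hxr har (Nat.cast_nonneg _) hXp.le
    have e4 : (b : ℝ) * X ≤ CD * X * X := mul_le_mul_of_nonneg_right hbr hXp.le
    have e5 : 4 * CD ≤ δ * X := by rwa [div_le_iff₀ hδ, mul_comm (X : ℝ)] at hA1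
    have e6 : δ * X ^ 3 ≤ δ * n := by rw [hnr]; exact mul_le_mul_of_nonneg_left (hpow 3 8 (by norm_num)) hδ.le
    have e7 : 4 * CD * X ^ 2 ≤ δ * X * X ^ 2 := mul_le_mul_of_nonneg_right e5 (by positivity)
    nlinarith
  set τ : ℝ := CB * (2 * CD * X ^ 2) / Real.sqrt (ℓ + 1) with hτ
  have hsq : Real.sqrt (δ / 2) * X ^ 4 ≤ Real.sqrt (ℓ + 1) := by
    have : Real.sqrt (δ / 2) * X ^ 4 = Real.sqrt (δ * n / 2) := by
      rw [hnr, show δ * (X : ℝ) ^ 8 / 2 = δ / 2 * ((X : ℝ) ^ 4) ^ 2 by ring,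
        Real.sqrt_mul (by positivity), Real.sqrt_sq (by positivity)]
    rw [this]; exact Real.sqrt_le_sqrt hℓ2
  have hsqp : 0 < Real.sqrt (δ / 2) := Real.sqrt_pos.2 (by positivity)
  have hsqp' : 0 < Real.sqrt ((ℓ : ℝ) + 1) := Real.sqrt_pos.2 (by positivity)
  have hτle : τ ≤ c₁ := by
    rw [hτ, div_le_iff₀ hsqp']
    rw [div_le_iff₀ (by positivity)] at hA2
    have e1 : 2 * CB * CD * X ^ 2 ≤ X * (c₁ * Real.sqrt (δ / 2)) * X ^ 2 :=
      mul_le_mul_of_nonneg_right hA2 (by positivity)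
    have e2 : c₁ * Real.sqrt (δ / 2) * X ^ 3 ≤ c₁ * Real.sqrt (δ / 2) * X ^ 4 :=
      mul_le_mul_of_nonneg_left (hpow 3 4 (by norm_num)) (by positivity)
    have e3 := mul_le_mul_of_nonneg_left hsq hc₁.le
    nlinarith
  have hshift : ∀ x < X, ∀ F : ℝ → ℝ, (∀ y, 0 ≤ F y ∧ F y ≤ 1) →
      (ex (M.Om (ℓ + b * X)) fun ω => F (σ.cc ω * Real.exp (x * γ))) - τ ≤
        ex (M.Om (len x)) fun ω => F (σ.cc ω) := by
    intro x hx F hF
    have hxr : (x : ℝ) ≤ X := by exact_mod_cast hx.le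
    have e := hbuf ℓ (x * a) (x * b) (b * X) oa ob (Real.exp (x * γ)) F
      (by rw [mul_comm b X]; exact Nat.mul_le_mul_right _ hx.le)
      (by rw [mul_comm x a, mul_comm x b, pow_mul, pow_mul, hρ, mul_pow, ← Real.exp_nat_mul]) hF
    refine le_trans (sub_le_sub_left ?_ _) e
    rw [hτ]
    refine div_le_div_of_nonneg_right (mul_le_mul_of_nonneg_left ?_ hCB.le) hsqp'.le
    push_cast
    have e3 : (x : ℝ) * a ≤ X * (CD * X) := mul_le_mul hxr har (Nat.cast_nonneg _) hXp.le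
    have e4 : (x : ℝ) * b ≤ X * (CD * X) := mul_le_mul hxr hbr (Nat.cast_nonneg _) hXp.le
    nlinarith
  set act : ℝ → ℝ → Prop := fun D v => (D < s₀ ∧ v₁ ≤ v ∧ v ≤ v₀) ∧ D ∈ Dist M σ n with hact
  set sc : ℝ → ℝ → ℕ := fun D v => max 1 ⌈D * v ^ κ / s⌉₊ with hsc
  have hXv : ∀ v, v₁ ≤ v → 1 / (X * v ^ κ) ≤ c₁ := by
    intro v hv
    have e1 : v₁ ^ κ ≤ v ^ κ := Real.rpow_le_rpow hv₁p.le hv hκ.le
    have e2 : (X : ℝ) ^ (-(1 / 2 : ℝ)) ≤ v₁ ^ κ := by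
      have : v₁ = (X : ℝ) ^ (-(8 * K : ℝ)) := by
        rw [hv₁, hnr, Real.rpow_neg hXp.le, one_div, ← pow_mul]
        congr 1
        rw [← Real.rpow_natCast]; push_cast; ring_nf
      rw [this, ← Real.rpow_mul hXp.le]
      refine Real.rpow_le_rpow_of_exponent_le hXr ?_
      rw [hκdef, neg_mul, neg_le_neg_iff, mul_one_div, div_le_iff₀ (by positivity)]
      nlinarith
    have e3 : (X : ℝ) * X ^ (-(1 / 2 : ℝ)) = Real.sqrt X := by
      rw [Real.sqrt_eq_rpow]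
      nth_rewrite 1 [← Real.rpow_one (X : ℝ)]
      rw [← Real.rpow_add hXp]; norm_num
    have e4 : 1 / c₁ ≤ Real.sqrt X := by
      refine Real.le_sqrt_of_sq_le ?_
      rwa [div_pow, one_pow]
    have e5 : Real.sqrt X ≤ X * v ^ κ := by
      rw [← e3]; exact mul_le_mul_of_nonneg_left (e2.trans e1) hXp.le
    have e6 : 1 / c₁ ≤ X * v ^ κ := e4.trans e5
    rw [div_le_iff₀ hc₁] at e6
    rw [div_le_iff₀ (lt_of_lt_of_le (Real.sqrt_pos.2 hXp) e5)]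
    linarith
  have hlow : ∀ (D v b' : ℝ) (Nr : Set ℝ) (L H : Tr), (Tr.node D v b' Nr L H).WV →
      (Tr.node D v b' Nr L H).All (fun S => S.vv ≤ v₀) → act D v → pr H.law Nr ≤ v ^ κ →
      ∀ c' : ℝ, c' ≠ 0 → 2 * c₁ ≤ (∑ x ∈ Finset.range X, ex (M.Om n') fun ω' =>
        piL (v ^ κ₁) (sc D v * s) L.law H.law (dil (c' * Real.exp (x * γ)) (nu M σ ω'))) / X := by
    intro D v b' Nr L H hW hA hac hnr' c' hc'
    have hv1 : v₁ ≤ v := hac.1.2.1
    have hsD : s ≤ D * v ^ κ := by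
      refine (min_le_right _ _).trans ?_
      exact mul_le_mul (hd₀' D hac.2) (Real.rpow_le_rpow hv₁p.le hv1 hκ.le) hv₁κ.le hac.2.1.le
    have hce : 1 ≤ ⌈D * v ^ κ / s⌉₊ :=
      Nat.one_le_iff_ne_zero.2 (Nat.pos_iff_ne_zero.1 (Nat.ceil_pos.2 (div_pos (hs.trans_le hsD) hs)))
    have hsce : sc D v = ⌈D * v ^ κ / s⌉₊ := max_eq_right hce
    refine hnode D v b' Nr L H _ c' γ X n' hW (hA.mono fun S hS => hS.trans hv₀le) hnr' ?_ ?_ hc' hX1 hγ hγ'
      (hXv v hv1)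
    · rw [hsce]
      have := Nat.le_ceil (D * v ^ κ / s); rwa [div_le_iff₀ hs] at this
    · rw [hsce]
      have := Nat.ceil_lt_add_one (show 0 ≤ D * v ^ κ / s from div_nonneg (hs.le.trans hsD) hs.le)
      have h2 := mul_le_mul_of_nonneg_right this.le hs.le
      rw [add_mul, div_mul_cancel₀ _ hs.ne'] at h2; linarith
  have hmain : ∀ ω ∈ (M.Om n).support,
      c₂ * ((T ω).gsum fun S => if S.lab < s₀ ∧ v₁ ≤ S.vv ∧ S.vv ≤ v₀ then Real.binEntropy S.vv else 0) -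
        Real.log 3 ≤
      (∑ x ∈ Finset.range X, ex (M.Om (len x)) fun ω₂ => ex (M.Om n') fun ω₃ =>
        Dsc s N (conv (nu M σ ω) (dil (σ.cc ω * σ.cc ω₂) (nu M σ ω₃))) -
          Dsc s N (dil (σ.cc ω * σ.cc ω₂) (nu M σ ω₃))) / X := by
    intro ω hω
    have e := r2_tree M σ (c := σ.cc ω) (n' := n') len sc act hκ₁ hκ₁' hc₂ hX1 (cc_ne_zero σ ω) hτle hs hN1
      hNs (fun D v => le_max_left _ _) (fun D v h => ⟨h.1.1.le, h.1.2.2⟩) hshift hlow hsm (hT ω hω).1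
    rw [(hT ω hω).2] at e
    refine le_trans (le_of_eq ?_) e
    congr 2
    refine Tr.gsum_congr ((hT.all_dist ω hω).mono fun S hS => ?_)
    simp only [hact, hS, and_true]
  have h1 := (isP_Om M n).ex_mono hmain
  rw [ex_sub, ex_mul_left, (isP_Om M n).ex_const, ex_div, ex_sum, le_div_iff₀ hXp] at h1
  have h2 : ∑ x ∈ Finset.range X, (ex (M.Om n) fun ω => ex (M.Om (len x)) fun ω₂ => ex (M.Om n') fun ω₃ =>
        Dsc s N (conv (nu M σ ω) (dil (σ.cc ω * σ.cc ω₂) (nu M σ ω₃))) -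
          Dsc s N (dil (σ.cc ω * σ.cc ω₂) (nu M σ ω₃))) ≤ ∑ x ∈ Finset.range X, CI * δ * n :=
    Finset.sum_le_sum fun x hx =>
      hn' n' (len x) N le_rfl (hlenle x (Finset.mem_range.1 hx)) hN1 hNs hNs'
  rw [Finset.sum_const, Finset.card_range, nsmul_eq_mul, mul_comm (X : ℝ)] at h2
  have h3 := le_of_mul_le_mul_right (h1.trans h2) hXp
  have h4 : CI * δ = ε * c₂ / 2 := by rw [hδdef]; field_simp
  have h5 : 2 * Real.log 3 ≤ ε * c₂ * n := by
    rw [div_le_iff₀ (by positivity)] at hA4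
    have : (X : ℝ) ≤ n := by exact_mod_cast hXn
    nlinarith [mul_pos hε hc₂]
  rw [h4] at h3
  refine le_of_mul_le_mul_left ?_ hc₂
  nlinarith


open Classical in
theorem core_rank2 {o₁ o₂ : Ω} (hirr : Irrational (Real.log |σ.ρ o₁| / Real.log |σ.ρ o₂|)) :
    Core M σ := by
  intro h
  obtain ⟨K₀, hcov⟩ := cov_poly M σ
  obtain ⟨v₀, hv₀, hv₀', hrare⟩ := rare_small M σ h hirr (2 * K₀ + 2)
  obtain ⟨C₁, hC₁, hnat⟩ := Hs_nat M σ
  obtain ⟨C₂, hAn⟩ := An_le M σ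
  refine le_of_forall_pos_le_add fun ε hε => ?_
  set A : ℝ := 1 + Real.log (1 / v₀) with hA
  have hlv₀ : 0 ≤ Real.log (1 / v₀) := Real.log_nonneg (by rw [le_div_iff₀ hv₀]; linarith)
  have hAp : 0 < A := by linarith
  have hsingle := single M σ h (δ := ε / (4 * A)) (by positivity)
  have hbig : ∀ᶠ n : ℕ in atTop, 2 ≤ n ∧
      C₁ * Real.sqrt n + C₁ + C₂ + Real.log 10 + 3 ≤ ε / 4 * n := by
    refine (eventually_ge_atTop 2).and ?_
    obtain ⟨n₁, hn₁⟩ := exists_nat_ge (max ((8 * C₁ / ε) ^ 2) (8 * (C₁ + C₂ + Real.log 10 + 3) / ε))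
    filter_upwards [eventually_ge_atTop n₁] with n hn
    have hn' : (n₁ : ℝ) ≤ n := by exact_mod_cast hn
    have e1 : 8 * C₁ / ε ≤ Real.sqrt n :=
      Real.le_sqrt_of_sq_le (le_trans (le_max_left _ _) (hn₁.trans hn'))
    have e2 : 8 * (C₁ + C₂ + Real.log 10 + 3) / ε ≤ n := le_trans (le_max_right _ _) (hn₁.trans hn')
    rw [div_le_iff₀ hε] at e1 e2
    have e3 : Real.sqrt n * Real.sqrt n = n := Real.mul_self_sqrt (Nat.cast_nonneg n)
    nlinarith [mul_le_mul_of_nonneg_right e1 (Real.sqrt_nonneg n)]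
  obtain ⟨n, hr, hsg, hn2, hnum⟩ := ((hrare (ε / 4) (by positivity)).and_eventually
    (hsingle.and hbig)).exists
  obtain ⟨T, hT⟩ := exists_trees M σ n
  obtain ⟨R, Λ, hΛ, hC, hRΛ⟩ := hcov n hn2
  have hnr : (2 : ℝ) ≤ n := by exact_mod_cast hn2
  have hnp : (0 : ℝ) < n := by linarith
  set s₀ : ℝ := Real.exp (-(chi M σ * n)) with hs₀
  have hs₀p : 0 < s₀ := Real.exp_pos _
  set v₁ : ℝ := 1 / (n : ℝ) ^ (2 * K₀ + 2) with hv₁
  have hsq : Real.sqrt v₁ = 1 / (n : ℝ) ^ (K₀ + 1) := by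
    rw [hv₁, show (2 * K₀ + 2) = (K₀ + 1) * 2 by ring, pow_mul, ← one_div_pow,
      Real.sqrt_sq (by positivity)]
  have hω : ∀ ω ∈ (M.Om n).support, ent (nu M σ ω) ≤
      (Hs s₀ (nu M σ ω) + Real.log 10) + A * (T ω).gsum (vOn (Set.Iio s₀)) + 3 +
        (T ω).gsum fun S => if S.lab < s₀ ∧ v₁ ≤ S.vv ∧ S.vv ≤ v₀ then Real.binEntropy S.vv else 0 := by
    intro ω hω
    obtain ⟨hSV, hlaw⟩ := hT ω hω
    have hW := hSV.1
    have e1 := hW.ent_le
    have e2 := hSV.hOn_Ici_le hs₀p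
    have e3 := hW.path_count hΛ hC
    rw [hlaw] at e1 e2
    have e4 : ((T ω).gsum fun S => Real.binEntropy S.vv) ≤ (T ω).gsum fun S =>
        hOn (Set.Ici s₀) S + A * vOn (Set.Iio s₀) S + 3 * Real.sqrt v₁ * oneOn (Dist M σ n) S +
          if S.lab < s₀ ∧ v₁ ≤ S.vv ∧ S.vv ≤ v₀ then Real.binEntropy S.vv else 0 := by
      refine hW.gsum_mono ((hW.all_lab.and (hT.all_dist ω hω)).mono fun S hS => ?_)
      obtain ⟨⟨-, -, hv, hv2⟩, hD⟩ := hS
      have hb : 0 ≤ Real.binEntropy S.vv := Real.binEntropy_nonneg hv.le (by linarith)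
      have hs1 : 0 ≤ 3 * Real.sqrt v₁ := by positivity
      simp only [hOn, vOn, oneOn, Set.mem_Ici, Set.mem_Iio, hD, if_true, mul_one]
      by_cases c1 : S.lab < s₀
      · rw [if_neg (not_le.2 c1), if_pos c1]
        by_cases c2 : S.vv ≤ v₀
        · by_cases c3 : v₁ ≤ S.vv
          · rw [if_pos ⟨c1, c3, c2⟩]; nlinarith [mul_pos hAp hv]
          · rw [if_neg fun hh => c3 hh.2.1]
            have := binEntropy_le_sqrt hv.le (by linarith)
            have h' : Real.sqrt S.vv ≤ Real.sqrt v₁ := Real.sqrt_le_sqrt (not_le.1 c3).le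
            nlinarith [mul_pos hAp hv]
        · rw [if_neg fun hh => c2 hh.2.2]
          have := binEntropy_le_mul hv.le (by linarith)
          have h' : Real.log (1 / S.vv) ≤ Real.log (1 / v₀) :=
            Real.log_le_log (by positivity) (one_div_le_one_div_of_le hv₀ (not_le.1 c2).le)
          nlinarith [mul_le_mul_of_nonneg_left h' hv.le]
      · rw [if_pos (not_lt.1 c1), if_neg c1, if_neg fun hh => c1 hh.1]
        linarith
    rw [Tr.gsum_add, Tr.gsum_add, Tr.gsum_add, Tr.gsum_mul_left, Tr.gsum_mul_left] at e4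
    have e5 : 3 * Real.sqrt v₁ * (T ω).gsum (oneOn (Dist M σ n)) ≤ 3 := by
      have : (T ω).gsum (oneOn (Dist M σ n)) ≤ (n : ℝ) ^ (K₀ + 1) :=
        (e3.trans hRΛ).trans (pow_le_pow_right₀ (by linarith) (Nat.le_succ _))
      have h2 := mul_le_mul_of_nonneg_left this (show 0 ≤ 3 * Real.sqrt v₁ by positivity)
      rw [hsq] at h2 ⊢
      refine h2.trans (le_of_eq ?_)
      field_simp
    have e6 : ((T ω).gsum fun S => hOn (Set.Ici s₀) S) = (T ω).gsum (hOn (Set.Ici s₀)) := rfl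
    have e7 : ((T ω).gsum fun S => vOn (Set.Iio s₀) S) = (T ω).gsum (vOn (Set.Iio s₀)) := rfl
    have e8 : ((T ω).gsum fun S => oneOn (Dist M σ n) S) = (T ω).gsum (oneOn (Dist M σ n)) := rfl
    linarith
  have h1 := (isP_Om M n).ex_mono hω
  rw [ex_add, ex_add, ex_add, ex_add, ex_mul_left, (isP_Om M n).ex_const, (isP_Om M n).ex_const] at h1
  have h2 := (abs_le.1 (hnat n s₀ hs₀p)).2
  rw [hs₀, Real.log_exp, neg_add_cancel, abs_zero, ← hs₀] at h2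
  have h3 := hAn n
  have h4 := hr T hT
  have h5 := mul_le_mul_of_nonneg_left (hsg T hT) hAp.le
  have h6 : A * (ε / (4 * A) * n) = ε / 4 * n := by field_simp
  have h7 := hR_le M σ n
  have h8 : Hn M σ n = ex (M.Om n) fun ω => ent (nu M σ ω) := rfl
  refine le_of_mul_le_mul_right ?_ hnp
  nlinarith

end Crest.Agent.R98
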