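import Crest.Agent.R98.CaseI
import Crest.Agent.R98.CaseII
import Crest.Agent.R98.Generic
import Crest.Agent.R98.Limit
import Crest.Agent.R98.Peel
import Crest.Agent.R98.Rank2

/-!
# R98/Rank1: the core statement
`core_cyc`: strong induction on `#{i | t i ≠ 0}`. If `t = 0`, `nu ω = pur 0`. If `z` is good: `core_of_good`. Else let `I = {i // t i ≠ 0}`, `e < χ`,
`0 < ε < χ - e`; `caseII_data` gives `n J, s J, θ J, f J`; `𝓡 J = {q : I → ℤ[X] | Bd (K n J) ∧ |pair tI z q| ≤ θ J}`; `F J ω u = f J ω (X ω u)`.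
For `u, v` with a common prefix of length `a` in the same class, `q = (Q ω' u' - Q ω' v')|_I ∈ 𝓡 J` (`ω' = drop a ω`; `X_take_drop`, `pow_le_abs_cc`,
`bd_Q_sub`, `X_eq_pair`). `limit_lemma` with `Gen = {x | 0 < x < 1 → ∀ᶠ b, GoodStage ι K x b}` and `ρ₃` such that `chi (z₀) > e + ε` (`chi_sys`);
extend `t', t'', t₀` by zero to `ι`; `final2`.
`exists_cyc`: all `log|ρ o| / log|ρ o₀|` are positive rationals; take a common denominator.
-/

set_option autoImplicit false

namespace Crest.Agent.R98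

variable {Ω ι : Type*} [Fintype Ω] [Fintype ι]

open Polynomial Filter Topology

open Classical in
/-- extension by zero of a vector indexed by the support of `t` -/
noncomputable def rank1Ext (t : ι → ℝ) (s : {i // t i ≠ 0} → ℝ) : ι → ℝ :=
  fun i => if h : t i ≠ 0 then s ⟨i, h⟩ else 0

open Classical in
theorem rank1_pair_ext (t : ι → ℝ) (s : {i // t i ≠ 0} → ℝ) (x : ℝ) (q : ι → ℤ[X]) :
    pair (rank1Ext t s) x q = pair s x fun i => q i.1 := by
  unfold pair
  rw [← Finset.sum_subset (Finset.subset_univ (Finset.univ.filter fun i => t i ≠ 0))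
    (fun i _ hi => by
      have : ¬ t i ≠ 0 := by simpa using hi
      simp only [rank1Ext, dif_neg this, zero_mul]),
    Finset.sum_subtype (p := fun i => t i ≠ 0) (F := inferInstance) _ (by simp)]
  refine Finset.sum_congr rfl fun i _ => ?_
  simp only [rank1Ext, dif_pos i.2]

omit [Fintype ι] in
theorem rank1_ext_self (t : ι → ℝ) : rank1Ext t (fun i => t i.1) = t := by
  funext i
  unfold rank1Ext
  split_ifs with h
  · rfl
  · exact (not_not.1 h).symm

omit [Fintype ι] in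
theorem rank1_ext_add (t : ι → ℝ) (s s' : {i // t i ≠ 0} → ℝ) :
    rank1Ext t (s + s') = rank1Ext t s + rank1Ext t s' := by
  funext i
  simp only [rank1Ext, Pi.add_apply]
  split_ifs <;> simp

open Classical in
theorem rank1_card_lt (t : ι → ℝ) (s : {i // t i ≠ 0} → ℝ) (h : ∃ i, s i = 0) :
    (Finset.univ.filter fun i => rank1Ext t s i ≠ 0).card <
      (Finset.univ.filter fun i => t i ≠ 0).card := by
  obtain ⟨i, hi⟩ := h
  refine Finset.card_lt_card ⟨fun j hj => ?_, fun hsub => ?_⟩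
  · simp only [Finset.mem_filter, Finset.mem_univ, true_and] at hj ⊢
    intro h0
    apply hj
    simp [rank1Ext, h0]
  · have := hsub (show i.1 ∈ Finset.univ.filter fun i => t i ≠ 0 by simpa using i.2)
    simp only [Finset.mem_filter, Finset.mem_univ, true_and, rank1Ext, dif_pos i.2] at this
    exact this hi

omit [Fintype Ω] in
open Classical in
theorem rank1_X_sub (c : Cyc Ω) (t : ι → ℝ) (s : {i // t i ≠ 0} → ℝ) (x : ℝ) (hx : 0 < x ∧ x < 1)
    (ω : List Ω) (u v : List ι) :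
    (c.sys x hx (rank1Ext t s)).X ω u - (c.sys x hx (rank1Ext t s)).X ω v =
      pair s x fun i => (c.Q ω u - c.Q ω v) i.1 := by
  rw [X_eq_pair, X_eq_pair, ← pair_sub, rank1_pair_ext]

theorem rank1_zero (M : Mod Ω ι) (σ : Sys Ω ι) (ht : ∀ i, σ.t i = 0) : Core M σ := by
  intro _
  have hX : ∀ (ω : List Ω) (u : List ι), σ.X ω u = 0 := by
    intro ω
    induction ω with
    | nil => intro u; simp [Sys.X]
    | cons o ω ih =>
      intro u
      cases u with
      | nil => simp [Sys.X]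
      | cons i u => simp [Sys.X, ht, ih]
  have hnu : ∀ ω, nu M σ ω = pur 0 := by
    intro ω
    unfold nu
    rw [push_congr (g := fun _ => (0 : ℝ)) (fun u _ => hX ω u), ← bnd_pur,
      (isP_Cw M ω).bnd_const]
  have h1 := hR_le M σ 1
  have h2 : Hn M σ 1 = 0 := by simp [Hn, hnu]
  have h3 := eR_nonneg M σ
  rw [h2, Nat.cast_one, mul_one] at h1
  linarith

open Classical in
theorem rank1_step (M : Mod Ω ι) (c : Cyc Ω) (z : ℝ) (hz : 0 < z ∧ z < 1) (t : ι → ℝ)
    (IH : ∀ s : {i // t i ≠ 0} → ℝ, (∃ i, s i = 0) → Core M (c.sys z hz (rank1Ext t s))) :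
    Core M (c.sys z hz t) := by
  by_cases h0 : ∀ i, t i = 0
  · exact rank1_zero M _ h0
  by_cases hbad : ∃ᶠ b in atTop, GoodStage ι c.K z b
  · exact core_of_good M c z hz t hbad
  push Not at h0
  obtain ⟨i₀, hi₀⟩ := h0
  have : Nonempty {i // t i ≠ 0} := ⟨⟨i₀, hi₀⟩⟩
  intro he
  set e := eR M (c.sys z hz t) with hedef
  set κ := ex M.P fun o => (c.k o : ℝ) with hκ
  have hchi : ∀ (x : ℝ) (hx : 0 < x ∧ x < 1) (t' : ι → ℝ),
      chi M (c.sys x hx t') = κ * -Real.log x := fun x hx t' => chi_sys M c x hx t'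
  refine le_of_forall_pos_le_add fun ε' hε' => ?_
  set ε := min ε' ((chi M (c.sys z hz t) - e) / 2) with hεdef
  have hε : 0 < ε := lt_min hε' (by linarith)
  have hεχ : e + ε < κ * -Real.log z := by
    have : ε ≤ (chi M (c.sys z hz t) - e) / 2 := min_le_right _ _
    rw [← hchi z hz t]
    linarith
  suffices hR M (c.sys z hz t) ≤ e + ε by
    have : ε ≤ ε' := min_le_left _ _
    linarith
  obtain ⟨ρ₂, C₀, hρ₂, hJ⟩ := caseII_data M c z hz t he hbad (fun i : {i // t i ≠ 0} => t i.1)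
    (i₀ := ⟨i₀, hi₀⟩) hi₀ hε
  choose n s θ f hn hcl hs hθ hdet using hJ
  obtain ⟨ρ₃, hρ₃, hρ₃'⟩ : ∃ ρ₃ > 0, ∀ x : ℝ, |x - z| < ρ₃ → e + ε < κ * -Real.log x := by
    have hc : ContinuousAt (fun x : ℝ => κ * -Real.log x) z :=
      continuousAt_const.mul (Real.continuousAt_log hz.1.ne').neg
    have := hc.eventually (lt_mem_nhds hεχ)
    rw [Metric.eventually_nhds_iff] at this
    obtain ⟨ρ, hρ, h⟩ := this
    exact ⟨ρ, hρ, fun x hx => h (by rwa [Real.dist_eq])⟩
  set 𝓡 : ℕ → Set ({i // t i ≠ 0} → ℤ[X]) := fun J =>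
    {q | (∀ i, Bd (c.K * n J) (q i)) ∧ |pair (fun i : {i // t i ≠ 0} => t i.1) z q| ≤ θ J} with h𝓡
  set F : ℕ → List Ω → List ι → List Bool := fun J ω u => f J ω ((c.sys z hz t).X ω u) with hF
  have hXt : ∀ (ω : List Ω) (u v : List ι), (c.sys z hz t).X ω u - (c.sys z hz t).X ω v =
      pair (fun i : {i // t i ≠ 0} => t i.1) z fun i => (c.Q ω u - c.Q ω v) i.1 := by
    intro ω u v
    have := rank1_X_sub c t (fun i => t i.1) z hz ω u v
    rwa [rank1_ext_self] at this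
  have hrel : ∀ J, ∀ ω ∈ (M.Om (n J)).support, ∀ u ∈ (M.Cw ω).support, ∀ v ∈ (M.Cw ω).support,
      ∀ a : ℕ, u.take a = v.take a → F J ω u = F J ω v →
        (fun i : {i // t i ≠ 0} => (c.Q (ω.drop a) (u.drop a) - c.Q (ω.drop a) (v.drop a)) i.1) ∈
          𝓡 J := by
    intro J ω hω u hu v hv a huv hFuv
    have hlen : ω.length = n J := (mem_support_Om M).1 hω
    refine ⟨fun i => (bd_Q_sub c _ _ _ _).mono (Nat.mul_le_mul_left _ ?_), ?_⟩
    · rw [List.length_drop]; omega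
    · rw [← hXt]
      have h1 := (hcl J).2 ω hω _ ((mem_support_nu M _).2 ⟨u, hu, rfl⟩) _
        ((mem_support_nu M _).2 ⟨v, hv, rfl⟩) hFuv
      rw [X_take_drop _ (length_of_mem_Cw M hu) a, X_take_drop _ (length_of_mem_Cw M hv) a, huv,
        add_sub_add_left_eq_sub, ← mul_sub, abs_mul] at h1
      have h2 := pow_le_abs_cc c z hz t (ω.take a)
      have h3 : z ^ (c.K * n J) ≤ z ^ (c.K * (ω.take a).length) :=
        pow_le_pow_of_le_one hz.1.le hz.2.le (Nat.mul_le_mul_left _ (by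
          rw [List.length_take]; omega))
      have h4 := mul_le_mul_of_nonneg_right (h3.trans h2) (abs_nonneg
        ((c.sys z hz t).X (ω.drop a) (u.drop a) - (c.sys z hz t).X (ω.drop a) (v.drop a)))
      have h5 := hs J
      have h6 : 0 < z ^ (c.K * n J) := pow_pos hz.1 _
      refine le_of_mul_le_mul_left ?_ h6
      linarith
  have hDet : ∀ (J : ℕ) (s' : {i // t i ≠ 0} → ℝ) (x : ℝ) (hx : 0 < x ∧ x < 1) (ϑ : ℝ),
      (∀ q ∈ 𝓡 J, |pair s' x q| ≤ ϑ) → Det M (c.sys x hx (rank1Ext t s')) (n J) (F J) ϑ := by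
    intro J s' x hx ϑ h ω hω u hu v hv a huv hFuv
    rw [rank1_X_sub]
    exact h _ (hrel J ω hω u hu v hv a huv hFuv)
  have hent : ∀ J, (ex (M.Om (n J)) fun ω => ent (push (F J ω) (M.Cw ω))) ≤ (e + ε) * n J := by
    intro J
    have := (hcl J).1
    simpa only [nu, push_push] using this
  have hlim : Tendsto (fun J : ℕ => max 1 C₀ / 2 ^ J) atTop (𝓝 0) :=
    tendsto_const_nhds.div_atTop (tendsto_pow_atTop_atTop_of_one_lt one_lt_two)
  rcases limit_lemma (fun i : {i // t i ≠ 0} => t i.1) (fun i => i.2) hz hρ₂ hρ₃ 𝓡 _ hlim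
    (fun J q hq i j => (hq.1 i).2 j)
    (fun J q hq => hq.2.trans ((hθ J).trans
      (div_le_div_of_nonneg_right (le_max_left _ _) (by positivity))))
    (fun J A hA x hx => (hdet J A (fun i j => (hA i).1 j) (fun i => (hA i).2) x hx).trans
      (div_le_div_of_nonneg_right (le_max_right _ _) (by positivity)))
    (ae_good ι c.K) with ⟨t', t'', htt, h', h'', H⟩ | ⟨z₀, hG, hz₀z, hz₀, t₀, H, hq⟩
  · refine final2 M _ (c.sys z hz (rank1Ext t t')) (c.sys z hz (rank1Ext t t'')) ?_ (IH t' h')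
      (IH t'' h'') (by rwa [hchi]) (by rwa [hchi]) ?_
    · intro ω u v h1 h2
      rw [← sub_eq_zero, rank1_X_sub] at h1 h2
      rw [← sub_eq_zero, hXt, htt, pair_add_left, h1, h2, add_zero]
    · intro ϑ hϑ N₀
      obtain ⟨J, hJ, hJN⟩ := ((H ϑ hϑ).and_eventually (eventually_ge_atTop N₀)).exists
      exact ⟨n J, hJN.trans (hn J), F J, hent J, hDet J t' z hz ϑ fun q hq => (hJ q hq).1,
        hDet J t'' z hz ϑ fun q hq => (hJ q hq).2⟩
  · have hc : Core M (c.sys z₀ hz₀ (rank1Ext t t₀)) := core_of_good M c z₀ hz₀ _ (hG hz₀).frequently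
    have hχ : e + ε < chi M (c.sys z₀ hz₀ (rank1Ext t t₀)) := by
      rw [hchi]; exact hρ₃' z₀ hz₀z
    refine final2 M _ _ _ ?_ hc hc hχ hχ ?_
    · intro ω u v h1 _
      rw [← sub_eq_zero, rank1_X_sub] at h1
      rw [← sub_eq_zero, hXt]
      exact hq _ h1
    · intro ϑ hϑ N₀
      obtain ⟨J, hJ, hJN⟩ := ((H ϑ hϑ).and_eventually (eventually_ge_atTop N₀)).exists
      exact ⟨n J, hJN.trans (hn J), F J, hent J, hDet J t₀ z₀ hz₀ ϑ hJ, hDet J t₀ z₀ hz₀ ϑ hJ⟩

theorem core_cyc (M : Mod Ω ι) (c : Cyc Ω) (z : ℝ) (hz : 0 < z ∧ z < 1) (t : ι → ℝ) :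
    Core M (c.sys z hz t) := by
  classical
  induction h : (Finset.univ.filter fun i => t i ≠ 0).card using Nat.strong_induction_on
    generalizing t with
  | _ k ih =>
    refine rank1_step M c z hz t fun s hs => ih _ ?_ _ rfl
    rw [← h]
    convert rank1_card_lt t s hs

theorem exists_cyc [Nonempty Ω] (σ : Sys Ω ι)
    (h : ∀ o₁ o₂, ¬ Irrational (Real.log |σ.ρ o₁| / Real.log |σ.ρ o₂|)) :
    ∃ (c : Cyc Ω) (z : ℝ) (hz : 0 < z ∧ z < 1), σ = c.sys z hz σ.t := by
  classical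
  obtain ⟨o₀⟩ := ‹Nonempty Ω›
  have hL : ∀ o, Real.log |σ.ρ o| < 0 := fun o =>
    Real.log_neg (abs_pos.2 (σ.hρ o).1) (σ.hρ o).2
  have hq : ∀ o, ∃ q : ℚ, (q : ℝ) = Real.log |σ.ρ o| / Real.log |σ.ρ o₀| := fun o => by
    have := h o o₀
    unfold Irrational at this
    exact not_not.1 this
  choose q hq using hq
  set D : ℕ := ∏ o, (q o).den with hD
  have hD0 : 0 < D := Finset.prod_pos fun o _ => (q o).den_pos
  have hD0R : (0 : ℝ) < D := by exact_mod_cast hD0
  have hk : ∀ o, ∃ k : ℕ, 1 ≤ k ∧ (k : ℝ) = q o * D := by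
    intro o
    obtain ⟨m, hm⟩ : (q o).den ∣ D := Finset.dvd_prod_of_mem _ (Finset.mem_univ o)
    have hpos : (0 : ℝ) < q o := by rw [hq]; exact div_pos_of_neg_of_neg (hL o) (hL o₀)
    have hnum : 0 < (q o).num := Rat.num_pos.2 (by exact_mod_cast hpos)
    have h1 : (((q o).num.toNat * m : ℕ) : ℝ) = q o * D := by
      have h2 : (((q o).num.toNat : ℕ) : ℝ) = ((q o).num : ℝ) := by
        have := Int.toNat_of_nonneg hnum.le
        exact_mod_cast congrArg (Int.cast : ℤ → ℝ) this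
      have h3 : (q o : ℝ) * (q o).den = (q o).num := by exact_mod_cast Rat.mul_den_eq_num (q o)
      rw [hm, Nat.cast_mul, Nat.cast_mul, h2, ← h3]
      ring
    refine ⟨_, ?_, h1⟩
    have : (0 : ℝ) < (((q o).num.toNat * m : ℕ) : ℝ) := by rw [h1]; positivity
    exact_mod_cast this
  choose k hk1 hk using hk
  have hz : 0 < Real.exp (Real.log |σ.ρ o₀| / D) ∧ Real.exp (Real.log |σ.ρ o₀| / D) < 1 :=
    ⟨Real.exp_pos _, Real.exp_lt_one_iff.2 (div_neg_of_neg_of_pos (hL o₀) hD0R)⟩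
  refine ⟨⟨fun o => if 0 < σ.ρ o then 1 else -1, k, fun o => ?_, hk1⟩, _, hz, ?_⟩
  · by_cases h : 0 < σ.ρ o <;> simp [h]
  · have hpow : ∀ o, Real.exp (Real.log |σ.ρ o₀| / D) ^ k o = |σ.ρ o| := by
      intro o
      rw [← Real.exp_nat_mul, hk, hq, ← Real.exp_log (abs_pos.2 (σ.hρ o).1), Real.log_exp]
      congr 1
      have := (hL o₀).ne
      field_simp
    obtain ⟨ρ, t, hρ⟩ := σ
    simp only [Cyc.sys, Sys.mk.injEq, and_true]
    funext o
    simp only at hpow
    rw [hpow]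
    split_ifs with h1
    · rw [abs_of_pos h1]; simp
    · rw [abs_of_nonpos (not_lt.1 h1)]; simp

theorem core_all (M : Mod Ω ι) (σ : Sys Ω ι) : Core M σ := by
  obtain ⟨o, -⟩ := M.hP.support_nonempty
  have : Nonempty Ω := ⟨o⟩
  by_cases h : ∃ o₁ o₂, Irrational (Real.log |σ.ρ o₁| / Real.log |σ.ρ o₂|)
  · obtain ⟨o₁, o₂, h⟩ := h
    exact core_rank2 M σ h
  · obtain ⟨c, z, hz, hσ⟩ := exists_cyc σ fun o₁ o₂ hi => h ⟨o₁, o₂, hi⟩
    rw [hσ]
    exact core_cyc M c z hz σ.t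

end Crest.Agent.R98
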