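import Crest.Agent.R98.ModelA

/-!
# R98/Rate: the rates `eR`, `hR` (Fekete)
`An_superadd`: for `ω, ω'` put `s = |c||c'|`, `N = ⌈1/|c'|⌉`, so `N s ∈ [|c|, 2|c|]`;
`Hs s ν(ωω') = Dsc s N ν(ωω') + Hs (N s) ν(ωω') ≥ Dsc s N (dil c ν') + Hs (N s) ν` (`nu_append`, `Dsc_le_conv`, `Hs_le_conv`,
`conv_comm`), `Dsc s N (dil c ν') = Hs |c'| ν' - Hs (N |c'|) ν' ≥ Hs |c'| ν' - log (2R₀ + 2)`, `Hs (N s) ν ≥ Hs |c| ν - log 4`.
Fekete: `Subadditive.tendsto_lim`, `Subadditive.lim_le_div` for `n ↦ C - An n` and `Hn` (`Hn` is subadditive by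
`nu_append`, `IsP.ent_bnd_le`, `IsP.ent_push_le`).
-/

set_option autoImplicit false

namespace Crest.Agent.R98

open Filter Topology

variable {Ω ι : Type*} [Fintype Ω] [Fintype ι] (M : Mod Ω ι) (σ : Sys Ω ι)

theorem An_nonneg (n : ℕ) : 0 ≤ An M σ n := by
  exact (isP_Om M n).ex_nonneg fun ω _ => Hs_nonneg (isP_nu M σ ω) _

theorem An_le_Hn (n : ℕ) : An M σ n ≤ Hn M σ n := by
  exact (isP_Om M n).ex_mono fun ω _ => Hs_le_ent (isP_nu M σ ω) _

theorem Hn_le (n : ℕ) : Hn M σ n ≤ n * Real.log (Fintype.card ι) := by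
  refine (isP_Om M n).ex_le fun ω hω => ?_
  have := ent_nu_le M σ ω
  rwa [(mem_support_Om M).1 hω] at this

/-- the laws `nu` live on an interval of length `2 R₀` -/
theorem rate_diam : ∃ R : ℝ, 0 < R ∧ ∀ (ω : List Ω) (s : ℝ), 0 < s →
    Hs s (nu M σ ω) ≤ Real.log (R / s + 2) := by
  obtain ⟨R₀, hR₀, hX⟩ := exists_R0 (ι := ι) σ
  refine ⟨2 * R₀, by linarith, fun ω s hs => Hs_le_of_diam (isP_nu M σ ω) hs ?_⟩
  intro y hy y' hy'
  obtain ⟨u, -, rfl⟩ := (mem_support_nu M σ).1 hy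
  obtain ⟨u', -, rfl⟩ := (mem_support_nu M σ).1 hy'
  have h1 := hX ω u
  have h2 := hX ω u'
  have := abs_sub (σ.X ω u) (σ.X ω u')
  linarith

theorem rate_pointwise : ∃ C : ℝ, ∀ ω ω' : List Ω,
    Hs |σ.cc ω| (nu M σ ω) + Hs |σ.cc ω'| (nu M σ ω') - C ≤
      Hs |σ.cc (ω ++ ω')| (nu M σ (ω ++ ω')) := by
  obtain ⟨R, hR, hD⟩ := rate_diam M σ
  refine ⟨Real.log (R + 2) + Real.log 4, fun ω ω' => ?_⟩
  have hc := abs_cc_pos σ ω
  have hc' := abs_cc_pos σ ω'
  have hc1' := abs_cc_le_one σ ω'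
  set c := |σ.cc ω| with hcdef
  set c' := |σ.cc ω'| with hc'def
  have hs : 0 < c * c' := mul_pos hc hc'
  have e0 : |σ.cc (ω ++ ω')| = c * c' := by rw [cc_append, abs_mul]
  set N : ℕ := ⌈1 / c'⌉₊ with hN
  have hN1 : 1 ≤ N := Nat.one_le_iff_ne_zero.2 (Nat.ceil_pos.2 (by positivity)).ne'
  have hNa : 1 ≤ (N : ℝ) * c' := by
    have := Nat.le_ceil (1 / c')
    rwa [div_le_iff₀ hc'] at this
  have hNb : (N : ℝ) * c' ≤ 2 := by
    have h1 : (N : ℝ) < 1 / c' + 1 := Nat.ceil_lt_add_one (by positivity)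
    have h2 : (N : ℝ) * c' < (1 / c' + 1) * c' := mul_lt_mul_of_pos_right h1 hc'
    have h3 : (1 / c' + 1) * c' = 1 + c' := by field_simp
    linarith
  have hν := isP_nu M σ ω
  have hν' := isP_nu M σ ω'
  have hd := hν'.dil (σ.cc ω)
  rw [e0, nu_append]
  have h1 := Dsc_le_conv hν hd hs hN1
  rw [Dsc_dil hν' (cc_ne_zero σ ω) hs hN1] at h1
  have e1 : c * c' / |σ.cc ω| = c' := by
    rw [← hcdef]; field_simp
  rw [e1] at h1
  have h2 := Hs_le_conv hd hν (N * (c * c'))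
  rw [conv_comm] at h2
  have hNs : 0 < (N : ℝ) * (c * c') := by positivity
  have h3 := Hs_le_add hν hc hNs
  have h4 : Real.log ((N : ℝ) * (c * c') / c + 2) ≤ Real.log 4 := by
    have : (N : ℝ) * (c * c') / c = N * c' := by field_simp
    rw [this]
    exact Real.log_le_log (by linarith) (by linarith)
  have h5 := hD ω' (N * c') (by linarith)
  have h6 : Real.log (R / (N * c') + 2) ≤ Real.log (R + 2) := by
    refine Real.log_le_log (by positivity) ?_
    have : R / (N * c') ≤ R := div_le_self hR.le hNa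
    linarith
  unfold Dsc at h1
  linarith

theorem An_superadd : ∃ C : ℝ, ∀ n n', An M σ n + An M σ n' - C ≤ An M σ (n + n') := by
  obtain ⟨C, hC⟩ := rate_pointwise M σ
  refine ⟨C, fun n n' => ?_⟩
  unfold An
  rw [ex_Om_append]
  have e : (ex (M.Om n) fun ω => Hs |σ.cc ω| (nu M σ ω)) +
      (ex (M.Om n') fun ω => Hs |σ.cc ω| (nu M σ ω)) - C =
      ex (M.Om n) fun ω => ex (M.Om n') fun ω' =>
        Hs |σ.cc ω| (nu M σ ω) + Hs |σ.cc ω'| (nu M σ ω') - C := by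
    simp only [ex_sub, ex_add, (isP_Om M n).ex_const, (isP_Om M n').ex_const]
  rw [e]
  exact (isP_Om M n).ex_mono fun ω _ => (isP_Om M n').ex_mono fun ω' _ => hC ω ω'

omit [Fintype Ω] [Fintype ι] in
theorem rate_ent_conv {a b : ℝ →₀ ℝ} (ha : IsP a) (hb : IsP b) : ent (conv a b) ≤ ent a + ent b := by
  have h1 := ha.ent_bnd_le (k := fun y => push (fun x => y + x) b) fun y _ => hb.push _
  have h2 : (ex a fun y => ent (push (fun x => y + x) b)) ≤ ent b :=
    ha.ex_le fun y _ => hb.ent_push_le _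
  unfold conv
  linarith

theorem Hn_subadd (n n' : ℕ) : Hn M σ (n + n') ≤ Hn M σ n + Hn M σ n' := by
  unfold Hn
  rw [ex_Om_append]
  have e : (ex (M.Om n) fun ω => ent (nu M σ ω)) + (ex (M.Om n') fun ω => ent (nu M σ ω)) =
      ex (M.Om n) fun ω => ex (M.Om n') fun ω' => ent (nu M σ ω) + ent (nu M σ ω') := by
    simp only [ex_add, (isP_Om M n).ex_const, (isP_Om M n').ex_const]
  rw [e]
  refine (isP_Om M n).ex_mono fun ω _ => (isP_Om M n').ex_mono fun ω' _ => ?_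
  rw [nu_append]
  have h1 := rate_ent_conv (isP_nu M σ ω) ((isP_nu M σ ω').dil (σ.cc ω))
  have h2 : ent (dil (σ.cc ω) (nu M σ ω')) ≤ ent (nu M σ ω') := (isP_nu M σ ω').ent_push_le _
  linarith

theorem rate_fekete : ∃ C l : ℝ, Tendsto (fun n : ℕ => An M σ n / n) atTop (𝓝 l) ∧
    ∀ n : ℕ, An M σ n ≤ l * n + C := by
  obtain ⟨C, hC⟩ := An_superadd M σ
  have hsub : Subadditive fun n => C - An M σ n := fun n n' => by
    have := hC n n'
    linarith
  have hL : 0 ≤ Real.log (Fintype.card ι) := Real.log_natCast_nonneg _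
  have hbdd : BddBelow (Set.range fun n : ℕ => (C - An M σ n) / n) := by
    refine ⟨-|C| - Real.log (Fintype.card ι), ?_⟩
    rintro _ ⟨n, rfl⟩
    rcases Nat.eq_zero_or_pos n with rfl | hn
    · have := abs_nonneg C
      simp only [Nat.cast_zero, div_zero]
      linarith
    · have hn' : (1 : ℝ) ≤ n := by exact_mod_cast hn
      have h1 := (An_le_Hn M σ n).trans (Hn_le M σ n)
      have h2 := neg_abs_le C
      have h3 := abs_nonneg C
      show _ ≤ (C - An M σ n) / n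
      rw [le_div_iff₀ (by linarith)]
      nlinarith
  have ht := hsub.tendsto_lim hbdd
  refine ⟨|C|, -hsub.lim, ?_, fun n => ?_⟩
  · have h0 : Tendsto (fun n : ℕ => C / (n : ℝ)) atTop (𝓝 0) := tendsto_const_div_atTop_nhds_zero_nat C
    have := h0.sub ht
    rw [zero_sub] at this
    refine this.congr fun n => ?_
    ring
  · rcases Nat.eq_zero_or_pos n with rfl | hn
    · have h1 := (An_le_Hn M σ 0).trans (Hn_le M σ 0)
      have := abs_nonneg C
      simp only [Nat.cast_zero, zero_mul, mul_zero] at h1 ⊢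
      linarith
    · have hn' : (0 : ℝ) < n := by exact_mod_cast hn
      have h1 := hsub.lim_le_div hbdd hn.ne'
      rw [le_div_iff₀ hn'] at h1
      have := le_abs_self C
      linarith

theorem tendsto_An : Tendsto (fun n : ℕ => An M σ n / n) atTop (𝓝 (eR M σ)) := by
  obtain ⟨C, l, h, -⟩ := rate_fekete M σ
  have : eR M σ = l := h.limsup_eq
  rwa [this]

theorem An_le : ∃ C : ℝ, ∀ n : ℕ, An M σ n ≤ eR M σ * n + C := by
  obtain ⟨C, l, h, h'⟩ := rate_fekete M σ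
  have : eR M σ = l := h.limsup_eq
  exact ⟨C, this ▸ h'⟩

theorem eR_nonneg : 0 ≤ eR M σ := by
  exact ge_of_tendsto' (tendsto_An M σ) fun n => div_nonneg (An_nonneg M σ n) (Nat.cast_nonneg n)

theorem rate_Hn_nonneg (n : ℕ) : 0 ≤ Hn M σ n := (An_nonneg M σ n).trans (An_le_Hn M σ n)

theorem rate_fekete' : ∃ l : ℝ, Tendsto (fun n : ℕ => Hn M σ n / n) atTop (𝓝 l) ∧
    ∀ n : ℕ, l * n ≤ Hn M σ n := by
  have hsub : Subadditive fun n => Hn M σ n := fun n n' => Hn_subadd M σ n n'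
  have hbdd : BddBelow (Set.range fun n : ℕ => Hn M σ n / n) := by
    refine ⟨0, ?_⟩
    rintro _ ⟨n, rfl⟩
    exact div_nonneg (rate_Hn_nonneg M σ n) (Nat.cast_nonneg n)
  refine ⟨hsub.lim, hsub.tendsto_lim hbdd, fun n => ?_⟩
  rcases Nat.eq_zero_or_pos n with rfl | hn
  · simpa using rate_Hn_nonneg M σ 0
  · have hn' : (0 : ℝ) < n := by exact_mod_cast hn
    have h1 := hsub.lim_le_div hbdd hn.ne'
    rwa [le_div_iff₀ hn'] at h1

theorem tendsto_Hn : Tendsto (fun n : ℕ => Hn M σ n / n) atTop (𝓝 (hR M σ)) := by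
  obtain ⟨l, h, -⟩ := rate_fekete' M σ
  have : hR M σ = l := h.limsup_eq
  rwa [this]

theorem hR_le (n : ℕ) : hR M σ * n ≤ Hn M σ n := by
  obtain ⟨l, h, h'⟩ := rate_fekete' M σ
  have : hR M σ = l := h.limsup_eq
  exact this ▸ h' n

theorem rate_dev : ∃ V : ℝ, 0 < V ∧ ∀ (n : ℕ) (s : ℝ),
    (ex (M.Om n) fun ω => |Real.log s - Real.log (|σ.cc ω|)|) ≤
      |Real.log s + chi M σ * n| + V * Real.sqrt n := by
  obtain ⟨V, hV, h⟩ := exists_dev M σ
  refine ⟨V, hV, fun n s => ?_⟩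
  have h1 : (ex (M.Om n) fun ω => |Real.log s - Real.log (|σ.cc ω|)|) ≤
      ex (M.Om n) fun ω => |Real.log s + chi M σ * n| + |Real.log (|σ.cc ω|) + chi M σ * n| := by
    refine (isP_Om M n).ex_mono fun ω _ => ?_
    have := abs_sub (Real.log s + chi M σ * n) (Real.log (|σ.cc ω|) + chi M σ * n)
    rwa [add_sub_add_right_eq_sub] at this
  rw [ex_add, (isP_Om M n).ex_const] at h1
  have h2 := (h n).1
  linarith

/-- entropy at a deterministic scale versus the natural scale (`abs_Hs_sub_le`, `exists_dev`) -/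
theorem Hs_nat : ∃ C : ℝ, 0 < C ∧ ∀ (n : ℕ) (s : ℝ), 0 < s →
    |(ex (M.Om n) fun ω => Hs s (nu M σ ω)) - An M σ n| ≤
      |Real.log s + chi M σ * n| + C * Real.sqrt n + C := by
  obtain ⟨V, hV, h⟩ := rate_dev M σ
  have h3 : 0 < Real.log 3 := Real.log_pos (by norm_num)
  refine ⟨V + Real.log 3, by linarith, fun n s hs => ?_⟩
  unfold An
  rw [← ex_sub]
  refine ((isP_Om M n).abs_ex_le _).trans ?_
  have h1 : (ex (M.Om n) fun ω => |Hs s (nu M σ ω) - Hs |σ.cc ω| (nu M σ ω)|) ≤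
      ex (M.Om n) fun ω => |Real.log s - Real.log (|σ.cc ω|)| + Real.log 3 :=
    (isP_Om M n).ex_mono fun ω _ => abs_Hs_sub_le (isP_nu M σ ω) hs (abs_cc_pos σ ω)
  rw [ex_add, (isP_Om M n).ex_const] at h1
  have h2 := h n s
  have h4 := Real.sqrt_nonneg (n : ℝ)
  nlinarith

theorem rate_log_le {R x : ℝ} (hR : 0 < R) (hx : 0 < x) :
    Real.log (R / x + 2) ≤ |Real.log x| + Real.log (R + 2) := by
  rcases le_total 1 x with h | h
  · have h1 : R / x ≤ R := div_le_self hR.le h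
    have h2 : Real.log (R / x + 2) ≤ Real.log (R + 2) := Real.log_le_log (by positivity) (by linarith)
    have := abs_nonneg (Real.log x)
    linarith
  · have h1 : R / x + 2 ≤ (R + 2) / x := by
      rw [add_div]
      have : 2 ≤ 2 / x := by rw [le_div_iff₀ hx]; linarith
      linarith
    have h2 : Real.log (R / x + 2) ≤ Real.log ((R + 2) / x) := Real.log_le_log (by positivity) h1
    rw [Real.log_div (by positivity) hx.ne'] at h2
    have := neg_abs_le (Real.log x)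
    linarith

/-- `Hs s ν(ωω') ≥ Hs s ν(ω)` and `Hs s (dil c ν') ≤ log (2 R₀ |c| / s + 2) ≤ |log s - log |c|| + C` -/
theorem Inf_low : ∃ C : ℝ, 0 < C ∧ ∀ (n n' : ℕ) (s : ℝ), 0 < s →
    An M σ n - 2 * |Real.log s + chi M σ * n| - C * Real.sqrt n - C ≤ Inf M σ n n' s := by
  obtain ⟨C, hC, hnat⟩ := Hs_nat M σ
  obtain ⟨V, hV, hdev⟩ := rate_dev M σ
  obtain ⟨R, hR, hD⟩ := rate_diam M σ
  have hL : 0 ≤ Real.log (R + 2) := Real.log_nonneg (by linarith)
  refine ⟨C + V + Real.log (R + 2), by linarith, fun n n' s hs => ?_⟩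
  have h1 : (ex (M.Om n) fun ω => Hs s (nu M σ ω) -
      (|Real.log s - Real.log (|σ.cc ω|)| + Real.log (R + 2))) ≤ Inf M σ n n' s := by
    refine (isP_Om M n).ex_mono fun ω _ => (isP_Om M n').le_ex fun ω' _ => ?_
    have hν := isP_nu M σ ω
    have hν' := isP_nu M σ ω'
    have hc := abs_cc_pos σ ω
    have h2 := Hs_le_conv (hν'.dil (σ.cc ω)) hν s
    rw [conv_comm, ← nu_append] at h2
    have h3 := hD ω' (s / |σ.cc ω|) (div_pos hs hc)
    have h4 := rate_log_le hR (div_pos hs hc)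
    rw [Real.log_div hs.ne' hc.ne'] at h4
    rw [Hs_dil hν' (cc_ne_zero σ ω) hs]
    linarith
  rw [ex_sub, ex_add, (isP_Om M n).ex_const] at h1
  have h2 := hdev n s
  have h3 := (abs_le.1 (hnat n s hs)).1
  have h4 := Real.sqrt_nonneg (n : ℝ)
  nlinarith

theorem Inf_nonneg (n n' : ℕ) (s : ℝ) : 0 ≤ Inf M σ n n' s := by
  refine (isP_Om M n).ex_nonneg fun ω _ => (isP_Om M n').ex_nonneg fun ω' _ => ?_
  rw [nu_append]
  exact sub_nonneg.2 (Hs_le_conv (isP_nu M σ ω) ((isP_nu M σ ω').dil _) s)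

theorem Inf_le (n n' : ℕ) (s : ℝ) : Inf M σ n n' s ≤ (n + n') * Real.log (Fintype.card ι) := by
  refine (isP_Om M n).ex_le fun ω hω => (isP_Om M n').ex_le fun ω' hω' => ?_
  have h1 := Hs_nonneg ((isP_nu M σ ω').dil (σ.cc ω)) s
  have h2 := Hs_le_ent (isP_nu M σ (ω ++ ω')) s
  have h3 := ent_nu_le M σ (ω ++ ω')
  rw [List.length_append, (mem_support_Om M).1 hω, (mem_support_Om M).1 hω', Nat.cast_add] at h3
  linarith

theorem measurable_Inf (n n' : ℕ) : Measurable fun s => Inf M σ n n' s := by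
  refine measurable_ex _ _ fun ω _ => measurable_ex _ _ fun ω' _ => ?_
  exact (measurable_Hs (isP_nu M σ _)).sub (measurable_Hs ((isP_nu M σ ω').dil _))

end Crest.Agent.R98
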