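import Crest.Agent.R98.Rank1
import Crest.Agent.R98.DimLow

/-!
# R98/Reduce: the model of an IFS
Classes = values of `r`: `Ω = {x // x ∈ univ.image r}`, `κ i = ⟨r i, _⟩`, `P o = ∑_{κ i = o} p i`, `τ o i = if κ i = o then p i / P o else 0`
(`Finsupp.equivFunOnFinite.symm`), `ρ = Subtype.val`. Key identity (`exists_model`, last clause):
`E_{ω ∼ Om n} E_{u ∼ Cw ω} G ω u = E_{u ∼ iid p n} G (u.map κ) u`. The composed map of `u` is `y ↦ X ω u + cc ω * y`, so it is determined by the pair `(ω, X ω u)` whose law is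
`joint (Om n) nu`; `finiteLawEntropy` is `ent (push ..)` by `ent_push_eq` and `ex_iid_fin`; `ent_joint`, `ent_iid`, `ent_le_log_card`.
`lower_ifs`: `n h ≤ composedMapEntropy n ≤ n log #Ω + Hn n` gives `h - log #Ω ≤ hR`; `core_all`, `Stat.dim_low`.
-/

set_option autoImplicit false

namespace Crest.Agent.R98

open MeasureTheory Crest.AnalysisR

variable {ι : Type*} [Fintype ι]

/-- the probability vector as a finitely supported function -/
noncomputable def pv (p : ι → ℝ) : ι →₀ ℝ := Finsupp.equivFunOnFinite.symm p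

theorem Reduce_pv_apply (p : ι → ℝ) (i : ι) : pv p i = p i := rfl

theorem Reduce_ex_pv (p : ι → ℝ) (F : ι → ℝ) : ex (pv p) F = ∑ i, p i * F i := by
  rw [ex_fintype]; rfl

theorem isP_pv {p : ι → ℝ} (hp : ∀ i, 0 < p i) (hp₁ : ∑ i, p i = 1) : IsP (pv p) := by
  refine ⟨fun a => (hp a).le, ?_⟩
  rw [Reduce_ex_pv]; simpa using hp₁

theorem composedMapEntropy_eq (r t p : ι → ℝ) (n : ℕ) :
    composedMapEntropy r t p n = ent (push (affineWordMap r t) (iid (pv p) n)) := by
  classical
  rw [ent_push_eq, ex_iid_fin, composedMapEntropy, finiteLawEntropy, ← Finset.sum_neg_distrib]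
  refine Finset.sum_congr rfl fun w _ => ?_
  rw [← mul_neg]
  congr 3
  rw [pr, ex_iid_fin]
  refine Finset.sum_congr rfl fun w' _ => ?_
  simp only [Set.indicator, Set.mem_setOf_eq, Reduce_pv_apply]
  split_ifs <;> simp

theorem rw_le (r t : ι → ℝ) {p : ι → ℝ} (hp : ∀ i, 0 < p i) (hp₁ : ∑ i, p i = 1) (n : ℕ) :
    rwEntropyRate r t p * n ≤ composedMapEntropy r t p n := by
  have h0 : ∀ k, 0 ≤ composedMapEntropy r t p k := fun k => by
    rw [composedMapEntropy_eq]
    exact (((isP_pv hp hp₁).iid k).push _).ent_nonneg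
  rcases n with _ | m
  · simpa using h0 0
  · have h1 : rwEntropyRate r t p ≤ composedMapEntropy r t p (m + 1) / ((m : ℝ) + 1) := by
      refine ciInf_le ⟨0, ?_⟩ m
      rintro _ ⟨k, rfl⟩
      exact div_nonneg (h0 _) (by positivity)
    rw [le_div_iff₀ (by positivity)] at h1
    simpa using h1

theorem selfSimilar_real {r t p : ι → ℝ} (hp : ∀ i, 0 < p i) {μ : Measure ℝ}
    (hμ : IsSelfSimilarMeasure r t p μ) {A : Set ℝ} (hA : MeasurableSet A) :
    μ.real A = ∑ i, p i * μ.real {y | t i + r i * y ∈ A} := by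
  obtain ⟨hprob, heq⟩ := hμ
  have h1 : μ A = ∑ i, ENNReal.ofReal (p i) * μ {y | t i + r i * y ∈ A} := by
    conv_lhs => rw [heq]
    rw [Measure.finset_sum_apply]
    refine Finset.sum_congr rfl fun i _ => ?_
    rw [Measure.smul_apply, smul_eq_mul, Measure.map_apply (by fun_prop) hA]
    congr 2
    ext y
    simp only [Set.mem_preimage, Set.mem_setOf_eq, add_comm]
  rw [Measure.real, h1, ENNReal.toReal_sum]
  · refine Finset.sum_congr rfl fun i _ => ?_
    rw [ENNReal.toReal_mul, ENNReal.toReal_ofReal (hp i).le]; rfl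
  · intro i _
    exact ENNReal.mul_ne_top ENNReal.ofReal_ne_top (measure_ne_top _ _)

/-- the second identity of `exists_model` follows from the first -/
theorem Reduce_words {Ω : Type*} (M : Mod Ω ι) (κ : ι → Ω) (p : ι → ℝ)
    (h : ∀ G : Ω → ι → ℝ, (ex M.P fun o => ex (M.τ o) fun i => G o i) = ∑ i, p i * G (κ i) i)
    (n : ℕ) (G : List Ω → List ι → ℝ) :
    (ex (M.Om n) fun ω => ex (M.Cw ω) fun u => G ω u) = ex (iid (pv p) n) fun u => G (u.map κ) u := by
  induction n generalizing G with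
  | zero =>
    rw [ex_Om_zero, ex_iid_zero]
    simp [Mod.Cw]
  | succ n ih =>
    rw [ex_Om_succ, ex_iid_succ, Reduce_ex_pv]
    have h1 : ∀ o : Ω, (ex (M.Om n) fun ω => ex (M.Cw (o :: ω)) fun u => G (o :: ω) u) =
        ex (M.τ o) fun i => ex (iid (pv p) n) fun u => G (o :: u.map κ) (i :: u) := by
      intro o
      have h2 : ∀ ω : List Ω, (ex (M.Cw (o :: ω)) fun u => G (o :: ω) u) =
          ex (M.τ o) fun i => ex (M.Cw ω) fun u => G (o :: ω) (i :: u) := by
        intro ω
        rw [Mod.Cw, ex_bnd]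
        congr 1
        funext i
        rw [ex_push]
      simp only [h2]
      rw [ex_comm]
      congr 1
      funext i
      exact ih fun ω u => G (o :: ω) (i :: u)
    simp only [h1]
    rw [h fun o i => ex (iid (pv p) n) fun u => G (o :: u.map κ) (i :: u)]
    rfl

open Classical in
theorem exists_model (r t : ι → ℝ) {p : ι → ℝ} (hr : ∀ i, r i ≠ 0 ∧ |r i| < 1) (hp : ∀ i, 0 < p i)
    (hp₁ : ∑ i, p i = 1) :
    ∃ (M : Mod {x // x ∈ Finset.univ.image r} ι) (σ : Sys {x // x ∈ Finset.univ.image r} ι)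
      (κ : ι → {x // x ∈ Finset.univ.image r}), (∀ i, σ.ρ (κ i) = r i) ∧ σ.t = t ∧
      (∀ G : {x // x ∈ Finset.univ.image r} → ι → ℝ,
        (ex M.P fun o => ex (M.τ o) fun i => G o i) = ∑ i, p i * G (κ i) i) ∧
      ∀ (n : ℕ) (G : List {x // x ∈ Finset.univ.image r} → List ι → ℝ),
        (ex (M.Om n) fun ω => ex (M.Cw ω) fun u => G ω u) = ex (iid (pv p) n) fun u => G (u.map κ) u := by
  let κ : ι → {x // x ∈ Finset.univ.image r} := fun i => ⟨r i, Finset.mem_image_of_mem _ (Finset.mem_univ _)⟩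
  let P : {x // x ∈ Finset.univ.image r} → ℝ := fun o => ∑ i, if κ i = o then p i else 0
  have hsurj : ∀ o, ∃ i, κ i = o := by
    rintro ⟨x, hx⟩
    obtain ⟨i, -, rfl⟩ := Finset.mem_image.1 hx
    exact ⟨i, rfl⟩
  have hPpos : ∀ o, 0 < P o := by
    intro o
    obtain ⟨i, hi⟩ := hsurj o
    refine Finset.sum_pos' (fun j _ => ?_) ⟨i, Finset.mem_univ _, ?_⟩
    · split_ifs
      · exact (hp j).le
      · exact le_rfl
    · rw [if_pos hi]; exact hp i
  have hPsum : ∑ o, P o = 1 := by
    rw [Finset.sum_comm, ← hp₁]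
    refine Finset.sum_congr rfl fun i _ => ?_
    simp
  let τ : {x // x ∈ Finset.univ.image r} → ι → ℝ := fun o i => if κ i = o then p i / P o else 0
  have hτ : ∀ o, IsP (pv (τ o)) := by
    intro o
    refine ⟨fun i => ?_, ?_⟩
    · change 0 ≤ τ o i
      simp only [τ]
      split_ifs
      · exact div_nonneg (hp i).le (hPpos o).le
      · exact le_rfl
    · rw [Reduce_ex_pv]
      have : ∀ i, τ o i * 1 = (if κ i = o then p i else 0) / P o := by
        intro i
        simp only [τ]
        split_ifs <;> simp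
      simp only [this]
      rw [← Finset.sum_div]
      exact div_self (hPpos o).ne'
  let M : Mod {x // x ∈ Finset.univ.image r} ι :=
    ⟨pv P, fun o => pv (τ o), isP_pv hPpos hPsum, hPpos, hτ⟩
  let σ : Sys {x // x ∈ Finset.univ.image r} ι := ⟨Subtype.val, t, by
    intro o
    obtain ⟨i, rfl⟩ := hsurj o
    exact hr i⟩
  have key : ∀ G : {x // x ∈ Finset.univ.image r} → ι → ℝ,
      (ex M.P fun o => ex (M.τ o) fun i => G o i) = ∑ i, p i * G (κ i) i := by
    intro G
    change (ex (pv P) fun o => ex (pv (τ o)) fun i => G o i) = _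
    simp only [Reduce_ex_pv, Finset.mul_sum]
    rw [Finset.sum_comm]
    refine Finset.sum_congr rfl fun i _ => ?_
    have : ∀ o, P o * (τ o i * G o i) = if κ i = o then p i * G o i else 0 := by
      intro o
      simp only [τ]
      split_ifs
      · have := (hPpos o).ne'
        field_simp
      · simp
    simp only [this]
    simp
  exact ⟨M, σ, κ, fun _ => rfl, rfl, key, Reduce_words M κ p key⟩

theorem Reduce_affine {Ω : Type*} (σ : Sys Ω ι) (κ : ι → Ω) {r : ι → ℝ} (h : ∀ i, σ.ρ (κ i) = r i)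
    (u : List ι) (y : ℝ) :
    affineWordMap r σ.t u y = σ.X (u.map κ) u + σ.cc (u.map κ) * y := by
  induction u with
  | nil => simp [affineWordMap, Sys.X]
  | cons i u ih =>
    have : affineWordMap r σ.t (i :: u) y = r i * affineWordMap r σ.t u y + σ.t i := rfl
    rw [this, ih, List.map_cons, cc_cons, Sys.X, h]
    ring

open Classical in
theorem lower_ifs {r t p : ι → ℝ} (hr : ∀ i, r i ≠ 0 ∧ |r i| < 1) (hp : ∀ i, 0 < p i)
    (hp₁ : ∑ i, p i = 1) {μ : Measure ℝ} (hμ : IsSelfSimilarMeasure r t p μ) :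
    ENNReal.ofReal (min 1 ((rwEntropyRate r t p - Real.log (Finset.univ.image r).card) / lyapunovExp r p)) ≤
      lowerHausdorffDim μ := by
  obtain ⟨M, σ, κ, hρ, ht, h1, h2⟩ := exists_model r t hr hp hp₁
  have hstat : Stat M σ μ := by
    refine ⟨hμ.1, fun A hA => ?_⟩
    rw [h1 fun o i => μ.real {y | σ.t i + σ.ρ o * y ∈ A}, selfSimilar_real hp hμ hA]
    simp only [hρ, ht]
  have hchi : chi M σ = lyapunovExp r p := by
    have h3 := h1 fun o _ => -Real.log |σ.ρ o|
    simp only [(M.hτ _).ex_const, hρ] at h3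
    rw [chi, h3, lyapunovExp, ← Finset.sum_neg_distrib]
    simp
  have hcpos := chi_pos M σ
  have hlaw : ∀ n, joint (M.Om n) (nu M σ) =
      push (fun u => (u.map κ, σ.X (u.map κ) u)) (iid (pv p) n) := by
    intro n
    refine ext_ex fun F => ?_
    rw [ex_joint, ex_push, ← h2 n fun ω u => F (ω, σ.X ω u)]
    congr 1
    funext ω
    rw [nu, ex_push]
  have hent : ∀ n : ℕ, rwEntropyRate r t p * n ≤
      n * Real.log (Finset.univ.image r).card + Hn M σ n := by
    intro n
    refine (rw_le r t hp hp₁ n).trans ?_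
    rw [composedMapEntropy_eq]
    have h3 : ent (push (affineWordMap r t) (iid (pv p) n)) ≤ ent (joint (M.Om n) (nu M σ)) := by
      rw [hlaw]
      refine ((isP_pv hp hp₁).iid n).ent_push_le_of_det fun u _ v _ huv => ?_
      funext y
      rw [← ht, Reduce_affine σ κ hρ, Reduce_affine σ κ hρ]
      obtain ⟨e1, e2⟩ := Prod.mk.inj huv
      rw [e2, e1]
    refine h3.trans ?_
    rw [(isP_Om M n).ent_joint fun ω _ => isP_nu M σ ω]
    refine add_le_add ?_ le_rfl
    rw [Mod.Om, M.hP.ent_iid]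
    refine mul_le_mul_of_nonneg_left (M.hP.ent_le_log_card ?_) (Nat.cast_nonneg _)
    have := Finset.card_le_univ M.P.support
    rw [Fintype.card_coe] at this
    exact_mod_cast this
  have hh : rwEntropyRate r t p - Real.log (Finset.univ.image r).card ≤ hR M σ := by
    refine ge_of_tendsto (tendsto_Hn M σ) ?_
    filter_upwards [Filter.eventually_gt_atTop 0] with n hn
    have hn' : (0 : ℝ) < n := by exact_mod_cast hn
    rw [le_div_iff₀ hn']
    have := hent n
    linarith
  refine le_trans (ENNReal.ofReal_le_ofReal ?_) hstat.dim_low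
  rw [← hchi]
  by_cases hc : eR M σ < chi M σ
  · refine (min_le_right _ _).trans ?_
    exact div_le_div_of_nonneg_right (hh.trans (core_all M σ hc)) hcpos.le
  · refine (min_le_left _ _).trans ?_
    rw [le_div_iff₀ hcpos]
    linarith

theorem upper_ifs {r t p : ι → ℝ} (hr : ∀ i, r i ≠ 0 ∧ |r i| < 1) (hp : ∀ i, 0 < p i)
    (hp₁ : ∑ i, p i = 1) {μ : Measure ℝ} (hμ : IsSelfSimilarMeasure r t p μ) {γ : ℝ}
    (hγ : composedMapEntropy r t p 1 < γ * lyapunovExp r p) :
    lowerHausdorffDim μ ≤ ENNReal.ofReal γ := by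
  have hP := isP_pv hp hp₁
  have hstat : Stat2 (push (fun i => (r i, t i)) (pv p)) μ := by
    refine ⟨hμ.1, fun A hA => ?_⟩
    rw [ex_push, Reduce_ex_pv, selfSimilar_real hp hμ hA]
  refine dim_up hstat (hP.push _) ?_ ?_
  · intro g hg
    obtain ⟨i, -, rfl⟩ := hP.mem_support_push.1 hg
    exact hr i
  · have h1 : (ex (push (fun i => (r i, t i)) (pv p)) fun g => -Real.log |g.1|) = lyapunovExp r p := by
      rw [ex_push, Reduce_ex_pv, lyapunovExp, ← Finset.sum_neg_distrib]
      simp
    rw [h1]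
    refine lt_of_le_of_lt ?_ hγ
    have h2 : iid (pv p) 1 = push (fun i => [i]) (pv p) := by
      refine ext_ex fun F => ?_
      rw [ex_iid_succ, ex_push]
      simp only [ex_iid_zero]
    rw [composedMapEntropy_eq, h2, push_push]
    refine hP.ent_push_le_of_det fun i _ j _ hij => ?_
    have e0 := congrFun hij 0
    have e1 := congrFun hij 1
    simp only [affineWordMap, List.foldr_cons, List.foldr_nil, id] at e0 e1
    have e2 : t i = t j := by linarith
    have e3 : r i = r j := by linarith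
    rw [e2, e3]

end Crest.Agent.R98
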