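import Crest.Agent.R98.HsB

/-!
# R98/TreeA: splitting trees, basic facts (all by induction on the tree)
`path_count`: for one window `[x, x e^Λ]` show `gsum (oneOn window) T ≤ max 0 (1 + 8 log (min (lab T) (x e^Λ) / x))`
when `lab T > 0` (labels drop by the factor `7/8` and `log (8/7) ≥ 1/8`); sum over the windows.
`ex_neg_log_ball`: if `lab T ≤ r` the ball has full mass; else
`pr (mix v L H) B ≥ v * pr L B`, `≥ (1-v) * pr H B`.
-/

set_option autoImplicit false

namespace Crest.Agent.R98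

namespace Tr

theorem All.mono {p q : Tr → Prop} (hpq : ∀ T, p T → q T) {T : Tr} (h : T.All p) : T.All q := by
  induction T with
  | leaf y => trivial
  | node D v b Nr L H ihL ihH => exact ⟨hpq _ h.1, ihL h.2.1, ihH h.2.2⟩

theorem All.and {p q : Tr → Prop} {T : Tr} (h : T.All p) (h' : T.All q) :
    T.All fun S => p S ∧ q S := by
  induction T with
  | leaf y => trivial
  | node D v b Nr L H ihL ihH => exact ⟨⟨h.1, h'.1⟩, ihL h.2.1 h'.2.1, ihH h.2.2 h'.2.2⟩

theorem all_of_forall {p : Tr → Prop} (h : ∀ T, p T) (T : Tr) : T.All p := by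
  induction T with
  | leaf y => trivial
  | node D v b Nr L H ihL ihH => exact ⟨h _, ihL, ihH⟩

/-- a hereditary property holds at every node -/
theorem All.self {p : Tr → Prop} {T : Tr} (h : T.All p) : T.All fun S => S.All p := by
  induction T with
  | leaf y => trivial
  | node D v b Nr L H ihL ihH => exact ⟨h, ihL h.2.1, ihH h.2.2⟩

theorem WV.isP {T : Tr} (h : T.WV) : IsP T.law := by
  induction T with
  | leaf y => exact isP_pur y
  | node D v b Nr L H ihL ihH =>
    obtain ⟨⟨-, h1, h2, -⟩, hL, hH⟩ := h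
    exact (ihL hL).mix (ihH hH) h1.le (by linarith)

theorem WV.lab_nonneg {T : Tr} (h : T.WV) : 0 ≤ T.lab := by
  cases T with
  | leaf y => exact le_rfl
  | node D v b Nr L H => exact h.1.1.le

theorem WV.diam {T : Tr} (h : T.WV) : ∀ y ∈ T.law.support, ∀ y' ∈ T.law.support, |y - y'| ≤ T.lab := by
  cases T with
  | leaf y =>
    intro a ha a' ha'
    rw [mem_support_pur.1 ha, mem_support_pur.1 ha']
    simp [lab]
  | node D v b Nr L H =>
    obtain ⟨⟨-, h1, h2, -, -, dLL, dLH, dHH, -⟩, hL, hH⟩ := h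
    intro a ha a' ha'
    rcases (mem_support_mix (WV.isP hL) (WV.isP hH) h1 (by linarith)).1 ha with ha | ha <;>
      rcases (mem_support_mix (WV.isP hL) (WV.isP hH) h1 (by linarith)).1 ha' with ha' | ha'
    · exact dLL _ ha _ ha'
    · exact dLH _ ha _ ha'
    · rw [abs_sub_comm]; exact dLH _ ha' _ ha
    · exact dHH _ ha _ ha'

/-- all labels are at most the root label, all nodes have `0 < lab`, `0 < vv ≤ 1/2` -/
theorem WV.all_lab {T : Tr} (h : T.WV) :
    T.All fun S => 0 < S.lab ∧ S.lab ≤ T.lab ∧ 0 < S.vv ∧ S.vv ≤ 1 / 2 := by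
  induction T with
  | leaf y => trivial
  | node D v b Nr L H ihL ihH =>
    obtain ⟨⟨h0, h1, h2, lL, lH, -⟩, hL, hH⟩ := h
    refine ⟨⟨h0, le_rfl, h1, h2⟩, (ihL hL).mono fun S hS => ⟨hS.1, ?_, hS.2.2⟩,
      (ihH hH).mono fun S hS => ⟨hS.1, ?_, hS.2.2⟩⟩
    · change S.lab ≤ D
      linarith [hS.2.1]
    · change S.lab ≤ D
      linarith [hS.2.1]

/-- supports of subtrees lie in the support -/
theorem WV.all_support {T : Tr} (h : T.WV) : T.All fun S => S.law.support ⊆ T.law.support := by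
  induction T with
  | leaf y => trivial
  | node D v b Nr L H ihL ihH =>
    obtain ⟨⟨-, h1, h2, -⟩, hL, hH⟩ := h
    have hm := fun a => mem_support_mix (a := a) (WV.isP hL) (WV.isP hH) h1 (by linarith)
    exact ⟨subset_rfl, (ihL hL).mono fun S hS a ha => (hm a).2 (Or.inl (hS ha)),
      (ihH hH).mono fun S hS a ha => (hm a).2 (Or.inr (hS ha))⟩

theorem WV.gsum_mono {T : Tr} (h : T.WV) {Φ Ψ : Tr → ℝ} (hΦ : T.All fun S => Φ S ≤ Ψ S) :
    T.gsum Φ ≤ T.gsum Ψ := by
  induction T with
  | leaf y => exact le_rfl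
  | node D v b Nr L H ihL ihH =>
    obtain ⟨⟨-, h1, h2, -⟩, hL, hH⟩ := h
    exact add_le_add (add_le_add hΦ.1 (mul_le_mul_of_nonneg_left (ihL hL hΦ.2.1) h1.le))
      (mul_le_mul_of_nonneg_left (ihH hH hΦ.2.2) (by linarith))

theorem WV.gsum_nonneg {T : Tr} (h : T.WV) {Φ : Tr → ℝ} (hΦ : T.All fun S => 0 ≤ Φ S) :
    0 ≤ T.gsum Φ := by
  induction T with
  | leaf y => exact le_rfl
  | node D v b Nr L H ihL ihH =>
    obtain ⟨⟨-, h1, h2, -⟩, hL, hH⟩ := h
    exact add_nonneg (add_nonneg hΦ.1 (mul_nonneg h1.le (ihL hL hΦ.2.1)))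
      (mul_nonneg (by linarith) (ihH hH hΦ.2.2))

theorem gsum_congr {T : Tr} {Φ Ψ : Tr → ℝ} (hΦ : T.All fun S => Φ S = Ψ S) : T.gsum Φ = T.gsum Ψ := by
  induction T with
  | leaf y => rfl
  | node D v b Nr L H ihL ihH => simp only [gsum, ihL hΦ.2.1, ihH hΦ.2.2, hΦ.1]

theorem gsum_zero (T : Tr) : (T.gsum fun _ => 0) = 0 := by
  induction T with
  | leaf y => rfl
  | node D v b Nr L H ihL ihH => simp only [gsum, ihL, ihH]; ring

theorem gsum_add (T : Tr) (Φ Ψ : Tr → ℝ) : (T.gsum fun S => Φ S + Ψ S) = T.gsum Φ + T.gsum Ψ := by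
  induction T with
  | leaf y => simp [gsum]
  | node D v b Nr L H ihL ihH => simp only [gsum, ihL, ihH]; ring

theorem gsum_sub (T : Tr) (Φ Ψ : Tr → ℝ) : (T.gsum fun S => Φ S - Ψ S) = T.gsum Φ - T.gsum Ψ := by
  induction T with
  | leaf y => simp [gsum]
  | node D v b Nr L H ihL ihH => simp only [gsum, ihL, ihH]; ring

theorem gsum_mul_left (T : Tr) (c : ℝ) (Φ : Tr → ℝ) : (T.gsum fun S => c * Φ S) = c * T.gsum Φ := by
  induction T with
  | leaf y => simp [gsum]
  | node D v b Nr L H ihL ihH => simp only [gsum, ihL, ihH]; ring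

theorem gsum_sum {κ : Type*} (T : Tr) (A : Finset κ) (Φ : κ → Tr → ℝ) :
    (T.gsum fun S => ∑ i ∈ A, Φ i S) = ∑ i ∈ A, T.gsum (Φ i) := by
  induction T with
  | leaf y => simp [gsum]
  | node D v b Nr L H ihL ihH =>
    simp only [gsum, ihL, ihH, Finset.sum_add_distrib, Finset.mul_sum]

theorem gsum_ex {α : Type*} (T : Tr) (m : α →₀ ℝ) (Φ : α → Tr → ℝ) :
    (T.gsum fun S => ex m fun a => Φ a S) = ex m fun a => T.gsum (Φ a) := by
  simp only [ex_def, gsum_sum, gsum_mul_left]

theorem intervalIntegrable_gsum (T : Tr) (Φ : ℝ → Tr → ℝ) (a b : ℝ)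
    (h : ∀ S, IntervalIntegrable (fun τ => Φ τ S) MeasureTheory.volume a b) :
    IntervalIntegrable (fun τ => T.gsum (Φ τ)) MeasureTheory.volume a b := by
  induction T with
  | leaf y => exact intervalIntegrable_const
  | node D v b Nr L H ihL ihH => exact ((h _).add (ihL.const_mul v)).add (ihH.const_mul (1 - v))

theorem gsum_integral (T : Tr) (Φ : ℝ → Tr → ℝ) (a b : ℝ)
    (h : ∀ S, IntervalIntegrable (fun τ => Φ τ S) MeasureTheory.volume a b) :
    (T.gsum fun S => ∫ τ in a..b, Φ τ S) = ∫ τ in a..b, T.gsum (Φ τ) := by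
  induction T with
  | leaf y => simp [gsum]
  | node D v c Nr L H ihL ihH =>
    have iL := (intervalIntegrable_gsum L Φ a b h).const_mul v
    have iH := (intervalIntegrable_gsum H Φ a b h).const_mul (1 - v)
    simp only [gsum, ihL, ihH]
    rw [intervalIntegral.integral_add ((h _).add iL) iH, intervalIntegral.integral_add (h _) iL,
      intervalIntegral.integral_const_mul, intervalIntegral.integral_const_mul]

/-- a tree has a smallest positive parameter value -/
theorem WV.exists_pos_le {T : Tr} (h : T.WV) {Φ : Tr → ℝ} (hΦ : T.All fun S => 0 < Φ S) :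
    ∃ ε > 0, T.All fun S => ε ≤ Φ S := by
  clear h
  induction T with
  | leaf y => exact ⟨1, one_pos, trivial⟩
  | node D v b Nr L H ihL ihH =>
    obtain ⟨e₁, p₁, a₁⟩ := ihL hΦ.2.1
    obtain ⟨e₂, p₂, a₂⟩ := ihH hΦ.2.2
    exact ⟨min (Φ (node D v b Nr L H)) (min e₁ e₂), lt_min hΦ.1 (lt_min p₁ p₂), min_le_left _ _,
      a₁.mono fun S hS => ((min_le_right _ _).trans (min_le_left _ _)).trans hS,
      a₂.mono fun S hS => ((min_le_right _ _).trans (min_le_right _ _)).trans hS⟩

theorem WV.ent_le {T : Tr} (h : T.WV) : ent T.law ≤ T.gsum fun S => Real.binEntropy S.vv := by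
  induction T with
  | leaf y => exact (ent_pur y).le
  | node D v b Nr L H ihL ihH =>
    obtain ⟨⟨-, h1, h2, -⟩, hL, hH⟩ := h
    refine (ent_mix_le (WV.isP hL) (WV.isP hH) h1.le (by linarith)).trans ?_
    exact add_le_add (add_le_add le_rfl (mul_le_mul_of_nonneg_left (ihL hL) h1.le))
      (mul_le_mul_of_nonneg_left (ihH hH) (by linarith))

/-- the number of nodes on the path with label in `G ⊆ [x, ∞)` -/
theorem WV.treeA_count {T : Tr} (h : T.WV) {G : Set ℝ} {x c : ℝ} (hx : 0 < x) (hG : ∀ d ∈ G, x ≤ d)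
    (hc : 0 ≤ c) (hb : ∀ d ∈ G, d ≤ T.lab → 8 * Real.log (d / x) + 1 ≤ c) : T.gsum (oneOn G) ≤ c := by
  induction T generalizing c with
  | leaf y => exact hc
  | node D v b Nr L H ihL ihH =>
    obtain ⟨⟨h0, h1, h2, lL, lH, -⟩, hL, hH⟩ := h
    change ∀ d ∈ G, d ≤ D → _ at hb
    rw [gsum, oneOn]
    split_ifs with hD
    · change D ∈ G at hD
      have e1 := hb D hD le_rfl
      have e2 : 0 ≤ Real.log (D / x) := Real.log_nonneg ((one_le_div hx).2 (hG D hD))
      have e3 : ∀ d ∈ G, d ≤ 7 / 8 * D → 8 * Real.log (d / x) + 1 ≤ c - 1 := fun d hd hd' => by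
        have hd0 : 0 < d := hx.trans_le (hG d hd)
        have e4 := Real.log_le_sub_one_of_pos (div_pos hd0 h0)
        have e5 : d / D ≤ 7 / 8 := (div_le_iff₀ h0).2 hd'
        rw [Real.log_div hd0.ne' h0.ne'] at e4
        rw [Real.log_div h0.ne' hx.ne'] at e1
        rw [Real.log_div hd0.ne' hx.ne']
        linarith
      have iL := ihL hL (c := c - 1) (by linarith) fun d hd hd' => e3 d hd (hd'.trans lL)
      have iH := ihH hH (c := c - 1) (by linarith) fun d hd hd' => e3 d hd (hd'.trans lH)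
      nlinarith [mul_le_mul_of_nonneg_left iL h1.le,
        mul_le_mul_of_nonneg_left iH (show 0 ≤ 1 - v by linarith)]
    · have iL := ihL hL hc fun d hd hd' => hb d hd (by linarith)
      have iH := ihH hH hc fun d hd hd' => hb d hd (by linarith)
      nlinarith [mul_le_mul_of_nonneg_left iL h1.le,
        mul_le_mul_of_nonneg_left iH (show 0 ≤ 1 - v by linarith)]

/-- expected number of nodes on the path with label in a set covered by `R` windows -/
theorem WV.path_count {T : Tr} (h : T.WV) {G : Set ℝ} {R : ℕ} {Λ : ℝ} (hΛ : 0 ≤ Λ) (hG : Cov G R Λ) :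
    T.gsum (oneOn G) ≤ R * (8 * Λ + 1) := by
  obtain ⟨x, hx, hG⟩ := hG
  have h1 : T.gsum (oneOn G) ≤
      T.gsum fun S => ∑ r, oneOn (Set.Icc (x r) (x r * Real.exp Λ)) S := by
    refine h.gsum_mono (all_of_forall (fun S => ?_) T)
    have h0 : ∀ r, 0 ≤ oneOn (Set.Icc (x r) (x r * Real.exp Λ)) S := fun r => by
      unfold oneOn; split_ifs <;> norm_num
    by_cases hS : S.lab ∈ G
    · obtain ⟨r, hr⟩ := hG _ hS
      refine le_trans (le_of_eq ?_) (Finset.single_le_sum (fun r _ => h0 r) (Finset.mem_univ r))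
      rw [oneOn, oneOn, if_pos hS, if_pos (show S.lab ∈ Set.Icc _ _ from hr)]
    · rw [oneOn, if_neg hS]
      exact Finset.sum_nonneg fun r _ => h0 r
  rw [gsum_sum] at h1
  refine h1.trans ((Finset.sum_le_card_nsmul _ _ (8 * Λ + 1) fun r _ => ?_).trans
    (by rw [Finset.card_univ, Fintype.card_fin, nsmul_eq_mul]))
  refine h.treeA_count (hx r) (fun d hd => hd.1) (by linarith) fun d hd _ => ?_
  have : Real.log (d / x r) ≤ Λ := by
    rw [Real.log_le_iff_le_exp (div_pos ((hx r).trans_le hd.1) (hx r)), div_le_iff₀' (hx r)]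
    exact hd.2
  linarith

/-- entropy versus light mass on a covered set of labels -/
theorem WV.hOn_le {T : Tr} (h : T.WV) {G : Set ℝ} {R : ℕ} {Λ v₁ : ℝ} (hΛ : 0 ≤ Λ) (hG : Cov G R Λ)
    (h₁ : 0 < v₁) (h₂ : v₁ ≤ 1 / 2) :
    T.gsum (hOn G) ≤ R * (8 * Λ + 1) * Real.binEntropy v₁ + (1 + Real.log (1 / v₁)) * T.gsum (vOn G) := by
  have h1 : T.gsum (hOn G) ≤ T.gsum fun S =>
      Real.binEntropy v₁ * oneOn G S + (1 + Real.log (1 / v₁)) * vOn G S := by
    refine h.gsum_mono (h.all_lab.mono fun S hS => ?_)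
    unfold hOn oneOn vOn
    split_ifs
    · linarith [binEntropy_le_add hS.2.2.1.le hS.2.2.2 h₁ h₂]
    · simp
  rw [gsum_add, gsum_mul_left, gsum_mul_left] at h1
  have h2 := mul_le_mul_of_nonneg_left (h.path_count hΛ hG)
    (Real.binEntropy_nonneg h₁.le (by linarith))
  linarith

theorem WV.treeA_ball {T : Tr} (h : T.WV) {r : ℝ} (hr : 0 < r) :
    (ex T.law fun y => -Real.log (pr T.law (Metric.closedBall y r))) ≤ T.gsum (hOn (Set.Ioi r)) := by
  induction T with
  | leaf y =>
    rw [law, ex_pur, (isP_pur y).pr_eq_one fun a ha => by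
      rw [mem_support_pur.1 ha]; exact Metric.mem_closedBall_self hr.le]
    simp [gsum]
  | node D v b Nr L H ihL ihH =>
    by_cases hD : D ≤ r
    · refine (h.isP.ex_le (c := 0) fun y hy => ?_).trans
        (h.gsum_nonneg (h.all_lab.mono fun S hS => ?_))
      · rw [h.isP.pr_eq_one (A := Metric.closedBall y r) fun a ha => (h.diam a ha y hy).trans hD]
        simp
      · unfold hOn
        split_ifs
        · exact Real.binEntropy_nonneg hS.2.2.1.le (by linarith [hS.2.2.2])
        · exact le_rfl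
    · obtain ⟨⟨-, h1, h2, -⟩, hL, hH⟩ := h
      have h3 : 0 < 1 - v := by linarith
      have pL := WV.isP hL
      have pH := WV.isP hH
      have eL : (ex L.law fun y => -Real.log (pr (mix v L.law H.law) (Metric.closedBall y r))) ≤
          ex L.law fun y => -Real.log v + -Real.log (pr L.law (Metric.closedBall y r)) := by
        refine pL.ex_mono fun y hy => ?_
        have hp := pL.pr_pos hy (Metric.mem_closedBall_self hr.le)
        rw [← neg_add, ← Real.log_mul h1.ne' hp.ne', neg_le_neg_iff, pr_mix]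
        exact Real.log_le_log (mul_pos h1 hp)
          (le_add_of_nonneg_right (mul_nonneg h3.le (pH.pr_nonneg _)))
      have eH : (ex H.law fun y => -Real.log (pr (mix v L.law H.law) (Metric.closedBall y r))) ≤
          ex H.law fun y => -Real.log (1 - v) + -Real.log (pr H.law (Metric.closedBall y r)) := by
        refine pH.ex_mono fun y hy => ?_
        have hp := pH.pr_pos hy (Metric.mem_closedBall_self hr.le)
        rw [← neg_add, ← Real.log_mul h3.ne' hp.ne', neg_le_neg_iff, pr_mix]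
        exact Real.log_le_log (mul_pos h3 hp)
          (le_add_of_nonneg_left (mul_nonneg h1.le (pL.pr_nonneg _)))
      rw [ex_add, pL.ex_const] at eL
      rw [ex_add, pH.ex_const] at eH
      rw [law, ex_mix, gsum, hOn, if_pos (show lab (node D v b Nr L H) ∈ Set.Ioi r from not_le.1 hD),
        vv, Real.binEntropy, Real.log_inv, Real.log_inv]
      nlinarith [mul_le_mul_of_nonneg_left (eL.trans (add_le_add le_rfl (ihL hL))) h1.le,
        mul_le_mul_of_nonneg_left (eH.trans (add_le_add le_rfl (ihH hH))) h3.le]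

/-- a tree with only rare splits has little entropy between the scales `lab T` and `r` -/
theorem WV.ex_neg_log_ball {T : Tr} (h : T.WV) {v₀ r D : ℝ} (hv : T.All fun S => S.vv ≤ v₀) (h0 : 0 ≤ v₀)
    (h₀ : v₀ ≤ 1 / 2) (hr : 0 < r) (hD : T.lab ≤ D) (hrD : r ≤ D) :
    (ex T.law fun y => -Real.log (pr T.law (Metric.closedBall y r))) ≤
      Real.binEntropy v₀ * (8 * Real.log (D / r) + 1) := by
  have hl : 0 ≤ Real.log (D / r) := Real.log_nonneg ((one_le_div hr).2 hrD)
  have h1 : T.gsum (hOn (Set.Ioi r)) ≤ T.gsum fun S => Real.binEntropy v₀ * oneOn (Set.Ioi r) S := by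
    refine h.gsum_mono ((h.all_lab.and hv).mono fun S hS => ?_)
    unfold hOn oneOn
    split_ifs
    · rw [mul_one]
      exact Real.binEntropy_strictMonoOn.monotoneOn ⟨hS.1.2.2.1.le, by linarith [hS.1.2.2.2]⟩
        ⟨h0, by linarith⟩ hS.2
    · simp
  rw [gsum_mul_left] at h1
  refine ((h.treeA_ball hr).trans h1).trans
    (mul_le_mul_of_nonneg_left ?_ (Real.binEntropy_nonneg h0 (by linarith)))
  refine h.treeA_count hr (fun d hd => le_of_lt hd) (by linarith) fun d hd hd' => ?_
  have : Real.log (d / r) ≤ Real.log (D / r) :=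
    Real.log_le_log (div_pos (hr.trans hd) hr) (div_le_div_of_nonneg_right (hd'.trans hD) hr.le)
  linarith

/-- chain rule along the tree -/
theorem Hs_conv_eq (T : Tr) {m : ℝ →₀ ℝ} (hm : IsP m) (s : ℝ) :
    Hs s (conv T.law m) - Hs s m = T.gsum fun S =>
      match S with
      | leaf _ => 0
      | node _ v _ _ L H => Jinf s v L.law H.law m := by
  induction T with
  | leaf y => simp only [law, gsum, pur_conv, Hs_shift hm, sub_self]
  | node D v b Nr L H ihL ihH =>
    rw [gsum, ← ihL, ← ihH]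
    simp only [Jinf, law]
    ring

/-! pruning -/

theorem WV.isP_prune {T : Tr} (h : T.WV) (act : ℝ → ℝ → Prop) : IsP (T.prune act) := by
  induction T with
  | leaf y => exact isP_pur _
  | node D v b Nr L H ihL ihH =>
    obtain ⟨⟨-, h1, h2, -⟩, hL, hH⟩ := h
    rw [prune]
    split_ifs
    · exact (ihL hL).bnd fun L' _ => (ihH hH).bnd fun H' _ => isP_pur _
    · exact (ihL hL).mix (ihH hH) h1.le (by linarith)

theorem WV.law_prune {T : Tr} (h : T.WV) (act : ℝ → ℝ → Prop) : bnd (T.prune act) law = T.law := by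
  induction T with
  | leaf y => exact pur_bnd _ _
  | node D v b Nr L H ihL ihH =>
    obtain ⟨-, hL, hH⟩ := h
    rw [prune]
    split_ifs
    · refine ext_ex fun F => ?_
      have eL := congrArg (ex · F) (ihL hL)
      have eH := congrArg (ex · F) (ihH hH)
      simp only [ex_bnd] at eL eH
      simp only [ex_bnd, ex_pur, law, ex_mix, ex_add, ex_mul_left, (WV.isP_prune hL act).ex_const,
        (WV.isP_prune hH act).ex_const, eL, eH]
    · rw [mix_bnd, ihL hL, ihH hH, law]

theorem WV.prune_spec {T : Tr} (h : T.WV) (act : ℝ → ℝ → Prop) :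
    ∀ T' ∈ (T.prune act).support, T'.WV ∧ T'.lab ≤ T.lab ∧ T'.law.support ⊆ T.law.support ∧
      T'.All fun S => act S.lab S.vv := by
  induction T with
  | leaf y =>
    intro T' hT'
    rw [mem_support_pur.1 hT']
    exact ⟨trivial, le_rfl, subset_rfl, trivial⟩
  | node D v b Nr L H ihL ihH =>
    obtain ⟨⟨h0, h1, h2, lL, lH, dLL, dLH, dHH, dN⟩, hL, hH⟩ := h
    have pL := WV.isP_prune hL act
    have pH := WV.isP_prune hH act
    have hm := fun a => mem_support_mix (a := a) (WV.isP hL) (WV.isP hH) h1 (by linarith)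
    intro T' hT'
    rw [prune] at hT'
    split_ifs at hT' with hact
    · obtain ⟨L', hL', hT'⟩ := (pL.mem_support_bnd fun _ _ => pH.bnd fun _ _ => isP_pur _).1 hT'
      obtain ⟨H', hH', hT'⟩ := (pH.mem_support_bnd fun _ _ => isP_pur _).1 hT'
      obtain ⟨wL, bL, sL, aL⟩ := ihL hL L' hL'
      obtain ⟨wH, bH, sH, aH⟩ := ihH hH H' hH'
      rw [mem_support_pur.1 hT']
      refine ⟨⟨⟨h0, h1, h2, bL.trans lL, bH.trans lH, fun y hy y' hy' => dLL y (sL hy) y' (sL hy'),
        fun y hy y' hy' => dLH y (sL hy) y' (sH hy'), fun y hy y' hy' => dHH y (sH hy) y' (sH hy'),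
        fun y hy y' hy' => dN y (sL hy) y' (sH hy')⟩, wL, wH⟩, le_rfl, fun a ha => ?_, hact, aL, aH⟩
      exact (hm a).2 (((mem_support_mix wL.isP wH.isP h1 (by linarith)).1 ha).imp (sL ·) (sH ·))
    · rcases (mem_support_mix pL pH h1 (by linarith)).1 hT' with hT' | hT'
      · obtain ⟨w, l, s, a⟩ := ihL hL T' hT'
        exact ⟨w, show T'.lab ≤ D by linarith, fun y hy => (hm y).2 (Or.inl (s hy)), a⟩
      · obtain ⟨w, l, s, a⟩ := ihH hH T' hT'
        exact ⟨w, show T'.lab ≤ D by linarith, fun y hy => (hm y).2 (Or.inr (s hy)), a⟩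

open Classical in
/-- node sums that are affine in `near` pass to the pruned tree -/
theorem WV.gsum_prune {T : Tr} (h : T.WV) (act : ℝ → ℝ → Prop) (φ ψ : ℝ → ℝ → ℝ) :
    (ex (T.prune act) fun T' => T'.gsum fun S => φ S.lab S.vv - ψ S.lab S.vv * S.near) =
      T.gsum fun S => if act S.lab S.vv then φ S.lab S.vv - ψ S.lab S.vv * S.near else 0 := by
  induction T with
  | leaf y => simp only [prune, ex_pur, gsum]
  | node D v b Nr L H ihL ihH =>
    obtain ⟨-, hL, hH⟩ := h
    have eN := congrArg (pr · Nr) (WV.law_prune hH act)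
    simp only [pr_bnd] at eN
    rw [prune, gsum, ← ihL hL, ← ihH hH]
    by_cases hact : act D v
    · rw [if_pos hact, if_pos (show act (lab (node D v b Nr L H)) (vv (node D v b Nr L H)) from hact)]
      simp only [ex_bnd, ex_pur]
      simp only [gsum, ex_add, ex_mul_left, (WV.isP_prune hL act).ex_const,
        (WV.isP_prune hH act).ex_const]
      simp only [lab.eq_2, vv.eq_2, near.eq_2, ex_sub, ex_mul_left, (WV.isP_prune hL act).ex_const,
        (WV.isP_prune hH act).ex_const, eN]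
    · rw [if_neg hact, if_neg (show ¬act (lab (node D v b Nr L H)) (vv (node D v b Nr L H)) from hact),
        ex_mix, zero_add]

end Tr

end Crest.Agent.R98
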